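import Vale.Agent.Lib.P048.Main

/-!
A chain of vertices with a second, coarser set of positions (the base positions).  Every base
position is adjacent to all positions up to the next base position, so the path between two base
positions can use any number of the positions in between above the number of base positions.
-/

namespace Vale.Agent.Lib.P048

open Finset

variable {V : Type*} {G : SimpleGraph V}

/-- The position `q` has a neighbour in every stretch of `a` positions among the last `m - 1`. -/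
def Bare (G : SimpleGraph V) (a m : ℕ) (v : ℕ → V) (q : ℕ) : Prop :=
  ∀ x, x < q → q ≤ x + (m - 2) → ∃ p, x ≤ p ∧ p < q ∧ p < x + a ∧ G.Adj (v p) (v q)

/-- The chain.  The base positions are `b 0 < b 1 < ... < b B`, the position of index `i` is
`2 i` or `2 i - 1`. -/
structure Ch (G : SimpleGraph V) (a m B : ℕ) (v : ℕ → V) (b : ℕ → ℕ) : Prop where
  b0 : b 0 = 0
  path : PathF G (b B + 1) v
  up : ∀ i, i ≤ B → b i ≤ 2 * i ∧ 2 * i ≤ b i + 1
  mono : ∀ i, i < B → b i < b (i + 1)
  fan : ∀ i, i < B → ∀ j, b i < j → j ≤ b (i + 1) → G.Adj (v (b i)) (v j)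
  band : ∀ i, i < B → ∀ k, k < b i → G.Adj (v k) (v (b i)) → b i < k + (m - 1)
  zprev : ∀ i, 1 ≤ i → i ≤ B → b i + 1 = 2 * i → b (i - 1) + 1 = b i ∧ Bare G a m v (b (i - 1))

/-- Gluing two paths at a common end. -/
theorem pathF_glue {t₁ t₂ : ℕ} {f₁ f₂ : ℕ → V} (h₁ : PathF G t₁ f₁) (h₂ : PathF G t₂ f₂)
    (ht₁ : 1 ≤ t₁) (ht₂ : 1 ≤ t₂) (hend : f₁ (t₁ - 1) = f₂ 0)
    (hd : ∀ i j, i < t₁ → 1 ≤ j → j < t₂ → f₁ i ≠ f₂ j) :
    PathF G (t₁ + t₂ - 1) (fun i => if i < t₁ then f₁ i else f₂ (i + 1 - t₁)) := by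
  constructor
  · intro i j hi hj hij
    split_ifs at hij with h1 h2 h2
    · exact h₁.inj i j h1 h2 hij
    · exact absurd hij (hd i (j + 1 - t₁) h1 (by omega) (by omega))
    · exact absurd hij.symm (hd j (i + 1 - t₁) h2 (by omega) (by omega))
    · have := h₂.inj _ _ (by omega) (by omega) hij
      omega
  · intro i hi
    by_cases h1 : i + 1 < t₁
    · rw [if_pos h1, if_pos (by omega)]
      exact h₁.adj i h1
    · by_cases h2 : i < t₁
      · rw [if_pos h2, if_neg h1]
        have hi' : i = t₁ - 1 := by omega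
        have h3 : i + 1 + 1 - t₁ = 1 := by omega
        rw [h3, hi', hend]
        exact h₂.adj 0 (by omega)
      · rw [if_neg h2, if_neg h1]
        have := h₂.adj (i + 1 - t₁) (by omega)
        rwa [show i + 1 - t₁ + 1 = i + 1 + 1 - t₁ by omega] at this

/-- Gluing index paths. -/
theorem idxPath_glue {v : ℕ → V} {L : ℕ} (hinj : ∀ i j, i < L → j < L → v i = v j → i = j)
    {s q q' t₁ t₂ : ℕ} {f₁ f₂ : ℕ → V} (h₁ : IdxPath G v s q t₁ f₁) (h₂ : IdxPath G v q q' t₂ f₂)
    (ht₁ : 1 ≤ t₁) (ht₂ : 1 ≤ t₂) (hq' : q' < L) :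
    ∃ f, IdxPath G v s q' (t₁ + t₂ - 1) f := by
  obtain ⟨a1, a2, a3, a4⟩ := h₁
  obtain ⟨c1, c2, c3, c4⟩ := h₂
  have hqq : q ≤ q' := by
    obtain ⟨k, hk1, hk2, _⟩ := c4 0 (by omega)
    omega
  have hss : s ≤ q := by
    obtain ⟨k, hk1, hk2, _⟩ := a4 0 (by omega)
    omega
  refine ⟨_, pathF_glue a1 c1 ht₁ ht₂ (by rw [a3, c2]) ?_, ?_, ?_, ?_⟩
  · intro i j hi hj1 hj2 heq
    obtain ⟨k₁, hk11, hk12, hk13⟩ := a4 i hi
    obtain ⟨k₂, hk21, hk22, hk23⟩ := c4 j hj2
    rw [hk13, hk23] at heq
    have h1 := hinj _ _ (by omega) (by omega) heq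
    have h2 : k₂ = q := by omega
    rw [h2, ← c2] at hk23
    have := c1.inj _ _ hj2 (by omega) hk23
    omega
  · simp only [show 0 < t₁ by omega, if_true]
    exact a2
  · by_cases h : t₁ + t₂ - 1 - 1 < t₁
    · have h0 : t₂ = 1 := by omega
      simp only [h, if_true]
      have h1 : t₁ + t₂ - 1 - 1 = t₁ - 1 := by omega
      rw [h1, a3]
      rw [h0] at c3
      simp only [Nat.sub_self] at c3
      rw [← c2, c3]
    · simp only [h, if_false]
      rw [show t₁ + t₂ - 1 - 1 + 1 - t₁ = t₂ - 1 by omega]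
      exact c3
  · intro i hi
    by_cases h : i < t₁
    · simp only [h, if_true]
      obtain ⟨k, hk1, hk2, hk3⟩ := a4 i h
      exact ⟨k, hk1, by omega, hk3⟩
    · simp only [h, if_false]
      obtain ⟨k, hk1, hk2, hk3⟩ := c4 (i + 1 - t₁) (by omega)
      exact ⟨k, by omega, hk2, hk3⟩

section basic

variable {a m B : ℕ} {v : ℕ → V} {b : ℕ → ℕ}

theorem Ch.strict (h : Ch G a m B v b) {i k : ℕ} (hik : i < k) (hk : k ≤ B) : b i < b k := by
  induction k with
  | zero => omega
  | succ k ih =>
    have h1 := h.mono k (by omega)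
    by_cases h2 : i = k
    · subst h2; exact h1
    · have := ih (by omega) (by omega)
      omega

theorem Ch.monotone (h : Ch G a m B v b) {i k : ℕ} (hik : i ≤ k) (hk : k ≤ B) : b i ≤ b k := by
  by_cases h2 : i = k
  · subst h2; exact le_refl _
  · exact (h.strict (by omega) hk).le

/-- The difference of two base positions in terms of the indices. -/
theorem Ch.span_ge (h : Ch G a m B v b) {i k : ℕ} (hik : i ≤ k) (hk : k ≤ B) :
    2 * (k - i) ≤ b k - b i + 1 := by
  have h1 := (h.up i (by omega)).1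
  have h2 := (h.up k hk).2
  have h3 := h.monotone hik hk
  omega

theorem Ch.inj (h : Ch G a m B v b) : ∀ i j, i < b B + 1 → j < b B + 1 → v i = v j → i = j :=
  h.path.inj

/-- A single step from a base position to a position not beyond the next base position. -/
theorem Ch.step_path (h : Ch G a m B v b) {k q r : ℕ} (hk : k < B) (hq1 : b k < q)
    (hq2 : q ≤ b (k + 1)) (hr : r < q - b k) :
    ∃ f, IdxPath G v (b k) q (r + 2) f := by
  have hqL : q ≤ b B := hq2.trans (h.monotone (by omega) (le_refl _))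
  refine ⟨fun j => if j = 0 then v (b k) else v (q - r + (j - 1)), ⟨⟨?_, ?_⟩, ?_, ?_, ?_⟩⟩
  · intro i j hi hj hij
    have hpos : ∀ j, j ≠ 0 → j < r + 2 → b k < q - r + (j - 1) ∧ q - r + (j - 1) ≤ q := by
      intro j hj1 hj2
      omega
    by_cases hi0 : i = 0 <;> by_cases hj0 : j = 0
    · omega
    · simp only [hi0, hj0, if_true, if_false] at hij
      have := h.inj _ _ (by omega) (by have := hpos j hj0 hj; omega) hij
      have := hpos j hj0 hj
      omega
    · simp only [hi0, hj0, if_true, if_false] at hij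
      have := h.inj _ _ (by have := hpos i hi0 hi; omega) (by omega) hij
      have := hpos i hi0 hi
      omega
    · simp only [hi0, hj0, if_false] at hij
      have := h.inj _ _ (by have := hpos i hi0 hi; omega) (by have := hpos j hj0 hj; omega) hij
      omega
  · intro i hi
    by_cases hi0 : i = 0
    · subst hi0
      simp only [if_true, show (0 + 1 = 0) = False by simp, if_false]
      exact h.fan k hk _ (by omega) (by omega)
    · simp only [hi0, if_false, show i + 1 ≠ 0 by omega]
      have h1 := h.path.adj (q - r + (i - 1)) (by omega)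
      rwa [show q - r + (i - 1) + 1 = q - r + (i + 1 - 1) by omega] at h1
  · simp
  · simp only [show r + 2 - 1 ≠ 0 by omega, if_false]
    congr 1
    omega
  · intro i hi
    by_cases hi0 : i = 0
    · exact ⟨b k, le_refl _, hq1.le, by simp [hi0]⟩
    · refine ⟨q - r + (i - 1), by omega, by omega, by simp [hi0]⟩

/-- The trivial path. -/
theorem idxPath_self (v : ℕ → V) (q : ℕ) : ∃ f, IdxPath G v q q 1 f := by
  refine ⟨fun _ => v q, ⟨⟨?_, ?_⟩, rfl, rfl, ?_⟩⟩
  · intro i j hi hj _; omega
  · intro i hi; omega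
  · intro i _; exact ⟨q, le_refl _, le_refl _, rfl⟩

/-- A path of two vertices. -/
theorem idxPath_edge {v : ℕ → V} {s q : ℕ} (hsq : s ≤ q) (hadj : G.Adj (v s) (v q)) :
    ∃ f, IdxPath G v s q 2 f := by
  refine ⟨fun j => if j = 0 then v s else v q, ⟨⟨?_, ?_⟩, by simp, by simp, ?_⟩⟩
  · intro i j hi hj hij
    by_cases hi0 : i = 0 <;> by_cases hj0 : j = 0
    · omega
    · simp only [hi0, hj0, if_true, if_false] at hij
      exact absurd hij hadj.ne
    · simp only [hi0, hj0, if_true, if_false] at hij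
      exact absurd hij.symm hadj.ne
    · omega
  · intro i hi
    have : i = 0 := by omega
    subst this
    simpa using hadj
  · intro i hi
    by_cases hi0 : i = 0
    · exact ⟨s, le_refl _, hsq, by simp [hi0]⟩
    · exact ⟨q, hsq, le_refl _, by simp [hi0]⟩

/-- Walking along the chain between two base positions. -/
theorem Ch.walk (h : Ch G a m B v b) {i : ℕ} :
    ∀ k, i ≤ k → k ≤ B → ∀ t, k - i + 1 ≤ t → t ≤ b k - b i + 1 →
      ∃ f, IdxPath G v (b i) (b k) t f := by
  intro k
  induction k with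
  | zero =>
    intro hi _ t ht1 ht2
    have hi0 : i = 0 := by omega
    subst hi0
    have ht : t = 1 := by omega
    subst ht
    exact idxPath_self v _
  | succ k ih =>
    intro hi hk t ht1 ht2
    by_cases hik : i = k + 1
    · subst hik
      have ht : t = 1 := by omega
      subst ht
      exact idxPath_self v _
    · have hlt := h.mono k (by omega)
      have hle := h.monotone (show i ≤ k by omega) (by omega)
      have hs := h.span_ge (show i ≤ k by omega) (by omega)
      -- how many interior positions to use in the last step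
      obtain ⟨t', r, h1, h2, h3, h4⟩ : ∃ t' r, k - i + 1 ≤ t' ∧ t' ≤ b k - b i + 1 ∧
          r < b (k + 1) - b k ∧ t' + r + 1 = t := by
        by_cases hc : t ≤ b k - b i + 2
        · exact ⟨t - 1, 0, by omega, by omega, by omega, by omega⟩
        · exact ⟨b k - b i + 1, t - (b k - b i + 2), by omega, by omega, by omega, by omega⟩
      obtain ⟨f₁, hf₁⟩ := ih (by omega) (by omega) t' h1 h2
      obtain ⟨f₂, hf₂⟩ := h.step_path (k := k) (q := b (k + 1)) (r := r) (by omega) hlt (le_refl _) h3
      have hL : b (k + 1) < b B + 1 := by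
        have := h.monotone (show k + 1 ≤ B by omega) (le_refl _)
        omega
      obtain ⟨f, hf⟩ := idxPath_glue h.inj hf₁ hf₂ (by omega) (by omega) hL
      rw [show t' + (r + 2) - 1 = t by omega] at hf
      exact ⟨f, hf⟩

/-- From a base position to an arbitrary later position. -/
theorem Ch.to_pos (h : Ch G a m B v b) {i q : ℕ} (hi : i ≤ B) (hq1 : b i ≤ q) (hq2 : q ≤ b B)
    {t : ℕ} (ht1 : (q - b i) / 2 + 2 ≤ t) (ht2 : t ≤ q - b i + 1) :
    ∃ f, IdxPath G v (b i) q t f := by
  -- the last base position not after `q`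
  have hex : ∃ k, i ≤ k ∧ k ≤ B ∧ b k ≤ q ∧ (k < B → q < b (k + 1)) := by
    classical
    let P := (Finset.Icc i B).filter (fun k => b k ≤ q)
    have hP : P.Nonempty := ⟨i, by simp [P, hi, hq1]⟩
    let k := P.max' hP
    have hk : k ∈ P := Finset.max'_mem _ _
    simp only [P, Finset.mem_filter, Finset.mem_Icc] at hk
    refine ⟨k, hk.1.1, hk.1.2, hk.2, ?_⟩
    intro hkB
    by_contra hcon
    have hmem : k + 1 ∈ P := by
      simp only [P, Finset.mem_filter, Finset.mem_Icc]
      exact ⟨⟨by omega, by omega⟩, by omega⟩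
    have := Finset.le_max' _ _ hmem
    have hkdef : k = P.max' hP := rfl
    omega
  obtain ⟨k, hk1, hk2, hk3, hk4⟩ := hex
  have hs := h.span_ge hk1 hk2
  by_cases hqk : q = b k
  · subst hqk
    exact h.walk k hk1 hk2 t (by omega) ht2
  · have hkB : k < B := by
      by_contra hcon
      have : k = B := by omega
      subst this
      omega
    have hq3 := hk4 hkB
    obtain ⟨t', r, h1, h2, h3, h4⟩ : ∃ t' r, k - i + 1 ≤ t' ∧ t' ≤ b k - b i + 1 ∧
        r < q - b k ∧ t' + r + 1 = t := by
      by_cases hc : t ≤ b k - b i + 2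
      · exact ⟨t - 1, 0, by omega, by omega, by omega, by omega⟩
      · exact ⟨b k - b i + 1, t - (b k - b i + 2), by omega, by omega, by omega, by omega⟩
    obtain ⟨f₁, hf₁⟩ := h.walk k hk1 hk2 t' h1 h2
    obtain ⟨f₂, hf₂⟩ := h.step_path (k := k) (q := q) (r := r) hkB (by omega) hq3.le h3
    obtain ⟨f, hf⟩ := idxPath_glue h.inj hf₁ hf₂ (by omega) (by omega) (by omega : q < b B + 1)
    rw [show t' + (r + 2) - 1 = t by omega] at hf
    exact ⟨f, hf⟩

/-- All long enough path lengths up to a position with the window property. -/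
theorem Ch.window_path (h : Ch G a m B v b) {i j : ℕ} (hi : i ≤ j) (hj : j ≤ B)
    (hbare : Bare G a m v (b j)) (hwin : b j ≤ b i + (m - 2)) {t : ℕ} (ht1 : a + 2 ≤ t)
    (ht2 : t ≤ b j - b i + 1) : ∃ f, IdxPath G v (b i) (b j) t f := by
  have hle := h.monotone hi hj
  obtain ⟨q, hq1, hq2, hq3, hq4⟩ := hbare (b i + t - 2) (by omega) (by omega)
  have hqB : q ≤ b B := by
    have := h.monotone hj (le_refl _)
    omega
  obtain ⟨f, hf⟩ := h.to_pos (i := i) (q := q) (t := t - 1) (by omega) (by omega) hqB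
    (by omega) (by omega)
  have hjL : b j < b B + 1 := by
    have := h.monotone hj (le_refl _)
    omega
  have := idxPath_append h.inj hf (by omega) hq2 hjL hq4 (by omega)
  rwa [show t - 1 + 1 = t by omega] at this

end basic

end Vale.Agent.Lib.P048
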