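import Vale.Agent.Lib.P048.B1

/-!
Shortening a path when the vertices of the path lie in a set with few independent vertices, and
the closing step at a position with the window property.
-/

namespace Vale.Agent.Lib.P048

open Finset

variable {V : Type*} {G : SimpleGraph V}

/-- Every set of more than `a` vertices satisfying `P` holds an edge. -/
def IndBdOn (G : SimpleGraph V) (P : V → Prop) (a : ℕ) : Prop :=
  ∀ s : Finset V, (∀ x ∈ s, P x) → a < s.card → ∃ x ∈ s, ∃ y ∈ s, G.Adj x y

theorem IndBd.on {a : ℕ} (hα : IndBd G a) (P : V → Prop) : IndBdOn G P a :=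
  fun s _ hs => hα s hs

/-- A long path has a shortcut between two vertices at even positions. -/
theorem exists_chord_on {P : V → Prop} {a q : ℕ} {h : ℕ → V} (hα : IndBdOn G P a)
    (hp : PathF G q h) (hP : ∀ i, i < q → P (h i)) (hq : 2 * a + 1 ≤ q) :
    ∃ i j, i < j ∧ j ≤ a ∧ G.Adj (h (2 * i)) (h (2 * j)) := by
  classical
  let φ : ℕ → V := fun i => h (2 * i)
  have hinj : Set.InjOn φ (Finset.range (a + 1) : Set ℕ) := by
    intro x hx y hy hxy
    simp only [Finset.coe_range, Set.mem_Iio] at hx hy
    have := hp.inj (2 * x) (2 * y) (by omega) (by omega) hxy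
    omega
  have hcard : a < ((Finset.range (a + 1)).image φ).card := by
    rw [Finset.card_image_of_injOn hinj, Finset.card_range]
    omega
  obtain ⟨x, hx, y, hy, hxy⟩ := hα _ (by
    intro x hx
    rw [Finset.mem_image] at hx
    obtain ⟨i, hi, rfl⟩ := hx
    rw [Finset.mem_range] at hi
    exact hP _ (by omega)) hcard
  rw [Finset.mem_image] at hx hy
  obtain ⟨i, hi, rfl⟩ := hx
  obtain ⟨j, hj, rfl⟩ := hy
  rw [Finset.mem_range] at hi hj
  rcases lt_trichotomy i j with h1 | h1 | h1
  · exact ⟨i, j, h1, by omega, hxy⟩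
  · subst h1; exact absurd hxy (G.loopless.irrefl _)
  · exact ⟨j, i, h1, by omega, hxy.symm⟩

/-- Shortening a path by a chord, keeping its two ends. -/
theorem exists_shortcut_on {P : V → Prop} {a q : ℕ} {h : ℕ → V} (hα : IndBdOn G P a)
    (hp : PathF G q h) (hP : ∀ i, i < q → P (h i)) (hq : 2 * a + 1 ≤ q) :
    ∃ r h', 1 ≤ r ∧ r + 1 ≤ 2 * a ∧ r < q ∧ PathF G (q - r) h' ∧ h' 0 = h 0 ∧
      h' (q - r - 1) = h (q - 1) ∧ ∀ i, i < q - r → ∃ j, j < q ∧ h' i = h j := by
  obtain ⟨i, j, hij, hja, hadj⟩ := exists_chord_on hα hp hP hq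
  let r := 2 * j - 2 * i - 1
  let h' : ℕ → V := fun k => if k ≤ 2 * i then h k else h (k + r)
  have hr : r = 2 * j - 2 * i - 1 := rfl
  have h1 : ∀ k, k ≤ 2 * i → h' k = h k := fun k hk => by simp [h', hk]
  have h2 : ∀ k, 2 * i < k → h' k = h (k + r) := fun k hk => by
    have : ¬ k ≤ 2 * i := by omega
    simp [h', this]
  refine ⟨r, h', by omega, by omega, by omega, ⟨?_, ?_⟩, ?_, ?_, ?_⟩
  · intro x y hx hy hxy
    by_cases hx1 : x ≤ 2 * i <;> by_cases hy1 : y ≤ 2 * i
    · rw [h1 x hx1, h1 y hy1] at hxy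
      exact hp.inj _ _ (by omega) (by omega) hxy
    · rw [h1 x hx1, h2 y (by omega)] at hxy
      have := hp.inj _ _ (by omega) (by omega) hxy
      omega
    · rw [h2 x (by omega), h1 y hy1] at hxy
      have := hp.inj _ _ (by omega) (by omega) hxy
      omega
    · rw [h2 x (by omega), h2 y (by omega)] at hxy
      have := hp.inj _ _ (by omega) (by omega) hxy
      omega
  · intro k hk
    by_cases hk1 : k + 1 ≤ 2 * i
    · rw [h1 k (by omega), h1 (k + 1) hk1]
      exact hp.adj k (by omega)
    · by_cases hk2 : k = 2 * i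
      · subst hk2
        rw [h1 _ (le_refl _), h2 _ (by omega)]
        have : 2 * i + 1 + r = 2 * j := by omega
        rw [this]
        exact hadj
      · rw [h2 k (by omega), h2 (k + 1) (by omega)]
        have := hp.adj (k + r) (by omega)
        rwa [show k + r + 1 = k + 1 + r by omega] at this
  · exact h1 0 (by omega)
  · rw [h2 _ (by omega)]
    congr 1
    omega
  · intro k hk
    by_cases hk1 : k ≤ 2 * i
    · exact ⟨k, by omega, h1 k hk1⟩
    · exact ⟨k + r, by omega, h2 k (by omega)⟩

/-- The reduction, for a path whose vertices satisfy `P`. -/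
theorem reduce_on {P : V → Prop} {a t₀ t₁ : ℕ} {k₁ k₂ : V} {K : V → Prop} (hα : IndBdOn G P a)
    (ht0 : 1 ≤ t₀) (ht : t₀ + (2 * a - 2) ≤ t₁) (ha : 1 ≤ a)
    (hK : ∀ t, t₀ ≤ t → t ≤ t₁ → ∃ f, PathF G t f ∧ f 0 = k₁ ∧ f (t - 1) = k₂ ∧
      ∀ i, i < t → K (f i)) :
    ∀ (q : ℕ) (h : ℕ → V), 1 ≤ q → PathF G q h → (∀ i, i < q → P (h i)) →
      (∀ i, i < q → ¬ K (h i)) → G.Adj k₂ (h 0) → G.Adj (h (q - 1)) k₁ →
      ∀ ℓ, t₀ + 2 * a ≤ ℓ → ℓ ≤ t₁ + q → ∃ g, CycF G ℓ g := by
  intro q
  induction q using Nat.strong_induction_on with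
  | _ q ih =>
    intro h hq hp hP hnK h0 h1 ℓ hℓ1 hℓ2
    by_cases hcase : t₀ + q ≤ ℓ
    · obtain ⟨f, hf, hf0, hf1, hfK⟩ := hK (ℓ - q) (by omega) (by omega)
      have hcat := PathF.concat hf hp
        (fun i j hi hj hij => hnK j hj (hij ▸ hfK i hi)) (by omega)
        (fun _ => by rw [hf1]; exact h0)
      have hsum : ℓ - q + q = ℓ := by omega
      rw [hsum] at hcat
      refine ⟨_, cycF_of_pathF hcat ?_⟩
      have h2 : ¬ ℓ - 1 < ℓ - q := by omega
      have h3 : 0 < ℓ - q := by omega
      simp only [h2, if_false, h3, if_true]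
      have h4 : ℓ - 1 - (ℓ - q) = q - 1 := by omega
      rw [h4, hf0]
      exact h1
    · obtain ⟨r, h', hr1, hr2, hr3, hp', h'0, h'1, h'in⟩ := exists_shortcut_on hα hp hP (by omega)
      refine ih (q - r) (by omega) h' (by omega) hp' ?_ ?_ ?_ ?_ ℓ hℓ1 (by omega)
      · intro i hi
        obtain ⟨j, hj, hij⟩ := h'in i hi
        rw [hij]
        exact hP j hj
      · intro i hi
        obtain ⟨j, hj, hij⟩ := h'in i hi
        rw [hij]
        exact hnK j hj
      · rw [h'0]; exact h0
      · rw [h'1]; exact h1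

section caseone

variable {a m B : ℕ} {v : ℕ → V} {b : ℕ → ℕ}

/-- The closing step at a position with the window property. -/
theorem Ch.case_one (h : Ch G a m B v b) (hα : IndBd G a) (ha : 1 ≤ a) (hm : 3 * a + 3 ≤ m)
    {i x₀ : ℕ} (hi : i < B) (hbare : Bare G a m v (b i)) (hx : x₀ + (m - 2) ≤ b i)
    (hadj : G.Adj (v (b B)) (v x₀)) (hfar : x₀ + (m - 1) ≤ b B) : ∃ g, CycF G m g := by
  classical
  -- the start of the window
  have hstart : ∃ i₁, i₁ ≤ i ∧ b i - (m - 2) ≤ b i₁ ∧ b i₁ ≤ b i - (m - 2) + 2 := by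
    let S := (Finset.range (i + 1)).filter (fun k => b i - (m - 2) ≤ b k)
    have hS : S.Nonempty := ⟨i, by simp [S]⟩
    let k := S.min' hS
    have hk : k ∈ S := Finset.min'_mem _ _
    simp only [S, Finset.mem_filter, Finset.mem_range] at hk
    refine ⟨k, by omega, hk.2, ?_⟩
    by_cases hk0 : k = 0
    · rw [hk0, h.b0]; omega
    · have hk1 : ¬ b i - (m - 2) ≤ b (k - 1) := by
        intro hc
        have hmem : k - 1 ∈ S := by
          simp only [S, Finset.mem_filter, Finset.mem_range]
          exact ⟨by omega, hc⟩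
        have := Finset.min'_le _ _ hmem
        have hkdef : k = S.min' hS := rfl
        omega
      have h1 := (h.up (k - 1) (by omega)).2
      have h2 := (h.up k (by omega)).1
      have h3 : 2 * (k - 1) + 2 = 2 * k := by omega
      omega
  obtain ⟨i₁, hi₁, hs1, hs2⟩ := hstart
  have hiB : b i < b B := h.strict hi (le_refl _)
  have hi₁i : b i₁ ≤ b i := h.monotone hi₁ hi.le
  let s := b i₁
  have hsdef : s = b i₁ := rfl
  let j := b i
  have hjdef : j = b i := rfl
  let E := b B
  have hEdef : E = b B := rfl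
  have hs0 : x₀ ≤ s := by omega
  let K : V → Prop := fun x => ∃ k, s ≤ k ∧ k ≤ j ∧ x = v k
  have hK : ∀ t, a + 2 ≤ t → t ≤ j - s + 1 → ∃ f, PathF G t f ∧ f 0 = v s ∧
      f (t - 1) = v j ∧ ∀ i, i < t → K (f i) := by
    intro t ht1 ht2
    obtain ⟨f, hf1, hf2, hf3, hf4⟩ := h.window_path hi₁ hi.le hbare (by omega) ht1 ht2
    exact ⟨f, hf1, hf2, hf3, hf4⟩
  let idx : ℕ → ℕ := fun i => if i < E - j then j + 1 + i else x₀ + i - (E - j)
  have hidx1 : ∀ i, i < E - j → idx i = j + 1 + i := fun i hi => by simp [idx, hi]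
  have hidx2 : ∀ i, E - j ≤ i → idx i = x₀ + i - (E - j) := fun i hi => by
    have : ¬ i < E - j := by omega
    simp [idx, this]
  let q := (E - j) + (s - x₀)
  have hq : q = (E - j) + (s - x₀) := rfl
  have hidxL : ∀ i, i < q → idx i < E + 1 := by
    intro i hi
    by_cases hi1 : i < E - j
    · rw [hidx1 i hi1]; omega
    · rw [hidx2 i (by omega)]; omega
  have hpath : PathF G q (fun i => v (idx i)) := by
    constructor
    · intro x y hx hy hxy
      have h1 := h.inj _ _ (hidxL x hx) (hidxL y hy) hxy
      by_cases hx1 : x < E - j <;> by_cases hy1 : y < E - j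
      · rw [hidx1 x hx1, hidx1 y hy1] at h1; omega
      · rw [hidx1 x hx1, hidx2 y (by omega)] at h1; omega
      · rw [hidx2 x (by omega), hidx1 y hy1] at h1; omega
      · rw [hidx2 x (by omega), hidx2 y (by omega)] at h1; omega
    · intro i hi
      by_cases hi1 : i + 1 < E - j
      · show G.Adj (v (idx i)) (v (idx (i + 1)))
        rw [hidx1 i (by omega), hidx1 (i + 1) hi1]
        exact h.path.adj (j + 1 + i) (by omega)
      · by_cases hi2 : i + 1 = E - j
        · show G.Adj (v (idx i)) (v (idx (i + 1)))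
          rw [hidx1 i (by omega), hidx2 (i + 1) (by omega)]
          have h1 : j + 1 + i = E := by omega
          have h2 : x₀ + (i + 1) - (E - j) = x₀ := by omega
          rw [h1, h2]
          exact hadj
        · show G.Adj (v (idx i)) (v (idx (i + 1)))
          rw [hidx2 i (by omega), hidx2 (i + 1) (by omega)]
          have := h.path.adj (x₀ + i - (E - j)) (by omega)
          rwa [show x₀ + i - (E - j) + 1 = x₀ + (i + 1) - (E - j) by omega] at this
  have hout : ∀ i, i < q → ¬ K (v (idx i)) := by
    rintro i hi ⟨k, hk1, hk2, hk3⟩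
    have h1 := h.inj _ _ (hidxL i hi) (by omega) hk3
    by_cases hi1 : i < E - j
    · rw [hidx1 i hi1] at h1; omega
    · rw [hidx2 i (by omega)] at h1; omega
  have hE0 : G.Adj (v j) (v (idx 0)) := by
    rw [hidx1 0 (by omega)]
    exact h.path.adj j (by omega)
  have hE1 : G.Adj (v (idx (q - 1))) (v s) := by
    by_cases hss : s = x₀
    · have h2 : q - 1 < E - j := by omega
      rw [hidx1 _ h2]
      have h3 : j + 1 + (q - 1) = E := by omega
      rw [h3, hss]
      exact hadj
    · rw [hidx2 _ (by omega)]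
      have h3 : x₀ + (q - 1) - (E - j) + 1 = s := by omega
      have := h.path.adj (x₀ + (q - 1) - (E - j)) (by omega)
      rwa [h3] at this
  exact reduce_cycle hα (t₀ := a + 2) (t₁ := j - s + 1) (by omega) (by omega) ha hK q
    (fun i => v (idx i)) (by omega) hpath hout hE0 hE1 m (by omega) (by omega)

end caseone

/-- More than `2 a` vertices hold a vertex with two neighbours among them. -/
theorem exists_cherry {a : ℕ} (hα : IndBd G a) (T : Finset V)
    (hT : 2 * a < T.card) :
    ∃ w₁ ∈ T, ∃ w₂ ∈ T, ∃ w₃ ∈ T, G.Adj w₁ w₂ ∧ G.Adj w₂ w₃ ∧ w₁ ≠ w₃ := by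
  classical
  by_contra hcon
  push Not at hcon
  -- every vertex has at most one neighbour in `T`, so `T` holds a large independent set
  have key : ∀ (n : ℕ) (S : Finset V), S.card = n → S ⊆ T →
      ∃ I ⊆ S, S.card ≤ 2 * I.card ∧ ∀ x ∈ I, ∀ y ∈ I, ¬ G.Adj x y := by
    intro n
    induction n using Nat.strong_induction_on with
    | _ n ih =>
      intro S hS hST
      by_cases hne : S.Nonempty
      · obtain ⟨x, hx⟩ := hne
        -- remove `x` and its neighbours
        let N := S.filter (fun y => G.Adj x y)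
        have hNcard : N.card ≤ 1 := by
          rw [Finset.card_le_one]
          intro y hy z hz
          simp only [N, Finset.mem_filter] at hy hz
          by_contra hyz
          exact hyz (hcon y (hST hy.1) x (hST hx) z (hST hz.1) hy.2.symm hz.2)
        let S' := (S.erase x) \ N
        have hS'sub : S' ⊆ S := fun y hy => Finset.mem_of_mem_erase (Finset.mem_sdiff.mp hy).1
        have hxS' : x ∉ S' := fun h => by
          have := (Finset.mem_sdiff.mp h).1
          simp at this
        have hcard' : S.card ≤ S'.card + 2 := by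
          have h1 : S ⊆ S' ∪ (insert x N) := by
            intro y hy
            by_cases hyx : y = x
            · simp [hyx]
            · by_cases hyN : y ∈ N
              · simp [hyN]
              · refine Finset.mem_union_left _ (Finset.mem_sdiff.mpr ⟨?_, hyN⟩)
                exact Finset.mem_erase.mpr ⟨hyx, hy⟩
          have h2 := Finset.card_le_card h1
          have h3 := Finset.card_union_le S' (insert x N)
          have h4 : (insert x N).card ≤ N.card + 1 := Finset.card_insert_le _ _
          omega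
        have hlt : S'.card < n := by
          have : S'.card < S.card := Finset.card_lt_card (Finset.ssubset_iff_of_subset hS'sub |>.mpr ⟨x, hx, hxS'⟩)
          omega
        obtain ⟨I, hI1, hI2, hI3⟩ := ih _ hlt S' rfl (hS'sub.trans hST)
        have hxI : x ∉ I := fun h => hxS' (hI1 h)
        refine ⟨insert x I, ?_, ?_, ?_⟩
        · intro y hy
          rw [Finset.mem_insert] at hy
          rcases hy with rfl | hy
          · exact hx
          · exact hS'sub (hI1 hy)
        · rw [Finset.card_insert_of_notMem hxI]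
          omega
        · intro y hy z hz
          rw [Finset.mem_insert] at hy hz
          have hnotN : ∀ w ∈ I, ¬ G.Adj x w := by
            intro w hw hadj
            have h1 := (Finset.mem_sdiff.mp (hI1 hw)).2
            apply h1
            simp only [N, Finset.mem_filter]
            exact ⟨hS'sub (hI1 hw), hadj⟩
          rcases hy with rfl | hy
          · rcases hz with rfl | hz
            · exact G.loopless.irrefl _
            · exact hnotN z hz
          · rcases hz with rfl | hz
            · exact fun h => hnotN y hy h.symm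
            · exact hI3 y hy z hz
      · rw [Finset.not_nonempty_iff_eq_empty] at hne
        subst hne
        exact ⟨∅, Finset.Subset.refl _, by simp, by simp⟩
  obtain ⟨I, hI1, hI2, hI3⟩ := key T.card T rfl (Finset.Subset.refl _)
  have : a < I.card := by omega
  obtain ⟨x, hx, y, hy, hxy⟩ := hα I this
  exact hI3 x hx y hy hxy

end Vale.Agent.Lib.P048
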