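import Vale.Agent.Lib.P048.B2

/-!
The greedy path across an arc of the chain, and the sums attached to its steps.
-/

namespace Vale.Agent.Lib.P048

open Finset

variable {V : Type*} {G : SimpleGraph V}

/-- Greedy steps: from each index go as far as the relation `R` allows. -/
theorem exists_greedy (R : ℕ → ℕ → Prop) (n : ℕ) (hstep : ∀ i, i < n → R i (i + 1)) :
    ∀ d i₀, n - i₀ = d → i₀ ≤ n → ∃ (r : ℕ) (c : ℕ → ℕ), c 0 = i₀ ∧ c r = n ∧
      (∀ j, j < r → c j < c (j + 1) ∧ R (c j) (c (j + 1))) ∧
      (∀ j j', j + 2 ≤ j' → j' ≤ r → ¬ R (c j) (c j')) := by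
  classical
  intro d
  induction d using Nat.strong_induction_on with
  | _ d ih =>
    intro i₀ hd hi₀
    by_cases hi : i₀ = n
    · subst hi
      refine ⟨0, fun _ => i₀, rfl, rfl, ?_, ?_⟩
      · intro j hj; omega
      · intro j j' h1 h2; omega
    · let S := (Finset.Ioc i₀ n).filter (fun k => R i₀ k)
      have hS : S.Nonempty := ⟨i₀ + 1, by
        simp only [S, Finset.mem_filter, Finset.mem_Ioc]
        exact ⟨⟨by omega, by omega⟩, hstep i₀ (by omega)⟩⟩
      let k := S.max' hS
      have hk : k ∈ S := Finset.max'_mem _ _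
      simp only [S, Finset.mem_filter, Finset.mem_Ioc] at hk
      obtain ⟨⟨hk1, hk2⟩, hk3⟩ := hk
      have hmax : ∀ y, i₀ < y → y ≤ n → R i₀ y → y ≤ k := by
        intro y hy1 hy2 hy3
        apply Finset.le_max'
        simp only [S, Finset.mem_filter, Finset.mem_Ioc]
        exact ⟨⟨hy1, hy2⟩, hy3⟩
      obtain ⟨r, c, hc0, hcr, hc1, hc2⟩ := ih (n - k) (by omega) k rfl hk2
      have hmono : ∀ j j', j < j' → j' ≤ r → c j < c j' := by
        intro j j' hjj
        induction j' with
        | zero => omega
        | succ j' ih2 =>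
          intro hj'
          have h1 := (hc1 j' (by omega)).1
          by_cases h2 : j = j'
          · subst h2; exact h1
          · have := ih2 (by omega) (by omega)
            omega
      refine ⟨r + 1, fun j => if j = 0 then i₀ else c (j - 1), by simp, ?_, ?_, ?_⟩
      · simpa using hcr
      · intro j hj
        by_cases hj0 : j = 0
        · subst hj0
          simp only [if_true, show (0 + 1 = 0) = False by simp, if_false, Nat.add_sub_cancel,
            hc0]
          exact ⟨hk1, hk3⟩
        · simp only [hj0, if_false, show j + 1 ≠ 0 by omega, Nat.add_sub_cancel]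
          have := hc1 (j - 1) (by omega)
          rwa [show j - 1 + 1 = j by omega] at this
      · intro j j' hjj hj'
        by_cases hj0 : j = 0
        · subst hj0
          simp only [if_true, show j' ≠ 0 by omega, if_false]
          intro hR
          have h1 : c 0 < c (j' - 1) := hmono _ _ (by omega) (by omega)
          have h2 : c (j' - 1) ≤ c r := by
            by_cases h3 : j' - 1 = r
            · rw [h3]
            · exact (hmono _ _ (by omega) (le_refl _)).le
          have := hmax (c (j' - 1)) (by omega) (by omega) hR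
          omega
        · simp only [hj0, show j' ≠ 0 by omega, if_false]
          exact hc2 (j - 1) (j' - 1) (by omega) (by omega)

/-- The sum over the indices below `j` satisfying `W`. -/
noncomputable def sumW (W : ℕ → Prop) (f : ℕ → ℕ) (j : ℕ) : ℕ :=
  open Classical in ∑ i ∈ range j, if W i then f i else 0

theorem sumW_zero (W : ℕ → Prop) (f : ℕ → ℕ) : sumW W f 0 = 0 := by
  simp [sumW]

theorem sumW_succ_pos {W : ℕ → Prop} (f : ℕ → ℕ) (j : ℕ) (h : W j) :
    sumW W f (j + 1) = sumW W f j + f j := by
  classical
  simp [sumW, Finset.sum_range_succ, h]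

theorem sumW_succ_neg {W : ℕ → Prop} (f : ℕ → ℕ) (j : ℕ) (h : ¬ W j) :
    sumW W f (j + 1) = sumW W f j := by
  classical
  simp [sumW, Finset.sum_range_succ, h]

theorem sumW_mono (W : ℕ → Prop) (f : ℕ → ℕ) {j j' : ℕ} (h : j ≤ j') :
    sumW W f j ≤ sumW W f j' := by
  induction j' with
  | zero =>
    have : j = 0 := by omega
    rw [this]
  | succ j' ih =>
    by_cases h1 : j = j' + 1
    · rw [h1]
    · have := ih (by omega)
      by_cases hW : W j'
      · rw [sumW_succ_pos f j' hW]; omega
      · rw [sumW_succ_neg f j' hW]; omega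

theorem sumW_double {W : ℕ → Prop} {l u : ℕ → ℕ} {j : ℕ} (h : ∀ i, i < j → 2 * l i ≤ u i) :
    2 * sumW W l j ≤ sumW W u j := by
  induction j with
  | zero => simp [sumW_zero]
  | succ j ih =>
    have ih' := ih (fun i hi => h i (by omega))
    by_cases hW : W j
    · rw [sumW_succ_pos l j hW, sumW_succ_pos u j hW]
      have := h j (by omega)
      omega
    · rw [sumW_succ_neg l j hW, sumW_succ_neg u j hW]
      exact ih'

theorem sumW_diff {W : ℕ → Prop} {l u : ℕ → ℕ} {j₁ : ℕ} :
    ∀ j₂, j₁ ≤ j₂ → (∀ i, i < j₂ → 2 * l i ≤ u i) →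
      sumW W l j₂ + sumW W u j₁ ≤ sumW W u j₂ + sumW W l j₁ := by
  intro j₂
  induction j₂ with
  | zero =>
    intro h _
    have : j₁ = 0 := by omega
    subst this
    omega
  | succ j₂ ih =>
    intro h1 h
    by_cases hj : j₁ = j₂ + 1
    · subst hj
      omega
    · have ih' := ih (by omega) (fun i hi => h i (by omega))
      by_cases hW : W j₂
      · rw [sumW_succ_pos l j₂ hW, sumW_succ_pos u j₂ hW]
        have := h j₂ (by omega)
        omega
      · rw [sumW_succ_neg l j₂ hW, sumW_succ_neg u j₂ hW]
        exact ih'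

theorem sumW_false (f : ℕ → ℕ) (j : ℕ) : sumW (fun _ => False) f j = 0 := by
  simp [sumW]

theorem sumW_congr {W W' : ℕ → Prop} (f : ℕ → ℕ) {j : ℕ} (h : ∀ i, i < j → (W i ↔ W' i)) :
    sumW W f j = sumW W' f j := by
  induction j with
  | zero => simp [sumW_zero]
  | succ j ih =>
    have h1 := ih (fun i hi => h i (by omega))
    by_cases hW : W j
    · rw [sumW_succ_pos f j hW, sumW_succ_pos f j ((h j (by omega)).mp hW), h1]
    · rw [sumW_succ_neg f j hW, sumW_succ_neg f j (fun hc => hW ((h j (by omega)).mpr hc)), h1]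

/-- Selecting steps so that a given value lies between the two sums. -/
theorem select_items {l u : ℕ → ℕ} {e : ℕ} :
    ∀ r, (∀ i, i < r → 2 * l i ≤ u i) → e ≤ sumW (fun i => l i ≤ e) u r →
      ∃ W : ℕ → Prop, (∀ i, W i → l i ≤ e) ∧ sumW W l r ≤ e ∧ e ≤ sumW W u r := by
  intro r
  induction r with
  | zero =>
    intro _ h
    rw [sumW_zero] at h
    refine ⟨fun _ => False, fun i hi => hi.elim, ?_, ?_⟩
    · simp [sumW_zero]
    · simp [sumW_zero]; omega
  | succ r ih =>
    intro h2 h
    by_cases h1 : e ≤ sumW (fun i => l i ≤ e) u r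
    · obtain ⟨W, hW1, hW2, hW3⟩ := ih (fun i hi => h2 i (by omega)) h1
      refine ⟨fun i => W i ∧ i < r, fun i hi => hW1 i hi.1, ?_, ?_⟩
      · rw [sumW_succ_neg l r (by simp)]
        rw [sumW_congr (W' := W) l (fun i hi => by simp [hi])]
        exact hW2
      · rw [sumW_succ_neg u r (by simp)]
        rw [sumW_congr (W' := W) u (fun i hi => by simp [hi])]
        exact hW3
    · have hsmall : l r ≤ e := by
        by_contra hc
        rw [sumW_succ_neg u r (W := fun i => l i ≤ e) hc] at h
        exact h1 h
      have hsum := sumW_succ_pos (W := fun i => l i ≤ e) u r hsmall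
      by_cases h3 : e ≤ u r
      · -- a single step is enough
        refine ⟨fun i => i = r, fun i hi => by rw [hi]; exact hsmall, ?_, ?_⟩
        · rw [sumW_succ_pos (W := fun i => i = r) l r rfl]
          rw [sumW_congr (W' := fun _ => False) l (fun i hi => by simp; omega), sumW_false]
          omega
        · rw [sumW_succ_pos (W := fun i => i = r) u r rfl]
          omega
      · -- all small steps
        refine ⟨fun i => l i ≤ e, fun i hi => hi, ?_, ?_⟩
        · have h4 := sumW_double (W := fun i => l i ≤ e) h2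
          omega
        · exact h

end Vale.Agent.Lib.P048
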