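import Vale.Agent.Lib.P048.B3

/-!
Paths along the greedy path, closing them to cycles, and the reduction under a long step.
-/

namespace Vale.Agent.Lib.P048

open Finset

variable {V : Type*} {G : SimpleGraph V}

/-- The greedy path across an arc. -/
structure Gr (G : SimpleGraph V) (m n : ℕ) (v : ℕ → V) (b : ℕ → ℕ) (i₀ r : ℕ) (c : ℕ → ℕ) :
    Prop where
  c0 : c 0 = i₀
  cr : c r = n
  inc : ∀ j, j < r → c j < c (j + 1)
  adj : ∀ j, j < r → G.Adj (v (b (c j))) (v (b (c (j + 1))))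
  short : ∀ j, j < r → b (c (j + 1)) ≤ b (c j) + (m - 2)
  ind : ∀ j j', j + 2 ≤ j' → j' ≤ r → G.Adj (v (b (c j))) (v (b (c j'))) →
    b (c j) + (m - 2) < b (c j')

/-- The number of base positions under a step. -/
def lI (c : ℕ → ℕ) (j : ℕ) : ℕ := c (j + 1) - c j - 1

/-- The number of positions under a step. -/
def uI (b c : ℕ → ℕ) (j : ℕ) : ℕ := b (c (j + 1)) - b (c j) - 1

/-- A connection from the end of the arc back to its start with `H` extra vertices. -/
def Conn (G : SimpleGraph V) (v : ℕ → V) (b : ℕ → ℕ) (n i₀ H : ℕ) : Prop :=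
  ∃ f : ℕ → V, PathF G (H + 1) f ∧ f 0 = v (b n) ∧ G.Adj (f H) (v (b i₀)) ∧
    ∀ j, 1 ≤ j → j ≤ H → ∃ p, p < b i₀ ∧ f j = v p

section arc

variable {a m n i₀ r : ℕ} {v : ℕ → V} {b c : ℕ → ℕ}

theorem Gr.lt (hg : Gr G m n v b i₀ r c) {j j' : ℕ} (hjj : j < j') (hj' : j' ≤ r) : c j < c j' := by
  induction j' with
  | zero => omega
  | succ j' ih =>
    have h1 := hg.inc j' (by omega)
    by_cases h2 : j = j'
    · subst h2; exact h1
    · have := ih (by omega) (by omega)
      omega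

theorem Gr.le (hg : Gr G m n v b i₀ r c) {j j' : ℕ} (hjj : j ≤ j') (hj' : j' ≤ r) : c j ≤ c j' := by
  by_cases h2 : j = j'
  · subst h2; exact le_refl _
  · exact (hg.lt (by omega) hj').le

theorem Gr.le_n (hg : Gr G m n v b i₀ r c) {j : ℕ} (hj : j ≤ r) : c j ≤ n := by
  have := hg.le hj (le_refl _)
  rwa [hg.cr] at this

theorem Gr.ge_i (hg : Gr G m n v b i₀ r c) (j : ℕ) (hj : j ≤ r) : i₀ ≤ c j := by
  have := hg.le (Nat.zero_le j) hj
  rwa [hg.c0] at this

/-- Twice the number of base positions under a step is at most the number of positions. -/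
theorem Gr.two_l (hg : Gr G m n v b i₀ r c) (h : Ch G a m n v b) {j : ℕ} (hj : j < r) :
    2 * lI c j ≤ uI b c j := by
  have h1 := hg.inc j hj
  have h2 := hg.le_n (j := j + 1) (by omega)
  have h3 := h.span_ge h1.le h2
  have h4 := h.strict h1 h2
  unfold lI uI
  omega

/-- Paths along a segment of the greedy path. -/
theorem Gr.seg (hg : Gr G m n v b i₀ r c) (h : Ch G a m n v b) (W : ℕ → Prop) {j₁ : ℕ} :
    ∀ j₂, j₁ ≤ j₂ → j₂ ≤ r → ∀ t, (j₂ - j₁ + 1) + (sumW W (lI c) j₂ - sumW W (lI c) j₁) ≤ t →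
      t ≤ (j₂ - j₁ + 1) + (sumW W (uI b c) j₂ - sumW W (uI b c) j₁) →
      ∃ f, IdxPath G v (b (c j₁)) (b (c j₂)) t f := by
  intro j₂
  induction j₂ with
  | zero =>
    intro h1 _ t ht1 ht2
    have : j₁ = 0 := by omega
    subst this
    have ht : t = 1 := by omega
    subst ht
    exact idxPath_self v _
  | succ j₂ ih =>
    intro h1 h2 t ht1 ht2
    by_cases hj : j₁ = j₂ + 1
    · subst hj
      have ht : t = 1 := by omega
      subst ht
      exact idxPath_self v _
    · have hm1 := sumW_mono W (lI c) (show j₁ ≤ j₂ by omega)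
      have hm2 := sumW_mono W (uI b c) (show j₁ ≤ j₂ by omega)
      have hdl := sumW_double (W := W) (l := lI c) (u := uI b c) (j := j₂)
        (fun i hi => hg.two_l h (by omega))
      have hdl1 := sumW_double (W := W) (l := lI c) (u := uI b c) (j := j₁)
        (fun i hi => hg.two_l h (by omega))
      have hdf := sumW_diff (W := W) (l := lI c) (u := uI b c) (j₁ := j₁) j₂ (by omega)
        (fun i hi => hg.two_l h (by omega))
      have hinc := hg.inc j₂ (by omega)
      have hnn := hg.le_n (j := j₂ + 1) (by omega)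
      have hL : b (c (j₂ + 1)) < b n + 1 := by
        have := h.monotone hnn (le_refl _)
        omega
      have hst := h.strict hinc hnn
      by_cases hW : W j₂
      · rw [sumW_succ_pos (lI c) j₂ hW] at ht1
        rw [sumW_succ_pos (uI b c) j₂ hW] at ht2
        have h2l := hg.two_l h (show j₂ < r by omega)
        -- the number of interior vertices of the last step
        obtain ⟨t', r', h3, h4, h5, h6, h7⟩ : ∃ t' r',
            (j₂ - j₁ + 1) + (sumW W (lI c) j₂ - sumW W (lI c) j₁) ≤ t' ∧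
            t' ≤ (j₂ - j₁ + 1) + (sumW W (uI b c) j₂ - sumW W (uI b c) j₁) ∧
            lI c j₂ ≤ r' ∧ r' ≤ uI b c j₂ ∧ t' + r' + 1 = t := by
          by_cases hc : t ≤ (j₂ - j₁ + 1) + (sumW W (uI b c) j₂ - sumW W (uI b c) j₁) + lI c j₂ + 1
          · exact ⟨t - lI c j₂ - 1, lI c j₂, by omega, by omega, le_refl _, by omega, by omega⟩
          · exact ⟨(j₂ - j₁ + 1) + (sumW W (uI b c) j₂ - sumW W (uI b c) j₁),
              t - ((j₂ - j₁ + 1) + (sumW W (uI b c) j₂ - sumW W (uI b c) j₁)) - 1,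
              by omega, le_refl _, by omega, by omega, by omega⟩
        obtain ⟨f₁, hf₁⟩ := ih (by omega) (by omega) t' h3 h4
        have hl : lI c j₂ = c (j₂ + 1) - c j₂ - 1 := rfl
        have hu : uI b c j₂ = b (c (j₂ + 1)) - b (c j₂) - 1 := rfl
        obtain ⟨f₂, hf₂⟩ := h.walk (i := c j₂) (c (j₂ + 1)) hinc.le hnn (r' + 2) (by omega) (by omega)
        obtain ⟨f, hf⟩ := idxPath_glue h.inj hf₁ hf₂ (by omega) (by omega) hL
        rw [show t' + (r' + 2) - 1 = t by omega] at hf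
        exact ⟨f, hf⟩
      · rw [sumW_succ_neg (lI c) j₂ hW] at ht1
        rw [sumW_succ_neg (uI b c) j₂ hW] at ht2
        obtain ⟨f₁, hf₁⟩ := ih (by omega) (by omega) (t - 1) (by omega) (by omega)
        obtain ⟨f₂, hf₂⟩ := idxPath_edge hst.le (hg.adj j₂ (by omega))
        obtain ⟨f, hf⟩ := idxPath_glue h.inj hf₁ hf₂ (by omega) (by omega) hL
        rw [show t - 1 + 2 - 1 = t by omega] at hf
        exact ⟨f, hf⟩

/-- A path across the arc and a connection give a cycle. -/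
theorem Gr.hit (hg : Gr G m n v b i₀ r c) (h : Ch G a m n v b) (W : ℕ → Prop) {H t : ℕ}
    (hc : Conn G v b n i₀ H) (ht1 : r + 1 + sumW W (lI c) r ≤ t)
    (ht2 : t ≤ r + 1 + sumW W (uI b c) r) (hm : t + H = m) : ∃ g, CycF G m g := by
  obtain ⟨f, hf⟩ := hg.seg h W (j₁ := 0) r (Nat.zero_le _) (le_refl _) t
    (by rw [sumW_zero]; omega) (by rw [sumW_zero]; omega)
  obtain ⟨f', hf'1, hf'2, hf'3, hf'4⟩ := hc
  obtain ⟨f1, f2, f3, f4⟩ := hf
  rw [hg.c0] at f2 f4
  rw [hg.cr] at f3 f4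
  have ht0 : 1 ≤ t := by omega
  have hp := pathF_glue f1 hf'1 ht0 (by omega) (by rw [f3, hf'2]) (by
    intro i j hi hj1 hj2 heq
    obtain ⟨k₁, hk11, hk12, hk13⟩ := f4 i hi
    obtain ⟨p, hp1, hp2⟩ := hf'4 j hj1 (by omega)
    rw [hk13, hp2] at heq
    have := h.inj _ _ (by omega) (by
      have hi0 : i₀ ≤ n := by
        rw [← hg.c0, ← hg.cr]
        exact hg.le (Nat.zero_le _) (le_refl _)
      have := h.monotone hi0 (le_refl _)
      omega) heq
    omega)
  rw [show t + (H + 1) - 1 = m by omega] at hp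
  refine ⟨_, cycF_of_pathF hp ?_⟩
  simp only [show 0 < t by omega, if_true, f2]
  by_cases hH : H = 0
  · subst hH
    have h1 : m - 1 = t - 1 := by omega
    rw [h1]
    simp only [show t - 1 < t by omega, if_true]
    rw [f3, ← hf'2]
    exact hf'3
  · have h1 : ¬ m - 1 < t := by omega
    simp only [h1, if_false]
    rw [show m - 1 + 1 - t = H by omega]
    exact hf'3

theorem split2 {a₁ b₁ a₂ b₂ t : ℕ} (h1 : a₁ ≤ b₁) (h2 : a₂ ≤ b₂) (h3 : a₁ + a₂ ≤ t)
    (h4 : t ≤ b₁ + b₂) : ∃ t₁ t₂, a₁ ≤ t₁ ∧ t₁ ≤ b₁ ∧ a₂ ≤ t₂ ∧ t₂ ≤ b₂ ∧ t₁ + t₂ = t := by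
  by_cases hc : t ≤ b₁ + a₂
  · exact ⟨t - a₂, a₂, by omega, by omega, le_refl _, h2, by omega⟩
  · exact ⟨b₁, t - b₁, h1, le_refl _, by omega, by omega, by omega⟩

/-- The reduction under a step of the greedy path that is not opened. -/
theorem Gr.big_reduce (hg : Gr G m n v b i₀ r c) (h : Ch G a m n v b) {W : ℕ → Prop}
    {j k₀ ℓ H₀ g : ℕ} (hj : j < r) (hW : ¬ W j) (hk₀ : 1 ≤ k₀)
    (hα : IndBdOn G (fun y => ∃ i, c j < i ∧ i < c (j + 1) ∧ y = v (b i)) k₀)
    (hℓ : ℓ < lI c j)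
    (hconn : ∀ H, H₀ ≤ H → H ≤ H₀ + g → Conn G v b n i₀ H)
    (ht : r + 1 + sumW W (lI c) r + H₀ + ℓ + 2 * k₀ = m)
    (hrange : r + 1 + sumW W (lI c) r + H₀ + ℓ + (2 * k₀ - 2) ≤
      r + 1 + sumW W (uI b c) r + H₀ + g + (b (c j + ℓ) - b (c j)))
    (hupper : m ≤ r + 1 + sumW W (uI b c) r + H₀ + g + (b (c j + ℓ) - b (c j)) + (lI c j - ℓ)) :
    ∃ g', CycF G m g' := by
  have hinc := hg.inc j hj
  have hy := hg.le_n (j := j + 1) (by omega)
  have hl : lI c j = c (j + 1) - c j - 1 := rfl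
  have hi₀n : i₀ ≤ n := by
    rw [← hg.c0, ← hg.cr]
    exact hg.le (Nat.zero_le _) (le_refl _)
  have hxℓ : c j + ℓ < c (j + 1) := by omega
  have hbx : b (c j + ℓ) < b (c (j + 1)) := h.strict hxℓ hy
  have hbxy := h.monotone (show c j ≤ c j + ℓ by omega) (by omega)
  have hby := h.monotone hy (le_refl _)
  have hbi₀ : b i₀ ≤ b (c j) := h.monotone (hg.ge_i j (by omega)) (by omega)
  have hSpan := h.span_ge (show c j ≤ c j + ℓ by omega) (by omega)
  let K : V → Prop := fun z => ∃ p, p ≤ b n ∧ z = v p ∧ (p ≤ b (c j + ℓ) ∨ b (c (j + 1)) ≤ p)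
  have hLo := sumW_succ_neg (lI c) j hW
  have hUp := sumW_succ_neg (uI b c) j hW
  have hmL := sumW_mono W (lI c) (show j + 1 ≤ r by omega)
  have hmU := sumW_mono W (uI b c) (show j + 1 ≤ r by omega)
  have hdf := sumW_diff (W := W) (l := lI c) (u := uI b c) (j₁ := j + 1) r (by omega)
    (fun i hi => hg.two_l h hi)
  have hdl := sumW_double (W := W) (l := lI c) (u := uI b c) (j := j)
    (fun i hi => hg.two_l h (by omega))
  have hK : ∀ t, r + 1 + sumW W (lI c) r + H₀ + ℓ ≤ t →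
      t ≤ r + 1 + sumW W (uI b c) r + H₀ + g + (b (c j + ℓ) - b (c j)) →
      ∃ f, PathF G t f ∧ f 0 = v (b (c (j + 1))) ∧ f (t - 1) = v (b (c j + ℓ)) ∧
        ∀ i, i < t → K (f i) := by
    intro t ht1 ht2
    -- the four parts
    obtain ⟨tA, r₁, hA1, hA2, hr1, hr2, hsum1⟩ := split2
      (a₁ := (r - (j + 1) + 1) + (sumW W (lI c) r - sumW W (lI c) (j + 1)))
      (b₁ := (r - (j + 1) + 1) + (sumW W (uI b c) r - sumW W (uI b c) (j + 1)))
      (a₂ := H₀ + ((0 + (j - 0 + 1) + (sumW W (lI c) j - sumW W (lI c) 0)) + (ℓ + 1)))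
      (b₂ := H₀ + g + ((0 + (j - 0 + 1) + (sumW W (uI b c) j - sumW W (uI b c) 0)) +
        ((b (c j + ℓ) - b (c j)) + 1)))
      (t := t + 1) (by omega) (by rw [sumW_zero, sumW_zero]; omega)
      (by rw [sumW_zero]; omega) (by rw [sumW_zero]; omega)
    obtain ⟨H, r₂, hH1, hH2, hr3, hr4, hsum2⟩ := split2 (a₁ := H₀) (b₁ := H₀ + g)
      (a₂ := (0 + (j - 0 + 1) + (sumW W (lI c) j - sumW W (lI c) 0)) + (ℓ + 1))
      (b₂ := (0 + (j - 0 + 1) + (sumW W (uI b c) j - sumW W (uI b c) 0)) +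
        ((b (c j + ℓ) - b (c j)) + 1)) (t := r₁) (by omega)
      (by rw [sumW_zero, sumW_zero]; omega) (by omega) (by omega)
    obtain ⟨tB, tP, hB1, hB2, hP1, hP2, hsum3⟩ := split2
      (a₁ := 0 + (j - 0 + 1) + (sumW W (lI c) j - sumW W (lI c) 0)) (a₂ := ℓ + 1)
      (b₁ := 0 + (j - 0 + 1) + (sumW W (uI b c) j - sumW W (uI b c) 0))
      (b₂ := (b (c j + ℓ) - b (c j)) + 1) (t := r₂)
      (by rw [sumW_zero, sumW_zero]; omega) (by omega) hr3 hr4
    rw [Nat.zero_add] at hB1 hB2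
    obtain ⟨fA, hfA⟩ := hg.seg h W (j₁ := j + 1) r (by omega) (le_refl _) tA hA1 hA2
    obtain ⟨fB, hfB⟩ := hg.seg h W (j₁ := 0) j (by omega) (by omega) tB hB1 hB2
    obtain ⟨fP, hfP⟩ := h.walk (i := c j) (c j + ℓ) (by omega) (by omega) tP (by omega) (by omega)
    have hAB : 1 ≤ tB := by omega
    have hAP : 1 ≤ tP := by omega
    have hAA : 1 ≤ tA := by omega
    obtain ⟨fB', hfB'⟩ := idxPath_glue h.inj hfB hfP hAB hAP (by omega : b (c j + ℓ) < b n + 1)
    obtain ⟨fC, hC1, hC2, hC3, hC4⟩ := hconn H hH1 hH2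
    obtain ⟨a1, a2, a3, a4⟩ := hfA
    obtain ⟨d1, d2, d3, d4⟩ := hfB'
    rw [hg.cr] at a3 a4
    rw [hg.c0] at d2 d4
    have hQ1 := pathF_glue a1 hC1 hAA (by omega) (by rw [a3, hC2]) (by
      intro x y hx hy1 hy2 heq
      obtain ⟨k₁, hk11, hk12, hk13⟩ := a4 x hx
      obtain ⟨p, hp1, hp2⟩ := hC4 y hy1 (by omega)
      rw [hk13, hp2] at heq
      have := h.inj _ _ (by omega) (by omega) heq
      omega)
    -- the vertices of the first part
    have hQmem : ∀ x, x < tA + (H + 1) - 1 →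
        ∃ p, p ≤ b n ∧ (if x < tA then fA x else fC (x + 1 - tA)) = v p ∧
          (p < b i₀ ∨ b (c (j + 1)) ≤ p) := by
      intro x hx
      by_cases hx1 : x < tA
      · obtain ⟨k₁, hk11, hk12, hk13⟩ := a4 x hx1
        exact ⟨k₁, hk12, by simp only [hx1, if_true]; exact hk13, Or.inr hk11⟩
      · obtain ⟨p, hp1, hp2⟩ := hC4 (x + 1 - tA) (by omega) (by omega)
        exact ⟨p, by omega, by simp only [hx1, if_false]; exact hp2, Or.inl hp1⟩
    have hcat := PathF.concat hQ1 d1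
      (by
        intro x y hx hy heq
        obtain ⟨p, hp1, hp2, hp3⟩ := hQmem x hx
        obtain ⟨k₂, hk21, hk22, hk23⟩ := d4 y hy
        rw [hp2, hk23] at heq
        have := h.inj _ _ (by omega) (by omega) heq
        omega)
      (by omega)
      (by
        intro hd
        rw [d2]
        by_cases hH0 : H = 0
        · subst hH0
          have h1 : tA + (0 + 1) - 1 - 1 = tA - 1 := by omega
          simp only [h1, show tA - 1 < tA by omega, if_true]
          rw [a3, ← hC2]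
          exact hC3
        · have h1 : ¬ tA + (H + 1) - 1 - 1 < tA := by omega
          simp only [h1, if_false]
          rw [show tA + (H + 1) - 1 - 1 + 1 - tA = H by omega]
          exact hC3)
    have htt : tA + (H + 1) - 1 + (tB + tP - 1) = t := by omega
    rw [htt] at hcat
    refine ⟨_, hcat, ?_, ?_, ?_⟩
    · have h1 : 0 < tA + (H + 1) - 1 := by omega
      simp only [h1, if_true, show 0 < tA by omega]
      exact a2
    · have h1 : ¬ t - 1 < tA + (H + 1) - 1 := by omega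
      simp only [h1, if_false]
      rw [show t - 1 - (tA + (H + 1) - 1) = tB + tP - 1 - 1 by omega]
      exact d3
    · intro x hx
      by_cases hx1 : x < tA + (H + 1) - 1
      · simp only [hx1, if_true]
        obtain ⟨p, hp1, hp2, hp3⟩ := hQmem x hx1
        refine ⟨p, hp1, hp2, ?_⟩
        omega
      · simp only [hx1, if_false]
        obtain ⟨k₂, hk21, hk22, hk23⟩ := d4 (x - (tA + (H + 1) - 1)) (by omega)
        exact ⟨k₂, by omega, hk23, Or.inl hk22⟩
  -- the path under the step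
  let q := lI c j - ℓ
  have hqdef : q = lI c j - ℓ := rfl
  let hh : ℕ → V := fun i => v (b (c j + ℓ + 1 + i))
  have hidx : ∀ i, i < q → c j + ℓ + 1 + i < c (j + 1) := by
    intro i hi
    omega
  have hpath : PathF G q hh := by
    constructor
    · intro x y hx hy heq
      have h1 := hidx x hx
      have h2 := hidx y hy
      have hb1 := h.monotone (show c j + ℓ + 1 + x ≤ n by omega) (le_refl _)
      have hb2 := h.monotone (show c j + ℓ + 1 + y ≤ n by omega) (le_refl _)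
      have h3 := h.inj _ _ (by omega) (by omega) heq
      by_contra hne
      rcases (by omega : x < y ∨ y < x) with h4 | h4
      · have := h.strict (show c j + ℓ + 1 + x < c j + ℓ + 1 + y by omega) (by omega)
        omega
      · have := h.strict (show c j + ℓ + 1 + y < c j + ℓ + 1 + x by omega) (by omega)
        omega
    · intro i hi
      have h1 := hidx i (by omega)
      have h2 := hidx (i + 1) hi
      have h3 := h.mono (c j + ℓ + 1 + i) (by omega)
      exact h.fan (c j + ℓ + 1 + i) (by omega) _ h3 (le_refl _)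
  refine reduce_on hα (t₀ := r + 1 + sumW W (lI c) r + H₀ + ℓ)
    (t₁ := r + 1 + sumW W (uI b c) r + H₀ + g + (b (c j + ℓ) - b (c j))) (by omega) hrange hk₀
    hK q hh (by omega) hpath ?_ ?_ ?_ ?_ m (by omega) (by omega)
  · intro i hi
    exact ⟨c j + ℓ + 1 + i, by omega, hidx i hi, rfl⟩
  · rintro i hi ⟨p, hp1, hp2, hp3⟩
    have h1 := hidx i hi
    have hb := h.monotone (show c j + ℓ + 1 + i ≤ n by omega) (le_refl _)
    have h3 := h.inj _ _ (by omega) (by omega) hp2
    have h4 := h.strict (show c j + ℓ < c j + ℓ + 1 + i by omega) (by omega)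
    have h5 := h.strict h1 hy
    omega
  · show G.Adj (v (b (c j + ℓ))) (v (b (c j + ℓ + 1 + 0)))
    have h3 := h.mono (c j + ℓ) (by omega)
    exact h.fan (c j + ℓ) (by omega) _ h3 (le_refl _)
  · show G.Adj (v (b (c j + ℓ + 1 + (q - 1)))) (v (b (c (j + 1))))
    have h1 : c j + ℓ + 1 + (q - 1) + 1 = c (j + 1) := by omega
    have h3 := h.mono (c j + ℓ + 1 + (q - 1)) (by omega)
    have := h.fan (c j + ℓ + 1 + (q - 1)) (by omega) _ h3 (le_refl _)
    rwa [h1] at this

end arc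

end Vale.Agent.Lib.P048
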