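import Vale.Agent.Lib.P048.B4

/-!
The closing step along an arc of the chain.
-/

namespace Vale.Agent.Lib.P048

open Finset

variable {V : Type*} {G : SimpleGraph V}

theorem num_final {a m r H₀ g e J B Lo Up k : ℕ} (hm : 3 * a + 3 ≤ m) (hr : r ≤ 2 * a)
    (hr2 : H₀ ≠ 0 → r + 1 ≤ 2 * a)
    (hH : (H₀ = 0 ∧ g = 0) ∨ (H₀ = 1 ∧ g = 1) ∨ (H₀ = 2 ∧ g = 1))
    (he : e + (r + 1) + H₀ = m) (hfail : Up + g < e)
    (hU : 2 * Lo + r ≤ Up + J + B) (hUL : 2 * Lo ≤ Up) (hB : B ≤ 2)
    (hJ1 : 1 ≤ J) (hb1 : 2 * e + 5 ≤ m) (hb2 : 1 ≤ B → 2 * e + 7 ≤ m)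
    (hk : k = (Up + g + e + 1 - 2 * Lo) / 4)
    (hw2 : 4 ≤ J → 2 * (k + 1) ≤ a) (hw3 : 7 ≤ J → 3 * (k + 1) ≤ a)
    (hw4 : 10 ≤ J → 4 * (k + 1) ≤ a) : False := by
  rcases hH with ⟨rfl, rfl⟩ | ⟨rfl, rfl⟩ | ⟨rfl, rfl⟩ <;>
  · by_cases h10 : 10 ≤ J
    · have := hw4 h10
      omega
    · by_cases h7 : 7 ≤ J
      · have := hw3 h7
        omega
      · by_cases h4 : 4 ≤ J
        · have := hw2 h4
          omega
        · by_cases hB0 : 1 ≤ B
          · have := hb2 hB0
            omega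
          · omega

/-- The elements of a finite set of natural numbers in increasing order. -/
theorem exists_sorted (S : Finset ℕ) : ∃ τ : ℕ → ℕ, (∀ i, i < S.card → τ i ∈ S) ∧
    ∀ i i', i < i' → i' < S.card → τ i < τ i' := by
  refine ⟨fun i => if h : i < S.card then S.orderEmbOfFin rfl ⟨i, h⟩ else 0, ?_, ?_⟩
  · intro i hi
    simp only [hi, dif_pos]
    exact Finset.orderEmbOfFin_mem S rfl ⟨i, hi⟩
  · intro i i' hii hi'
    have hi : i < S.card := by omega
    simp only [hi, hi', dif_pos]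
    exact (S.orderEmbOfFin rfl).strictMono (by simpa using hii)

theorem sumW_one_card (W : ℕ → Prop) (j : ℕ) :
    open Classical in sumW W (fun _ => 1) j = ((range j).filter W).card := by
  classical
  induction j with
  | zero => simp [sumW_zero]
  | succ j ih =>
    rw [Finset.range_add_one]
    by_cases hW : W j
    · rw [sumW_succ_pos _ j hW, Finset.filter_insert, if_pos hW, Finset.card_insert_of_notMem, ih]
      simp
    · rw [sumW_succ_neg _ j hW, Finset.filter_insert, if_neg hW, ih]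

section arc

variable {a m n i₀ r : ℕ} {v : ℕ → V} {b c : ℕ → ℕ}

/-- Vertices at every second place of the greedy path are independent. -/
theorem Gr.count (hg : Gr G m n v b i₀ r c) (h : Ch G a m n v b) (hα : IndBd G a) {ε ρ : ℕ}
    (hε : ∀ j j', ε ≤ j → j + 2 ≤ j' → j' ≤ r → ¬ G.Adj (v (b (c j))) (v (b (c j'))))
    (hρ : ρ = 0 ∨ ε + 2 * (ρ - 1) ≤ r) : ρ ≤ a := by
  classical
  by_contra hcon
  have hρ' : ε + 2 * (ρ - 1) ≤ r := by
    rcases hρ with h0 | h0
    · omega
    · exact h0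
  let φ : ℕ → V := fun t => v (b (c (ε + 2 * t)))
  have hinj : Set.InjOn φ (Finset.range ρ : Set ℕ) := by
    intro x hx y hy hxy
    simp only [Finset.coe_range, Set.mem_Iio] at hx hy
    by_contra hne
    have hL : ∀ z, z < ρ → b (c (ε + 2 * z)) < b n + 1 := by
      intro z hz
      have := h.monotone (hg.le_n (j := ε + 2 * z) (by omega)) (le_refl _)
      omega
    have h1 := h.inj _ _ (hL x hx) (hL y hy) hxy
    rcases (by omega : x < y ∨ y < x) with h2 | h2
    · have h3 := hg.lt (show ε + 2 * x < ε + 2 * y by omega) (by omega)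
      have h4 := h.strict h3 (hg.le_n (by omega))
      omega
    · have h3 := hg.lt (show ε + 2 * y < ε + 2 * x by omega) (by omega)
      have h4 := h.strict h3 (hg.le_n (by omega))
      omega
  have hcard : a < ((Finset.range ρ).image φ).card := by
    rw [Finset.card_image_of_injOn hinj, Finset.card_range]
    omega
  obtain ⟨x, hx, y, hy, hxy⟩ := hα _ hcard
  rw [Finset.mem_image] at hx hy
  obtain ⟨s, hs, rfl⟩ := hx
  obtain ⟨t, ht, rfl⟩ := hy
  rw [Finset.mem_range] at hs ht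
  rcases lt_trichotomy s t with h1 | h1 | h1
  · exact hε _ _ (by omega) (show ε + 2 * s + 2 ≤ ε + 2 * t by omega) (by omega) hxy
  · subst h1; exact G.loopless.irrefl _ hxy
  · exact hε _ _ (by omega) (show ε + 2 * t + 2 ≤ ε + 2 * s by omega) (by omega) hxy.symm

/-- When all steps are opened, the sum of the positions. -/
theorem Gr.sum_all (hg : Gr G m n v b i₀ r c) (h : Ch G a m n v b) {W : ℕ → Prop} :
    ∀ j, j ≤ r → (∀ i, i < j → W i) → sumW W (uI b c) j + j + b (c 0) = b (c j) := by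
  intro j
  induction j with
  | zero => intro _ _; simp [sumW_zero]
  | succ j ih =>
    intro hj hW
    have h1 := ih (by omega) (fun i hi => hW i (by omega))
    rw [sumW_succ_pos (uI b c) j (hW j (by omega))]
    have h2 := hg.inc j (by omega)
    have h3 := h.strict h2 (hg.le_n (by omega))
    have hu : uI b c j = b (c (j + 1)) - b (c j) - 1 := rfl
    omega

/-- The sum of positions against the number of base positions. -/
theorem Gr.sum_inv (hg : Gr G m n v b i₀ r c) (h : Ch G a m n v b) (W : ℕ → Prop) :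
    ∀ j, j ≤ r → 2 * sumW W (lI c) j + j + (2 * c 0 - b (c 0)) ≤
      sumW W (uI b c) j + (2 * c j - b (c j)) + sumW (fun i => ¬ W i) (fun _ => 1) j +
        sumW (fun i => ¬ W i ∧ 2 * c (i + 1) - b (c (i + 1)) < 2 * c i - b (c i)) (fun _ => 1) j := by
  intro j
  induction j with
  | zero => intro _; simp [sumW_zero]
  | succ j ih =>
    intro hj
    have h1 := ih (by omega)
    have hinc := hg.inc j (by omega)
    have hn := hg.le_n (j := j + 1) (by omega)
    have hst := h.strict hinc hn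
    have hu1 := h.up (c j) (by omega)
    have hu2 := h.up (c (j + 1)) hn
    have hl : lI c j = c (j + 1) - c j - 1 := rfl
    have hu : uI b c j = b (c (j + 1)) - b (c j) - 1 := rfl
    by_cases hW : W j
    · rw [sumW_succ_pos (lI c) j hW, sumW_succ_pos (uI b c) j hW,
        sumW_succ_neg (W := fun i => ¬ W i) (fun _ => 1) j (by simpa using hW),
        sumW_succ_neg (W := fun i => ¬ W i ∧ 2 * c (i + 1) - b (c (i + 1)) < 2 * c i - b (c i))
          (fun _ => 1) j (by simp [hW])]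
      omega
    · rw [sumW_succ_neg (lI c) j hW, sumW_succ_neg (uI b c) j hW,
        sumW_succ_pos (W := fun i => ¬ W i) (fun _ => 1) j hW]
      by_cases hd : 2 * c (j + 1) - b (c (j + 1)) < 2 * c j - b (c j)
      · rw [sumW_succ_pos (W := fun i => ¬ W i ∧ 2 * c (i + 1) - b (c (i + 1)) < 2 * c i - b (c i))
          (fun _ => 1) j ⟨hW, hd⟩]
        omega
      · rw [sumW_succ_neg (W := fun i => ¬ W i ∧ 2 * c (i + 1) - b (c (i + 1)) < 2 * c i - b (c i))
          (fun _ => 1) j (fun hc => hd hc.2)]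
        omega

/-- Independent sets under pairwise far steps add up. -/
theorem far_family {a : ℕ} (hα : IndBd G a) {w k : ℕ} (s : ℕ → Finset V)
    (hs1 : ∀ i, i < w → k < (s i).card)
    (hs2 : ∀ i, i < w → ∀ x ∈ s i, ∀ y ∈ s i, ¬ G.Adj x y)
    (hs3 : ∀ i i', i < i' → i' < w → ∀ x ∈ s i, ∀ y ∈ s i', x ≠ y ∧ ¬ G.Adj x y) :
    w * (k + 1) ≤ a := by
  classical
  let S := (Finset.range w).biUnion s
  have hdisj : ∀ i ∈ Finset.range w, ∀ i' ∈ Finset.range w, i ≠ i' → Disjoint (s i) (s i') := by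
    intro i hi i' hi' hne
    rw [Finset.mem_range] at hi hi'
    rw [Finset.disjoint_left]
    intro x hx hx'
    rcases (by omega : i < i' ∨ i' < i) with h1 | h1
    · exact (hs3 i i' h1 hi' x hx x hx').1 rfl
    · exact (hs3 i' i h1 hi x hx' x hx).1 rfl
  have hcard : w * (k + 1) ≤ S.card := by
    have h1 : S.card = ∑ i ∈ Finset.range w, (s i).card := Finset.card_biUnion hdisj
    rw [h1]
    have h2 : ∑ i ∈ Finset.range w, (k + 1) ≤ ∑ i ∈ Finset.range w, (s i).card := by
      apply Finset.sum_le_sum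
      intro i hi
      have := hs1 i (Finset.mem_range.mp hi)
      omega
    simpa using h2
  by_contra hcon
  have hlt : a < S.card := by omega
  obtain ⟨x, hx, y, hy, hxy⟩ := hα S hlt
  rw [Finset.mem_biUnion] at hx hy
  obtain ⟨i, hi, hxi⟩ := hx
  obtain ⟨i', hi', hyi⟩ := hy
  rw [Finset.mem_range] at hi hi'
  rcases lt_trichotomy i i' with h1 | h1 | h1
  · exact (hs3 i i' h1 hi' x hxi y hyi).2 hxy
  · subst h1; exact hs2 i hi x hxi y hyi hxy
  · exact (hs3 i' i h1 hi y hyi x hxi).2 hxy.symm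

end arc

/-- The closing step along an arc. -/
theorem closure {a m n : ℕ} {v : ℕ → V} {b : ℕ → ℕ} (h : Ch G a m n v b) (hend : b n = 2 * n)
    (hα : IndBd G a) (ha : 1 ≤ a) (hm : 3 * a + 3 ≤ m) {i₀ H₀ g : ℕ} (hi₀ : i₀ ≤ n)
    (hH : (H₀ = 0 ∧ g = 0) ∨ (H₀ = 1 ∧ g = 1) ∨ (H₀ = 2 ∧ g = 1))
    (hconn : ∀ H, H₀ ≤ H → H ≤ H₀ + g → Conn G v b n i₀ H)
    (hT : m ≤ b n - b i₀ + 1 + H₀)
    (hE : ∀ i, i₀ ≤ i → i < n → (i ≠ i₀ ∨ H₀ ≠ 0) → G.Adj (v (b i)) (v (b n)) →
      b n < b i + (m - 1))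
    (hz : ∀ i, i₀ ≤ i → i < n → Bare G a m v (b i) → b i + H₀ < b i₀ + (m - 2)) :
    ∃ g', CycF G m g' := by
  classical
  by_contra hno
  have hH2 : H₀ ≤ 2 := by omega
  have hin : i₀ < n := by
    by_contra hc
    have h0 : i₀ = n := by omega
    subst h0
    omega
  have hshort : ∀ i k, i₀ ≤ i → i < k → k ≤ n → (i ≠ i₀ ∨ H₀ ≠ 0) →
      G.Adj (v (b i)) (v (b k)) → b k ≤ b i + (m - 2) := by
    intro i k hi hik hk hne hadj
    by_cases hkn : k = n
    · subst hkn
      have := hE i hi hik hne hadj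
      omega
    · have := h.band k (by omega) (b i) (h.strict hik hk) hadj
      omega
  let R : ℕ → ℕ → Prop := fun i k => G.Adj (v (b i)) (v (b k)) ∧ b k ≤ b i + (m - 2)
  have hstep : ∀ i, i < n → R i (i + 1) := by
    intro i hi
    have h1 := h.mono i hi
    refine ⟨h.fan i hi _ h1 (le_refl _), ?_⟩
    have h2 := (h.up i hi.le).2
    have h3 := (h.up (i + 1) hi).1
    omega
  obtain ⟨r, c, hc0, hcr, hc1, hc2⟩ := exists_greedy R n hstep (n - i₀) i₀ rfl hi₀
  have hg : Gr G m n v b i₀ r c := by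
    refine ⟨hc0, hcr, fun j hj => (hc1 j hj).1, fun j hj => (hc1 j hj).2.1,
      fun j hj => (hc1 j hj).2.2, ?_⟩
    intro j j' hjj hj' hadj
    by_contra hcon
    exact hc2 j j' hjj hj' ⟨hadj, by omega⟩
  have hr1 : 1 ≤ r := by
    by_contra hcon
    have h0 : r = 0 := by omega
    subst h0
    rw [hc0] at hcr
    omega
  have hnoadj : ∀ j j', (c j ≠ i₀ ∨ H₀ ≠ 0) → j + 2 ≤ j' → j' ≤ r →
      ¬ G.Adj (v (b (c j))) (v (b (c j'))) := by
    intro j j' hne hjj hj' hadj
    have h1 := hg.ind j j' hjj hj' hadj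
    have h2 := hshort (c j) (c j') (hg.ge_i j (by omega)) (hg.lt (by omega) hj')
      (hg.le_n hj') hne hadj
    omega
  have hr : r ≤ 2 * a := by
    have h1 : ∀ j j', 1 ≤ j → j + 2 ≤ j' → j' ≤ r → ¬ G.Adj (v (b (c j))) (v (b (c j'))) := by
      intro j j' hj hjj hj'
      refine hnoadj j j' (Or.inl ?_) hjj hj'
      have h2 := hg.lt (show 0 < j by omega) (by omega)
      rw [hc0] at h2
      omega
    have := hg.count h hα (ε := 1) (ρ := (r + 1) / 2) h1 (Or.inr (by omega))
    omega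
  have hr2 : H₀ ≠ 0 → r + 1 ≤ 2 * a := by
    intro hne
    have := hg.count h hα (ε := 0) (ρ := r / 2 + 1)
      (fun j j' _ hjj hj' => hnoadj j j' (Or.inr hne) hjj hj') (Or.inr (by omega))
    omega
  obtain ⟨e, he⟩ : ∃ e, e + (r + 1) + H₀ = m := ⟨m - (r + 1) - H₀, by omega⟩
  have h2 : ∀ i, i < r → 2 * lI c i ≤ uI b c i := fun i hi => hg.two_l h hi
  obtain ⟨W, hWdef⟩ : ∃ W : ℕ → Prop, W = fun i => lI c i ≤ e := ⟨_, rfl⟩
  have hW : ∀ i, W i ↔ lI c i ≤ e := fun i => by rw [hWdef]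
  obtain ⟨Lo, hLo⟩ : ∃ Lo, Lo = sumW W (lI c) r := ⟨_, rfl⟩
  obtain ⟨Up, hUp⟩ : ∃ Up, Up = sumW W (uI b c) r := ⟨_, rfl⟩
  have hLU : 2 * Lo ≤ Up := by
    rw [hLo, hUp]
    exact sumW_double h2
  by_cases hUe : e ≤ Up
  · rw [hUp, hWdef] at hUe
    obtain ⟨W', _, h3, h4⟩ := select_items r h2 hUe
    exact hno (hg.hit h W' (hconn H₀ (le_refl _) (by omega)) (t := r + 1 + e)
      (by omega) (by omega) (by omega))
  by_cases hUg : e ≤ Up + g
  · have hg1 : g = 1 := by omega
    exact hno (hg.hit h W (hconn (H₀ + 1) (by omega) (by omega)) (t := r + e)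
      (by omega) (by omega) (by omega))
  have hfail : Up + g < e := by omega
  obtain ⟨k, hk⟩ : ∃ k, k = (Up + g + e + 1 - 2 * Lo) / 4 := ⟨_, rfl⟩
  -- under every long step there are many independent vertices
  have hbig : ∀ j, j < r → ¬ W j → ∃ s : Finset V,
      (∀ y ∈ s, ∃ i, c j < i ∧ i < c (j + 1) ∧ y = v (b i)) ∧ k < s.card ∧
        ∀ x ∈ s, ∀ y ∈ s, ¬ G.Adj x y := by
    intro j hj hWj
    by_contra hcon
    have hon : IndBdOn G (fun y => ∃ i, c j < i ∧ i < c (j + 1) ∧ y = v (b i)) k := by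
      intro s hs1 hs2
      by_contra hs3
      push Not at hs3
      exact hcon ⟨s, hs1, hs2, hs3⟩
    have hl : e < lI c j := by
      by_contra hc
      exact hWj ((hW j).mpr (by omega))
    have hl' : lI c j = c (j + 1) - c j - 1 := rfl
    have hinc := hg.inc j hj
    have hy := hg.le_n (j := j + 1) (by omega)
    by_cases hk0 : k = 0
    · obtain ⟨x, hx, y, hy', hxy⟩ := hon {v (b (c j + 1))} (by
        intro x hx
        rw [Finset.mem_singleton] at hx
        exact ⟨c j + 1, by omega, by omega, hx⟩) (by simp; omega)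
      rw [Finset.mem_singleton] at hx hy'
      rw [hx, hy'] at hxy
      exact G.loopless.irrefl _ hxy
    · have hspan := h.span_ge (show c j ≤ c j + (e - Lo - 2 * k) by omega) (by omega)
      refine hno (hg.big_reduce h hj hWj (k₀ := k) (ℓ := e - Lo - 2 * k) (H₀ := H₀) (g := g)
        (by omega) hon (by omega) hconn ?_ ?_ ?_)
      · rw [← hLo]; omega
      · rw [← hLo, ← hUp]; omega
      · rw [← hUp]; omega
  -- positions
  have hbm : ∀ j j', j ≤ j' → j' ≤ r → b (c j) ≤ b (c j') := fun j j' h1 h3 =>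
    h.monotone (hg.le h1 h3) (hg.le_n h3)
  have hsp : ∀ j, j < r → ¬ W j → b (c j) + (2 * e + 3) ≤ b (c (j + 1)) := by
    intro j hj hWj
    have hl : e < lI c j := by
      by_contra hc
      exact hWj ((hW j).mpr (by omega))
    have hl' : lI c j = c (j + 1) - c j - 1 := rfl
    have hinc := hg.inc j hj
    have hy := hg.le_n (j := j + 1) (by omega)
    have hspan := h.span_ge hinc.le hy
    have hst := h.strict hinc hy
    omega
  have hsp2 : ∀ j, j < r → ¬ W j → 2 * c (j + 1) - b (c (j + 1)) < 2 * c j - b (c j) →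
      b (c j) + (2 * e + 5) ≤ b (c (j + 1)) ∧ b (c j) + 1 = 2 * c j := by
    intro j hj hWj hd
    have hl : e < lI c j := by
      by_contra hc
      exact hWj ((hW j).mpr (by omega))
    have hl' : lI c j = c (j + 1) - c j - 1 := rfl
    have hinc := hg.inc j hj
    have hy := hg.le_n (j := j + 1) (by omega)
    have hu1 := h.up (c j) (by omega)
    have hu2 := h.up (c (j + 1)) hy
    omega
  -- the two counts
  obtain ⟨BigS, hBigS⟩ : ∃ S : Finset ℕ, S = (Finset.range r).filter (fun i => ¬ W i) := ⟨_, rfl⟩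
  obtain ⟨B1S, hB1S⟩ : ∃ S : Finset ℕ, S = (Finset.range r).filter
      (fun i => ¬ W i ∧ 2 * c (i + 1) - b (c (i + 1)) < 2 * c i - b (c i)) := ⟨_, rfl⟩
  have hJcard : sumW (fun i => ¬ W i) (fun _ => 1) r = BigS.card := by
    rw [hBigS]
    convert sumW_one_card (fun i => ¬ W i) r
  have hBcard : sumW (fun i => ¬ W i ∧ 2 * c (i + 1) - b (c (i + 1)) < 2 * c i - b (c i))
      (fun _ => 1) r = B1S.card := by
    rw [hB1S]
    convert sumW_one_card (fun i => ¬ W i ∧ 2 * c (i + 1) - b (c (i + 1)) < 2 * c i - b (c i)) r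
  have hinv := hg.sum_inv h W r (le_refl _)
  rw [hJcard, hBcard, hcr, hend, ← hLo, ← hUp] at hinv
  have hBigmem : ∀ i, i ∈ BigS ↔ i < r ∧ ¬ W i := by
    intro i
    rw [hBigS, Finset.mem_filter, Finset.mem_range]
  have hB1mem : ∀ i, i ∈ B1S ↔ i < r ∧ ¬ W i ∧
      2 * c (i + 1) - b (c (i + 1)) < 2 * c i - b (c i) := by
    intro i
    rw [hB1S, Finset.mem_filter, Finset.mem_range]
  -- there is a long step
  have hJ1 : 1 ≤ BigS.card := by
    by_contra hcon
    have h0 : BigS = ∅ := by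
      rw [← Finset.card_eq_zero]
      omega
    have hall : ∀ i, i < r → W i := by
      intro i hi
      by_contra hWi
      have : i ∈ BigS := (hBigmem i).mpr ⟨hi, hWi⟩
      rw [h0] at this
      simp at this
    have h3 := hg.sum_all h r (le_refl _) hall
    rw [hc0, hcr, ← hUp] at h3
    have h4 := h.strict hin (le_refl _)
    omega
  obtain ⟨j₀, hj₀⟩ : BigS.Nonempty := Finset.card_pos.mp (by omega)
  have hb1 : 2 * e + 5 ≤ m := by
    obtain ⟨h3, h4⟩ := (hBigmem j₀).mp hj₀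
    have h5 := hsp j₀ h3 h4
    have h6 := hg.short j₀ h3
    omega
  have hb2 : 1 ≤ B1S.card → 2 * e + 7 ≤ m := by
    intro h3
    obtain ⟨j₁, hj₁⟩ : B1S.Nonempty := Finset.card_pos.mp (by omega)
    obtain ⟨h4, h5, h6⟩ := (hB1mem j₁).mp hj₁
    have h7 := (hsp2 j₁ h4 h5 h6).1
    have h8 := hg.short j₁ h4
    omega
  -- few long steps start after a position with the window property
  have hB2 : B1S.card ≤ 2 := by
    by_contra hcon
    have hpos : ∀ j, j ∈ B1S → b (c j) + H₀ ≤ b i₀ + (m - 2) := by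
      intro j hj
      obtain ⟨h4, h5, h6⟩ := (hB1mem j).mp hj
      have h7 := (hsp2 j h4 h5 h6).2
      by_cases hci : c j = i₀
      · rw [hci]
        omega
      · have hge := hg.ge_i j (by omega)
        have hn := hg.le_n (j := j) (by omega)
        have h8 := h.zprev (c j) (by omega) hn h7
        have h9 := hz (c j - 1) (by omega) (by omega) h8.2
        omega
    obtain ⟨τ, hτ1, hτ2⟩ := exists_sorted B1S
    have a0 := (hB1mem _).mp (hτ1 0 (by omega))
    have a1 := (hB1mem _).mp (hτ1 1 (by omega))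
    have a2 := hτ1 2 (by omega)
    have h12 := hτ2 0 1 (by omega) (by omega)
    have h23 := hτ2 1 2 (by omega) (by omega)
    have h3 := hsp _ a0.1 a0.2.1
    have h4 := hsp _ a1.1 a1.2.1
    have h5 := hbm _ _ (show τ 0 + 1 ≤ τ 1 by omega) a1.1.le
    have h6 := hbm _ _ (show τ 1 + 1 ≤ τ 2 by omega) ((hB1mem _).mp a2).1.le
    have h7 := hbm 0 (τ 0) (by omega) a0.1.le
    rw [hc0] at h7
    have h8 := hpos _ a2
    omega
  -- many independent vertices under far steps
  have hfar : m ≤ 4 * e + 9 := by omega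
  have hfam : ∀ w, 1 ≤ w → 3 * (w - 1) + 1 ≤ BigS.card → w * (k + 1) ≤ a := by
    intro w hw1 hw2
    obtain ⟨τ, hτ1, hτ2⟩ := exists_sorted BigS
    have hmem : ∀ i, i < w → τ (3 * i) < r ∧ ¬ W (τ (3 * i)) := by
      intro i hi
      exact (hBigmem _).mp (hτ1 _ (by omega))
    have hch : ∀ i, ∃ s : Finset V, i < w → (∀ y ∈ s, ∃ p, c (τ (3 * i)) < p ∧
        p < c (τ (3 * i) + 1) ∧ y = v (b p)) ∧ k < s.card ∧ ∀ x ∈ s, ∀ y ∈ s, ¬ G.Adj x y := by
      intro i
      by_cases hi : i < w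
      · obtain ⟨s, hs⟩ := hbig _ (hmem i hi).1 (hmem i hi).2
        exact ⟨s, fun _ => hs⟩
      · exact ⟨∅, fun hc => absurd hc hi⟩
    choose s hs using hch
    refine far_family hα s (fun i hi => (hs i hi).2.1) (fun i hi => (hs i hi).2.2) ?_
    intro i i' hii hi' x hx y hy
    have hi : i < w := by omega
    obtain ⟨p, hp1, hp2, rfl⟩ := (hs i hi).1 x hx
    obtain ⟨p', hp'1, hp'2, rfl⟩ := (hs i' hi').1 y hy
    -- two long steps between the two
    have hb1 : τ (3 * i) < τ (3 * i + 1) := hτ2 _ _ (by omega) (by omega)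
    have hb2 : τ (3 * i + 1) < τ (3 * i + 2) := hτ2 _ _ (by omega) (by omega)
    have hb3 : τ (3 * i + 2) < τ (3 * i') := hτ2 _ _ (by omega) (by omega)
    have hm1 := (hBigmem _).mp (hτ1 (3 * i + 1) (by omega))
    have hm2 := (hBigmem _).mp (hτ1 (3 * i + 2) (by omega))
    have hm3 := hmem i' hi'
    have hm0 := hmem i hi
    have hs1 := hsp _ hm1.1 hm1.2
    have hs2 := hsp _ hm2.1 hm2.2
    have hc1' := hbm _ _ (show τ (3 * i) + 1 ≤ τ (3 * i + 1) by omega) hm1.1.le
    have hc2' := hbm _ _ (show τ (3 * i + 1) + 1 ≤ τ (3 * i + 2) by omega) hm2.1.le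
    have hc3' := hbm _ _ (show τ (3 * i + 2) + 1 ≤ τ (3 * i') by omega) hm3.1.le
    have hn0 := hg.le_n (j := τ (3 * i') + 1) (by omega)
    have hn1 := hg.le_n (j := τ (3 * i) + 1) (by omega)
    have hst1 := h.strict hp2 hn1
    have hst2 := h.strict hp'1 (show p' ≤ n by omega)
    have hL1 := h.monotone (show p' ≤ n by omega) (le_refl _)
    constructor
    · intro heq
      have := h.inj _ _ (by omega) (by omega) heq
      omega
    · intro hadj
      have hp'n : p' < n := by omega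
      have := h.band p' hp'n (b p) (by omega) hadj
      omega
  exact num_final hm hr hr2 hH he hfail (by omega) hLU hB2 hJ1 hb1 hb2 hk
    (fun h4 => hfam 2 (by omega) (by omega)) (fun h4 => hfam 3 (by omega) (by omega))
    (fun h4 => hfam 4 (by omega) (by omega))

end Vale.Agent.Lib.P048
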