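import Vale.Agent.Lib.P048.B5

/-!
Growing the chain, and the final theorem.
-/

namespace Vale.Agent.Lib.P048

open Finset

variable {V : Type*} {G : SimpleGraph V}

section ext

variable {a m B : ℕ} {v : ℕ → V} {b : ℕ → ℕ}

theorem Bare.congr {v' : ℕ → V} {q : ℕ} (h : Bare G a m v q) (hv : ∀ p, p ≤ q → v' p = v p) :
    Bare G a m v' q := by
  intro x hx1 hx2
  obtain ⟨p, hp1, hp2, hp3, hp4⟩ := h x hx1 hx2
  refine ⟨p, hp1, hp2, hp3, ?_⟩
  rw [hv p hp2.le, hv q (le_refl _)]
  exact hp4

/-- Appending `g` new vertices to the chain. -/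
theorem Ch.extend (h : Ch G a m B v b) {g : ℕ} (hg : 1 ≤ g) (f : ℕ → V)
    (hf_inj : ∀ i j, i < g → j < g → f i = f j → i = j)
    (hf_new : ∀ i p, i < g → p ≤ b B → v p ≠ f i)
    (hf_adj : ∀ i, i + 1 < g → G.Adj (f i) (f (i + 1)))
    (hf_fan : ∀ i, i < g → G.Adj (v (b B)) (f i))
    (hup : b B + g ≤ 2 * (B + 1) ∧ 2 * (B + 1) ≤ b B + g + 1)
    (hband : ∀ k, k < b B → G.Adj (v k) (v (b B)) → b B < k + (m - 1))
    (hz : b B + g + 1 = 2 * (B + 1) → g = 1 ∧ Bare G a m v (b B)) :
    ∃ v' b', Ch G a m (B + 1) v' b' ∧ b' (B + 1) = b B + g ∧ (∀ p, p ≤ b B → v' p = v p) ∧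
      (∀ i, i < g → v' (b B + 1 + i) = f i) ∧ (∀ i, i ≤ B → b' i = b i) := by
  let v' : ℕ → V := fun p => if p ≤ b B then v p else f (p - b B - 1)
  let b' : ℕ → ℕ := fun i => if i ≤ B then b i else b B + g
  have hv1 : ∀ p, p ≤ b B → v' p = v p := fun p hp => by simp [v', hp]
  have hv2 : ∀ p, b B < p → v' p = f (p - b B - 1) := fun p hp => by
    have : ¬ p ≤ b B := by omega
    simp [v', this]
  have hb1 : ∀ i, i ≤ B → b' i = b i := fun i hi => by simp [b', hi]
  have hb2 : b' (B + 1) = b B + g := by simp [b']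
  have hle : ∀ i, i ≤ B → b i ≤ b B := fun i hi => h.monotone hi (le_refl _)
  refine ⟨v', b', ?_, hb2, hv1, ?_, hb1⟩
  · refine ⟨?_, ?_, ?_, ?_, ?_, ?_, ?_⟩
    · rw [hb1 0 (by omega)]
      exact h.b0
    · rw [hb2]
      constructor
      · intro i j hi hj hij
        by_cases hi1 : i ≤ b B <;> by_cases hj1 : j ≤ b B
        · rw [hv1 i hi1, hv1 j hj1] at hij
          exact h.inj i j (by omega) (by omega) hij
        · rw [hv1 i hi1, hv2 j (by omega)] at hij
          exact absurd hij (hf_new _ _ (by omega) hi1)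
        · rw [hv2 i (by omega), hv1 j hj1] at hij
          exact absurd hij.symm (hf_new _ _ (by omega) hj1)
        · rw [hv2 i (by omega), hv2 j (by omega)] at hij
          have := hf_inj _ _ (by omega) (by omega) hij
          omega
      · intro i hi
        by_cases hi1 : i + 1 ≤ b B
        · rw [hv1 i (by omega), hv1 (i + 1) hi1]
          exact h.path.adj i (by omega)
        · by_cases hi2 : i = b B
          · subst hi2
            rw [hv1 _ (le_refl _), hv2 _ (by omega)]
            exact hf_fan _ (by omega)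
          · rw [hv2 i (by omega), hv2 (i + 1) (by omega)]
            have := hf_adj (i - b B - 1) (by omega)
            rwa [show i - b B - 1 + 1 = i + 1 - b B - 1 by omega] at this
    · intro i hi
      by_cases hi1 : i ≤ B
      · rw [hb1 i hi1]
        exact h.up i hi1
      · have : i = B + 1 := by omega
        subst this
        rw [hb2]
        exact hup
    · intro i hi
      by_cases hi1 : i = B
      · subst hi1
        rw [hb1 _ (le_refl _), hb2]
        omega
      · rw [hb1 i (by omega), hb1 (i + 1) (by omega)]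
        exact h.mono i (by omega)
    · intro i hi j hj1 hj2
      by_cases hi1 : i = B
      · subst hi1
        rw [hb1 _ (le_refl _)] at hj1 ⊢
        rw [hb2] at hj2
        rw [hv1 _ (le_refl _), hv2 j hj1]
        exact hf_fan _ (by omega)
      · rw [hb1 i (by omega)] at hj1 ⊢
        rw [hb1 (i + 1) (by omega)] at hj2
        have h1 := hle (i + 1) (by omega)
        have h2 := hle i (by omega)
        rw [hv1 _ h2, hv1 j (by omega)]
        exact h.fan i (by omega) j hj1 hj2
    · intro i hi k hk hadj
      by_cases hi1 : i = B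
      · subst hi1
        rw [hb1 _ (le_refl _)] at hk hadj ⊢
        rw [hv1 k hk.le, hv1 _ (le_refl _)] at hadj
        exact hband k hk hadj
      · rw [hb1 i (by omega)] at hk hadj ⊢
        have h2 := hle i (by omega)
        rw [hv1 k (by omega), hv1 _ h2] at hadj
        exact h.band i (by omega) k hk hadj
    · intro i hi1 hi2 hi3
      by_cases hi4 : i = B + 1
      · subst hi4
        rw [hb2] at hi3
        obtain ⟨h1, h2⟩ := hz hi3
        simp only [Nat.add_sub_cancel]
        rw [hb1 _ (le_refl _), hb2]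
        refine ⟨by omega, h2.congr (fun p hp => hv1 p hp)⟩
      · rw [hb1 i (by omega)] at hi3 ⊢
        rw [hb1 (i - 1) (by omega)]
        obtain ⟨h1, h2⟩ := h.zprev i hi1 (by omega) hi3
        refine ⟨h1, h2.congr (fun p hp => hv1 p ?_)⟩
        have := hle (i - 1) (by omega)
        omega
  · intro i hi
    rw [hv2 _ (by omega)]
    congr 1
    omega

/-- A connection through positions in front of the start of the arc. -/
theorem conn_of_positions {n i₀ H : ℕ} (h : Ch G a m B v b) (hn : n ≤ B) (hi₀ : i₀ ≤ n)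
    (hin : i₀ < n) (π : ℕ → ℕ)
    (hH : 1 ≤ H) (hπ1 : ∀ i, i < H → π i < b i₀)
    (hπ2 : ∀ i j, i < H → j < H → π i = π j → i = j)
    (hπ3 : ∀ i, i + 1 < H → G.Adj (v (π i)) (v (π (i + 1))))
    (hπ4 : G.Adj (v (b n)) (v (π 0))) (hπ5 : G.Adj (v (π (H - 1))) (v (b i₀))) :
    Conn G v b n i₀ H := by
  have hst : b i₀ < b n := h.strict hin hn
  have hn' : b n ≤ b B := h.monotone hn (le_refl _)
  refine ⟨fun j => if j = 0 then v (b n) else v (π (j - 1)), ⟨?_, ?_⟩, by simp, ?_, ?_⟩
  · intro i j hi hj hij
    by_cases hi0 : i = 0 <;> by_cases hj0 : j = 0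
    · omega
    · simp only [hi0, hj0, if_true, if_false] at hij
      have h1 := hπ1 (j - 1) (by omega)
      have := h.inj _ _ (by omega) (by omega) hij
      omega
    · simp only [hi0, hj0, if_true, if_false] at hij
      have h1 := hπ1 (i - 1) (by omega)
      have := h.inj _ _ (by omega) (by omega) hij
      omega
    · simp only [hi0, hj0, if_false] at hij
      have h1 := hπ1 (i - 1) (by omega)
      have h2 := hπ1 (j - 1) (by omega)
      have h3 := h.inj _ _ (by omega) (by omega) hij
      have := hπ2 _ _ (by omega) (by omega) h3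
      omega
  · intro i hi
    by_cases hi0 : i = 0
    · subst hi0
      simpa using hπ4
    · simp only [hi0, if_false, show i + 1 ≠ 0 by omega, Nat.add_sub_cancel]
      have := hπ3 (i - 1) (by omega)
      rwa [show i - 1 + 1 = i by omega] at this
  · simp only [show H ≠ 0 by omega, if_false]
    exact hπ5
  · intro j hj1 hj2
    refine ⟨π (j - 1), hπ1 _ (by omega), by simp [show j ≠ 0 by omega]⟩


/-- The closing step at the end of the chain. -/
theorem Ch.far_close (h : Ch G a m B v b) (hend : b B = 2 * B) (hα : IndBd G a) (ha : 1 ≤ a)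
    (hm : 3 * a + 3 ≤ m) (hex : ∃ p, p < b B ∧ G.Adj (v p) (v (b B)) ∧ p + (m - 1) ≤ b B) :
    ∃ g, CycF G m g := by
  classical
  let F := (Finset.range (b B)).filter (fun p => G.Adj (v p) (v (b B)) ∧ p + (m - 1) ≤ b B)
  have hF : F.Nonempty := by
    obtain ⟨p, h1, h2, h3⟩ := hex
    exact ⟨p, by simp [F, h1, h2, h3]⟩
  let x₀ := F.max' hF
  have hx₀ : x₀ ∈ F := Finset.max'_mem _ _
  simp only [F, Finset.mem_filter, Finset.mem_range] at hx₀
  obtain ⟨hx1, hx2, hx3⟩ := hx₀
  have hmax : ∀ p, x₀ < p → p < b B → G.Adj (v p) (v (b B)) → b B < p + (m - 1) := by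
    intro p hp1 hp2 hp3
    by_contra hcon
    have hmem : p ∈ F := by
      simp only [F, Finset.mem_filter, Finset.mem_range]
      exact ⟨hp2, hp3, by omega⟩
    have := Finset.le_max' _ _ hmem
    have hdef : x₀ = F.max' hF := rfl
    omega
  by_cases hC : ∃ i, i < B ∧ Bare G a m v (b i) ∧ x₀ + (m - 2) ≤ b i
  · obtain ⟨i, hi1, hi2, hi3⟩ := hC
    exact h.case_one hα ha hm hi1 hi2 hi3 hx2.symm (by omega)
  have hB1 : 1 ≤ B := by
    by_contra hcon
    have : B = 0 := by omega
    subst this
    rw [h.b0] at hx1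
    omega
  let S := (Finset.range (B + 1)).filter (fun i => x₀ ≤ b i)
  have hS : S.Nonempty := ⟨B, by simp [S]; omega⟩
  let i₀ := S.min' hS
  have hi₀ : i₀ ∈ S := Finset.min'_mem _ _
  simp only [S, Finset.mem_filter, Finset.mem_range] at hi₀
  obtain ⟨hi1, hi2⟩ := hi₀
  have hmin : ∀ i, i < i₀ → b i < x₀ := by
    intro i hi
    by_contra hcon
    have hmem : i ∈ S := by
      simp only [S, Finset.mem_filter, Finset.mem_range]
      exact ⟨by omega, by omega⟩
    have := Finset.min'_le _ _ hmem
    have hdef : i₀ = S.min' hS := rfl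
    omega
  have hi₀B : i₀ ≤ B := by omega
  by_cases hbase : b i₀ = x₀
  · refine closure h hend hα ha hm (i₀ := i₀) (H₀ := 0) (g := 0) hi₀B (Or.inl ⟨rfl, rfl⟩) ?_
      (by omega) ?_ ?_
    · intro H hH1 hH2
      have : H = 0 := by omega
      subst this
      refine ⟨fun _ => v (b B), ⟨?_, ?_⟩, rfl, ?_, ?_⟩
      · intro i j hi hj _; omega
      · intro i hi; omega
      · rw [hbase]; exact hx2.symm
      · intro j h1 h2; omega
    · intro i hi3 hi4 hi5 hadj
      have hne : i ≠ i₀ := by
        rcases hi5 with h1 | h1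
        · exact h1
        · exact absurd rfl h1
      have h1 := h.strict (show i₀ < i by omega) (by omega)
      have h2 := h.strict hi4 (le_refl _)
      exact hmax _ (by omega) h2 hadj
    · intro i hi3 hi4 hi5
      by_contra hcon
      exact hC ⟨i, hi4, hi5, by omega⟩
  · have hlt : x₀ < b i₀ := by omega
    have hi₀1 : 1 ≤ i₀ := by
      by_contra hcon
      have : i₀ = 0 := by omega
      rw [this, h.b0] at hlt
      omega
    have hprev := hmin (i₀ - 1) (by omega)
    have hup1 := (h.up (i₀ - 1) (by omega)).2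
    have hup2 := (h.up i₀ hi₀B).1
    have hst : b i₀ < b B + 1 := by
      have := h.monotone hi₀B (le_refl _)
      omega
    have hfan : ∀ j, b (i₀ - 1) < j → j ≤ b i₀ → G.Adj (v (b (i₀ - 1))) (v j) := by
      intro j h1 h2
      have := h.fan (i₀ - 1) (by omega) j h1
      rw [show i₀ - 1 + 1 = i₀ by omega] at this
      exact this h2
    have hin : i₀ < B := by
      by_contra hcon
      have : i₀ = B := by omega
      rw [this] at hup2 hlt
      omega
    have hH₀ : ∃ H₀, H₀ + x₀ = b i₀ ∧ (H₀ = 1 ∨ H₀ = 2) := ⟨b i₀ - x₀, by omega, by omega⟩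
    obtain ⟨H₀, hH₁, hH₂⟩ := hH₀
    refine closure h hend hα ha hm (i₀ := i₀) (H₀ := H₀) (g := 1) hi₀B (by omega) ?_
      (by omega) ?_ ?_
    · intro H hH3 hH4
      rcases (by omega : H = H₀ ∨ H = H₀ + 1) with rfl | rfl
      · refine conn_of_positions h (le_refl _) hi₀B hin (fun i => x₀ + i) (by omega) ?_ ?_ ?_ ?_ ?_
        · intro i hi; omega
        · intro i j hi hj hij; omega
        · intro i hi
          exact h.path.adj (x₀ + i) (by omega)
        · exact hx2.symm
        · have := h.path.adj (x₀ + (H - 1)) (by omega)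
          rwa [show x₀ + (H - 1) + 1 = b i₀ by omega] at this
      · obtain ⟨π, hπ0, hπ1, hπ2⟩ : ∃ π : ℕ → ℕ, π 0 = x₀ ∧ π 1 = b (i₀ - 1) ∧
            ∀ i, 2 ≤ i → π i = x₀ + i - 1 :=
          ⟨fun i => if i = 0 then x₀ else if i = 1 then b (i₀ - 1) else x₀ + i - 1, by simp,
            by simp, fun i hi => by simp [show i ≠ 0 by omega, show i ≠ 1 by omega]⟩
        have hcases : ∀ i : ℕ, i = 0 ∨ i = 1 ∨ 2 ≤ i := fun i => by omega
        refine conn_of_positions h (le_refl _) hi₀B hin π (by omega) ?_ ?_ ?_ ?_ ?_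
        · intro i hi
          rcases hcases i with rfl | rfl | h0
          · rw [hπ0]; omega
          · rw [hπ1]; omega
          · rw [hπ2 i h0]; omega
        · intro i j hi hj hij
          rcases hcases i with rfl | rfl | h0 <;> rcases hcases j with rfl | rfl | h1
          · rfl
          · rw [hπ0, hπ1] at hij; omega
          · rw [hπ0, hπ2 j h1] at hij; omega
          · rw [hπ0, hπ1] at hij; omega
          · rfl
          · rw [hπ1, hπ2 j h1] at hij; omega
          · rw [hπ0, hπ2 i h0] at hij; omega
          · rw [hπ1, hπ2 i h0] at hij; omega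
          · rw [hπ2 i h0, hπ2 j h1] at hij; omega
        · intro i hi
          rcases hcases i with rfl | rfl | h0
          · rw [show 0 + 1 = 1 by omega, hπ0, hπ1]
            exact (hfan x₀ hprev hlt.le).symm
          · rw [show 1 + 1 = 2 by omega, hπ1, hπ2 2 (le_refl _)]
            exact hfan _ (by omega) (by omega)
          · rw [hπ2 i h0, hπ2 (i + 1) (by omega)]
            have := h.path.adj (x₀ + i - 1) (by omega)
            rwa [show x₀ + i - 1 + 1 = x₀ + (i + 1) - 1 by omega] at this
        · rw [hπ0]; exact hx2.symm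
        · rcases hH₂ with rfl | rfl
          · rw [show 1 + 1 - 1 = 1 by omega, hπ1]
            exact hfan _ (by omega) (le_refl _)
          · rw [show 2 + 1 - 1 = 2 by omega, hπ2 2 (le_refl _)]
            have := h.path.adj (x₀ + 2 - 1) (by omega)
            rwa [show x₀ + 2 - 1 + 1 = b i₀ by omega] at this
    · intro i hi3 hi4 _ hadj
      have h1 := h.monotone hi3 (show i ≤ B by omega)
      have h2 := h.strict hi4 (le_refl _)
      exact hmax _ (by omega) h2 hadj
    · intro i hi3 hi4 hi5
      by_contra hcon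
      exact hC ⟨i, hi4, hi5, by omega⟩

/-- The window property of the end of the path, by counting its neighbours. -/
theorem bare_of_count' [DecidableEq V] {L : ℕ} (h : PathF G L v) (hL2 : 2 ≤ L) (Se : Finset V)
    (hSe1 : m - 1 ≤ Se.card) (hSe2 : ∀ y ∈ Se, G.Adj (v (L - 1)) y)
    (hO : (Se \ (range L).image v).card ≤ a)
    (hfar : ∀ i, i < L → G.Adj (v i) (v (L - 1)) → L - 1 < i + (m - 1)) :
    ∀ x, x < L - 1 → L - 1 ≤ x + (m - 2) →
      ∃ q, x ≤ q ∧ q < L - 1 ∧ q < x + a ∧ G.Adj (v q) (v (L - 1)) := by
  intro x hx1 hx2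
  by_cases hxa : L - 1 ≤ x + a
  · refine ⟨L - 2, by omega, by omega, by omega, ?_⟩
    have := h.adj (L - 2) (by omega)
    rwa [show L - 2 + 1 = L - 1 by omega] at this
  · by_contra hne
    push Not at hne
    let J := Finset.Ico (L - 1 - (m - 2)) x ∪ Finset.Ico (x + a) (L - 1)
    have hJ : J.card ≤ (x - (L - 1 - (m - 2))) + (L - 1 - (x + a)) := by
      refine (Finset.card_union_le _ _).trans ?_
      rw [Nat.card_Ico, Nat.card_Ico]
    have hsub : Se ⊆ (Se \ (range L).image v) ∪ J.image v := by
      intro y hy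
      by_cases hyU : y ∈ (range L).image v
      · rw [Finset.mem_image] at hyU
        obtain ⟨i, hi, rfl⟩ := hyU
        rw [Finset.mem_range] at hi
        have hadj := (hSe2 _ hy).symm
        refine Finset.mem_union_right _ (Finset.mem_image_of_mem v ?_)
        have hi1 : i ≠ L - 1 := by
          intro hh
          rw [hh] at hadj
          exact G.loopless.irrefl _ hadj
        have hi2 := hfar i hi hadj
        have hi3 : ¬ (x ≤ i ∧ i < x + a) := by
          rintro ⟨h1, h2⟩
          exact hne i h1 (by omega) h2 hadj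
        simp only [J, Finset.mem_union, Finset.mem_Ico]
        omega
      · exact Finset.mem_union_left _ (Finset.mem_sdiff.mpr ⟨hy, hyU⟩)
    have hc := Finset.card_le_card hsub
    have hc2 := Finset.card_union_le (Se \ (range L).image v) (J.image v)
    have hc3 : (J.image v).card ≤ J.card := Finset.card_image_le
    omega

/-- The last stage: no edges outside the path, and all neighbours of the end are close. -/
theorem stage_one' [DecidableEq V] {L : ℕ} (hα : IndBd G a) (h : PathF G L v) (hL2 : 2 ≤ L)
    (Se : Finset V) (hSe1 : m - 1 ≤ Se.card) (hSe2 : ∀ y ∈ Se, G.Adj (v (L - 1)) y)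
    (hS : ∀ z ∈ Se \ (range L).image v, ∃ S : Finset V, S ⊆ (range L).image v ∧ a ≤ S.card ∧
      ∀ y ∈ S, G.Adj z y)
    (hfar : ∀ i, i < L → G.Adj (v i) (v (L - 1)) → L - 1 < i + (m - 1))
    (hfar2 : ∀ z ∈ Se \ (range L).image v, ∀ i, i < L → G.Adj z (v i) → L < i + (m - 1)) :
    ∃ g, CycF G m g := by
  classical
  let O := Se \ (range L).image v
  have hOdef : O = Se \ (range L).image v := rfl
  have hOU : ∀ z ∈ O, ∀ i, i < L → v i ≠ z := by
    intro z hz i hi hh
    rw [hOdef, Finset.mem_sdiff] at hz
    exact hz.2 (Finset.mem_image.mpr ⟨i, Finset.mem_range.mpr hi, hh⟩)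
  have hOadj : ∀ z ∈ O, G.Adj (v (L - 1)) z := by
    intro z hz
    rw [hOdef, Finset.mem_sdiff] at hz
    exact hSe2 z hz.1
  let P := (Finset.range L).filter
    (fun i => G.Adj (v i) (v (L - 1)) ∨ ∃ z ∈ O, G.Adj z (v i))
  have hPne : P.Nonempty := by
    refine ⟨L - 2, ?_⟩
    simp only [P, Finset.mem_filter, Finset.mem_range]
    refine ⟨by omega, Or.inl ?_⟩
    have := h.adj (L - 2) (by omega)
    rwa [show L - 2 + 1 = L - 1 by omega] at this
  let p := P.min' hPne
  have hpP : p ∈ P := Finset.min'_mem _ _
  simp only [P, Finset.mem_filter, Finset.mem_range] at hpP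
  obtain ⟨hpL, hpadj⟩ := hpP
  have hpmin : ∀ i, i < L → (G.Adj (v i) (v (L - 1)) ∨ ∃ z ∈ O, G.Adj z (v i)) → p ≤ i := by
    intro i hi hi2
    apply Finset.min'_le
    simp only [P, Finset.mem_filter, Finset.mem_range]
    exact ⟨hi, hi2⟩
  let R := (Finset.Ico p L).image v
  have hRmem : ∀ i, p ≤ i → i < L → v i ∈ R := fun i h1 h2 =>
    Finset.mem_image_of_mem v (Finset.mem_Ico.mpr ⟨h1, h2⟩)
  let X := R ∪ O
  have hX : m ≤ X.card := by
    have hp2 : p ≤ L - 1 := by omega
    have hsub : insert (v (L - 1)) Se ⊆ X := by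
      intro y hy
      rw [Finset.mem_insert] at hy
      rcases hy with rfl | hy
      · exact Finset.mem_union_left _ (hRmem _ hp2 (by omega))
      · by_cases hyU : y ∈ (range L).image v
        · rw [Finset.mem_image] at hyU
          obtain ⟨i, hi, rfl⟩ := hyU
          rw [Finset.mem_range] at hi
          exact Finset.mem_union_left _
            (hRmem i (hpmin i hi (Or.inl (hSe2 _ hy).symm)) hi)
        · exact Finset.mem_union_right _ (Finset.mem_sdiff.mpr ⟨hy, hyU⟩)
    have hc := Finset.card_le_card hsub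
    have hn : v (L - 1) ∉ Se := fun hh => G.loopless.irrefl _ (hSe2 _ hh)
    rw [Finset.card_insert_of_notMem hn] at hc
    omega
  have hcore : ∀ z, z ∈ X → z ∉ R → ∃ S : Finset V, S ⊆ R ∧ a ≤ S.card ∧ ∀ y ∈ S, G.Adj z y := by
    intro z hz hzR
    rw [Finset.mem_union] at hz
    have hzO : z ∈ O := by
      rcases hz with hz | hz
      · exact absurd hz hzR
      · exact hz
    obtain ⟨S, hS1, hS2, hS3⟩ := hS z hzO
    refine ⟨S, ?_, hS2, hS3⟩
    intro y hy
    have hyU := hS1 hy
    rw [Finset.mem_image] at hyU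
    obtain ⟨i, hi, rfl⟩ := hyU
    rw [Finset.mem_range] at hi
    exact hRmem i (hpmin i hi (Or.inr ⟨z, hzO, hS3 _ hy⟩)) hi
  rcases hpadj with hp1 | ⟨z₀, hz₀, hp1⟩
  · -- a cycle through the path alone
    have hpf := hfar p hpL hp1
    have hcyc : CycF G (L - p) (fun i => v (p + i)) := by
      refine ⟨⟨?_, ?_⟩, ?_⟩
      · intro x y hx hy hxy
        have := h.inj _ _ (by omega) (by omega) hxy
        omega
      · intro i hi
        exact h.adj (p + i) (by omega)
      · have h1 : p + (L - p - 1) = L - 1 := by omega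
        show G.Adj (v (p + (L - p - 1))) (v (p + 0))
        rw [h1]
        exact hp1.symm
    refine grow_cycle hα R X hcore hX (m - (L - p)) (L - p) _ (by omega) (by omega) hcyc ?_ ?_
    · intro y hy
      rw [Finset.mem_image] at hy
      obtain ⟨k, hk, rfl⟩ := hy
      rw [Finset.mem_Ico] at hk
      exact ⟨k - p, by omega, by show v (p + (k - p)) = v k; rw [show p + (k - p) = k by omega]⟩
    · intro i hi
      exact Finset.mem_union_left _ (hRmem _ (by omega) (by omega))
  · -- a cycle through the path and one extra vertex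
    have hpf := hfar2 z₀ hz₀ p hpL hp1
    have hne := hOU z₀ hz₀
    let g : ℕ → V := fun i => if i < L - p then v (p + i) else z₀
    have hg1 : ∀ i, i < L - p → g i = v (p + i) := fun i hi => by simp [g, hi]
    have hg2 : g (L - p) = z₀ := by simp [g]
    have hcyc : CycF G (L - p + 1) g := by
      refine ⟨⟨?_, ?_⟩, ?_⟩
      · intro x y hx hy hxy
        by_cases hx1 : x < L - p <;> by_cases hy1 : y < L - p
        · rw [hg1 x hx1, hg1 y hy1] at hxy
          have := h.inj _ _ (by omega) (by omega) hxy
          omega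
        · have : y = L - p := by omega
          subst this
          rw [hg1 x hx1, hg2] at hxy
          exact absurd hxy (hne _ (by omega))
        · have : x = L - p := by omega
          subst this
          rw [hg1 y hy1, hg2] at hxy
          exact absurd hxy.symm (hne _ (by omega))
        · omega
      · intro i hi
        by_cases hi1 : i + 1 < L - p
        · rw [hg1 i (by omega), hg1 (i + 1) hi1]
          exact h.adj (p + i) (by omega)
        · have h1 : i + 1 = L - p := by omega
          rw [hg1 i (by omega), h1, hg2]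
          have h2 : p + i = L - 1 := by omega
          rw [h2]
          exact hOadj z₀ hz₀
      · have h1 : L - p + 1 - 1 = L - p := by omega
        rw [h1, hg2, hg1 0 (by omega)]
        exact hp1
    refine grow_cycle hα R X hcore hX (m - (L - p + 1)) (L - p + 1) g (by omega) (by omega)
      hcyc ?_ ?_
    · intro y hy
      rw [Finset.mem_image] at hy
      obtain ⟨k, hk, rfl⟩ := hy
      rw [Finset.mem_Ico] at hk
      refine ⟨k - p, by omega, ?_⟩
      rw [hg1 _ (by omega), show p + (k - p) = k by omega]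
    · intro i hi
      by_cases hi1 : i < L - p
      · rw [hg1 i hi1]
        exact Finset.mem_union_left _ (hRmem _ (by omega) (by omega))
      · have : i = L - p := by omega
        subst this
        rw [hg2]
        exact Finset.mem_union_right _ hz₀


/-- One round of the construction. -/
theorem Ch.process (h : Ch G a m B v b) (hend : b B = 2 * B) (hα : IndBd G a) (ha : 1 ≤ a)
    (hm : 3 * a + 3 ≤ m) (hδ : ∀ x, ∃ S : Finset V, m - 1 ≤ S.card ∧ ∀ y ∈ S, G.Adj x y) :
    (∃ g, CycF G m g) ∨ ∃ B' v' b', B < B' ∧ Ch G a m B' v' b' ∧ b' B' = 2 * B' := by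
  classical
  obtain ⟨Se, hSe1, hSe2⟩ := hδ (v (b B))
  by_cases hfar : ∃ p, p < b B ∧ G.Adj (v p) (v (b B)) ∧ p + (m - 1) ≤ b B
  · exact Or.inl (h.far_close hend hα ha hm hfar)
  have hband : ∀ k, k < b B → G.Adj (v k) (v (b B)) → b B < k + (m - 1) := by
    intro k hk hadj
    by_contra hcon
    exact hfar ⟨k, hk, hadj, by omega⟩
  let U := (range (b B + 1)).image v
  have hUdef : U = (range (b B + 1)).image v := rfl
  have hnotU : ∀ {y : V}, y ∉ U → ∀ p, p ≤ b B → v p ≠ y := by
    intro y hy p hp heq
    exact hy (Finset.mem_image.mpr ⟨p, Finset.mem_range.mpr (by omega), heq⟩)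
  by_cases hO : a < (Se \ U).card
  · -- a triangle at the end
    obtain ⟨w, hw, w', hw', hww⟩ := hα _ hO
    rw [Finset.mem_sdiff] at hw hw'
    obtain ⟨v', b', hch, hb', _⟩ := h.extend (g := 2) (by omega)
      (fun i => if i = 0 then w else w')
      (by
        intro i j hi hj hij
        by_cases hi0 : i = 0 <;> by_cases hj0 : j = 0
        · omega
        · simp only [hi0, hj0, if_true, if_false] at hij
          exact absurd hij hww.ne
        · simp only [hi0, hj0, if_true, if_false] at hij
          exact absurd hij.symm hww.ne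
        · omega)
      (by
        intro i p hi hp
        by_cases hi0 : i = 0
        · simp only [hi0, if_true]; exact hnotU hw.2 p hp
        · simp only [hi0, if_false]; exact hnotU hw'.2 p hp)
      (by
        intro i hi
        have : i = 0 := by omega
        subst this
        simpa using hww)
      (by
        intro i hi
        by_cases hi0 : i = 0
        · simp only [hi0, if_true]; exact hSe2 _ hw.1
        · simp only [hi0, if_false]; exact hSe2 _ hw'.1)
      (by omega) hband (by omega)
    exact Or.inr ⟨B + 1, v', b', by omega, hch, by omega⟩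
  have hO' : (Se \ U).card ≤ a := by omega
  have hB1 : 1 ≤ B := by
    by_contra hcon
    have hB0 : B = 0 := by omega
    subst hB0
    have hsub : Se ⊆ Se \ U := by
      intro y hy
      refine Finset.mem_sdiff.mpr ⟨hy, ?_⟩
      intro hyU
      rw [hUdef, Finset.mem_image] at hyU
      obtain ⟨i, hi, rfl⟩ := hyU
      rw [Finset.mem_range] at hi
      have hi0 : i = b 0 := by omega
      subst hi0
      exact G.loopless.irrefl _ (hSe2 _ hy)
    have := Finset.card_le_card hsub
    omega
  have hbare : Bare G a m v (b B) := by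
    have h1 := bare_of_count' (a := a) (m := m) (L := b B + 1) h.path (by omega) Se hSe1
      (by simpa using hSe2) hO' (by
        intro i hi hadj
        have h2 : b B + 1 - 1 = b B := by omega
        rw [h2] at hadj ⊢
        by_cases hib : i = b B
        · subst hib
          exact absurd hadj (G.loopless.irrefl _)
        · exact hband i (by omega) hadj)
    intro x hx1 hx2
    have h2 : b B + 1 - 1 = b B := by omega
    have := h1 x (by omega) (by omega)
    rwa [h2] at this
  have hzU : ∀ z ∈ Se \ U, ∀ p, p ≤ b B → v p ≠ z := fun z hz =>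
    hnotU (Finset.mem_sdiff.mp hz).2
  have hzadj : ∀ z ∈ Se \ U, G.Adj (v (b B)) z := fun z hz => hSe2 z (Finset.mem_sdiff.mp hz).1
  -- appending a vertex outside the path
  have hzext : ∀ z ∈ Se \ U, ∃ v₁ b₁, Ch G a m (B + 1) v₁ b₁ ∧ b₁ (B + 1) = b B + 1 ∧
      (∀ p, p ≤ b B → v₁ p = v p) ∧ v₁ (b B + 1) = z ∧ (∀ i, i ≤ B → b₁ i = b i) := by
    intro z hz
    obtain ⟨v₁, b₁, hch, hb, hv, hf, hb2⟩ := h.extend (g := 1) (by omega) (fun _ => z)
      (by intro i j hi hj _; omega)
      (fun i p _ hp => hzU z hz p hp)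
      (by intro i hi; omega)
      (fun _ _ => hzadj z hz)
      (by omega) hband
      (fun _ => ⟨rfl, hbare⟩)
    exact ⟨v₁, b₁, hch, hb, hv, by simpa using hf 0 (by omega), hb2⟩
  by_cases hz : ∃ z ∈ Se \ U, ∃ Sz : Finset V, (∀ y ∈ Sz, G.Adj z y) ∧ 2 * a < (Sz \ U).card
  · obtain ⟨z, hz1, Sz, hSz, hSz2⟩ := hz
    obtain ⟨w₁, hw₁, w₂, hw₂, w₃, hw₃, h12, h23, h13⟩ := exists_cherry hα _ hSz2
    rw [Finset.mem_sdiff] at hw₁ hw₂ hw₃
    obtain ⟨v₁, b₁, hch, hb, hv, hvz, hb2⟩ := hzext z hz1
    by_cases hfz : ∃ p, p < b₁ (B + 1) ∧ G.Adj (v₁ p) (v₁ (b₁ (B + 1))) ∧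
        p + (m - 1) ≤ b₁ (B + 1)
    · obtain ⟨p, hp1, hp2, hp3⟩ := hfz
      refine Or.inl (hch.case_one hα ha hm (i := B) (x₀ := p) (by omega) ?_ ?_ hp2.symm hp3)
      · rw [hb2 B (le_refl _)]
        exact hbare.congr hv
      · rw [hb2 B (le_refl _)]
        omega
    have hband₁ : ∀ k, k < b₁ (B + 1) → G.Adj (v₁ k) (v₁ (b₁ (B + 1))) →
        b₁ (B + 1) < k + (m - 1) := by
      intro k hk hadj
      by_contra hcon
      exact hfz ⟨k, hk, hadj, by omega⟩
    have hnew : ∀ {y : V}, y ∈ Sz → y ∉ U → ∀ p, p ≤ b₁ (B + 1) → v₁ p ≠ y := by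
      intro y hy1 hy2 p hp heq
      rw [hb] at hp
      by_cases hp1 : p ≤ b B
      · rw [hv p hp1] at heq
        exact hnotU hy2 p hp1 heq
      · have : p = b B + 1 := by omega
        subst this
        rw [hvz] at heq
        exact (hSz y hy1).ne heq
    have hfanz : ∀ {y : V}, y ∈ Sz → G.Adj (v₁ (b₁ (B + 1))) y := by
      intro y hy
      rw [hb, hvz]
      exact hSz y hy
    obtain ⟨v₂, b₂, hch₂, hb₂, _⟩ := hch.extend (g := 3) (by omega)
      (fun i => if i = 0 then w₁ else if i = 1 then w₂ else w₃)
      (by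
        intro i j hi hj hij
        have hi' : i = 0 ∨ i = 1 ∨ i = 2 := by omega
        have hj' : j = 0 ∨ j = 1 ∨ j = 2 := by omega
        rcases hi' with rfl | rfl | rfl <;> rcases hj' with rfl | rfl | rfl <;>
          simp only [show (1 = 0) = False by simp, show (2 = 0) = False by simp,
            show (2 = 1) = False by simp, if_true, if_false] at hij ⊢
        · exact absurd hij h12.ne
        · exact absurd hij h13
        · exact absurd hij.symm h12.ne
        · exact absurd hij h23.ne
        · exact absurd hij.symm h13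
        · exact absurd hij.symm h23.ne)
      (by
        intro i p hi hp
        have hi' : i = 0 ∨ i = 1 ∨ i = 2 := by omega
        rcases hi' with rfl | rfl | rfl <;>
          simp only [show (1 = 0) = False by simp, show (2 = 0) = False by simp,
            show (2 = 1) = False by simp, if_true, if_false]
        · exact hnew hw₁.1 hw₁.2 p hp
        · exact hnew hw₂.1 hw₂.2 p hp
        · exact hnew hw₃.1 hw₃.2 p hp)
      (by
        intro i hi
        have hi' : i = 0 ∨ i = 1 := by omega
        rcases hi' with rfl | rfl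
        · simpa using h12
        · simpa using h23)
      (by
        intro i hi
        have hi' : i = 0 ∨ i = 1 ∨ i = 2 := by omega
        rcases hi' with rfl | rfl | rfl <;>
          simp only [show (1 = 0) = False by simp, show (2 = 0) = False by simp,
            show (2 = 1) = False by simp, if_true, if_false]
        · exact hfanz hw₁.1
        · exact hfanz hw₂.1
        · exact hfanz hw₃.1)
      (by omega) hband₁ (by omega)
    exact Or.inr ⟨B + 1 + 1, v₂, b₂, by omega, hch₂, by omega⟩
  -- no vertex outside the path has many neighbours outside the path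
  have hz' : ∀ z ∈ Se \ U, ∃ S : Finset V, S ⊆ U ∧ a ≤ S.card ∧ ∀ y ∈ S, G.Adj z y := by
    intro z hz1
    obtain ⟨Sz, hSz1, hSz2⟩ := hδ z
    have hsmall : (Sz \ U).card ≤ 2 * a := by
      by_contra hh
      exact hz ⟨z, hz1, Sz, hSz2, by omega⟩
    refine ⟨Sz ∩ U, Finset.inter_subset_right, ?_, fun y hy => hSz2 y (Finset.mem_inter.mp hy).1⟩
    have hc := Finset.card_sdiff_add_card_inter Sz U
    omega
  by_cases hfar2 : ∃ z ∈ Se \ U, ∃ p, p < b B + 1 ∧ G.Adj z (v p) ∧ p + (m - 1) ≤ b B + 1
  · obtain ⟨z, hz1, p, hp1, hp2, hp3⟩ := hfar2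
    obtain ⟨v₁, b₁, hch, hb, hv, hvz, hb2⟩ := hzext z hz1
    refine Or.inl (hch.case_one hα ha hm (i := B) (x₀ := p) (by omega) ?_ ?_ ?_ (by omega))
    · rw [hb2 B (le_refl _)]
      exact hbare.congr hv
    · rw [hb2 B (le_refl _)]
      omega
    · rw [hb, hvz, hv p (by omega)]
      exact hp2
  have hfar2' : ∀ z ∈ Se \ U, ∀ i, i < b B + 1 → G.Adj z (v i) → b B + 1 < i + (m - 1) := by
    intro z hz1 i hi hia
    by_contra hh
    exact hfar2 ⟨z, hz1, i, hi, hia, by omega⟩
  refine Or.inl (stage_one' (L := b B + 1) hα h.path (by omega) Se hSe1 (by simpa using hSe2)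
    hz' ?_ hfar2')
  intro i hi hadj
  have h2 : b B + 1 - 1 = b B := by omega
  rw [h2] at hadj ⊢
  by_cases hib : i = b B
  · subst hib
    exact absurd hadj (G.loopless.irrefl _)
  · exact hband i (by omega) hadj

end ext

/-- The theorem for graphs of large minimum degree. -/
theorem min_deg_cycle3 [Fintype V] {a m : ℕ} (hα : IndBd G a) (ha : 1 ≤ a) (hm : 3 * a + 3 ≤ m)
    (hδ : ∀ x, ∃ S : Finset V, m - 1 ≤ S.card ∧ ∀ y ∈ S, G.Adj x y) (x₀ : V) :
    ∃ g, CycF G m g := by
  classical
  have key : ∀ (d B : ℕ) (v : ℕ → V) (b : ℕ → ℕ), Fintype.card V < b B + 1 + d →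
      Ch G a m B v b → b B = 2 * B → ∃ g, CycF G m g := by
    intro d
    induction d using Nat.strong_induction_on with
    | _ d ih =>
      intro B v b hc h hend
      by_cases hd : d = 0
      · exfalso
        have h1 : ((Finset.range (b B + 1)).image v).card = b B + 1 := by
          rw [Finset.card_image_of_injOn, Finset.card_range]
          intro x hx y hy hxy
          simp only [Finset.coe_range, Set.mem_Iio] at hx hy
          exact h.inj x y hx hy hxy
        have h2 := Finset.card_le_univ ((Finset.range (b B + 1)).image v)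
        omega
      · rcases h.process hend hα ha hm hδ with h1 | ⟨B', v', b', hB, h', hend'⟩
        · exact h1
        · refine ih (d - 1) (by omega) B' v' b' (by omega) h' hend'
  refine key (Fintype.card V) 0 (fun _ => x₀) (fun _ => 0) (by omega) ?_ rfl
  refine ⟨rfl, ⟨?_, ?_⟩, ?_, ?_, ?_, ?_, ?_⟩
  · intro i j hi hj _; omega
  · intro i hi; omega
  · intro i hi
    have : i = 0 := by omega
    subst this
    simp
  · intro i hi; omega
  · intro i hi; omega
  · intro i hi; omega
  · intro i h1 h2; omega

/-- Restricting to an induced subgraph. -/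
theorem order_cycle3.{u} : ∀ (a : ℕ) (V : Type u) [Fintype V] (G : SimpleGraph V) (m : ℕ),
    IndBd G a → 3 * a + 3 ≤ m → (m - 1) * a + 1 ≤ Fintype.card V → ∃ g, CycF G m g := by
  intro a
  induction a with
  | zero =>
    intro V _ G m hα _ hc
    exfalso
    have hcard : 0 < Fintype.card V := by omega
    obtain ⟨x⟩ := Fintype.card_pos_iff.mp hcard
    obtain ⟨y, hy, z, hz, hyz⟩ := hα {x} (by simp)
    rw [Finset.mem_singleton] at hy hz
    rw [hy, hz] at hyz
    exact G.loopless.irrefl _ hyz
  | succ a ih =>
    intro V _ G m hα hm hc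
    classical
    by_cases hδ : ∀ x, ∃ S : Finset V, m - 1 ≤ S.card ∧ ∀ y ∈ S, G.Adj x y
    · have hcard : 0 < Fintype.card V := by omega
      obtain ⟨x⟩ := Fintype.card_pos_iff.mp hcard
      exact min_deg_cycle3 hα (by omega) hm hδ x
    · push Not at hδ
      obtain ⟨x, hx⟩ := hδ
      let N := Finset.univ.filter (fun y => G.Adj x y)
      have hN : N.card < m - 1 := by
        by_contra hh
        obtain ⟨y, hy, hy2⟩ := hx N (by omega)
        exact hy2 (by simpa [N] using hy)
      let W := {y : V // y ≠ x ∧ ¬ G.Adj x y}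
      let G' : SimpleGraph W := G.comap Subtype.val
      have hcW : (m - 1) * a + 1 ≤ Fintype.card W := by
        have h1 : Fintype.card W = (Finset.univ.filter (fun y => y ≠ x ∧ ¬ G.Adj x y)).card :=
          Fintype.card_subtype _
        have h2 : (Finset.univ : Finset V) ⊆
            (Finset.univ.filter (fun y => y ≠ x ∧ ¬ G.Adj x y)) ∪ insert x N := by
          intro y _
          by_cases hy1 : y = x
          · simp [hy1]
          · by_cases hy2 : G.Adj x y
            · simp [N, hy2]
            · simp [hy1, hy2]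
        have h3 := Finset.card_le_card h2
        have h4 := Finset.card_union_le (Finset.univ.filter (fun y => y ≠ x ∧ ¬ G.Adj x y))
          (insert x N)
        have h5 : (insert x N).card ≤ N.card + 1 := Finset.card_insert_le _ _
        rw [Finset.card_univ] at h3
        have h6 : (m - 1) * (a + 1) = (m - 1) * a + (m - 1) := by ring
        omega
      have hαW : IndBd G' a := by
        intro s hs
        let s' : Finset V := insert x (s.map (Function.Embedding.subtype _))
        have hxs : x ∉ s.map (Function.Embedding.subtype _) := by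
          intro hh
          rw [Finset.mem_map] at hh
          obtain ⟨y, _, hy⟩ := hh
          exact y.2.1 hy
        have hcard : a + 1 < s'.card := by
          rw [Finset.card_insert_of_notMem hxs, Finset.card_map]
          omega
        obtain ⟨y, hy, z, hz, hyz⟩ := hα s' hcard
        rw [Finset.mem_insert] at hy hz
        rcases hy with rfl | hy
        · rcases hz with rfl | hz
          · exact absurd hyz (G.loopless.irrefl _)
          · rw [Finset.mem_map] at hz
            obtain ⟨z', _, rfl⟩ := hz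
            exact absurd hyz z'.2.2
        · rcases hz with rfl | hz
          · rw [Finset.mem_map] at hy
            obtain ⟨y', _, rfl⟩ := hy
            exact absurd hyz.symm y'.2.2
          · rw [Finset.mem_map] at hy hz
            obtain ⟨y', hy', rfl⟩ := hy
            obtain ⟨z', hz', rfl⟩ := hz
            exact ⟨y', hy', z', hz', hyz⟩
      obtain ⟨g, hg⟩ := ih W G' m hαW (by omega) hcW
      refine ⟨fun i => (g i).1, ⟨?_, ?_⟩, ?_⟩
      · intro i j hi hj hij
        exact hg.inj i j hi hj (Subtype.ext hij)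
      · intro i hi
        exact hg.adj i hi
      · exact hg.close

/-- A graph on `(m-1)(n-1)+1` vertices without an independent set of size `n` has a cycle of
length exactly `m`, as soon as `m ≥ 3n`. -/
theorem cycle_or_indep3 {V : Type*} [Fintype V] (G : SimpleGraph V) (m n : ℕ) (hn : 2 ≤ n)
    (hm : 3 * n ≤ m) (hV : (m - 1) * (n - 1) + 1 ≤ Fintype.card V) :
    (∃ (v : V) (c : G.Walk v v), c.IsCycle ∧ c.length = m) ∨
      ∃ s : Finset V, G.IsIndepSet (s : Set V) ∧ s.card = n := by
  classical
  by_cases hs : ∃ s : Finset V, G.IsIndepSet (s : Set V) ∧ s.card = n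
  · exact Or.inr hs
  · left
    have hα : IndBd G (n - 1) := by
      intro s hsc
      obtain ⟨t, hts, htc⟩ := Finset.exists_subset_card_eq (show n ≤ s.card by omega)
      by_contra hne
      push Not at hne
      apply hs
      refine ⟨t, ?_, htc⟩
      intro x hx y hy _
      exact hne x (hts hx) y (hts hy)
    obtain ⟨g, hg⟩ := order_cycle3 (n - 1) V G m hα (by omega) hV
    exact exists_isCycle_of_cycF hg (by omega)

end Vale.Agent.Lib.P048
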