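import Vale.Agent.Lib.P048.B6

/-!
A chain of hubs along a path: consecutive hubs are at distance one or two along the path and are
adjacent.  If they are at distance one, the first hub has pairwise nonadjacent neighbours outside
the part of the path up to it.
-/

namespace Vale.Agent.Lib.P048

open Finset

variable {V : Type*} {G : SimpleGraph V}

/-- The neighbours of the position `q` outside the path up to `q` are pairwise nonadjacent. -/
def IsBare (G : SimpleGraph V) (v : ℕ → V) (q : ℕ) : Prop :=
  ∀ x y, G.Adj (v q) x → G.Adj (v q) y → (∀ p, p ≤ q → v p ≠ x) → (∀ p, p ≤ q → v p ≠ y) →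
    ¬ G.Adj x y

/-- The chain with hubs at the positions `b 0 < b 1 < ... < b n`. -/
structure Cn (G : SimpleGraph V) (m n : ℕ) (v : ℕ → V) (b : ℕ → ℕ) : Prop where
  b0 : b 0 = 0
  path : PathF G (b n + 1) v
  gap : ∀ i, i < n → b (i + 1) = b i + 1 ∨ b (i + 1) = b i + 2
  fan : ∀ i, i < n → ∀ j, b i < j → j ≤ b (i + 1) → G.Adj (v (b i)) (v j)
  band : ∀ i, i < n → ∀ k, k < b i → G.Adj (v k) (v (b i)) → b i < k + (m - 1)
  rstep : ∀ i, i < n → b (i + 1) = b i + 1 → IsBare G v (b i)

section basic

variable {m n : ℕ} {v : ℕ → V} {b : ℕ → ℕ}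

theorem Cn.mono (h : Cn G m n v b) {i : ℕ} (hi : i < n) : b i < b (i + 1) := by
  have := h.gap i hi
  omega

theorem Cn.strict (h : Cn G m n v b) {i k : ℕ} (hik : i < k) (hk : k ≤ n) : b i < b k := by
  induction k with
  | zero => omega
  | succ k ih =>
    have h1 := h.mono (i := k) (by omega)
    by_cases h2 : i = k
    · subst h2; exact h1
    · have := ih (by omega) (by omega)
      omega

theorem Cn.monotone (h : Cn G m n v b) {i k : ℕ} (hik : i ≤ k) (hk : k ≤ n) : b i ≤ b k := by
  by_cases h2 : i = k
  · subst h2; exact le_refl _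
  · exact (h.strict (by omega) hk).le

/-- Hubs differ by at least their index difference. -/
theorem Cn.span_ge (h : Cn G m n v b) {i k : ℕ} (hik : i ≤ k) (hk : k ≤ n) :
    b i + (k - i) ≤ b k := by
  induction k with
  | zero =>
    have : i = 0 := by omega
    subst this
    simp
  | succ k ih =>
    by_cases h2 : i = k + 1
    · subst h2; simp
    · have h1 := h.mono (i := k) (by omega)
      have := ih (by omega) (by omega)
      omega

/-- Hubs differ by at most twice their index difference. -/
theorem Cn.span_le (h : Cn G m n v b) {i k : ℕ} (hik : i ≤ k) (hk : k ≤ n) :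
    b k ≤ b i + 2 * (k - i) := by
  induction k with
  | zero =>
    have : i = 0 := by omega
    subst this
    simp
  | succ k ih =>
    by_cases h2 : i = k + 1
    · subst h2; simp
    · have h1 := h.gap k (by omega)
      have := ih (by omega) (by omega)
      omega

theorem Cn.inj (h : Cn G m n v b) : ∀ i j, i < b n + 1 → j < b n + 1 → v i = v j → i = j :=
  h.path.inj

/-- Consecutive hubs are adjacent. -/
theorem Cn.hub_adj (h : Cn G m n v b) {i : ℕ} (hi : i < n) : G.Adj (v (b i)) (v (b (i + 1))) :=
  h.fan i hi _ (h.mono hi) (le_refl _)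

/-- The path with the vertex between two consecutive hubs. -/
theorem Cn.step_three (h : Cn G m n v b) {k : ℕ} (hk : k < n) (hg : b (k + 1) = b k + 2) :
    ∃ f, IdxPath G v (b k) (b (k + 1)) 3 f := by
  have hL : b (k + 1) ≤ b n := h.monotone (by omega) (le_refl _)
  refine ⟨fun j => v (b k + j), ⟨⟨?_, ?_⟩, by simp, ?_, ?_⟩⟩
  · intro i j hi hj hij
    have := h.inj _ _ (by omega) (by omega) hij
    omega
  · intro i hi
    have h1 := h.path.adj (b k + i) (by omega)
    rwa [show b k + i + 1 = b k + (i + 1) by omega] at h1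
  · show v (b k + (3 - 1)) = v (b (k + 1))
    congr 1
    omega
  · intro i hi
    exact ⟨b k + i, by omega, by omega, rfl⟩

/-- Walking along the chain between two hubs. -/
theorem Cn.walk (h : Cn G m n v b) {i : ℕ} :
    ∀ k, i ≤ k → k ≤ n → ∀ t, k - i + 1 ≤ t → t ≤ b k - b i + 1 →
      ∃ f, IdxPath G v (b i) (b k) t f := by
  intro k
  induction k with
  | zero =>
    intro hi _ t ht1 ht2
    have hi0 : i = 0 := by omega
    subst hi0
    have ht : t = 1 := by omega
    subst ht
    exact idxPath_self v _
  | succ k ih =>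
    intro hi hk t ht1 ht2
    by_cases hik : i = k + 1
    · subst hik
      have ht : t = 1 := by omega
      subst ht
      exact idxPath_self v _
    · have hg := h.gap k (by omega)
      have hle := h.monotone (show i ≤ k by omega) (by omega)
      have hs := h.span_ge (show i ≤ k by omega) (by omega)
      have hL : b (k + 1) < b n + 1 := by
        have := h.monotone (show k + 1 ≤ n by omega) (le_refl _)
        omega
      by_cases hc : t ≤ b k - b i + 2
      · obtain ⟨f₁, hf₁⟩ := ih (by omega) (by omega) (t - 1) (by omega) (by omega)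
        obtain ⟨f₂, hf₂⟩ := idxPath_edge (h.mono (i := k) (by omega)).le
          (h.hub_adj (i := k) (by omega))
        obtain ⟨f, hf⟩ := idxPath_glue h.inj hf₁ hf₂ (by omega) (by omega) hL
        rw [show t - 1 + 2 - 1 = t by omega] at hf
        exact ⟨f, hf⟩
      · have hg2 : b (k + 1) = b k + 2 := by omega
        obtain ⟨f₁, hf₁⟩ := ih (by omega) (by omega) (t - 2) (by omega) (by omega)
        obtain ⟨f₂, hf₂⟩ := h.step_three (k := k) (by omega) hg2
        obtain ⟨f, hf⟩ := idxPath_glue h.inj hf₁ hf₂ (by omega) (by omega) hL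
        rw [show t - 2 + 3 - 1 = t by omega] at hf
        exact ⟨f, hf⟩

theorem IsBare.congr {v' : ℕ → V} {q : ℕ} (h : IsBare G v q) (hv : ∀ p, p ≤ q → v' p = v p) :
    IsBare G v' q := by
  intro x y hx hy hxU hyU
  rw [hv q (le_refl _)] at hx hy
  exact h x y hx hy (fun p hp => by rw [← hv p hp]; exact hxU p hp)
    (fun p hp => by rw [← hv p hp]; exact hyU p hp)

/-- Appending new vertices to the chain. -/
theorem Cn.extend (h : Cn G m n v b) {g : ℕ} (hg : g = 1 ∨ g = 2) (f : ℕ → V)
    (hf_inj : ∀ i j, i < g → j < g → f i = f j → i = j)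
    (hf_new : ∀ i p, i < g → p ≤ b n → v p ≠ f i)
    (hf_adj : ∀ i, i + 1 < g → G.Adj (f i) (f (i + 1)))
    (hf_fan : ∀ i, i < g → G.Adj (v (b n)) (f i))
    (hband : ∀ k, k < b n → G.Adj (v k) (v (b n)) → b n < k + (m - 1))
    (hz : g = 1 → IsBare G v (b n)) :
    ∃ v' b', Cn G m (n + 1) v' b' ∧ b' (n + 1) = b n + g := by
  let v' : ℕ → V := fun p => if p ≤ b n then v p else f (p - b n - 1)
  let b' : ℕ → ℕ := fun i => if i ≤ n then b i else b n + g
  have hv1 : ∀ p, p ≤ b n → v' p = v p := fun p hp => by simp [v', hp]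
  have hv2 : ∀ p, b n < p → v' p = f (p - b n - 1) := fun p hp => by
    have : ¬ p ≤ b n := by omega
    simp [v', this]
  have hb1 : ∀ i, i ≤ n → b' i = b i := fun i hi => by simp [b', hi]
  have hb2 : b' (n + 1) = b n + g := by simp [b']
  have hle : ∀ i, i ≤ n → b i ≤ b n := fun i hi => h.monotone hi (le_refl _)
  refine ⟨v', b', ⟨?_, ?_, ?_, ?_, ?_, ?_⟩, hb2⟩
  · rw [hb1 0 (by omega)]
    exact h.b0
  · rw [hb2]
    constructor
    · intro i j hi hj hij
      by_cases hi1 : i ≤ b n <;> by_cases hj1 : j ≤ b n
      · rw [hv1 i hi1, hv1 j hj1] at hij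
        exact h.inj i j (by omega) (by omega) hij
      · rw [hv1 i hi1, hv2 j (by omega)] at hij
        exact absurd hij (hf_new _ _ (by omega) hi1)
      · rw [hv2 i (by omega), hv1 j hj1] at hij
        exact absurd hij.symm (hf_new _ _ (by omega) hj1)
      · rw [hv2 i (by omega), hv2 j (by omega)] at hij
        have := hf_inj _ _ (by omega) (by omega) hij
        omega
    · intro i hi
      by_cases hi1 : i + 1 ≤ b n
      · rw [hv1 i (by omega), hv1 (i + 1) hi1]
        exact h.path.adj i (by omega)
      · by_cases hi2 : i = b n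
        · subst hi2
          rw [hv1 _ (le_refl _), hv2 _ (by omega)]
          exact hf_fan _ (by omega)
        · rw [hv2 i (by omega), hv2 (i + 1) (by omega)]
          have := hf_adj (i - b n - 1) (by omega)
          rwa [show i - b n - 1 + 1 = i + 1 - b n - 1 by omega] at this
  · intro i hi
    by_cases hi1 : i = n
    · subst hi1
      rw [hb1 _ (le_refl _), hb2]
      omega
    · rw [hb1 i (by omega), hb1 (i + 1) (by omega)]
      exact h.gap i (by omega)
  · intro i hi j hj1 hj2
    by_cases hi1 : i = n
    · subst hi1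
      rw [hb1 _ (le_refl _)] at hj1 ⊢
      rw [hb2] at hj2
      rw [hv1 _ (le_refl _), hv2 j hj1]
      exact hf_fan _ (by omega)
    · rw [hb1 i (by omega)] at hj1 ⊢
      rw [hb1 (i + 1) (by omega)] at hj2
      have h1 := hle (i + 1) (by omega)
      have h2 := hle i (by omega)
      rw [hv1 _ h2, hv1 j (by omega)]
      exact h.fan i (by omega) j hj1 hj2
  · intro i hi k hk hadj
    by_cases hi1 : i = n
    · subst hi1
      rw [hb1 _ (le_refl _)] at hk hadj ⊢
      rw [hv1 k hk.le, hv1 _ (le_refl _)] at hadj
      exact hband k hk hadj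
    · rw [hb1 i (by omega)] at hk hadj ⊢
      have h2 := hle i (by omega)
      rw [hv1 k (by omega), hv1 _ h2] at hadj
      exact h.band i (by omega) k hk hadj
  · intro i hi hi3
    by_cases hi4 : i = n
    · subst hi4
      rw [hb2, hb1 _ (le_refl _)] at hi3
      rw [hb1 _ (le_refl _)]
      exact (hz (by omega)).congr hv1
    · rw [hb1 i (by omega), hb1 (i + 1) (by omega)] at hi3
      rw [hb1 i (by omega)]
      have h2 := hle i (by omega)
      exact (h.rstep i (by omega) hi3).congr (fun p hp => hv1 p (by omega))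

/-- The chain of one vertex. -/
theorem Cn.single (x : V) : Cn G m 0 (fun _ => x) (fun _ => 0) := by
  refine ⟨rfl, ⟨?_, ?_⟩, ?_, ?_, ?_, ?_⟩
  · intro i j hi hj _; omega
  · intro i hi; omega
  · intro i hi; omega
  · intro i hi; omega
  · intro i hi; omega
  · intro i hi; omega

/-- Growing the chain when the end has no neighbour far behind. -/
theorem Cn.grow [Fintype V] (h : Cn G m n v b) (hm : 2 ≤ m)
    (hδ : ∀ x, ∃ S : Finset V, m - 1 ≤ S.card ∧ ∀ y ∈ S, G.Adj x y)
    (hband : ∀ k, k < b n → G.Adj (v k) (v (b n)) → b n < k + (m - 1)) :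
    ∃ v' b', Cn G m (n + 1) v' b' ∧ b n < b' (n + 1) := by
  classical
  obtain ⟨Se, hSe1, hSe2⟩ := hδ (v (b n))
  let U := (range (b n + 1)).image v
  have hUdef : U = (range (b n + 1)).image v := rfl
  have hnotU : ∀ {y : V}, y ∉ U → ∀ p, p ≤ b n → v p ≠ y := by
    intro y hy p hp heq
    exact hy (Finset.mem_image.mpr ⟨p, Finset.mem_range.mpr (by omega), heq⟩)
  -- a neighbour outside the path
  have hex : ∃ z, G.Adj (v (b n)) z ∧ z ∉ U := by
    by_contra hcon
    push Not at hcon
    have hsub : Se ⊆ (Finset.Ico (b n - (m - 2)) (b n)).image v := by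
      intro y hy
      have hyU := hcon y (hSe2 y hy)
      rw [hUdef, Finset.mem_image] at hyU
      obtain ⟨p, hp, rfl⟩ := hyU
      rw [Finset.mem_range] at hp
      have hadj := hSe2 _ hy
      have hne : p ≠ b n := by
        intro hh
        rw [hh] at hadj
        exact G.loopless.irrefl _ hadj
      have h1 := hband p (by omega) hadj.symm
      exact Finset.mem_image_of_mem v (Finset.mem_Ico.mpr ⟨by omega, by omega⟩)
    have h1 := Finset.card_le_card hsub
    have h2 : ((Finset.Ico (b n - (m - 2)) (b n)).image v).card ≤ _ := Finset.card_image_le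
    rw [Nat.card_Ico] at h2
    omega
  obtain ⟨z, hz1, hz2⟩ := hex
  by_cases hT : ∃ x y, G.Adj (v (b n)) x ∧ G.Adj (v (b n)) y ∧ x ∉ U ∧ y ∉ U ∧ G.Adj x y
  · obtain ⟨x, y, hx1, hy1, hx2, hy2, hxy⟩ := hT
    obtain ⟨v', b', h', hb'⟩ := h.extend (g := 2) (Or.inr rfl) (fun i => if i = 0 then x else y)
      (by
        intro i j hi hj hij
        by_cases hi0 : i = 0 <;> by_cases hj0 : j = 0
        · omega
        · simp only [hi0, hj0, if_true, if_false] at hij
          exact absurd hij hxy.ne
        · simp only [hi0, hj0, if_true, if_false] at hij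
          exact absurd hij.symm hxy.ne
        · omega)
      (by
        intro i p hi hp
        by_cases hi0 : i = 0
        · simp only [hi0, if_true]; exact hnotU hx2 p hp
        · simp only [hi0, if_false]; exact hnotU hy2 p hp)
      (by
        intro i hi
        have : i = 0 := by omega
        subst this
        simpa using hxy)
      (by
        intro i hi
        by_cases hi0 : i = 0
        · simp only [hi0, if_true]; exact hx1
        · simp only [hi0, if_false]; exact hy1)
      hband (by omega)
    exact ⟨v', b', h', by omega⟩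
  · push Not at hT
    obtain ⟨v', b', h', hb'⟩ := h.extend (g := 1) (Or.inl rfl) (fun _ => z)
      (by intro i j hi hj _; omega)
      (fun i p _ hp => hnotU hz2 p hp)
      (by intro i hi; omega)
      (fun _ _ => hz1)
      hband
      (by
        intro _ x y hx hy hxU hyU
        refine hT x y hx hy ?_ ?_
        · intro hmem
          rw [hUdef, Finset.mem_image] at hmem
          obtain ⟨p, hp, hpx⟩ := hmem
          exact hxU p (by rw [Finset.mem_range] at hp; omega) hpx
        · intro hmem
          rw [hUdef, Finset.mem_image] at hmem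
          obtain ⟨p, hp, hpx⟩ := hmem
          exact hyU p (by rw [Finset.mem_range] at hp; omega) hpx)
    exact ⟨v', b', h', by omega⟩

end basic

end Vale.Agent.Lib.P048
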