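import Vale.Agent.Lib.P048.C1

/-!
Expansion of independent sets, and what it says about the hubs with pairwise nonadjacent outer
neighbours.
-/

namespace Vale.Agent.Lib.P048

open Finset

variable {V : Type*} {G : SimpleGraph V}

open Classical in
/-- The closed neighbourhood of a set. -/
noncomputable def clN [Fintype V] (G : SimpleGraph V) (I : Finset V) : Finset V :=
  Finset.univ.filter (fun y => y ∈ I ∨ ∃ x ∈ I, G.Adj x y)

/-- Independent sets have large closed neighbourhoods. -/
def Exp [Fintype V] (G : SimpleGraph V) (m : ℕ) : Prop :=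
  ∀ I : Finset V, I.Nonempty → (∀ x ∈ I, ∀ y ∈ I, ¬ G.Adj x y) →
    (m - 1) * I.card + 1 ≤ (clN G I).card

/-- Large minimum degree from expansion. -/
theorem Exp.min_deg [Fintype V] {m : ℕ} (hexp : Exp G m) (x : V) :
    ∃ S : Finset V, m - 1 ≤ S.card ∧ ∀ y ∈ S, G.Adj x y := by
  classical
  have h1 := hexp {x} (Finset.singleton_nonempty x) (by
    intro y hy z hz
    rw [Finset.mem_singleton] at hy hz
    rw [hy, hz]
    exact G.loopless.irrefl _)
  refine ⟨(clN G {x}).erase x, ?_, ?_⟩
  · rw [Finset.card_singleton] at h1
    have h2 := Finset.card_erase_add_one (s := clN G {x}) (a := x) (by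
      simp [clN])
    omega
  · intro y hy
    rw [Finset.mem_erase] at hy
    obtain ⟨hy1, hy2⟩ := hy
    simp only [clN, Finset.mem_filter, Finset.mem_univ, true_and, Finset.mem_singleton] at hy2
    rcases hy2 with h | ⟨z, hz, h⟩
    · exact absurd h hy1
    · rw [hz] at h
      exact h

theorem aux_cnt {q m a K : ℕ} (h : (m - 1) * q + 1 ≤ K + q * a) (ha : a + 1 ≤ m) :
    (m - 1 - a) * q + 1 ≤ K := by
  obtain ⟨t, rfl⟩ : ∃ t, m = t + a + 1 := ⟨m - a - 1, by omega⟩
  have h1 : t + a + 1 - 1 = t + a := by omega
  have h2 : t + a - a = t := by omega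
  rw [h1] at h
  rw [h1, h2]
  nlinarith

section count

variable {a m n : ℕ} {v : ℕ → V} {b : ℕ → ℕ}

/-- Pairwise nonadjacent hubs of the second kind need room. -/
theorem Cn.bare_count [Fintype V] (h : Cn G m n v b) (hα : IndBd G a) (hexp : Exp G m)
    (hm : 2 ≤ m) (I : Finset ℕ) {P S : ℕ}
    (hI : ∀ i ∈ I, i < n ∧ b (i + 1) = b i + 1) (hP : ∀ i ∈ I, P ≤ b i ∧ b i ≤ P + S)
    (hind : ∀ i ∈ I, ∀ k ∈ I, ¬ G.Adj (v (b i)) (v (b k))) (hne : I.Nonempty) :
    (m - 1) * I.card + 1 ≤ S + (m - 1) + I.card * a := by
  classical
  have hb : ∀ i ∈ I, b i ≤ b n := fun i hi => h.monotone (hI i hi).1.le (le_refl _)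
  have hinj : Set.InjOn (fun i => v (b i)) (I : Set ℕ) := by
    intro x hx y hy hxy
    have h1 := hb x hx
    have h2 := hb y hy
    have h3 := h.inj _ _ (by omega) (by omega) hxy
    by_contra hne'
    rcases (by omega : x < y ∨ y < x) with h4 | h4
    · have := h.strict h4 (hI y hy).1.le
      omega
    · have := h.strict h4 (hI x hx).1.le
      omega
  let J := I.image (fun i => v (b i))
  have hJc : J.card = I.card := Finset.card_image_of_injOn hinj
  have h1 := hexp J (hne.image _) (by
    intro x hx y hy
    rw [Finset.mem_image] at hx hy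
    obtain ⟨i, hi, rfl⟩ := hx
    obtain ⟨k, hk, rfl⟩ := hy
    exact hind i hi k hk)
  rw [hJc] at h1
  let Out : ℕ → Finset V := fun i => Finset.univ.filter
    (fun y => G.Adj (v (b i)) y ∧ ∀ p, p ≤ b i → v p ≠ y)
  have hOut : ∀ i ∈ I, (Out i).card ≤ a := by
    intro i hi
    by_contra hcon
    obtain ⟨x, hx, y, hy, hxy⟩ := hα (Out i) (by omega)
    simp only [Out, Finset.mem_filter, Finset.mem_univ, true_and] at hx hy
    exact h.rstep i (hI i hi).1 (hI i hi).2 x y hx.1 hy.1 hx.2 hy.2 hxy
  have hsub : clN G J ⊆ (Finset.Icc (P - (m - 2)) (P + S)).image v ∪ I.biUnion Out := by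
    intro y hy
    simp only [clN, Finset.mem_filter, Finset.mem_univ, true_and] at hy
    rcases hy with hy | ⟨x, hx, hy⟩
    · rw [Finset.mem_image] at hy
      obtain ⟨i, hi, rfl⟩ := hy
      have := hP i hi
      exact Finset.mem_union_left _ (Finset.mem_image_of_mem v
        (Finset.mem_Icc.mpr ⟨by omega, by omega⟩))
    · rw [Finset.mem_image] at hx
      obtain ⟨i, hi, rfl⟩ := hx
      by_cases hin : ∃ p, p ≤ b i ∧ v p = y
      · obtain ⟨p, hp1, rfl⟩ := hin
        have hne' : p ≠ b i := by
          intro hh
          rw [hh] at hy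
          exact G.loopless.irrefl _ hy
        have h2 := h.band i (hI i hi).1 p (by omega) hy.symm
        have := hP i hi
        exact Finset.mem_union_left _ (Finset.mem_image_of_mem v
          (Finset.mem_Icc.mpr ⟨by omega, by omega⟩))
      · push Not at hin
        refine Finset.mem_union_right _ (Finset.mem_biUnion.mpr ⟨i, hi, ?_⟩)
        simp only [Out, Finset.mem_filter, Finset.mem_univ, true_and]
        exact ⟨hy, hin⟩
  have h2 := Finset.card_le_card hsub
  have h3 := Finset.card_union_le ((Finset.Icc (P - (m - 2)) (P + S)).image v) (I.biUnion Out)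
  have h4 : ((Finset.Icc (P - (m - 2)) (P + S)).image v).card ≤ _ := Finset.card_image_le
  rw [Nat.card_Icc] at h4
  have h5 := Finset.card_biUnion_le_card_mul I Out a hOut
  omega

/-- A hub of the second kind has few later neighbours among the hubs of the second kind. -/
theorem Cn.later_le [Fintype V] (h : Cn G m n v b) (hα : IndBd G a) (hexp : Exp G m)
    (hm : 2 * a + 3 ≤ m) (A : Finset ℕ) (hA : ∀ i ∈ A, i < n ∧ b (i + 1) = b i + 1) {i : ℕ}
    (hi : i ∈ A) (L : Finset ℕ) (hLm : ∀ k ∈ L, k ∈ A ∧ i < k ∧ G.Adj (v (b i)) (v (b k))) :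
    L.card ≤ 3 := by
  classical
  by_contra hcon
  have hL : 4 ≤ L.card := by omega
  have hmem := hLm
  have hiA := hA i hi
  have hout : ∀ k ∈ L, ∀ p, p ≤ b i → v p ≠ v (b k) := by
    intro k hk p hp heq
    have h1 := hmem k hk
    have h2 := (hA k h1.1).1
    have h3 := h.strict h1.2.1 h2.le
    have h4 := h.monotone h2.le (le_refl _)
    have := h.inj _ _ (by omega) (by omega) heq
    omega
  have hcount := h.bare_count hα hexp (by omega) L (P := b i + 1) (S := m - 3)
    (fun k hk => hA k (hmem k hk).1)
    (by
      intro k hk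
      have h1 := hmem k hk
      have h2 := (hA k h1.1).1
      have h3 := h.strict h1.2.1 h2.le
      have h4 := h.band k h2 (b i) h3 h1.2.2
      omega)
    (by
      intro k hk k' hk'
      exact h.rstep i hiA.1 hiA.2 _ _ (hmem k hk).2.2 (hmem k' hk').2.2 (hout k hk) (hout k' hk'))
    (Finset.card_pos.mp (by omega))
  have h5 := aux_cnt hcount (by omega)
  have h6 : (m - 1 - a) * 4 ≤ (m - 1 - a) * L.card := Nat.mul_le_mul_left _ hL
  omega

/-- Among hubs of the second kind, a quarter can be taken pairwise nonadjacent. -/
theorem Cn.bare_sparse [Fintype V] (h : Cn G m n v b) (hα : IndBd G a) (hexp : Exp G m)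
    (hm : 2 * a + 3 ≤ m) :
    ∀ (d : ℕ) (A : Finset ℕ), A.card = d → (∀ i ∈ A, i < n ∧ b (i + 1) = b i + 1) →
      ∃ I, I ⊆ A ∧ (∀ i ∈ I, ∀ k ∈ I, ¬ G.Adj (v (b i)) (v (b k))) ∧ A.card ≤ 4 * I.card := by
  classical
  intro d
  induction d using Nat.strong_induction_on with
  | _ d ih =>
    intro A hd hA
    by_cases hne : A.Nonempty
    · let i := A.min' hne
      have hi : i ∈ A := Finset.min'_mem _ _
      have hmin : ∀ k ∈ A, i ≤ k := fun k hk => Finset.min'_le _ _ hk
      let L := A.filter (fun k => i < k ∧ G.Adj (v (b i)) (v (b k)))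
      have hLc : L.card ≤ 3 := h.later_le hα hexp hm A hA hi L (by
        intro k hk
        simpa [L] using hk)
      let A' := A \ insert i L
      have hsub : A' ⊆ A := Finset.sdiff_subset
      have hcard : A.card ≤ A'.card + 4 := by
        have h1 : A ⊆ A' ∪ insert i L := by
          intro x hx
          by_cases hx2 : x ∈ insert i L
          · exact Finset.mem_union_right _ hx2
          · exact Finset.mem_union_left _ (Finset.mem_sdiff.mpr ⟨hx, hx2⟩)
        have h2 := Finset.card_le_card h1
        have h3 := Finset.card_union_le A' (insert i L)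
        have h4 : (insert i L).card ≤ L.card + 1 := Finset.card_insert_le _ _
        omega
      have hlt : A'.card < d := by
        rw [← hd]
        refine Finset.card_lt_card (Finset.ssubset_iff_subset_ne.mpr ⟨hsub, ?_⟩)
        intro heq
        have : i ∈ A' := by rw [heq]; exact hi
        exact (Finset.mem_sdiff.mp this).2 (Finset.mem_insert_self _ _)
      obtain ⟨I, hI1, hI2, hI3⟩ := ih _ hlt A' rfl (fun k hk => hA k (hsub hk))
      have hiI : i ∉ I := by
        intro hc
        exact (Finset.mem_sdiff.mp (hI1 hc)).2 (Finset.mem_insert_self _ _)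
      have hnon : ∀ k ∈ I, ¬ G.Adj (v (b i)) (v (b k)) := by
        intro k hk hadj
        have h1 := Finset.mem_sdiff.mp (hI1 hk)
        have h2 := hmin k h1.1
        have h3 : k ≠ i := fun hc => hiI (hc ▸ hk)
        apply h1.2
        apply Finset.mem_insert_of_mem
        simp only [L, Finset.mem_filter]
        exact ⟨h1.1, by omega, hadj⟩
      refine ⟨insert i I, ?_, ?_, ?_⟩
      · intro x hx
        rcases Finset.mem_insert.mp hx with rfl | hx
        · exact hi
        · exact hsub (hI1 hx)
      · intro x hx y hy
        rcases Finset.mem_insert.mp hx with rfl | hx <;>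
          rcases Finset.mem_insert.mp hy with rfl | hy
        · exact G.loopless.irrefl _
        · exact hnon y hy
        · exact fun hc => hnon x hx hc.symm
        · exact hI2 x hx y hy
      · rw [Finset.card_insert_of_notMem hiI]
        omega
    · rw [Finset.not_nonempty_iff_eq_empty] at hne
      subst hne
      exact ⟨∅, by simp, by simp, by simp⟩

open Classical in
/-- The indices of the hubs followed directly by the next hub. -/
noncomputable def Rs (b : ℕ → ℕ) (i k : ℕ) : Finset ℕ :=
  (Finset.Ico i k).filter (fun t => b (t + 1) = b t + 1)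

theorem Cn.rs_eq (h : Cn G m n v b) {i : ℕ} :
    ∀ k, i ≤ k → k ≤ n → (b k - b i) + (Rs b i k).card = 2 * (k - i) := by
  classical
  intro k
  induction k with
  | zero =>
    intro hi _
    have : i = 0 := by omega
    subst this
    simp [Rs]
  | succ k ih =>
    intro hi hk
    by_cases hik : i = k + 1
    · subst hik
      simp [Rs]
    · have h1 := ih (by omega) (by omega)
      have hIco : Finset.Ico i (k + 1) = insert k (Finset.Ico i k) := by
        ext x
        simp only [Finset.mem_Ico, Finset.mem_insert]
        omega
      have hk0 : k ∉ Finset.Ico i k := by simp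
      have h2 := h.gap k (by omega)
      have h3 := h.monotone (show i ≤ k by omega) (by omega)
      by_cases hg : b (k + 1) = b k + 1
      · have : Rs b i (k + 1) = insert k (Rs b i k) := by
          unfold Rs
          rw [hIco, Finset.filter_insert, if_pos hg]
        rw [this, Finset.card_insert_of_notMem (by simp [Rs])]
        omega
      · have : Rs b i (k + 1) = Rs b i k := by
          unfold Rs
          rw [hIco, Finset.filter_insert, if_neg hg]
        rw [this]
        omega

/-- The number of direct steps between two hubs in terms of a set of nonadjacent hubs. -/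
theorem Cn.rs_bound [Fintype V] (h : Cn G m n v b) (hα : IndBd G a) (hexp : Exp G m)
    (hm : 2 * a + 3 ≤ m) {i k : ℕ} (hik : i ≤ k) (hk : k ≤ n) :
    ∃ q, 2 * (k - i) ≤ (b k - b i) + 4 * q ∧ (m - 1 - a) * q ≤ (b k - b i) + (m - 1) := by
  classical
  have hr : ∀ t ∈ Rs b i k, t < n ∧ b (t + 1) = b t + 1 := by
    intro t ht
    simp only [Rs, Finset.mem_filter, Finset.mem_Ico] at ht
    exact ⟨by omega, ht.2⟩
  obtain ⟨I, hI1, hI2, hI3⟩ := h.bare_sparse hα hexp hm _ (Rs b i k) rfl hr
  refine ⟨I.card, ?_, ?_⟩
  · have := h.rs_eq k hik hk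
    omega
  · by_cases hne : I.Nonempty
    · have hc := h.bare_count hα hexp (by omega) I (P := b i) (S := b k - b i)
        (fun t ht => hr t (hI1 ht))
        (by
          intro t ht
          have h1 := hI1 ht
          simp only [Rs, Finset.mem_filter, Finset.mem_Ico] at h1
          have h2 := h.monotone h1.1.1 (show t ≤ n by omega)
          have h3 := h.monotone (show t ≤ k by omega) hk
          omega) hI2 hne
      have := aux_cnt hc (by omega)
      omega
    · rw [Finset.not_nonempty_iff_eq_empty] at hne
      subst hne
      simp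

/-- In a window, only few direct steps. -/
theorem Cn.rs_window [Fintype V] (h : Cn G m n v b) (hα : IndBd G a) (hexp : Exp G m)
    (hm : 2 * a + 3 ≤ m) {i k : ℕ} (hik : i ≤ k) (hk : k ≤ n) (hw : b k - b i ≤ m - 2) :
    2 * (k - i) ≤ (b k - b i) + 12 := by
  obtain ⟨q, h1, h2⟩ := h.rs_bound hα hexp hm hik hk
  by_cases hq : q ≤ 3
  · omega
  · have h3 : (m - 1 - a) * 4 ≤ (m - 1 - a) * q := Nat.mul_le_mul_left _ (by omega)
    omega

/-- Three consecutive direct steps do not occur. -/
theorem Cn.no_rrr [Fintype V] (h : Cn G m n v b) (hα : IndBd G a) (hexp : Exp G m)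
    (hm : 2 * a + 3 ≤ m) {i : ℕ} (hi : i + 3 ≤ n) (h1 : b (i + 1) = b i + 1)
    (h2 : b (i + 2) = b (i + 1) + 1) (h3 : b (i + 3) = b (i + 2) + 1) : False := by
  classical
  have hbare := h.rstep i (by omega) h1
  have hL : b (i + 3) ≤ b n := h.monotone hi (le_refl _)
  have hnon : ¬ G.Adj (v (b i)) (v (b (i + 2))) := by
    intro hadj
    refine hbare (v (b (i + 1))) (v (b (i + 2))) (h.hub_adj (by omega)) hadj ?_ ?_
      (h.hub_adj (i := i + 1) (by omega))
    · intro p hp heq
      have := h.inj _ _ (by omega) (by omega) heq
      omega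
    · intro p hp heq
      have := h.inj _ _ (by omega) (by omega) heq
      omega
  have hc := h.bare_count hα hexp (by omega) {i, i + 2} (P := b i) (S := 2)
    (by
      intro t ht
      simp only [Finset.mem_insert, Finset.mem_singleton] at ht
      rcases ht with rfl | rfl
      · exact ⟨by omega, h1⟩
      · exact ⟨by omega, h3⟩)
    (by
      intro t ht
      simp only [Finset.mem_insert, Finset.mem_singleton] at ht
      rcases ht with rfl | rfl
      · omega
      · omega)
    (by
      intro t ht t' ht'
      simp only [Finset.mem_insert, Finset.mem_singleton] at ht ht'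
      rcases ht with rfl | rfl <;> rcases ht' with rfl | rfl
      · exact G.loopless.irrefl _
      · exact hnon
      · exact fun hc => hnon hc.symm
      · exact G.loopless.irrefl _)
    (by simp)
  have hc2 : ({i, i + 2} : Finset ℕ).card = 2 := by
    rw [Finset.card_pair (by omega)]
  rw [hc2] at hc
  have := aux_cnt hc (by omega)
  omega

/-- The number of hubs under a chord against the number of positions under it. -/
theorem Cn.item_ratio [Fintype V] (h : Cn G m n v b) (hα : IndBd G a) (hexp : Exp G m)
    (hm : 2 * a + 60 ≤ m) {c c' : ℕ} (hc : c < c') (hc' : c' ≤ n)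
    (hadj : G.Adj (v (b c)) (v (b c'))) (hw : b c' - b c ≤ m - 2) :
    3 * (c' - c - 1) ≤ 2 * (b c' - b c - 1) := by
  classical
  have hst := h.strict hc hc'
  have hle := h.span_le hc.le hc'
  by_cases hS : 60 ≤ b c' - b c
  · have := h.rs_window hα hexp (by omega) hc.le hc' hw
    omega
  · have hr : ∀ t ∈ Rs b c c', t < n ∧ b (t + 1) = b t + 1 := by
      intro t ht
      simp only [Rs, Finset.mem_filter, Finset.mem_Ico] at ht
      exact ⟨by omega, ht.2⟩
    have hrpos : ∀ t ∈ Rs b c c', b c ≤ b t ∧ b t ≤ b c + (b c' - b c) := by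
      intro t ht
      have h1 : c ≤ t ∧ t < c' := by
        simp only [Rs, Finset.mem_filter, Finset.mem_Ico] at ht
        exact ht.1
      have h2 := h.monotone h1.1 (show t ≤ n by omega)
      have h3 := h.monotone (show t ≤ c' by omega) hc'
      omega
    have hpair : ∀ x ∈ Rs b c c', ∀ y ∈ Rs b c c', x < y → G.Adj (v (b x)) (v (b y)) := by
      intro x hx y hy hxy
      by_contra hnon
      have hcnt := h.bare_count hα hexp (by omega) {x, y} (P := b c) (S := b c' - b c)
        (by
          intro t ht
          simp only [Finset.mem_insert, Finset.mem_singleton] at ht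
          rcases ht with rfl | rfl
          · exact hr _ hx
          · exact hr _ hy)
        (by
          intro t ht
          simp only [Finset.mem_insert, Finset.mem_singleton] at ht
          rcases ht with rfl | rfl
          · exact hrpos _ hx
          · exact hrpos _ hy)
        (by
          intro t ht t' ht'
          simp only [Finset.mem_insert, Finset.mem_singleton] at ht ht'
          rcases ht with rfl | rfl <;> rcases ht' with rfl | rfl
          · exact G.loopless.irrefl _
          · exact hnon
          · exact fun hc => hnon hc.symm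
          · exact G.loopless.irrefl _)
        (by simp)
      rw [Finset.card_pair (by omega)] at hcnt
      have := aux_cnt hcnt (by omega)
      omega
    have hcard : (Rs b c c').card ≤ 2 := by
      by_contra hcon
      obtain ⟨τ, hτ1, hτ2⟩ := exists_sorted (Rs b c c')
      have h0 := hτ1 0 (by omega)
      have h1 := hτ1 1 (by omega)
      have h2 := hτ1 2 (by omega)
      have h01 := hτ2 0 1 (by omega) (by omega)
      have h12 := hτ2 1 2 (by omega) (by omega)
      have hb0 := hr _ h0
      have hn2 := (hr _ h2).1
      refine h.rstep _ hb0.1 hb0.2 (v (b (τ 1))) (v (b (τ 2)))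
        (hpair _ h0 _ h1 h01) (hpair _ h0 _ h2 (by omega)) ?_ ?_ (hpair _ h1 _ h2 h12)
      · intro p hp heq
        have h3 := h.strict h01 (show τ 1 ≤ n by omega)
        have h4 := h.monotone (show τ 1 ≤ n by omega) (le_refl _)
        have h5 := h.monotone hn2.le (le_refl _)
        have := h.inj _ _ (by have := h.strict h01 (show τ 1 ≤ n by omega); omega)
          (by omega) heq
        omega
      · intro p hp heq
        have h3 := h.strict (show τ 0 < τ 2 by omega) hn2.le
        have h5 := h.monotone hn2.le (le_refl _)
        have := h.inj _ _ (by omega) (by omega) heq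
        omega
    have hrs := h.rs_eq c' hc.le hc'
    by_cases h2 : (Rs b c c').card = 2
    · by_cases hl : c' = c + 1
      · subst hl
        have hsub : Rs b c (c + 1) ⊆ {c} := by
          intro t ht
          simp only [Rs, Finset.mem_filter, Finset.mem_Ico] at ht
          simp only [Finset.mem_singleton]
          omega
        have := Finset.card_le_card hsub
        simp only [Finset.card_singleton] at this
        omega
      · by_cases hl2 : c' = c + 2
        · subst hl2
          have hSeq : b (c + 2) = b c + 2 := by omega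
          have g1 := h.gap c (by omega)
          have g2 : b (c + 2) = b (c + 1) + 1 ∨ b (c + 2) = b (c + 1) + 2 :=
            h.gap (c + 1) (by omega)
          have h3 : b (c + 1) = b c + 1 := by
            rcases g1 with g1 | g1
            · exact g1
            · rcases g2 with g2 | g2 <;> omega
          have hL := h.monotone hc' (le_refl _)
          exfalso
          refine h.rstep c (by omega) h3 (v (b (c + 1))) (v (b (c + 2)))
            (h.hub_adj (by omega)) hadj ?_ ?_ (h.hub_adj (i := c + 1) (by omega))
          · intro p hp heq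
            have := h.inj _ _ (by omega) (by omega) heq
            omega
          · intro p hp heq
            have := h.inj _ _ (by omega) (by omega) heq
            omega
        · omega
    · omega

end count

end Vale.Agent.Lib.P048
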