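import Vale.Agent.Lib.P048.C2

/-!
The layers of the hubs in an arc: the least number of steps along chords from the start of the arc.
Walking down the layers gives long paths or many independent hubs.
-/

namespace Vale.Agent.Lib.P048

open Finset

variable {V : Type*} {G : SimpleGraph V}

/-- The layer function of a relation with all steps to the next index. -/
theorem exists_layers (P : ℕ → ℕ → Prop) (i₀ : ℕ) :
    ∀ d, (∀ k, i₀ ≤ k → k < i₀ + d → P k (k + 1)) → ∃ M : ℕ → ℕ, M i₀ = 0 ∧
      (∀ y k, i₀ ≤ y → y < k → k ≤ i₀ + d → P y k → M k ≤ M y + 1) ∧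
      (∀ k, i₀ < k → k ≤ i₀ + d → ∃ y, i₀ ≤ y ∧ y < k ∧ P y k ∧ M k = M y + 1) := by
  classical
  intro d
  induction d with
  | zero =>
    intro _
    refine ⟨fun _ => 0, rfl, ?_, ?_⟩
    · intro y k h1 h2 h3 _
      omega
    · intro k h1 h2
      omega
  | succ d ih =>
    intro hu
    obtain ⟨M, h0, h1, h2⟩ := ih (fun k hk1 hk2 => hu k hk1 (by omega))
    let k₀ := i₀ + (d + 1)
    have hk₀ : k₀ = i₀ + (d + 1) := rfl
    let S := (Finset.Ico i₀ k₀).filter (fun y => P y k₀)
    have hS : S.Nonempty := by
      refine ⟨i₀ + d, ?_⟩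
      simp only [S, Finset.mem_filter, Finset.mem_Ico]
      exact ⟨by omega, hu (i₀ + d) (by omega) (by omega)⟩
    obtain ⟨y₀, hy₀, hmin⟩ := Finset.exists_min_image S M hS
    simp only [S, Finset.mem_filter, Finset.mem_Ico] at hy₀
    refine ⟨fun k => if k = k₀ then M y₀ + 1 else M k, ?_, ?_, ?_⟩
    · simp only [show i₀ ≠ k₀ by omega, if_false]
      exact h0
    · intro y k hy hyk hk hP
      simp only [show y ≠ k₀ by omega, if_false]
      by_cases hkk : k = k₀
      · subst hkk
        simp only [if_true]
        have := hmin y (by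
          simp only [S, Finset.mem_filter, Finset.mem_Ico]
          exact ⟨⟨hy, hyk⟩, hP⟩)
        omega
      · simp only [hkk, if_false]
        exact h1 y k hy hyk (by omega) hP
    · intro k hk1 hk2
      by_cases hkk : k = k₀
      · subst hkk
        refine ⟨y₀, hy₀.1.1, hy₀.1.2, hy₀.2, ?_⟩
        simp only [if_true, show y₀ ≠ k₀ by omega, if_false]
      · obtain ⟨y, hy1, hy2, hy3, hy4⟩ := h2 k hk1 (by omega)
        refine ⟨y, hy1, hy2, hy3, ?_⟩
        simp only [hkk, show y ≠ k₀ by omega, if_false]
        exact hy4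

/-- A shortest path along the layers. -/
theorem exists_pi {P : ℕ → ℕ → Prop} {i₀ n : ℕ} {M : ℕ → ℕ} (hM0 : M i₀ = 0)
    (h2 : ∀ k, i₀ < k → k ≤ n → ∃ y, i₀ ≤ y ∧ y < k ∧ P y k ∧ M k = M y + 1) :
    ∀ j k, i₀ ≤ k → k ≤ n → M k = j → ∃ c : ℕ → ℕ, c 0 = i₀ ∧ c j = k ∧
      ∀ i, i < j → c i < c (i + 1) ∧ P (c i) (c (i + 1)) := by
  intro j
  induction j with
  | zero =>
    intro k hk1 hk2 hk3
    by_cases hk : i₀ < k
    · obtain ⟨y, _, _, _, hy⟩ := h2 k hk hk2
      omega
    · have : k = i₀ := by omega
      exact ⟨fun _ => i₀, rfl, this.symm, fun i hi => by omega⟩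
  | succ j ih =>
    intro k hk1 hk2 hk3
    by_cases hk : i₀ < k
    · obtain ⟨y, hy1, hy2, hy3, hy4⟩ := h2 k hk hk2
      obtain ⟨c, hc0, hcj, hc⟩ := ih y hy1 (by omega) (by omega)
      refine ⟨fun i => if i ≤ j then c i else k, ?_, ?_, ?_⟩
      · simp only [Nat.zero_le, if_true]
        exact hc0
      · simp
      · intro i hi
        by_cases hij : i = j
        · subst hij
          simp only [le_refl, if_true, show ¬ i + 1 ≤ i by omega, if_false, hcj]
          exact ⟨hy2, hy3⟩
        · simp only [show i ≤ j by omega, show i + 1 ≤ j by omega, if_true]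
          exact hc i (by omega)
    · have : k = i₀ := by omega
      subst this
      omega

section layers

variable {a m n : ℕ} {v : ℕ → V} {b : ℕ → ℕ}

/-- The relation between hubs of an arc: adjacent, except for the two ends of the arc. -/
def RelH (G : SimpleGraph V) (v : ℕ → V) (b : ℕ → ℕ) (i₀ n y k : ℕ) : Prop :=
  G.Adj (v (b y)) (v (b k)) ∧ ¬ (y = i₀ ∧ k = n)

/-- One more vertex along an adjacency between hubs. -/
theorem Cn.r_edge (h : Cn G m n v b) {i₀ y k t : ℕ} (hy : y < k) (hk : k ≤ n)
    (hr : ∃ f, IdxPath G v (b i₀) (b y) t f) (ht : 1 ≤ t)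
    (hadj : G.Adj (v (b y)) (v (b k))) : ∃ f, IdxPath G v (b i₀) (b k) (t + 1) f := by
  obtain ⟨f₁, hf₁⟩ := hr
  have hst := h.strict hy hk
  have hL := h.monotone hk (le_refl _)
  obtain ⟨f₂, hf₂⟩ := idxPath_edge hst.le hadj
  obtain ⟨f, hf⟩ := idxPath_glue h.inj hf₁ hf₂ ht (by omega) (by omega : b k < b n + 1)
  rw [show t + 2 - 1 = t + 1 by omega] at hf
  exact ⟨f, hf⟩

/-- Two more vertices along a step with a vertex in the middle. -/
theorem Cn.r_two (h : Cn G m n v b) {i₀ y t : ℕ} (hy : y < n)
    (hg : b (y + 1) = b y + 2)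
    (hr : ∃ f, IdxPath G v (b i₀) (b y) t f) (ht : 1 ≤ t) :
    ∃ f, IdxPath G v (b i₀) (b (y + 1)) (t + 2) f := by
  obtain ⟨f₁, hf₁⟩ := hr
  have hL := h.monotone (show y + 1 ≤ n by omega) (le_refl _)
  obtain ⟨f₂, hf₂⟩ := h.step_three hy hg
  obtain ⟨f, hf⟩ := idxPath_glue h.inj hf₁ hf₂ ht (by omega) (by omega : b (y + 1) < b n + 1)
  rw [show t + 3 - 1 = t + 2 by omega] at hf
  exact ⟨f, hf⟩

/-- Going down the layers. -/
theorem Cn.layer_core [Fintype V] (h : Cn G m n v b) (hα : IndBd G a) (hexp : Exp G m)
    (hm : 2 * a + 3 ≤ m) {i₀ : ℕ} (hin : i₀ + 1 < n) {M : ℕ → ℕ} (hM0 : M i₀ = 0)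
    (hM1 : ∀ y k, i₀ ≤ y → y < k → k ≤ n → RelH G v b i₀ n y k → M k ≤ M y + 1)
    (hM2 : ∀ k, i₀ < k → k ≤ n → ∃ y, i₀ ≤ y ∧ y < k ∧ RelH G v b i₀ n y k ∧ M k = M y + 1) :
    ∀ d k, k - i₀ = d → i₀ ≤ k → k ≤ n → ∃ (Gn bad run : ℕ) (Q : Finset ℕ),
      (∀ t, M k + 1 ≤ t → t ≤ M k + 1 + Gn → ∃ f, IdxPath G v (b i₀) (b k) t f) ∧
      M k ≤ 3 * (Gn + bad) + run ∧ run ≤ 2 ∧
      (1 ≤ run → i₀ < k ∧ b k = b (k - 1) + 1) ∧
      (2 ≤ run → i₀ + 1 < k ∧ b (k - 1) = b (k - 2) + 1) ∧
      (∀ u ∈ Q, i₀ ≤ u ∧ u ≤ k ∧ M u ≤ M k) ∧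
      (∀ u ∈ Q, ∀ u' ∈ Q, u < u' → M u % 2 = M u' % 2 → ¬ RelH G v b i₀ n u u') ∧
      Q.card = M k + 1 + bad := by
  classical
  intro d
  induction d using Nat.strong_induction_on with
  | _ d ih =>
    intro k hd hk1 hk2
    by_cases hk : i₀ < k
    · obtain ⟨q, hq1, hq2, hq3, hq4⟩ := hM2 k hk hk2
      have hfin : ∃ y, i₀ ≤ y ∧ y < k ∧ M y < M k ∧ ∀ y', y < y' → y' < k → M k ≤ M y' := by
        let S := (Finset.Ico i₀ k).filter (fun y => M y < M k)
        have hS : S.Nonempty := ⟨q, by
          simp only [S, Finset.mem_filter, Finset.mem_Ico]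
          exact ⟨⟨hq1, hq2⟩, by omega⟩⟩
        obtain ⟨y, hy, hymax⟩ : ∃ y, y ∈ S ∧ ∀ z ∈ S, z ≤ y :=
          ⟨S.max' hS, Finset.max'_mem S hS, fun z hz => Finset.le_max' S z hz⟩
        simp only [S, Finset.mem_filter, Finset.mem_Ico] at hy
        refine ⟨y, hy.1.1, hy.1.2, hy.2, ?_⟩
        intro y' h1 h2
        by_contra hc
        have hmem : y' ∈ S := by
          simp only [S, Finset.mem_filter, Finset.mem_Ico]
          exact ⟨⟨by omega, h2⟩, by omega⟩
        have := hymax y' hmem
        omega
      obtain ⟨y, hy1, hy2, hy3, hy4⟩ := hfin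
      -- the unit step
      have hunit : RelH G v b i₀ n y (y + 1) :=
        ⟨h.hub_adj (by omega), by rintro ⟨rfl, h2⟩; omega⟩
      have hqy : q ≤ y := by
        by_contra hc
        have := hy4 q (by omega) hq2
        omega
      have hMy : M k = M y + 1 := by
        by_cases hf : y + 1 = k
        · have := hM1 y (y + 1) hy1 (by omega) (by omega) hunit
          rw [hf] at this
          omega
        · have h1 := hy4 (y + 1) (by omega) (by omega)
          have h2 := hM1 y (y + 1) hy1 (by omega) (by omega) hunit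
          omega
      -- the data at the two lower hubs
      obtain ⟨G₁, B₁, run₁, Q₁, a1, a2, a3, a4, a5, a6, a7, a8⟩ :=
        ih (y - i₀) (by omega) y rfl hy1 (by omega)
      obtain ⟨G₂, B₂, run₂, Q₂, c1, c2, c3, c4, c5, c6, c7, c8⟩ :=
        ih (q - i₀) (by omega) q rfl hq1 (by omega)
      -- a new element above all elements of the lower set
      have hnew : ∀ (Q₀ : Finset ℕ) (w x : ℕ), (∀ u ∈ Q₀, i₀ ≤ u ∧ u ≤ x ∧ M u ≤ M x) →
          M x + 1 = M k → M w = M k → x < w → w ≤ n → ∀ u ∈ Q₀, M u % 2 = M w % 2 →
          ¬ RelH G v b i₀ n u w := by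
        intro Q₀ w x hQ hx1 hx2 hx3 hx4 u hu hpar hrel
        obtain ⟨h1, h2, h3⟩ := hQ u hu
        have := hM1 u w h1 (by omega) hx4 hrel
        omega
      have hQnew := hnew Q₁ k y a6 (by omega) rfl hy2 hk2
      have hk1Q : k ∉ Q₁ := fun hc => by
        have := (a6 k hc).2.1
        omega
      have hins1 : ∀ u ∈ insert k Q₁, i₀ ≤ u ∧ u ≤ k ∧ M u ≤ M k := by
        intro u hu
        rcases Finset.mem_insert.mp hu with hv | hv
        · rw [hv]
          exact ⟨by omega, le_refl _, le_refl _⟩
        · have := a6 u hv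
          omega
      have hins2 : ∀ u ∈ insert k Q₁, ∀ u' ∈ insert k Q₁, u < u' → M u % 2 = M u' % 2 →
          ¬ RelH G v b i₀ n u u' := by
        intro u hu u' hu' huu hpar
        rcases Finset.mem_insert.mp hu with hv | hv <;>
          rcases Finset.mem_insert.mp hu' with hv' | hv'
        · omega
        · have := (a6 u' hv').2.1
          omega
        · rw [hv'] at hpar ⊢
          exact hQnew u hv hpar
        · exact a7 u hv u' hv' huu hpar
      have hins3 : (insert k Q₁).card = Q₁.card + 1 := Finset.card_insert_of_notMem hk1Q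
      by_cases hf : y + 1 = k
      · -- the hub follows directly on the lower hub
        rcases h.gap y (by omega) with hg | hg
        · -- a step without a vertex in the middle
          have hrun : run₁ ≤ 1 := by
            by_contra hc
            have hr2 : run₁ = 2 := by omega
            obtain ⟨h1, h2⟩ := a5 (by omega)
            obtain ⟨h3, h4⟩ := a4 (by omega)
            obtain ⟨i, rfl⟩ : ∃ i, y = i + 2 := ⟨y - 2, by omega⟩
            have e1 : i + 2 - 1 = i + 1 := by omega
            have e2 : i + 2 - 2 = i := by omega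
            rw [e1] at h2 h4
            rw [e2] at h2
            exact h.no_rrr hα hexp hm (i := i) (by omega) h2 h4 hg
          refine ⟨G₁, B₁, run₁ + 1, insert k Q₁, ?_, by omega, by omega, ?_, ?_, ?_, ?_, ?_⟩
          · intro t ht1 ht2
            have := a1 (t - 1) (by omega) (by omega)
            have hk' := h.r_edge (i₀ := i₀) hy2 hk2 this (by omega)
              (by rw [← hf]; exact h.hub_adj (by omega))
            rwa [show t - 1 + 1 = t by omega] at hk'
          · intro _
            refine ⟨hk, ?_⟩
            rw [show k - 1 = y by omega, ← hf]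
            exact hg
          · intro hr2
            obtain ⟨h3, h4⟩ := a4 (by omega)
            refine ⟨by omega, ?_⟩
            rw [show k - 1 = y by omega, show k - 2 = y - 1 by omega]
            exact h4
          · exact hins1
          · exact hins2
          · rw [hins3]
            omega
        · -- a step with a vertex in the middle
          refine ⟨G₁ + 1, B₁, 0, insert k Q₁, ?_, by omega, by omega, by omega, by omega,
            ?_, ?_, ?_⟩
          · intro t ht1 ht2
            by_cases htc : t ≤ M y + 1 + G₁ + 1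
            · have := a1 (t - 1) (by omega) (by omega)
              have hk' := h.r_edge (i₀ := i₀) hy2 hk2 this (by omega)
                (by rw [← hf]; exact h.hub_adj (by omega))
              rwa [show t - 1 + 1 = t by omega] at hk'
            · have := a1 (t - 2) (by omega) (by omega)
              have hk' := h.r_two (i₀ := i₀) (y := y) (by omega) hg this (by omega)
              rw [hf] at hk'
              rwa [show t - 2 + 2 = t by omega] at hk'
          · exact hins1
          · exact hins2
          · rw [hins3]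
            omega
      · by_cases hrel : RelH G v b i₀ n (y + 1) k
        · -- two steps to the hub
          refine ⟨G₁ + 1, B₁, 0, insert k Q₁, ?_, by omega, by omega, by omega, by omega,
            ?_, ?_, ?_⟩
          · intro t ht1 ht2
            by_cases ht0 : t = M k + 1
            · subst ht0
              have h1 := c1 (M q + 1) (le_refl _) (by omega)
              have hk' := h.r_edge (i₀ := i₀) hq2 hk2 h1 (by omega) hq3.1
              rwa [← hq4] at hk'
            · have h1 := a1 (t - 2) (by omega) (by omega)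
              have h2 := h.r_edge (i₀ := i₀) (show y < y + 1 by omega) (by omega) h1 (by omega)
                (h.hub_adj (by omega))
              have h3 := h.r_edge (i₀ := i₀) (show y + 1 < k by omega) hk2 h2 (by omega) hrel.1
              rwa [show t - 2 + 1 + 1 = t by omega] at h3
          · exact hins1
          · exact hins2
          · rw [hins3]
            omega
        · -- the hub after the lower hub is not adjacent to this hub
          have hMf : M (y + 1) = M k := by
            have h1 := hy4 (y + 1) (by omega) (by omega)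
            have h2 := hM1 y (y + 1) hy1 (by omega) (by omega) hunit
            omega
          have hb6 : ∀ u ∈ Q₂, i₀ ≤ u ∧ u ≤ q ∧ M u ≤ M q := c6
          have hQk := hnew Q₂ k q c6 (by omega) rfl hq2 hk2
          have hQf := hnew Q₂ (y + 1) q c6 (by omega) hMf (by omega) (by omega)
          have hf1 : y + 1 ∉ Q₂ := fun hc => by
            have := (c6 _ hc).2.1
            omega
          have hk1 : k ∉ insert (y + 1) Q₂ := by
            intro hc
            rcases Finset.mem_insert.mp hc with hc | hc
            · omega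
            · have := (c6 _ hc).2.1
              omega
          refine ⟨G₂, B₂ + 1, 0, insert k (insert (y + 1) Q₂), ?_, by omega, by omega, by omega,
            by omega, ?_, ?_, ?_⟩
          · intro t ht1 ht2
            have h1 := c1 (t - 1) (by omega) (by omega)
            have hk' := h.r_edge (i₀ := i₀) hq2 hk2 h1 (by omega) hq3.1
            rwa [show t - 1 + 1 = t by omega] at hk'
          · intro u hu
            rcases Finset.mem_insert.mp hu with hv | hv
            · rw [hv]
              exact ⟨by omega, le_refl _, le_refl _⟩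
            · rcases Finset.mem_insert.mp hv with hw | hw
              · rw [hw]
                exact ⟨by omega, by omega, by omega⟩
              · have := c6 u hw
                omega
          · intro u hu u' hu' huu hpar
            rcases Finset.mem_insert.mp hu with hv | hv <;>
              rcases Finset.mem_insert.mp hu' with hv' | hv'
            · omega
            · rcases Finset.mem_insert.mp hv' with hw' | hw'
              · omega
              · have := (c6 u' hw').2.1
                omega
            · rcases Finset.mem_insert.mp hv with hw | hw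
              · rw [hw, hv']
                exact hrel
              · rw [hv'] at hpar ⊢
                exact hQk u hw hpar
            · rcases Finset.mem_insert.mp hv with hw | hw <;>
                rcases Finset.mem_insert.mp hv' with hw' | hw'
              · omega
              · have := (c6 u' hw').2.1
                omega
              · rw [hw'] at hpar ⊢
                exact hQf u hw hpar
              · exact c7 u hw u' hw' huu hpar
          · rw [Finset.card_insert_of_notMem hk1, Finset.card_insert_of_notMem hf1]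
            omega
    · have hki : k = i₀ := by omega
      subst hki
      refine ⟨0, 0, 0, {k}, ?_, by omega, by omega, by omega, by omega, ?_, ?_, ?_⟩
      · intro t ht1 ht2
        have : t = 1 := by omega
        subst this
        exact idxPath_self v _
      · intro u hu
        rw [Finset.mem_singleton] at hu
        subst hu
        exact ⟨le_refl _, le_refl _, le_refl _⟩
      · intro u hu u' hu' huu
        rw [Finset.mem_singleton] at hu hu'
        omega
      · simp [hM0]

/-- A set of hubs that are pairwise nonadjacent has at most `a` elements. -/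
theorem Cn.hubs_card (h : Cn G m n v b) (hα : IndBd G a) (T : Finset ℕ) (hT : ∀ u ∈ T, u ≤ n)
    (hind : ∀ u ∈ T, ∀ u' ∈ T, u < u' → ¬ G.Adj (v (b u)) (v (b u'))) : T.card ≤ a := by
  classical
  by_contra hcon
  have hinj : Set.InjOn (fun i => v (b i)) (T : Set ℕ) := by
    intro x hx y hy hxy
    have h1 := hT x hx
    have h2 := hT y hy
    have h3 := h.monotone h1 (le_refl _)
    have h4 := h.monotone h2 (le_refl _)
    have h5 := h.inj _ _ (by omega) (by omega) hxy
    by_contra hne
    rcases (by omega : x < y ∨ y < x) with h6 | h6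
    · have := h.strict h6 h2
      omega
    · have := h.strict h6 h1
      omega
  obtain ⟨x, hx, y, hy, hxy⟩ := hα (T.image (fun i => v (b i))) (by
    rw [Finset.card_image_of_injOn hinj]
    omega)
  rw [Finset.mem_image] at hx hy
  obtain ⟨u, hu, rfl⟩ := hx
  obtain ⟨u', hu', rfl⟩ := hy
  rcases lt_trichotomy u u' with h1 | h1 | h1
  · exact hind u hu u' hu' h1 hxy
  · subst h1
    exact G.loopless.irrefl _ hxy
  · exact hind u' hu' u hu h1 hxy.symm

/-- The number of layers of an arc, when the arc has no path with `m'` vertices. -/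
theorem Cn.layer_bound [Fintype V] (h : Cn G m n v b) (hα : IndBd G a) (hexp : Exp G m)
    (hm : 2 * a + 3 ≤ m) {i₀ m' : ℕ} (hin : i₀ + 1 < n) (hm' : 2 * a + 1 ≤ m') {M : ℕ → ℕ}
    (hM0 : M i₀ = 0)
    (hM1 : ∀ y k, i₀ ≤ y → y < k → k ≤ n → RelH G v b i₀ n y k → M k ≤ M y + 1)
    (hM2 : ∀ k, i₀ < k → k ≤ n → ∃ y, i₀ ≤ y ∧ y < k ∧ RelH G v b i₀ n y k ∧ M k = M y + 1)
    (hno : ¬ ∃ f, IdxPath G v (b i₀) (b n) m' f) :
    M n ≤ 2 * a ∧ 7 * M n + 4 ≤ 3 * m' + 6 * a := by
  classical
  obtain ⟨Gn, bad, run, Q, h1, h2, h3, _, _, h6, h7, h8⟩ :=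
    h.layer_core hα hexp hm hin hM0 hM1 hM2 (n - i₀) n rfl (by omega) (le_refl _)
  let Q₀ := (Q.filter (fun u => M u % 2 = 0)).erase i₀
  let Q₁ := Q.filter (fun u => M u % 2 = 1)
  have hc0 : Q₀.card ≤ a := by
    refine h.hubs_card hα Q₀ ?_ ?_
    · intro u hu
      have : u ∈ Q := by
        simp only [Q₀, Finset.mem_erase, Finset.mem_filter] at hu
        exact hu.2.1
      exact (h6 u this).2.1
    · intro u hu u' hu' huu hadj
      simp only [Q₀, Finset.mem_erase, Finset.mem_filter] at hu hu'
      exact h7 u hu.2.1 u' hu'.2.1 huu (by omega) ⟨hadj, fun hc => hu.1 hc.1⟩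
  have hc1 : Q₁.card ≤ a := by
    refine h.hubs_card hα Q₁ ?_ ?_
    · intro u hu
      have : u ∈ Q := by
        simp only [Q₁, Finset.mem_filter] at hu
        exact hu.1
      exact (h6 u this).2.1
    · intro u hu u' hu' huu hadj
      simp only [Q₁, Finset.mem_filter] at hu hu'
      refine h7 u hu.1 u' hu'.1 huu (by omega) ⟨hadj, fun hc => ?_⟩
      rw [hc.1, hM0] at hu
      omega
  have hsub : Q ⊆ insert i₀ Q₀ ∪ Q₁ := by
    intro u hu
    by_cases hu2 : M u % 2 = 1
    · exact Finset.mem_union_right _ (by simp [Q₁, hu, hu2])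
    · refine Finset.mem_union_left _ ?_
      by_cases hu3 : u = i₀
      · subst hu3
        exact Finset.mem_insert_self _ _
      · refine Finset.mem_insert_of_mem ?_
        simp only [Q₀, Finset.mem_erase, Finset.mem_filter]
        exact ⟨hu3, hu, by omega⟩
  have hc2 := Finset.card_le_card hsub
  have hc3 := Finset.card_union_le (insert i₀ Q₀) Q₁
  have hc4 : (insert i₀ Q₀).card ≤ Q₀.card + 1 := Finset.card_insert_le _ _
  have hr : M n + bad ≤ 2 * a := by omega
  have hG : M n + 1 + Gn < m' := by
    by_contra hc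
    exact hno (h1 m' (by omega) (by omega))
  exact ⟨by omega, by omega⟩

end layers

end Vale.Agent.Lib.P048
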