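import Vale.Agent.Lib.P048.C3

/-!
A sequence of hubs along a path, with an optional vertex between some consecutive hubs; the number
of vertices of a path along the sequence can be any number between the two obvious extremes.  If
the sequence is a little longer than a given number, then chords give a path of exactly that number
of vertices, or many pairwise nonadjacent hubs.
-/

namespace Vale.Agent.Lib.P048

open Finset

variable {V : Type*} {G : SimpleGraph V}

/-- A sequence of hubs `z 0 < z 1 < ... < z L` (positions on `v`), with the number `π s` of vertices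
on the longest path along the sequence before the `s`-th hub. -/
structure FS (G : SimpleGraph V) (v : ℕ → V) (Q : ℕ) (z π : ℕ → ℕ) (L : ℕ) : Prop where
  inj : ∀ i j, i < Q → j < Q → v i = v j → i = j
  zQ : z L < Q
  zm : ∀ s, s < L → z s < z (s + 1)
  πg : ∀ s, s < L → π (s + 1) = π s + 1 ∨ π (s + 1) = π s + 2
  πz : ∀ s, s < L → π (s + 1) + z s ≤ π s + z (s + 1)
  e1 : ∀ s, s < L → G.Adj (v (z s)) (v (z (s + 1)))
  e2 : ∀ s, s < L → π (s + 1) = π s + 2 → ∃ f, IdxPath G v (z s) (z (s + 1)) 3 f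

section fs

variable {v : ℕ → V} {Q : ℕ} {z π : ℕ → ℕ} {L : ℕ}

theorem FS.zlt (F : FS G v Q z π L) {s s' : ℕ} (hs : s < s') (hs' : s' ≤ L) : z s < z s' := by
  induction s' with
  | zero => omega
  | succ s' ih =>
    have h1 := F.zm s' (by omega)
    by_cases h2 : s = s'
    · subst h2; exact h1
    · have := ih (by omega) (by omega)
      omega

theorem FS.zle (F : FS G v Q z π L) {s s' : ℕ} (hs : s ≤ s') (hs' : s' ≤ L) : z s ≤ z s' := by
  by_cases h2 : s = s'
  · subst h2; exact le_refl _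
  · exact (F.zlt (by omega) hs').le

theorem FS.π_ge (F : FS G v Q z π L) {s s' : ℕ} (hs : s ≤ s') (hs' : s' ≤ L) :
    π s + (s' - s) ≤ π s' := by
  induction s' with
  | zero =>
    have : s = 0 := by omega
    subst this
    simp
  | succ s' ih =>
    by_cases h2 : s = s' + 1
    · subst h2; simp
    · have h1 := F.πg s' (by omega)
      have := ih (by omega) (by omega)
      omega

theorem FS.π_le (F : FS G v Q z π L) {s s' : ℕ} (hs : s ≤ s') (hs' : s' ≤ L) :
    π s' ≤ π s + 2 * (s' - s) := by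
  induction s' with
  | zero =>
    have : s = 0 := by omega
    subst this
    simp
  | succ s' ih =>
    by_cases h2 : s = s' + 1
    · subst h2; simp
    · have h1 := F.πg s' (by omega)
      have := ih (by omega) (by omega)
      omega

theorem FS.π_lt (F : FS G v Q z π L) {s s' : ℕ} (hs : s < s') (hs' : s' ≤ L) : π s < π s' := by
  have := F.π_ge hs.le hs'
  omega

theorem FS.π_z (F : FS G v Q z π L) {s s' : ℕ} (hs : s ≤ s') (hs' : s' ≤ L) :
    π s' + z s ≤ π s + z s' := by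
  induction s' with
  | zero =>
    have : s = 0 := by omega
    subst this
    simp
  | succ s' ih =>
    by_cases h2 : s = s' + 1
    · subst h2; simp
    · have h1 := F.πz s' (by omega)
      have := ih (by omega) (by omega)
      omega

/-- Paths along a part of the sequence. -/
theorem FS.seg (F : FS G v Q z π L) {s : ℕ} :
    ∀ s', s ≤ s' → s' ≤ L → ∀ t, s' - s + 1 ≤ t → t + π s ≤ π s' + 1 →
      ∃ f, IdxPath G v (z s) (z s') t f := by
  intro s'
  induction s' with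
  | zero =>
    intro hs _ t ht1 ht2
    have hi0 : s = 0 := by omega
    subst hi0
    have ht : t = 1 := by omega
    subst ht
    exact idxPath_self v _
  | succ s' ih =>
    intro hs hk t ht1 ht2
    by_cases hik : s = s' + 1
    · subst hik
      have ht : t = 1 := by omega
      subst ht
      exact idxPath_self v _
    · have hg := F.πg s' (by omega)
      have hle := F.π_ge (show s ≤ s' by omega) (by omega)
      have hL : z (s' + 1) < Q := by
        have := F.zle (show s' + 1 ≤ L by omega) (le_refl _)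
        have := F.zQ
        omega
      by_cases hc : t + π s ≤ π s' + 2
      · obtain ⟨f₁, hf₁⟩ := ih (by omega) (by omega) (t - 1) (by omega) (by omega)
        obtain ⟨f₂, hf₂⟩ := idxPath_edge (F.zm s' (by omega)).le (F.e1 s' (by omega))
        obtain ⟨f, hf⟩ := idxPath_glue F.inj hf₁ hf₂ (by omega) (by omega) hL
        rw [show t - 1 + 2 - 1 = t by omega] at hf
        exact ⟨f, hf⟩
      · have hg2 : π (s' + 1) = π s' + 2 := by omega
        obtain ⟨f₁, hf₁⟩ := ih (by omega) (by omega) (t - 2) (by omega) (by omega)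
        obtain ⟨f₂, hf₂⟩ := F.e2 s' (by omega) hg2
        obtain ⟨f, hf⟩ := idxPath_glue F.inj hf₁ hf₂ (by omega) (by omega) hL
        rw [show t - 2 + 3 - 1 = t by omega] at hf
        exact ⟨f, hf⟩

/-- A path from the first hub to a given hub with any number of vertices in an interval. -/
def FS.Pt (G : SimpleGraph V) (v : ℕ → V) (z : ℕ → ℕ) (p lo hi : ℕ) : Prop :=
  1 ≤ lo ∧ lo ≤ hi ∧ ∀ t, lo ≤ t → t ≤ hi → ∃ f, IdxPath G v (z 0) (z p) t f

theorem FS.pt_start : FS.Pt G v z 0 1 1 := by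
  refine ⟨le_refl _, le_refl _, ?_⟩
  intro t h1 h2
  have : t = 1 := by omega
  subst this
  exact idxPath_self v _

theorem FS.pt_adv (F : FS G v Q z π L) {p p' lo hi : ℕ} (h : FS.Pt G v z p lo hi) (hp : p ≤ p')
    (hp' : p' ≤ L) : FS.Pt G v z p' (lo + (p' - p)) (hi + (π p' - π p)) := by
  obtain ⟨h1, h2, h3⟩ := h
  have hπ := F.π_ge hp hp'
  refine ⟨by omega, by omega, ?_⟩
  intro t ht1 ht2
  obtain ⟨t₁, t₂, a1, a2, a3, a4, a5⟩ := split2 (a₁ := lo) (b₁ := hi) (a₂ := p' - p + 1)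
    (b₂ := π p' - π p + 1) (t := t + 1) h2 (by omega) (by omega) (by omega)
  obtain ⟨f₁, hf₁⟩ := h3 t₁ a1 a2
  obtain ⟨f₂, hf₂⟩ := F.seg p' hp hp' t₂ a3 (by omega)
  have hL : z p' < Q := by
    have := F.zle hp' (le_refl _)
    have := F.zQ
    omega
  obtain ⟨f, hf⟩ := idxPath_glue F.inj hf₁ hf₂ (by omega) (by omega) hL
  rw [show t₁ + t₂ - 1 = t by omega] at hf
  exact ⟨f, hf⟩

theorem FS.pt_chord (F : FS G v Q z π L) {y j lo hi : ℕ} (h : FS.Pt G v z y lo hi) (hy : y < j)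
    (hj : j ≤ L) (hadj : G.Adj (v (z y)) (v (z j))) : FS.Pt G v z j (lo + 1) (hi + 1) := by
  obtain ⟨h1, h2, h3⟩ := h
  refine ⟨by omega, by omega, ?_⟩
  intro t ht1 ht2
  obtain ⟨f₁, hf₁⟩ := h3 (t - 1) (by omega) (by omega)
  obtain ⟨f₂, hf₂⟩ := idxPath_edge (F.zlt hy hj).le hadj
  have hL : z j < Q := by
    have := F.zle hj (le_refl _)
    have := F.zQ
    omega
  obtain ⟨f, hf⟩ := idxPath_glue F.inj hf₁ hf₂ (by omega) (by omega) hL
  rw [show t - 1 + 2 - 1 = t by omega] at hf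
  exact ⟨f, hf⟩

end fs

/-- A path that runs through three stretches of positions, the middle one backwards. -/
theorem cross_path {v : ℕ → V} {Q : ℕ} (hinj : ∀ i j, i < Q → j < Q → v i = v j → i = j)
    {x₀ p₁ p₂ p₃ p₄ p₅ t₁ t₂ t₃ : ℕ} {f₁ f₂ f₃ : ℕ → V}
    (h₁ : IdxPath G v x₀ p₁ t₁ f₁) (h₂ : IdxPath G v p₂ p₃ t₂ f₂) (h₃ : IdxPath G v p₄ p₅ t₃ f₃)
    (ht₁ : 1 ≤ t₁) (ht₂ : 1 ≤ t₂) (ht₃ : 1 ≤ t₃)
    (h12 : p₁ < p₂) (h34 : p₃ < p₄) (hQ : p₅ < Q)
    (hadj1 : G.Adj (v p₁) (v p₃)) (hadj2 : G.Adj (v p₂) (v p₄)) :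
    ∃ f, IdxPath G v x₀ p₅ (t₁ + t₂ + t₃) f := by
  obtain ⟨a1, a2, a3, a4⟩ := h₁
  obtain ⟨b1, b2, b3, b4⟩ := h₂
  obtain ⟨c1, c2, c3, c4⟩ := h₃
  have hp23 : p₂ ≤ p₃ := by
    obtain ⟨k, hk1, hk2, _⟩ := b4 0 (by omega)
    omega
  have hp45 : p₄ ≤ p₅ := by
    obtain ⟨k, hk1, hk2, _⟩ := c4 0 (by omega)
    omega
  have hx01 : x₀ ≤ p₁ := by
    obtain ⟨k, hk1, hk2, _⟩ := a4 0 (by omega)
    omega
  -- the middle path backwards
  let g₂ : ℕ → V := fun i => f₂ (t₂ - 1 - i)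
  have hg₂ : PathF G t₂ g₂ := by
    constructor
    · intro i j hi hj hij
      have := b1.inj _ _ (by omega) (by omega) hij
      omega
    · intro i hi
      have := b1.adj (t₂ - 1 - (i + 1)) (by omega)
      rw [show t₂ - 1 - (i + 1) + 1 = t₂ - 1 - i by omega] at this
      exact this.symm
  have hg₂0 : g₂ 0 = v p₃ := by
    show f₂ (t₂ - 1 - 0) = v p₃
    rw [Nat.sub_zero]
    exact b3
  have hg₂1 : g₂ (t₂ - 1) = v p₂ := by
    show f₂ (t₂ - 1 - (t₂ - 1)) = v p₂
    rw [Nat.sub_self]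
    exact b2
  have hg₂mem : ∀ i, i < t₂ → ∃ k, p₂ ≤ k ∧ k ≤ p₃ ∧ g₂ i = v k := fun i hi => b4 _ (by omega)
  have hd12 : ∀ i j, i < t₁ → j < t₂ → f₁ i ≠ g₂ j := by
    intro i j hi hj heq
    obtain ⟨k₁, h11, h12', h13⟩ := a4 i hi
    obtain ⟨k₂, h21, h22, h23⟩ := hg₂mem j hj
    rw [h13, h23] at heq
    have := hinj _ _ (by omega) (by omega) heq
    omega
  have hp12 := PathF.concat a1 hg₂ hd12 ht₁ (fun _ => by rw [a3, hg₂0]; exact hadj1)
  let f₁₂ : ℕ → V := fun i => if i < t₁ then f₁ i else g₂ (i - t₁)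
  have hmem12 : ∀ i, i < t₁ + t₂ → ∃ k, x₀ ≤ k ∧ k ≤ p₃ ∧ f₁₂ i = v k := by
    intro i hi
    by_cases hi1 : i < t₁
    · obtain ⟨k, h1, h2, h3⟩ := a4 i hi1
      exact ⟨k, h1, by omega, by simp only [f₁₂, hi1, if_true]; exact h3⟩
    · obtain ⟨k, h1, h2, h3⟩ := hg₂mem (i - t₁) (by omega)
      exact ⟨k, by omega, h2, by simp only [f₁₂, hi1, if_false]; exact h3⟩
  have hd3 : ∀ i j, i < t₁ + t₂ → j < t₃ → f₁₂ i ≠ f₃ j := by
    intro i j hi hj heq
    obtain ⟨k₁, h11, h12', h13⟩ := hmem12 i hi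
    obtain ⟨k₂, h21, h22, h23⟩ := c4 j hj
    rw [h13, h23] at heq
    have := hinj _ _ (by omega) (by omega) heq
    omega
  have hp123 := PathF.concat hp12 c1 hd3 (by omega) (fun _ => by
    have h1 : f₁₂ (t₁ + t₂ - 1) = v p₂ := by
      have h2 : ¬ t₁ + t₂ - 1 < t₁ := by omega
      simp only [f₁₂, h2, if_false]
      rw [show t₁ + t₂ - 1 - t₁ = t₂ - 1 by omega]
      exact hg₂1
    show G.Adj (f₁₂ (t₁ + t₂ - 1)) (f₃ 0)
    rw [h1, c2]
    exact hadj2)
  refine ⟨_, hp123, ?_, ?_, ?_⟩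
  · have h1 : 0 < t₁ + t₂ := by omega
    simp only [h1, if_true, show 0 < t₁ by omega]
    exact a2
  · have h1 : ¬ t₁ + t₂ + t₃ - 1 < t₁ + t₂ := by omega
    simp only [h1, if_false]
    rw [show t₁ + t₂ + t₃ - 1 - (t₁ + t₂) = t₃ - 1 by omega]
    exact c3
  · intro i hi
    by_cases hi1 : i < t₁ + t₂
    · simp only [hi1, if_true]
      obtain ⟨k, h1, h2, h3⟩ := hmem12 i hi1
      exact ⟨k, h1, by omega, h3⟩
    · simp only [hi1, if_false]
      obtain ⟨k, h1, h2, h3⟩ := c4 (i - (t₁ + t₂)) (by omega)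
      exact ⟨k, by omega, h2, h3⟩

end Vale.Agent.Lib.P048
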