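import Vale.Agent.Lib.P048.C4

/-!
A sequence of hubs a little longer than a given number has a path with exactly that number of
vertices, unless it has too many pairwise nonadjacent hubs at even places.
-/

namespace Vale.Agent.Lib.P048

open Finset

variable {V : Type*} {G : SimpleGraph V}

section lemmaE

variable {v : ℕ → V} {Q : ℕ} {z π : ℕ → ℕ} {L : ℕ}

/-- A short chord between hubs at even places. -/
def FS.Sm (G : SimpleGraph V) (v : ℕ → V) (z : ℕ → ℕ) (L κ y j : ℕ) : Prop :=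
  y < j ∧ j ≤ L ∧ y % 2 = 0 ∧ j % 2 = 0 ∧ j ≤ y + κ ∧ G.Adj (v (z y)) (v (z j))

/-- A long chord between hubs at even places. -/
def FS.Lg (G : SimpleGraph V) (v : ℕ → V) (z : ℕ → ℕ) (L κ y j : ℕ) : Prop :=
  y < j ∧ j ≤ L ∧ y % 2 = 0 ∧ j % 2 = 0 ∧ y ≠ 0 ∧ y + κ < j ∧ G.Adj (v (z y)) (v (z j))

/-- Short chords between hubs at even places all straddle one of a few places. -/
theorem FS.scan (F : FS G v Q z π L) {m' κ : ℕ} (hπ0 : π 0 = 0) (hκ20 : κ ≤ 20)
    (hL : L + 1 = m' + κ) (hπL : m' + 800 ≤ π L + 1)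
    (hno : ¬ ∃ f, IdxPath G v (z 0) (z L) m' f) :
    ∃ Js : Finset ℕ, Js.card < κ ∧ ∀ y j, FS.Sm G v z L κ y j → ∃ q ∈ Js, y < q ∧ q ≤ j := by
  classical
  have key : ∀ k, k ≤ κ →
      (∃ Js : Finset ℕ, Js.card < κ ∧ ∀ y j, FS.Sm G v z L κ y j → ∃ q ∈ Js, y < q ∧ q ≤ j) ∨
      (∃ (p lo hi : ℕ) (Js : Finset ℕ), p ≤ L ∧ FS.Pt G v z p lo hi ∧ lo + k ≤ p + 1 ∧
        π p + 1 ≤ hi + 40 * k ∧ Js.card ≤ k ∧
        ∀ y j, FS.Sm G v z L κ y j → y < p → ∃ q ∈ Js, y < q ∧ q ≤ j) := by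
    intro k
    induction k with
    | zero =>
      intro _
      right
      refine ⟨0, 1, 1, ∅, by omega, FS.pt_start, by omega, by omega, by simp, ?_⟩
      intro y j _ hy
      omega
    | succ k ih =>
      intro hk
      rcases ih (by omega) with h | ⟨p, lo, hi, Js, hp, hPt, h1, h2, h3, h4⟩
      · exact Or.inl h
      · by_cases hex : ∃ j y, FS.Sm G v z L κ y j ∧ p ≤ y
        · right
          obtain ⟨y, hy1, hy2⟩ := Nat.find_spec hex
          obtain ⟨j₀, hj₀⟩ : ∃ j₀, j₀ = Nat.find hex := ⟨_, rfl⟩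
          rw [← hj₀] at hy1
          have hmin : ∀ y' j', FS.Sm G v z L κ y' j' → p ≤ y' → j₀ ≤ j' := by
            intro y' j' h5 h6
            rw [hj₀]
            exact Nat.find_min' hex ⟨y', h5, h6⟩
          obtain ⟨e1, e2, e3, e4, e5, e6⟩ := hy1
          have hPy := F.pt_adv hPt hy2 (by omega)
          have hPj := F.pt_chord hPy e1 e2 e6
          have h5 := F.π_le e1.le e2
          have h6 := F.π_ge hy2 (show y ≤ L by omega)
          refine ⟨j₀, _, _, insert j₀ Js, e2, hPj, by omega, by omega, ?_, ?_⟩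
          · have := Finset.card_insert_le j₀ Js
            omega
          · intro y' j' h7 h8
            by_cases h9 : y' < p
            · obtain ⟨q, hq, hq2⟩ := h4 y' j' h7 h9
              exact ⟨q, Finset.mem_insert_of_mem hq, hq2⟩
            · have := hmin y' j' h7 (by omega)
              exact ⟨j₀, Finset.mem_insert_self _ _, h8, this⟩
        · left
          push Not at hex
          refine ⟨Js, by omega, ?_⟩
          intro y j h5
          by_cases h6 : y < p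
          · exact h4 y j h5 h6
          · exact absurd (not_lt.mp h6) (fun h7 => hex j y h5 |>.not_ge h7)
  rcases key κ (le_refl _) with h | ⟨p, lo, hi, Js, hp, hPt, h1, h2, h3, h4⟩
  · exact h
  · exfalso
    have hPL := F.pt_adv hPt hp (le_refl _)
    have h5 := F.π_ge hp (le_refl _)
    obtain ⟨_, _, h6⟩ := hPL
    exact hno (h6 m' (by omega) (by omega))

/-- Long chords are very long. -/
theorem FS.large_span (F : FS G v Q z π L) {m m' κ w y j : ℕ} (hπ0 : π 0 = 0)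
    (hL : L + 1 = m' + κ) (hπL : π L + 5 + w = m' + m)
    (hno : ¬ ∃ f, IdxPath G v (z 0) (z L) m' f) (h : FS.Lg G v z L κ y j) :
    π y + m ≤ π j + 2 + w := by
  obtain ⟨e1, e2, e3, e4, e5, e6, e7⟩ := h
  by_contra hcon
  have hP0 : FS.Pt G v z 0 1 1 := FS.pt_start
  have h1 := F.pt_adv hP0 (Nat.zero_le y) (by omega)
  have h2 := F.pt_chord h1 e1 e2 e7
  have h4 := F.pt_adv h2 e2 (le_refl _)
  have h5 := F.π_ge e2 (le_refl _)
  obtain ⟨_, _, h6⟩ := h4
  exact hno (h6 m' (by omega) (by omega))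

/-- A sequence of hubs a little longer than `m'`, with chords not too long and few independent
vertices, has a path with exactly `m'` vertices. -/
theorem FS.lemmaE (F : FS G v Q z π L) {a m m' κ w : ℕ} (hα : IndBd G a) (hπ0 : π 0 = 0)
    (hκ20 : κ ≤ 20) (hw : w ≤ 38) (hL : L + 1 = m' + κ)
    (hπL : π L + 5 + w = m' + m) (hm' : m' ≤ m) (hlarge : 2000 ≤ m)
    (hspan : ∀ s s', s < s' → s' ≤ L → G.Adj (v (z s)) (v (z s')) → ¬ (s = 0 ∧ s' = L) →
      π s' ≤ π s + (m - 2))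
    (hC : 2 * a + 938 < m' + κ) : ∃ f, IdxPath G v (z 0) (z L) m' f := by
  classical
  by_contra hno
  have hπ2 : m' + 800 ≤ π L + 1 := by omega
  obtain ⟨Js, hJs1, hJs2⟩ := F.scan hπ0 hκ20 hL hπ2 hno
  obtain ⟨B₀, hB₀⟩ : ∃ B₀, B₀ = (m - 78) / 2 := ⟨_, rfl⟩
  have hLgS := fun y j (h : FS.Lg G v z L κ y j) => F.large_span hπ0 hL hπL hno h
  have hLgU : ∀ y j, FS.Lg G v z L κ y j → π j ≤ π y + (m - 2) := by
    rintro y j ⟨e1, e2, e3, e4, e5, e6, e7⟩
    exact hspan y j e1 e2 e7 (fun hc => e5 hc.1)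
  -- two crossing long chords give a path
  have hcross : ∀ y j s s', FS.Lg G v z L κ y j → FS.Lg G v z L κ s s' → y + 42 ≤ s →
      π s < π y + B₀ → False := by
    intro y j s s' h1 h2 h3 h4
    have a1 := hLgS y j h1
    have a2 := hLgS s s' h2
    have a3 := hLgU y j h1
    have a4 := hLgU s s' h2
    obtain ⟨e1, e2, e3, e4, e5, e6, e7⟩ := h1
    obtain ⟨e1', e2', e3', e4', e5', e6', e7'⟩ := h2
    have hd := F.π_ge (show y ≤ s by omega) (show s ≤ L by omega)
    have hsj : s < j := by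
      by_contra hc
      have := F.π_ge (show j ≤ s by omega) (show s ≤ L by omega)
      omega
    have hjs : j < s' := by
      by_contra hc
      have := F.π_ge (show s' ≤ j by omega) e2
      omega
    have h5 := F.π_ge (Nat.zero_le y) (show y ≤ L by omega)
    have h6 := F.π_ge hsj.le e2
    have h7 := F.π_ge e2' (le_refl _)
    obtain ⟨t₁₂, t₃, a5, a6, a7, a8, a9⟩ := split2
      (a₁ := (y + 1) + (j - s + 1)) (b₁ := (π y + 1) + (π j - π s + 1))
      (a₂ := L - s' + 1) (b₂ := π L - π s' + 1) (t := m') (by omega) (by omega) (by omega)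
      (by omega)
    obtain ⟨t₁, t₂, b1, b2, b3, b4, b5⟩ := split2
      (a₁ := y + 1) (b₁ := π y + 1) (a₂ := j - s + 1) (b₂ := π j - π s + 1) (t := t₁₂)
      (by omega) (by omega) a5 a6
    obtain ⟨f₁, hf₁⟩ := F.seg (s := 0) y (Nat.zero_le y) (by omega) t₁ (by omega) (by omega)
    obtain ⟨f₂, hf₂⟩ := F.seg (s := s) j hsj.le e2 t₂ b3 (by omega)
    obtain ⟨f₃, hf₃⟩ := F.seg (s := s') L e2' (le_refl _) t₃ a7 (by omega)
    obtain ⟨f, hf⟩ := cross_path F.inj hf₁ hf₂ hf₃ (by omega) (by omega) (by omega)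
      (F.zlt (show y < s by omega) (by omega)) (F.zlt hjs e2') F.zQ e7 e7'
    rw [show t₁ + t₂ + t₃ = m' by omega] at hf
    exact hno ⟨f, hf⟩
  -- the start of the long chords in a block
  have hblock : ∀ Blk : ℕ → Prop, ∃ y j, ∀ s s', FS.Lg G v z L κ s s' → Blk (π s) →
      y ≤ s ∧ FS.Lg G v z L κ y j ∧ Blk (π y) := by
    intro Blk
    by_cases hex : ∃ s s', FS.Lg G v z L κ s s' ∧ Blk (π s)
    · obtain ⟨j, hj1, hj2⟩ := Nat.find_spec hex
      refine ⟨Nat.find hex, j, ?_⟩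
      intro s s' h1 h2
      exact ⟨Nat.find_min' hex ⟨s', h1, h2⟩, hj1, hj2⟩
    · push Not at hex
      exact ⟨0, 0, fun s s' h1 h2 => absurd h2 (hex s s' h1)⟩
  obtain ⟨y₀, j₀, hb0⟩ := hblock (fun x => x < B₀)
  obtain ⟨y₁, j₁, hb1⟩ := hblock (fun x => B₀ ≤ x ∧ x < 2 * B₀)
  obtain ⟨y₂, j₂, hb2⟩ := hblock (fun x => 2 * B₀ ≤ x ∧ x < 3 * B₀)
  -- the positions left out
  let Bad : Finset ℕ := insert 0 (Js.biUnion (fun q => Finset.Icc ((q - κ) / 2) ((q + κ) / 2))) ∪
    Finset.Icc (y₀ / 2) ((y₀ + 42) / 2) ∪ Finset.Icc (y₁ / 2) ((y₁ + 42) / 2) ∪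
    Finset.Icc (y₂ / 2) ((y₂ + 42) / 2)
  let K := Finset.range (L / 2 + 1) \ Bad
  have hKmem : ∀ i ∈ K, i ≤ L / 2 ∧ i ≠ 0 ∧
      (∀ q ∈ Js, ¬ ((q - κ) / 2 ≤ i ∧ i ≤ (q + κ) / 2)) ∧
      ¬ (y₀ / 2 ≤ i ∧ i ≤ (y₀ + 42) / 2) ∧ ¬ (y₁ / 2 ≤ i ∧ i ≤ (y₁ + 42) / 2) ∧
      ¬ (y₂ / 2 ≤ i ∧ i ≤ (y₂ + 42) / 2) := by
    intro i hi
    simp only [K, Bad, Finset.mem_sdiff, Finset.mem_range, Finset.mem_union, Finset.mem_insert,
      Finset.mem_biUnion, Finset.mem_Icc, not_or] at hi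
    obtain ⟨h1, ⟨⟨⟨h2, h3⟩, h4⟩, h5⟩, h6⟩ := hi
    refine ⟨by omega, h2, ?_, h4, h5, h6⟩
    intro q hq
    exact fun hc => h3 ⟨q, hq, hc⟩
  -- the hubs at those places are pairwise nonadjacent
  have hKind : ∀ i ∈ K, ∀ i' ∈ K, i < i' → ¬ G.Adj (v (z (2 * i))) (v (z (2 * i'))) := by
    intro i hi i' hi' hii hadj
    obtain ⟨a1, a2, a3, a4, a5, a6⟩ := hKmem i hi
    obtain ⟨a1', _, _, _, _, _⟩ := hKmem i' hi'
    by_cases hshort : 2 * i' ≤ 2 * i + κ
    · obtain ⟨q, hq, hq1, hq2⟩ := hJs2 (2 * i) (2 * i')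
        ⟨by omega, by omega, by omega, by omega, hshort, hadj⟩
      exact a3 q hq ⟨by omega, by omega⟩
    · have hLg : FS.Lg G v z L κ (2 * i) (2 * i') :=
        ⟨by omega, by omega, by omega, by omega, by omega, by omega, hadj⟩
      have hS := hLgS _ _ hLg
      have h1 := F.π_ge (show 2 * i' ≤ L by omega) (le_refl _)
      have hlt : π (2 * i) < 3 * B₀ := by omega
      by_cases c0 : π (2 * i) < B₀
      · obtain ⟨h2, h3, h4⟩ := hb0 _ _ hLg c0
        have h5 : y₀ % 2 = 0 := h3.2.2.1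
        have h6 := F.π_ge h2 (show 2 * i ≤ L by omega)
        exact hcross _ _ _ _ h3 hLg (by omega) (by omega)
      · by_cases c1 : π (2 * i) < 2 * B₀
        · obtain ⟨h2, h3, h4⟩ := hb1 _ _ hLg ⟨by omega, c1⟩
          have h5 : y₁ % 2 = 0 := h3.2.2.1
          have h6 := F.π_ge h2 (show 2 * i ≤ L by omega)
          exact hcross _ _ _ _ h3 hLg (by omega) (by omega)
        · obtain ⟨h2, h3, h4⟩ := hb2 _ _ hLg ⟨by omega, hlt⟩
          have h5 : y₂ % 2 = 0 := h3.2.2.1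
          have h6 := F.π_ge h2 (show 2 * i ≤ L by omega)
          exact hcross _ _ _ _ h3 hLg (by omega) (by omega)
  have hKcard : K.card ≤ a := by
    by_contra hcon
    have hinj : Set.InjOn (fun i => v (z (2 * i))) (K : Set ℕ) := by
      intro x hx y hy hxy
      have h1 := (hKmem x hx).1
      have h2 := (hKmem y hy).1
      have h3 := F.zle (show 2 * x ≤ L by omega) (le_refl _)
      have h4 := F.zle (show 2 * y ≤ L by omega) (le_refl _)
      have h5 := F.zQ
      have h6 := F.inj _ _ (by omega) (by omega) hxy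
      by_contra hne
      rcases (by omega : x < y ∨ y < x) with h7 | h7
      · have := F.zlt (show 2 * x < 2 * y by omega) (by omega)
        omega
      · have := F.zlt (show 2 * y < 2 * x by omega) (by omega)
        omega
    obtain ⟨x, hx, y, hy, hxy⟩ := hα (K.image (fun i => v (z (2 * i)))) (by
      rw [Finset.card_image_of_injOn hinj]
      omega)
    rw [Finset.mem_image] at hx hy
    obtain ⟨i, hi, rfl⟩ := hx
    obtain ⟨i', hi', rfl⟩ := hy
    rcases lt_trichotomy i i' with h1 | h1 | h1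
    · exact hKind i hi i' hi' h1 hxy
    · subst h1
      exact G.loopless.irrefl _ hxy
    · exact hKind i' hi' i hi h1 hxy.symm
  have hBadc : Bad.card ≤ 466 := by
    have h1 : ∀ q ∈ Js, (Finset.Icc ((q - κ) / 2) ((q + κ) / 2)).card ≤ 21 := by
      intro q _
      rw [Nat.card_Icc]
      omega
    have h2 := Finset.card_biUnion_le_card_mul Js (fun q => Finset.Icc ((q - κ) / 2) ((q + κ) / 2))
      21 h1
    have h3 := Finset.card_insert_le 0
      (Js.biUnion (fun q => Finset.Icc ((q - κ) / 2) ((q + κ) / 2)))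
    have h4 : ∀ y : ℕ, (Finset.Icc (y / 2) ((y + 42) / 2)).card ≤ 22 := by
      intro y
      rw [Nat.card_Icc]
      omega
    have e1 := h4 y₀
    have e2 := h4 y₁
    have e3 := h4 y₂
    have c1 := Finset.card_union_le
      (insert 0 (Js.biUnion (fun q => Finset.Icc ((q - κ) / 2) ((q + κ) / 2))) ∪
        Finset.Icc (y₀ / 2) ((y₀ + 42) / 2) ∪ Finset.Icc (y₁ / 2) ((y₁ + 42) / 2))
      (Finset.Icc (y₂ / 2) ((y₂ + 42) / 2))
    have c2 := Finset.card_union_le
      (insert 0 (Js.biUnion (fun q => Finset.Icc ((q - κ) / 2) ((q + κ) / 2))) ∪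
        Finset.Icc (y₀ / 2) ((y₀ + 42) / 2))
      (Finset.Icc (y₁ / 2) ((y₁ + 42) / 2))
    have c3 := Finset.card_union_le
      (insert 0 (Js.biUnion (fun q => Finset.Icc ((q - κ) / 2) ((q + κ) / 2))))
      (Finset.Icc (y₀ / 2) ((y₀ + 42) / 2))
    simp only [Bad]
    omega
  have hsub : Finset.range (L / 2 + 1) ⊆ K ∪ Bad := by
    intro x hx
    by_cases hx2 : x ∈ Bad
    · exact Finset.mem_union_right _ hx2
    · exact Finset.mem_union_left _ (Finset.mem_sdiff.mpr ⟨hx, hx2⟩)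
  have h1 := Finset.card_le_card hsub
  have h2 := Finset.card_union_le K Bad
  rw [Finset.card_range] at h1
  omega

end lemmaE

end Vale.Agent.Lib.P048
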