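import Vale.Agent.Lib.P048.C5

/-!
A path of chords across an arc, sequences of hubs built from it, and the reduction under a chord.
-/

namespace Vale.Agent.Lib.P048

open Finset

variable {V : Type*} {G : SimpleGraph V}

/-- A path of chords across an arc. -/
structure PiP (G : SimpleGraph V) (m n : ℕ) (v : ℕ → V) (b : ℕ → ℕ) (i₀ r : ℕ) (c : ℕ → ℕ) :
    Prop where
  c0 : c 0 = i₀
  cr : c r = n
  inc : ∀ j, j < r → c j < c (j + 1)
  adj : ∀ j, j < r → G.Adj (v (b (c j))) (v (b (c (j + 1))))
  short : ∀ j, j < r → b (c (j + 1)) ≤ b (c j) + (m - 2)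

theorem sumW_diff' {W : ℕ → Prop} {l u : ℕ → ℕ} {j₁ : ℕ} :
    ∀ j₂, j₁ ≤ j₂ → (∀ i, i < j₂ → l i ≤ u i) →
      sumW W l j₂ + sumW W u j₁ ≤ sumW W u j₂ + sumW W l j₁ := by
  intro j₂
  induction j₂ with
  | zero =>
    intro h _
    have : j₁ = 0 := by omega
    subst this
    omega
  | succ j₂ ih =>
    intro h1 h
    by_cases hj : j₁ = j₂ + 1
    · subst hj
      omega
    · have ih' := ih (by omega) (fun i hi => h i (by omega))
      by_cases hW : W j₂
      · rw [sumW_succ_pos l j₂ hW, sumW_succ_pos u j₂ hW]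
        have := h j₂ (by omega)
        omega
      · rw [sumW_succ_neg l j₂ hW, sumW_succ_neg u j₂ hW]
        exact ih'

section fsbuild

variable {v : ℕ → V} {Q : ℕ}

/-- Two consecutive sequences of hubs. -/
theorem FS.append {z₁ π₁ z₂ π₂ : ℕ → ℕ} {L₁ L₂ : ℕ} (F₁ : FS G v Q z₁ π₁ L₁)
    (F₂ : FS G v Q z₂ π₂ L₂) (hz : z₁ L₁ = z₂ 0) (hπ : π₂ 0 = 0) :
    FS G v Q (fun s => if s ≤ L₁ then z₁ s else z₂ (s - L₁))
      (fun s => if s ≤ L₁ then π₁ s else π₁ L₁ + π₂ (s - L₁)) (L₁ + L₂) := by
  refine ⟨F₁.inj, ?_, ?_, ?_, ?_, ?_, ?_⟩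
  · by_cases h0 : L₂ = 0
    · subst h0
      simp only [Nat.add_zero, le_refl, if_true]
      rw [hz]
      have := F₂.zQ
      exact this
    · simp only [show ¬ L₁ + L₂ ≤ L₁ by omega, if_false, Nat.add_sub_cancel_left]
      exact F₂.zQ
  · intro s hs
    by_cases h1 : s + 1 ≤ L₁
    · simp only [h1, show s ≤ L₁ by omega, if_true]
      exact F₁.zm s (by omega)
    · by_cases h2 : s = L₁
      · subst h2
        simp only [le_refl, if_true, h1, if_false]
        rw [hz, show s + 1 - s = 0 + 1 by omega]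
        exact F₂.zm 0 (by omega)
      · simp only [h1, show ¬ s ≤ L₁ by omega, if_false]
        have := F₂.zm (s - L₁) (by omega)
        rwa [show s - L₁ + 1 = s + 1 - L₁ by omega] at this
  · intro s hs
    by_cases h1 : s + 1 ≤ L₁
    · simp only [h1, show s ≤ L₁ by omega, if_true]
      exact F₁.πg s (by omega)
    · by_cases h2 : s = L₁
      · subst h2
        simp only [le_refl, if_true, h1, if_false]
        rw [show s + 1 - s = 0 + 1 by omega]
        have := F₂.πg 0 (by omega)
        omega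
      · simp only [h1, show ¬ s ≤ L₁ by omega, if_false]
        have := F₂.πg (s - L₁) (by omega)
        rw [show s - L₁ + 1 = s + 1 - L₁ by omega] at this
        omega
  · intro s hs
    by_cases h1 : s + 1 ≤ L₁
    · simp only [h1, show s ≤ L₁ by omega, if_true]
      exact F₁.πz s (by omega)
    · by_cases h2 : s = L₁
      · subst h2
        simp only [le_refl, if_true, h1, if_false]
        rw [hz, show s + 1 - s = 0 + 1 by omega]
        have := F₂.πz 0 (by omega)
        omega
      · simp only [h1, show ¬ s ≤ L₁ by omega, if_false]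
        have := F₂.πz (s - L₁) (by omega)
        rw [show s - L₁ + 1 = s + 1 - L₁ by omega] at this
        omega
  · intro s hs
    by_cases h1 : s + 1 ≤ L₁
    · simp only [h1, show s ≤ L₁ by omega, if_true]
      exact F₁.e1 s (by omega)
    · by_cases h2 : s = L₁
      · subst h2
        simp only [le_refl, if_true, h1, if_false]
        rw [hz, show s + 1 - s = 0 + 1 by omega]
        exact F₂.e1 0 (by omega)
      · simp only [h1, show ¬ s ≤ L₁ by omega, if_false]
        have := F₂.e1 (s - L₁) (by omega)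
        rwa [show s - L₁ + 1 = s + 1 - L₁ by omega] at this
  · intro s hs
    by_cases h1 : s + 1 ≤ L₁
    · simp only [h1, show s ≤ L₁ by omega, if_true]
      exact F₁.e2 s (by omega)
    · by_cases h2 : s = L₁
      · subst h2
        simp only [le_refl, if_true, h1, if_false]
        rw [hz, show s + 1 - s = 0 + 1 by omega]
        intro h3
        exact F₂.e2 0 (by omega) (by omega)
      · simp only [h1, show ¬ s ≤ L₁ by omega, if_false]
        intro h3
        have := F₂.e2 (s - L₁) (by omega) (by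
          rw [show s - L₁ + 1 = s + 1 - L₁ by omega]
          omega)
        rwa [show s - L₁ + 1 = s + 1 - L₁ by omega] at this

/-- A single edge as a sequence of hubs. -/
theorem FS.edge {p q : ℕ} (hinj : ∀ i j, i < Q → j < Q → v i = v j → i = j) (hq : q < Q)
    (hpq : p < q) (hadj : G.Adj (v p) (v q)) :
    FS G v Q (fun s => if s = 0 then p else q) (fun s => s) 1 := by
  refine ⟨hinj, by simpa using hq, ?_, ?_, ?_, ?_, ?_⟩
  · intro s hs
    have : s = 0 := by omega
    subst this
    simpa using hpq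
  · intro s hs
    omega
  · intro s hs
    have : s = 0 := by omega
    subst this
    simp
    omega
  · intro s hs
    have : s = 0 := by omega
    subst this
    simpa using hadj
  · intro s hs h
    omega

/-- The trivial sequence of hubs. -/
theorem FS.single {p : ℕ} (hinj : ∀ i j, i < Q → j < Q → v i = v j → i = j) (hq : p < Q) :
    FS G v Q (fun _ => p) (fun _ => 0) 0 := by
  refine ⟨hinj, hq, ?_, ?_, ?_, ?_, ?_⟩ <;> (intro s hs; omega)

end fsbuild

section arc

variable {m n i₀ r : ℕ} {v : ℕ → V} {b c : ℕ → ℕ}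

/-- All hubs between two hubs of the chain as a sequence of hubs. -/
theorem Cn.toFS (h : Cn G m n v b) {i k : ℕ} (hik : i ≤ k) (hk : k ≤ n) :
    FS G v (b n + 1) (fun s => b (i + s)) (fun s => b (i + s) - b i) (k - i) := by
  have hmon : ∀ s, s ≤ k - i → b i ≤ b (i + s) := fun s hs =>
    h.monotone (by omega) (by omega)
  refine ⟨h.inj, ?_, ?_, ?_, ?_, ?_, ?_⟩
  · have := h.monotone (show i + (k - i) ≤ n by omega) (le_refl _)
    omega
  · intro s hs
    exact h.mono (by omega)
  · intro s hs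
    have h1 := hmon s (by omega)
    have h2 := h.gap (i + s) (by omega)
    show b (i + (s + 1)) - b i = b (i + s) - b i + 1 ∨ b (i + (s + 1)) - b i = b (i + s) - b i + 2
    rw [show i + (s + 1) = i + s + 1 by omega]
    omega
  · intro s hs
    have h1 := hmon s (by omega)
    have h2 := h.gap (i + s) (by omega)
    show b (i + (s + 1)) - b i + b (i + s) ≤ b (i + s) - b i + b (i + (s + 1))
    rw [show i + (s + 1) = i + s + 1 by omega]
    omega
  · intro s hs
    exact h.hub_adj (by omega)
  · intro s hs hg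
    have h1 := hmon s (by omega)
    have h2 := h.gap (i + s) (by omega)
    have hg' : b (i + (s + 1)) - b i = b (i + s) - b i + 2 := hg
    rw [show i + (s + 1) = i + s + 1 by omega] at hg'
    exact h.step_three (by omega) (by omega)

theorem PiP.lt (hg : PiP G m n v b i₀ r c) {j j' : ℕ} (hjj : j < j') (hj' : j' ≤ r) :
    c j < c j' := by
  induction j' with
  | zero => omega
  | succ j' ih =>
    have h1 := hg.inc j' (by omega)
    by_cases h2 : j = j'
    · subst h2; exact h1
    · have := ih (by omega) (by omega)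
      omega

theorem PiP.le (hg : PiP G m n v b i₀ r c) {j j' : ℕ} (hjj : j ≤ j') (hj' : j' ≤ r) :
    c j ≤ c j' := by
  by_cases h2 : j = j'
  · subst h2; exact le_refl _
  · exact (hg.lt (by omega) hj').le

theorem PiP.le_n (hg : PiP G m n v b i₀ r c) {j : ℕ} (hj : j ≤ r) : c j ≤ n := by
  have := hg.le hj (le_refl _)
  rwa [hg.cr] at this

theorem PiP.ge_i (hg : PiP G m n v b i₀ r c) (j : ℕ) (hj : j ≤ r) : i₀ ≤ c j := by
  have := hg.le (Nat.zero_le j) hj
  rwa [hg.c0] at this

/-- The number of hubs under a step is at most the number of positions under it. -/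
theorem PiP.l_le (hg : PiP G m n v b i₀ r c) (h : Cn G m n v b) {j : ℕ} (hj : j < r) :
    lI c j ≤ uI b c j := by
  have h1 := hg.inc j hj
  have h2 := hg.le_n (j := j + 1) (by omega)
  have h3 := h.span_ge h1.le h2
  unfold lI uI
  omega

/-- The sequence of hubs along a part of the path of chords, with the steps in `W` opened. -/
theorem PiP.subFS (hg : PiP G m n v b i₀ r c) (h : Cn G m n v b) (W : ℕ → Prop) {j₁ : ℕ}
    (hj₁ : j₁ ≤ r) :
    ∀ j₂, j₁ ≤ j₂ → j₂ ≤ r → ∃ z π L, FS G v (b n + 1) z π L ∧ z 0 = b (c j₁) ∧ z L = b (c j₂) ∧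
      π 0 = 0 ∧ L + sumW W (lI c) j₁ = (j₂ - j₁) + sumW W (lI c) j₂ ∧
      π L + sumW W (uI b c) j₁ = (j₂ - j₁) + sumW W (uI b c) j₂ ∧
      ∀ s, s ≤ L → ∃ k, c j₁ ≤ k ∧ k ≤ c j₂ ∧ z s = b k := by
  intro j₂
  induction j₂ with
  | zero =>
    intro h1 _
    have : j₁ = 0 := by omega
    subst this
    have hL := h.monotone (hg.le_n (j := 0) (by omega)) (le_refl _)
    refine ⟨_, _, 0, FS.single (p := b (c 0)) h.inj (by omega), rfl, rfl, rfl, by omega, by omega,
      fun s hs => ⟨c 0, le_refl _, le_refl _, rfl⟩⟩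
  | succ j₂ ih =>
    intro h1 h2
    by_cases hj : j₁ = j₂ + 1
    · subst hj
      have hL := h.monotone (hg.le_n (j := j₂ + 1) (by omega)) (le_refl _)
      refine ⟨_, _, 0, FS.single (p := b (c (j₂ + 1))) h.inj (by omega), rfl, rfl, rfl, by omega,
        by omega, fun s hs => ⟨c (j₂ + 1), le_refl _, le_refl _, rfl⟩⟩
    · obtain ⟨z, π, L, F, a1, a2, a3, a4, a5, a6⟩ := ih (by omega) (by omega)
      have hinc := hg.inc j₂ (by omega)
      have hle := hg.le_n (j := j₂ + 1) (by omega)
      have hst := h.strict hinc hle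
      have hLQ := h.monotone hle (le_refl _)
      have hspan := h.span_ge hinc.le hle
      have hmono1 := hg.le (show j₁ ≤ j₂ by omega) (by omega)
      by_cases hW : W j₂
      · have F₂ := h.toFS hinc.le hle
        have hF := FS.append F F₂ (by rw [a2]; simp) (by simp)
        refine ⟨_, _, L + (c (j₂ + 1) - c j₂), hF, ?_, ?_, ?_, ?_, ?_, ?_⟩
        · simp only [Nat.zero_le, if_true]
          exact a1
        · simp only [show ¬ L + (c (j₂ + 1) - c j₂) ≤ L by omega, if_false]
          rw [show L + (c (j₂ + 1) - c j₂) - L = c (j₂ + 1) - c j₂ by omega,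
            show c j₂ + (c (j₂ + 1) - c j₂) = c (j₂ + 1) by omega]
        · simp only [Nat.zero_le, if_true]
          exact a3
        · rw [sumW_succ_pos (lI c) j₂ hW]
          have : lI c j₂ = c (j₂ + 1) - c j₂ - 1 := rfl
          omega
        · simp only [show ¬ L + (c (j₂ + 1) - c j₂) ≤ L by omega, if_false]
          rw [show L + (c (j₂ + 1) - c j₂) - L = c (j₂ + 1) - c j₂ by omega,
            show c j₂ + (c (j₂ + 1) - c j₂) = c (j₂ + 1) by omega,
            sumW_succ_pos (uI b c) j₂ hW]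
          have : uI b c j₂ = b (c (j₂ + 1)) - b (c j₂) - 1 := rfl
          omega
        · intro s hs
          by_cases hs1 : s ≤ L
          · simp only [hs1, if_true]
            obtain ⟨k, k1, k2, k3⟩ := a6 s hs1
            exact ⟨k, k1, by omega, k3⟩
          · simp only [hs1, if_false]
            exact ⟨c j₂ + (s - L), by omega, by omega, rfl⟩
      · have F₂ := FS.edge (G := G) (v := v) (Q := b n + 1) h.inj (by omega) hst
          (hg.adj j₂ (by omega))
        have hF := FS.append F F₂ (by rw [a2]; simp) (by simp)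
        refine ⟨_, _, L + 1, hF, ?_, ?_, ?_, ?_, ?_, ?_⟩
        · simp only [Nat.zero_le, if_true]
          exact a1
        · simp only [show ¬ L + 1 ≤ L by omega, if_false]
          simp
        · simp only [Nat.zero_le, if_true]
          exact a3
        · rw [sumW_succ_neg (lI c) j₂ hW]
          omega
        · simp only [show ¬ L + 1 ≤ L by omega, if_false]
          rw [sumW_succ_neg (uI b c) j₂ hW]
          simp only [Nat.add_sub_cancel_left]
          omega
        · intro s hs
          by_cases hs1 : s ≤ L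
          · simp only [hs1, if_true]
            obtain ⟨k, k1, k2, k3⟩ := a6 s hs1
            exact ⟨k, k1, by omega, k3⟩
          · simp only [hs1, if_false]
            refine ⟨c (j₂ + 1), by omega, le_refl _, ?_⟩
            simp [show s - L ≠ 0 by omega]

/-- Paths along a part of the path of chords. -/
theorem PiP.seg (hg : PiP G m n v b i₀ r c) (h : Cn G m n v b) (W : ℕ → Prop) {j₁ : ℕ} :
    ∀ j₂, j₁ ≤ j₂ → j₂ ≤ r → ∀ t, (j₂ - j₁ + 1) + (sumW W (lI c) j₂ - sumW W (lI c) j₁) ≤ t →
      t ≤ (j₂ - j₁ + 1) + (sumW W (uI b c) j₂ - sumW W (uI b c) j₁) →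
      ∃ f, IdxPath G v (b (c j₁)) (b (c j₂)) t f := by
  intro j₂ h1 h2 t ht1 ht2
  obtain ⟨z, π, L, F, a1, a2, a3, a4, a5, _⟩ := hg.subFS h W (show j₁ ≤ r by omega) j₂ h1 h2
  have hm1 := sumW_mono W (lI c) h1
  have hm2 := sumW_mono W (uI b c) h1
  obtain ⟨f, hf⟩ := F.seg (s := 0) L (Nat.zero_le _) (le_refl _) t (by omega) (by omega)
  rw [a1, a2] at hf
  exact ⟨f, hf⟩

/-- A path across the arc and a connection give a cycle. -/
theorem hit_close (h : Cn G m n v b) {H t : ℕ} {f : ℕ → V} (hin : i₀ ≤ n)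
    (hf : IdxPath G v (b i₀) (b n) t f) (ht0 : 1 ≤ t)
    (hc : Conn G v b n i₀ H) (hm : t + H = m) : ∃ g, CycF G m g := by
  obtain ⟨f', hf'1, hf'2, hf'3, hf'4⟩ := hc
  obtain ⟨f1, f2, f3, f4⟩ := hf
  have hp := pathF_glue f1 hf'1 ht0 (by omega) (by rw [f3, hf'2]) (by
    intro i j hi hj1 hj2 heq
    obtain ⟨k₁, hk11, hk12, hk13⟩ := f4 i hi
    obtain ⟨p, hp1, hp2⟩ := hf'4 j hj1 (by omega)
    rw [hk13, hp2] at heq
    have := h.inj _ _ (by omega) (by
      have := h.monotone hin (le_refl _)
      omega) heq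
    omega)
  rw [show t + (H + 1) - 1 = m by omega] at hp
  refine ⟨_, cycF_of_pathF hp ?_⟩
  simp only [show 0 < t by omega, if_true, f2]
  by_cases hH : H = 0
  · subst hH
    have h1 : m - 1 = t - 1 := by omega
    rw [h1]
    simp only [show t - 1 < t by omega, if_true]
    rw [f3, ← hf'2]
    exact hf'3
  · have h1 : ¬ m - 1 < t := by omega
    simp only [h1, if_false]
    rw [show m - 1 + 1 - t = H by omega]
    exact hf'3

/-- The reduction under a step of the path of chords that is not opened. -/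
theorem PiP.big_reduce (hg : PiP G m n v b i₀ r c) (h : Cn G m n v b) {W : ℕ → Prop}
    {j k₀ ℓ H₀ : ℕ} (hj : j < r) (hW : ¬ W j) (hk₀ : 1 ≤ k₀)
    (hα : IndBdOn G (fun y => ∃ i, c j < i ∧ i < c (j + 1) ∧ y = v (b i)) k₀)
    (hℓ : ℓ < lI c j)
    (hconn : Conn G v b n i₀ H₀)
    (ht : r + 1 + sumW W (lI c) r + H₀ + ℓ + 2 * k₀ = m)
    (hrange : r + 1 + sumW W (lI c) r + H₀ + ℓ + (2 * k₀ - 2) ≤
      r + 1 + sumW W (uI b c) r + H₀ + (b (c j + ℓ) - b (c j)))
    (hupper : m ≤ r + 1 + sumW W (uI b c) r + H₀ + (b (c j + ℓ) - b (c j)) + (lI c j - ℓ)) :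
    ∃ g', CycF G m g' := by
  have hinc := hg.inc j hj
  have hy := hg.le_n (j := j + 1) (by omega)
  have hl : lI c j = c (j + 1) - c j - 1 := rfl
  have hi₀n : i₀ ≤ n := by
    rw [← hg.c0, ← hg.cr]
    exact hg.le (Nat.zero_le _) (le_refl _)
  have hxℓ : c j + ℓ < c (j + 1) := by omega
  have hbx : b (c j + ℓ) < b (c (j + 1)) := h.strict hxℓ hy
  have hbxy := h.monotone (show c j ≤ c j + ℓ by omega) (by omega)
  have hby := h.monotone hy (le_refl _)
  have hbi₀ : b i₀ ≤ b (c j) := h.monotone (hg.ge_i j (by omega)) (by omega)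
  have hSpan := h.span_ge (show c j ≤ c j + ℓ by omega) (by omega)
  let K : V → Prop := fun z => ∃ p, p ≤ b n ∧ z = v p ∧ (p ≤ b (c j + ℓ) ∨ b (c (j + 1)) ≤ p)
  have hLo := sumW_succ_neg (lI c) j hW
  have hUp := sumW_succ_neg (uI b c) j hW
  have hmL := sumW_mono W (lI c) (show j + 1 ≤ r by omega)
  have hmU := sumW_mono W (uI b c) (show j + 1 ≤ r by omega)
  have hdf := sumW_diff' (W := W) (l := lI c) (u := uI b c) (j₁ := j + 1) r (by omega)
    (fun i hi => hg.l_le h hi)
  have hdl := sumW_diff' (W := W) (l := lI c) (u := uI b c) (j₁ := 0) j (by omega)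
    (fun i hi => hg.l_le h (by omega))
  rw [sumW_zero, sumW_zero] at hdl
  have hK : ∀ t, r + 1 + sumW W (lI c) r + H₀ + ℓ ≤ t →
      t ≤ r + 1 + sumW W (uI b c) r + H₀ + (b (c j + ℓ) - b (c j)) →
      ∃ f, PathF G t f ∧ f 0 = v (b (c (j + 1))) ∧ f (t - 1) = v (b (c j + ℓ)) ∧
        ∀ i, i < t → K (f i) := by
    intro t ht1 ht2
    -- the three parts
    obtain ⟨tA, r₂, hA1, hA2, hr3, hr4, hsum1⟩ := split2
      (a₁ := (r - (j + 1) + 1) + (sumW W (lI c) r - sumW W (lI c) (j + 1)))
      (b₁ := (r - (j + 1) + 1) + (sumW W (uI b c) r - sumW W (uI b c) (j + 1)))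
      (a₂ := (0 + (j - 0 + 1) + (sumW W (lI c) j - sumW W (lI c) 0)) + (ℓ + 1))
      (b₂ := (0 + (j - 0 + 1) + (sumW W (uI b c) j - sumW W (uI b c) 0)) +
        ((b (c j + ℓ) - b (c j)) + 1))
      (t := t + 1 - H₀) (by omega) (by rw [sumW_zero, sumW_zero]; omega)
      (by rw [sumW_zero]; omega) (by rw [sumW_zero]; omega)
    obtain ⟨tB, tP, hB1, hB2, hP1, hP2, hsum3⟩ := split2
      (a₁ := 0 + (j - 0 + 1) + (sumW W (lI c) j - sumW W (lI c) 0)) (a₂ := ℓ + 1)
      (b₁ := 0 + (j - 0 + 1) + (sumW W (uI b c) j - sumW W (uI b c) 0))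
      (b₂ := (b (c j + ℓ) - b (c j)) + 1) (t := r₂)
      (by rw [sumW_zero, sumW_zero]; omega) (by omega) hr3 hr4
    rw [Nat.zero_add] at hB1 hB2
    obtain ⟨fA, hfA⟩ := hg.seg h W (j₁ := j + 1) r (by omega) (le_refl _) tA hA1 hA2
    obtain ⟨fB, hfB⟩ := hg.seg h W (j₁ := 0) j (by omega) (by omega) tB hB1 hB2
    obtain ⟨fP, hfP⟩ := h.walk (i := c j) (c j + ℓ) (by omega) (by omega) tP (by omega) (by omega)
    have hAB : 1 ≤ tB := by omega
    have hAP : 1 ≤ tP := by omega
    have hAA : 1 ≤ tA := by omega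
    obtain ⟨fB', hfB'⟩ := idxPath_glue h.inj hfB hfP hAB hAP (by omega : b (c j + ℓ) < b n + 1)
    obtain ⟨fC, hC1, hC2, hC3, hC4⟩ := hconn
    obtain ⟨a1, a2, a3, a4⟩ := hfA
    obtain ⟨d1, d2, d3, d4⟩ := hfB'
    rw [hg.cr] at a3 a4
    rw [hg.c0] at d2 d4
    have hQ1 := pathF_glue a1 hC1 hAA (by omega) (by rw [a3, hC2]) (by
      intro x y hx hy1 hy2 heq
      obtain ⟨k₁, hk11, hk12, hk13⟩ := a4 x hx
      obtain ⟨p, hp1, hp2⟩ := hC4 y hy1 (by omega)
      rw [hk13, hp2] at heq
      have := h.inj _ _ (by omega) (by omega) heq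
      omega)
    -- the vertices of the first part
    have hQmem : ∀ x, x < tA + (H₀ + 1) - 1 →
        ∃ p, p ≤ b n ∧ (if x < tA then fA x else fC (x + 1 - tA)) = v p ∧
          (p < b i₀ ∨ b (c (j + 1)) ≤ p) := by
      intro x hx
      by_cases hx1 : x < tA
      · obtain ⟨k₁, hk11, hk12, hk13⟩ := a4 x hx1
        exact ⟨k₁, hk12, by simp only [hx1, if_true]; exact hk13, Or.inr hk11⟩
      · obtain ⟨p, hp1, hp2⟩ := hC4 (x + 1 - tA) (by omega) (by omega)
        exact ⟨p, by omega, by simp only [hx1, if_false]; exact hp2, Or.inl hp1⟩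
    have hcat := PathF.concat hQ1 d1
      (by
        intro x y hx hy heq
        obtain ⟨p, hp1, hp2, hp3⟩ := hQmem x hx
        obtain ⟨k₂, hk21, hk22, hk23⟩ := d4 y hy
        rw [hp2, hk23] at heq
        have := h.inj _ _ (by omega) (by omega) heq
        omega)
      (by omega)
      (by
        intro hd
        rw [d2]
        by_cases hH0 : H₀ = 0
        · subst hH0
          have h1 : tA + (0 + 1) - 1 - 1 = tA - 1 := by omega
          simp only [h1, show tA - 1 < tA by omega, if_true]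
          rw [a3, ← hC2]
          exact hC3
        · have h1 : ¬ tA + (H₀ + 1) - 1 - 1 < tA := by omega
          simp only [h1, if_false]
          rw [show tA + (H₀ + 1) - 1 - 1 + 1 - tA = H₀ by omega]
          exact hC3)
    have htt : tA + (H₀ + 1) - 1 + (tB + tP - 1) = t := by omega
    rw [htt] at hcat
    refine ⟨_, hcat, ?_, ?_, ?_⟩
    · have h1 : 0 < tA + (H₀ + 1) - 1 := by omega
      simp only [h1, if_true, show 0 < tA by omega]
      exact a2
    · have h1 : ¬ t - 1 < tA + (H₀ + 1) - 1 := by omega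
      simp only [h1, if_false]
      rw [show t - 1 - (tA + (H₀ + 1) - 1) = tB + tP - 1 - 1 by omega]
      exact d3
    · intro x hx
      by_cases hx1 : x < tA + (H₀ + 1) - 1
      · simp only [hx1, if_true]
        obtain ⟨p, hp1, hp2, hp3⟩ := hQmem x hx1
        refine ⟨p, hp1, hp2, ?_⟩
        omega
      · simp only [hx1, if_false]
        obtain ⟨k₂, hk21, hk22, hk23⟩ := d4 (x - (tA + (H₀ + 1) - 1)) (by omega)
        exact ⟨k₂, by omega, hk23, Or.inl hk22⟩
  -- the path under the step
  let q := lI c j - ℓ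
  have hqdef : q = lI c j - ℓ := rfl
  let hh : ℕ → V := fun i => v (b (c j + ℓ + 1 + i))
  have hidx : ∀ i, i < q → c j + ℓ + 1 + i < c (j + 1) := by
    intro i hi
    omega
  have hpath : PathF G q hh := by
    constructor
    · intro x y hx hy heq
      have h1 := hidx x hx
      have h2 := hidx y hy
      have hb1 := h.monotone (show c j + ℓ + 1 + x ≤ n by omega) (le_refl _)
      have hb2 := h.monotone (show c j + ℓ + 1 + y ≤ n by omega) (le_refl _)
      have h3 := h.inj _ _ (by omega) (by omega) heq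
      by_contra hne
      rcases (by omega : x < y ∨ y < x) with h4 | h4
      · have := h.strict (show c j + ℓ + 1 + x < c j + ℓ + 1 + y by omega) (by omega)
        omega
      · have := h.strict (show c j + ℓ + 1 + y < c j + ℓ + 1 + x by omega) (by omega)
        omega
    · intro i hi
      have h1 := hidx i (by omega)
      have h2 := hidx (i + 1) hi
      exact h.hub_adj (i := c j + ℓ + 1 + i) (by omega)
  refine reduce_on hα (t₀ := r + 1 + sumW W (lI c) r + H₀ + ℓ)
    (t₁ := r + 1 + sumW W (uI b c) r + H₀ + (b (c j + ℓ) - b (c j))) (by omega) hrange hk₀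
    hK q hh (by omega) hpath ?_ ?_ ?_ ?_ m (by omega) (by omega)
  · intro i hi
    exact ⟨c j + ℓ + 1 + i, by omega, hidx i hi, rfl⟩
  · rintro i hi ⟨p, hp1, hp2, hp3⟩
    have h1 := hidx i hi
    have hb := h.monotone (show c j + ℓ + 1 + i ≤ n by omega) (le_refl _)
    have h3 := h.inj _ _ (by omega) (by omega) hp2
    have h4 := h.strict (show c j + ℓ < c j + ℓ + 1 + i by omega) (by omega)
    have h5 := h.strict h1 hy
    omega
  · show G.Adj (v (b (c j + ℓ))) (v (b (c j + ℓ + 1 + 0)))
    exact h.hub_adj (i := c j + ℓ) (by omega)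
  · show G.Adj (v (b (c j + ℓ + 1 + (q - 1)))) (v (b (c (j + 1))))
    have h1 : c j + ℓ + 1 + (q - 1) + 1 = c (j + 1) := by omega
    have := h.hub_adj (i := c j + ℓ + 1 + (q - 1)) (by omega)
    rwa [h1] at this

end arc

end Vale.Agent.Lib.P048
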