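import Vale.Agent.Lib.P048.C6

/-!
The closing step along an arc of the chain, for `m ≥ 2 a + 3000`.
-/

namespace Vale.Agent.Lib.P048

open Finset

variable {V : Type*} {G : SimpleGraph V}

/-- Choosing the steps greedily. -/
theorem exists_W (l : ℕ → ℕ) (e : ℕ) : ∀ r, ∃ W : ℕ → Prop, sumW W l r ≤ e ∧
    ∀ j, j < r → ¬ W j → e < sumW W l r + l j := by
  intro r
  induction r with
  | zero =>
    refine ⟨fun _ => False, by simp [sumW_zero], ?_⟩
    intro j hj
    omega
  | succ r ih =>
    obtain ⟨W, h1, h2⟩ := ih
    by_cases hc : sumW W l r + l r ≤ e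
    · refine ⟨fun i => W i ∨ i = r, ?_, ?_⟩
      · rw [sumW_succ_pos l r (Or.inr rfl),
          sumW_congr (W' := W) l (fun i hi => by
            constructor
            · rintro (h | h)
              · exact h
              · omega
            · exact Or.inl)]
        exact hc
      · intro j hj hW
        rw [sumW_succ_pos l r (Or.inr rfl),
          sumW_congr (W' := W) l (fun i hi => by
            constructor
            · rintro (h | h)
              · exact h
              · omega
            · exact Or.inl)]
        have hjr : j < r := by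
          by_contra hcon
          exact hW (Or.inr (by omega))
        have := h2 j hjr (fun h => hW (Or.inl h))
        omega
    · refine ⟨fun i => W i ∧ i < r, ?_, ?_⟩
      · rw [sumW_succ_neg l r (by simp),
          sumW_congr (W' := W) l (fun i hi => by simp [hi])]
        exact h1
      · intro j hj hW
        rw [sumW_succ_neg l r (by simp),
          sumW_congr (W' := W) l (fun i hi => by simp [hi])]
        by_cases hjr : j < r
        · exact h2 j hjr (fun h => hW ⟨h, hjr⟩)
        · have : j = r := by omega
          subst this
          omega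

/-- A single term is at most the sum. -/
theorem sumW_single {P : ℕ → Prop} (f : ℕ → ℕ) {j r : ℕ} (hj : j < r) (hP : P j) :
    f j ≤ sumW P f r := by
  induction r with
  | zero => omega
  | succ r ih =>
    by_cases h1 : j = r
    · subst h1
      rw [sumW_succ_pos f j hP]
      omega
    · have := ih (by omega)
      have h2 := sumW_mono P f (show r ≤ r + 1 by omega)
      omega

/-- Adding one index to the steps. -/
theorem sumW_insert {W : ℕ → Prop} (f : ℕ → ℕ) {i r : ℕ} (hi : i < r) (hW : ¬ W i) :
    sumW (fun x => W x ∨ x = i) f r = sumW W f r + f i := by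
  induction r with
  | zero => omega
  | succ r ih =>
    by_cases h1 : i = r
    · subst h1
      rw [sumW_succ_pos (W := fun x => W x ∨ x = i) f i (Or.inr rfl), sumW_succ_neg f i hW,
        sumW_congr (W' := W) f (fun x hx => by
          constructor
          · rintro (h | h)
            · exact h
            · omega
          · exact Or.inl)]
    · by_cases h2 : W r
      · rw [sumW_succ_pos (W := fun x => W x ∨ x = i) f r (Or.inl h2), sumW_succ_pos f r h2,
          ih (by omega)]
        omega
      · rw [sumW_succ_neg (W := fun x => W x ∨ x = i) f r (by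
          rintro (h | h)
          · exact h2 h
          · omega), sumW_succ_neg f r h2, ih (by omega)]

/-- Bounding a sum of terms by a multiple of the ratio. -/
theorem sumW_ratio {W : ℕ → Prop} {l u : ℕ → ℕ} {α β j : ℕ} (h : ∀ i, i < j → α * l i ≤ β * u i) :
    α * sumW W l j ≤ β * sumW W u j := by
  induction j with
  | zero => simp [sumW_zero]
  | succ j ih =>
    have ih' := ih (fun i hi => h i (by omega))
    by_cases hW : W j
    · rw [sumW_succ_pos l j hW, sumW_succ_pos u j hW, Nat.mul_add, Nat.mul_add]
      have := h j (by omega)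
      omega
    · rw [sumW_succ_neg l j hW, sumW_succ_neg u j hW]
      exact ih'

section arc

variable {a m n i₀ r : ℕ} {v : ℕ → V} {b c : ℕ → ℕ}

/-- The sums along a path of chords. -/
theorem PiP.arc_sums (hp : PiP G m n v b i₀ r c) (h : Cn G m n v b) (W : ℕ → Prop) :
    ∀ j, j ≤ r →
      sumW W (uI b c) j + sumW W (fun i => 2 * lI c i + 1 - uI b c i) j =
        2 * sumW W (lI c) j + sumW W (fun _ => 1) j ∧
      sumW W (fun _ => 1) j + sumW (fun i => ¬ W i) (fun _ => 1) j = j ∧
      sumW W (fun i => 2 * lI c i + 1 - uI b c i) j +
        sumW (fun i => ¬ W i) (fun i => 2 * lI c i + 1 - uI b c i) j +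
        (b (c j) - b (c 0)) = 2 * (c j - c 0) ∧
      b (c j) - b (c 0) = sumW W (uI b c) j + sumW W (fun _ => 1) j +
        sumW (fun i => ¬ W i) (fun i => uI b c i + 1) j ∧
      sumW (fun i => ¬ W i) (fun i => uI b c i + 1) j ≤
        sumW (fun i => ¬ W i) (fun _ => 1) j * (m - 2) := by
  intro j
  induction j with
  | zero =>
    intro _
    simp [sumW_zero]
  | succ j ih =>
    intro hj
    obtain ⟨h1, h2, h3, h4, h5⟩ := ih (by omega)
    have hinc := hp.inc j (by omega)
    have hle := hp.le_n (j := j + 1) (by omega)
    have hst := h.strict hinc hle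
    have hspan := h.span_le hinc.le hle
    have hshort := hp.short j (by omega)
    have h0 := hp.le (Nat.zero_le j) (by omega)
    have hb0 := h.monotone h0 (by omega)
    have hl : lI c j = c (j + 1) - c j - 1 := rfl
    have hu : uI b c j = b (c (j + 1)) - b (c j) - 1 := rfl
    have hρ : uI b c j + (2 * lI c j + 1 - uI b c j) = 2 * lI c j + 1 := by omega
    have hm2 : uI b c j + 1 ≤ m - 2 := by omega
    by_cases hW : W j
    · rw [sumW_succ_pos (uI b c) j hW, sumW_succ_pos (lI c) j hW,
        sumW_succ_pos (fun _ => 1) j hW,
        sumW_succ_pos (fun i => 2 * lI c i + 1 - uI b c i) j hW,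
        sumW_succ_neg (W := fun i => ¬ W i) (fun _ => 1) j (by simpa using hW),
        sumW_succ_neg (W := fun i => ¬ W i) (fun i => 2 * lI c i + 1 - uI b c i) j
          (by simpa using hW),
        sumW_succ_neg (W := fun i => ¬ W i) (fun i => uI b c i + 1) j (by simpa using hW)]
      refine ⟨by omega, by omega, by omega, by omega, h5⟩
    · rw [sumW_succ_neg (uI b c) j hW, sumW_succ_neg (lI c) j hW,
        sumW_succ_neg (fun _ => 1) j hW,
        sumW_succ_neg (fun i => 2 * lI c i + 1 - uI b c i) j hW,
        sumW_succ_pos (W := fun i => ¬ W i) (fun _ => 1) j hW,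
        sumW_succ_pos (W := fun i => ¬ W i) (fun i => 2 * lI c i + 1 - uI b c i) j hW,
        sumW_succ_pos (W := fun i => ¬ W i) (fun i => uI b c i + 1) j hW]
      refine ⟨by omega, by omega, by omega, by omega, ?_⟩
      rw [Nat.add_mul, Nat.one_mul]
      omega

end arc

end Vale.Agent.Lib.P048
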