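import Vale.Agent.Lib.P048.C7

/-!
The closing step along an arc of the chain, for `m ≥ 2 a + 3000`.
-/

namespace Vale.Agent.Lib.P048

open Finset

variable {V : Type*} {G : SimpleGraph V}

section arc

variable {a m n : ℕ} {v : ℕ → V} {b : ℕ → ℕ}

/-- The closing step along an arc. -/
theorem Cn.closure2 [Fintype V] (h : Cn G m n v b) (hα : IndBd G a) (hexp : Exp G m)
    (hC : 2 * a + 3000 ≤ m) (hlarge : 8000 ≤ m) {i₀ H₀ : ℕ} (hi₀ : i₀ ≤ n) (hH₀ : H₀ ≤ 1)
    (hconn : Conn G v b n i₀ H₀) (hT : m ≤ b n - b i₀ + 1 + H₀)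
    (hE : ∀ i, i₀ < i → i < n → G.Adj (v (b i)) (v (b n)) → b n < b i + (m - 1)) :
    ∃ g, CycF G m g := by
  classical
  by_contra hno
  obtain ⟨m', hm'⟩ : ∃ m', m' + H₀ = m := ⟨m - H₀, by omega⟩
  have hspanT := h.span_le hi₀ (le_refl _)
  have hin : i₀ + 1 < n := by omega
  have hnoP : ¬ ∃ f, IdxPath G v (b i₀) (b n) m' f := by
    rintro ⟨f, hf⟩
    exact hno (hit_close h hi₀ hf (by omega) hconn hm')
  have hshort : ∀ y k, i₀ ≤ y → y < k → k ≤ n → RelH G v b i₀ n y k → b k ≤ b y + (m - 2) := by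
    intro y k hy hyk hk hrel
    by_cases hkn : k = n
    · subst hkn
      have hne : y ≠ i₀ := fun hc => hrel.2 ⟨hc, rfl⟩
      have := hE y (by omega) hyk hrel.1
      omega
    · have := h.band k (by omega) (b y) (h.strict hyk hk) hrel.1
      omega
  obtain ⟨M, hM0, hM1', hM2'⟩ := exists_layers (RelH G v b i₀ n) i₀ (n - i₀) (by
    intro k hk1 hk2
    exact ⟨h.hub_adj (by omega), by omega⟩)
  have hdn : i₀ + (n - i₀) = n := by omega
  rw [hdn] at hM1' hM2'
  obtain ⟨hr2a, hr7⟩ := h.layer_bound hα hexp (by omega) hin (by omega) hM0 hM1' hM2' hnoP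
  obtain ⟨r, hr⟩ : ∃ r, r = M n := ⟨_, rfl⟩
  rw [← hr] at hr2a hr7
  obtain ⟨c, hc0, hcr, hcs⟩ := exists_pi hM0 hM2' r n (by omega) (le_refl _) hr.symm
  have hcmono : ∀ j j', j ≤ j' → j' ≤ r → c j ≤ c j' := by
    intro j j' hjj
    induction j' with
    | zero =>
      intro _
      have : j = 0 := by omega
      subst this
      exact le_refl _
    | succ j' ih =>
      intro hj'
      by_cases hj : j = j' + 1
      · subst hj
        exact le_refl _
      · have h1 := ih (by omega) (by omega)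
        have h2 := (hcs j' (by omega)).1
        omega
  have hp : PiP G m n v b i₀ r c := by
    refine ⟨hc0, hcr, fun j hj => (hcs j hj).1, fun j hj => (hcs j hj).2.1, fun j hj => ?_⟩
    have h1 := hcmono 0 j (by omega) (by omega)
    have h2 := hcmono (j + 1) r (by omega) (by omega)
    rw [hc0] at h1
    rw [hcr] at h2
    exact hshort _ _ h1 (hcs j hj).1 h2 (hcs j hj).2
  obtain ⟨e, he⟩ : ∃ e, e + (r + 1) + H₀ = m := ⟨m - (r + 1) - H₀, by omega⟩
  have h7e : m + 8993 ≤ 7 * e := by omega
  obtain ⟨W, hW1, hW2⟩ := exists_W (lI c) e r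
  obtain ⟨Lo, hLo⟩ : ∃ Lo, Lo = sumW W (lI c) r := ⟨_, rfl⟩
  obtain ⟨Up, hUp⟩ : ∃ Up, Up = sumW W (uI b c) r := ⟨_, rfl⟩
  rw [← hLo] at hW1 hW2
  have hUe : Up < e := by
    by_contra hcon
    obtain ⟨f, hf⟩ := hp.seg h W (j₁ := 0) r (Nat.zero_le _) (le_refl _) (r + 1 + e)
      (by rw [sumW_zero, ← hLo]; omega) (by rw [sumW_zero, ← hUp]; omega)
    rw [hc0, hcr, show r + 1 + e = m' by omega] at hf
    exact hnoP ⟨f, hf⟩
  obtain ⟨s1, s2, s3, s4, s5⟩ := hp.arc_sums h W r (le_refl _)
  obtain ⟨D, hD⟩ : ∃ D, D = sumW W (fun i => 2 * lI c i + 1 - uI b c i) r := ⟨_, rfl⟩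
  obtain ⟨Dn, hDn⟩ : ∃ Dn, Dn = sumW (fun i => ¬ W i) (fun i => 2 * lI c i + 1 - uI b c i) r :=
    ⟨_, rfl⟩
  obtain ⟨Wn, hWn⟩ : ∃ Wn, Wn = sumW W (fun _ => 1) r := ⟨_, rfl⟩
  obtain ⟨J, hJ⟩ : ∃ J, J = sumW (fun i => ¬ W i) (fun _ => 1) r := ⟨_, rfl⟩
  obtain ⟨Bg, hBg⟩ : ∃ Bg, Bg = sumW (fun i => ¬ W i) (fun i => uI b c i + 1) r := ⟨_, rfl⟩
  rw [← hUp, ← hD, ← hLo, ← hWn] at s1
  rw [← hWn, ← hJ] at s2
  rw [← hD, ← hDn, hc0, hcr] at s3
  rw [← hUp, ← hWn, ← hBg, hc0, hcr] at s4
  rw [← hBg, ← hJ] at s5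
  obtain ⟨q, hq1, hq2⟩ := h.rs_bound hα hexp (by omega) hi₀ (le_refl _)
  have hLU : Lo ≤ Up := by
    have := sumW_diff' (W := W) (l := lI c) (u := uI b c) (j₁ := 0) r (by omega)
      (fun i hi => hp.l_le h hi)
    rw [sumW_zero, sumW_zero] at this
    omega
  -- the facts about a step
  have hitem : ∀ j, j < r → ¬ W j → e < Lo + lI c j ∧
      uI b c j + (2 * lI c j + 1 - uI b c j) = 2 * lI c j + 1 ∧
      2 * lI c j + 1 - uI b c j ≤ Dn ∧ uI b c j + 1 ≤ m - 2 ∧
      b (c (j + 1)) = b (c j) + uI b c j + 1 := by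
    intro j hj hWj
    have hinc := hp.inc j hj
    have hle := hp.le_n (j := j + 1) (by omega)
    have hst := h.strict hinc hle
    have hspan := h.span_le hinc.le hle
    have hsh := hp.short j hj
    have hl : lI c j = c (j + 1) - c j - 1 := rfl
    have hu : uI b c j = b (c (j + 1)) - b (c j) - 1 := rfl
    have h1 := sumW_single (P := fun i => ¬ W i) (fun i => 2 * lI c i + 1 - uI b c i) hj hWj
    rw [← hDn] at h1
    exact ⟨hW2 j hj hWj, by omega, h1, by omega, by omega⟩
  -- under every step not chosen there are many independent vertices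
  have hbig : ∀ k, 1 ≤ k → 2 * k + Lo ≤ e → 4 * k + 2 * Lo + 10 ≤ Up + e → ∀ j, j < r → ¬ W j →
      ∃ s : Finset V, (∀ y ∈ s, ∃ i, c j < i ∧ i < c (j + 1) ∧ y = v (b i)) ∧ k < s.card ∧
        ∀ x ∈ s, ∀ y ∈ s, ¬ G.Adj x y := by
    intro k hk1 hk2 hk3 j hj hWj
    by_contra hcon
    have hon : IndBdOn G (fun y => ∃ i, c j < i ∧ i < c (j + 1) ∧ y = v (b i)) k := by
      intro s hs1 hs2
      by_contra hs3
      push Not at hs3
      exact hcon ⟨s, hs1, hs2, hs3⟩
    obtain ⟨i1, _, _, i4, i5⟩ := hitem j hj hWj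
    have hl' : lI c j = c (j + 1) - c j - 1 := rfl
    have hinc := hp.inc j hj
    have hy := hp.le_n (j := j + 1) (by omega)
    have hℓle : c j + (e - Lo - 2 * k) ≤ c (j + 1) := by omega
    have hb1 := h.monotone hℓle hy
    have hw := h.rs_window hα hexp (by omega) (show c j ≤ c j + (e - Lo - 2 * k) by omega)
      (by omega) (by omega)
    have hge := h.span_ge (show c j ≤ c j + (e - Lo - 2 * k) by omega) (by omega)
    have hmono := h.monotone (show c j ≤ c j + (e - Lo - 2 * k) by omega) (by omega)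
    rw [show c j + (e - Lo - 2 * k) - c j = e - Lo - 2 * k by omega] at hw hge
    refine hno (hp.big_reduce h hj hWj (k₀ := k) (ℓ := e - Lo - 2 * k) (H₀ := H₀) hk1 hon
      (by omega) hconn ?_ ?_ ?_)
    · rw [← hLo]; omega
    · rw [← hLo, ← hUp]; omega
    · rw [← hUp]; omega
  -- hubs under far steps are not adjacent
  have hfar : ∀ p p' i i', p' ≤ r → p' < r → c p < i → i < c (p + 1) → c p' < i' → i' < c (p' + 1) →
      p + 1 ≤ r → b (c (p + 1)) + (m - 1) ≤ b (c p') →
      v (b i) ≠ v (b i') ∧ ¬ G.Adj (v (b i)) (v (b i')) := by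
    intro p p' i i' _ hp' h1 h2 h3 h4 hp1 hfarr
    have hn1 := hp.le_n (j := p + 1) hp1
    have hn2 := hp.le_n (j := p' + 1) (by omega)
    have a1 := h.strict h2 hn1
    have a2 := h.strict h3 (show i' ≤ n by omega)
    have a3 := h.monotone (show i' ≤ n by omega) (le_refl _)
    constructor
    · intro heq
      have := h.inj _ _ (by omega) (by omega) heq
      omega
    · intro hadj
      have := h.band i' (by omega) (b i) (by omega) hadj
      omega
  -- the steps not chosen, in increasing order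
  obtain ⟨BigS, hBigS⟩ : ∃ S : Finset ℕ, S = (Finset.range r).filter (fun i => ¬ W i) := ⟨_, rfl⟩
  have hJcard : J = BigS.card := by
    rw [hJ, hBigS]
    convert sumW_one_card (fun i => ¬ W i) r
  have hBigmem : ∀ i, i ∈ BigS ↔ i < r ∧ ¬ W i := by
    intro i
    rw [hBigS, Finset.mem_filter, Finset.mem_range]
  obtain ⟨τ, hτ1, hτ2⟩ := exists_sorted BigS
  have hτm : ∀ i, i < J → τ i < r ∧ ¬ W (τ i) := by
    intro i hi
    exact (hBigmem _).mp (hτ1 i (by omega))
  have hτle : ∀ i i', i ≤ i' → i' < J → τ i ≤ τ i' := by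
    intro i i' h1 h2
    by_cases h3 : i = i'
    · subst h3
      exact le_refl _
    · exact (hτ2 i i' (by omega) (by omega)).le
  have hbm : ∀ j j', j ≤ j' → j' ≤ r → b (c j) ≤ b (c j') := fun j j' h1 h2 =>
    h.monotone (hcmono j j' h1 h2) (hp.le_n h2)
  by_cases hJ3 : J ≤ 3
  · -- few steps not chosen: the long sequence of hubs
    have hJpos : 1 ≤ J := by
      by_contra hcon
      have hJ0 : J = 0 := by omega
      rw [hJ0, Nat.zero_mul] at s5
      omega
    have hmul : J * (m - 2) ≤ 3 * (m - 2) := Nat.mul_le_mul_right _ hJ3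
    have hq10 : q ≤ 10 := by
      by_contra hcon
      have h1 : (m - 1 - a) * 11 ≤ (m - 1 - a) * q := Nat.mul_le_mul_left _ (by omega)
      omega
    obtain ⟨i, hi⟩ : ∃ i, i = τ 0 := ⟨_, rfl⟩
    have hτ0 := hτm 0 (by omega)
    rw [← hi] at hτ0
    obtain ⟨hir, hiW⟩ := hτ0
    obtain ⟨i1, i2, i3, i4, i5⟩ := hitem i hir hiW
    obtain ⟨z, π, L, F, a1, a2, a3, a4, a5, a6⟩ :=
      hp.subFS h (fun x => W x ∨ x = i) (j₁ := 0) (by omega) r (by omega) (le_refl _)
    rw [sumW_zero] at a4 a5
    rw [sumW_insert _ hir hiW, ← hLo] at a4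
    rw [sumW_insert _ hir hiW, ← hUp] at a5
    rw [hc0] at a1 a6
    rw [hcr] at a2 a6
    have hin' := hp.le_n (j := i + 1) (by omega)
    obtain ⟨κ, hκ⟩ : ∃ κ, κ + e = Lo + lI c i := ⟨Lo + lI c i - e, by omega⟩
    obtain ⟨w, hw⟩ : ∃ w, π L + 5 + w = m' + m := ⟨m' + m - π L - 5, by omega⟩
    obtain ⟨f, hf⟩ := F.lemmaE (a := a) (m := m) (m' := m') (κ := κ) (w := w) hα a3 (by omega)
      (by omega) (by omega) hw (by omega) (by omega)
      (by
        intro s s' hss hs' hadj hne
        obtain ⟨k, k1, k2, k3⟩ := a6 s (by omega)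
        obtain ⟨k', k1', k2', k3'⟩ := a6 s' hs'
        have hzlt := F.zlt hss hs'
        rw [k3, k3'] at hzlt hadj
        have hkk : k < k' := by
          by_contra hcon
          have := h.monotone (show k' ≤ k by omega) k2
          omega
        have hrel : RelH G v b i₀ n k k' := by
          refine ⟨hadj, ?_⟩
          rintro ⟨rfl, rfl⟩
          apply hne
          constructor
          · by_contra hs0
            have := F.zlt (show 0 < s by omega) (show s ≤ L by omega)
            omega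
          · by_contra hsL
            have := F.zlt (show s' < L by omega) (le_refl _)
            omega
        have h1 := hshort k k' k1 hkk k2' hrel
        have h2 := F.π_z hss.le hs'
        rw [k3, k3'] at h2
        omega)
      (by omega)
    rw [a1, a2] at hf
    exact hnoP ⟨f, hf⟩
  · by_cases hJ315 : J ≤ 315
    · -- two far steps
      have hmul : J * (m - 2) ≤ 315 * (m - 2) := Nat.mul_le_mul_right _ hJ315
      have hq634 : q ≤ 634 := by
        by_contra hcon
        have h1 : (m - 1 - a) * 635 ≤ (m - 1 - a) * q := Nat.mul_le_mul_left _ (by omega)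
        omega
      obtain ⟨k, hk⟩ : ∃ k, k = (m' - J - D - 11) / 4 := ⟨_, rfl⟩
      have hbigk := hbig k (by omega) (by omega) (by omega)
      have hτ0 := hτm 0 (by omega)
      have hτ1' := hτm 1 (by omega)
      have hτ2' := hτm 2 (by omega)
      have hτ3 := hτm 3 (by omega)
      have t01 := hτ2 0 1 (by omega) (by omega)
      have t12 := hτ2 1 2 (by omega) (by omega)
      have t23 := hτ2 2 3 (by omega) (by omega)
      obtain ⟨y0, y3, y1, y2⟩ := hbigk _ hτ0.1 hτ0.2
      obtain ⟨x0, x3, x1, x2⟩ := hbigk _ hτ3.1 hτ3.2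
      have hitem1 := hitem _ hτ1'.1 hτ1'.2
      have hitem2 := hitem _ hτ2'.1 hτ2'.2
      have c1 := hbm _ _ (show τ 0 + 1 ≤ τ 1 by omega) hτ1'.1.le
      have c2 := hbm _ _ (show τ 1 + 1 ≤ τ 2 by omega) hτ2'.1.le
      have c3 := hbm _ _ (show τ 2 + 1 ≤ τ 3 by omega) hτ3.1.le
      have hfam := far_family (w := 2) (k := k) hα (fun i => if i = 0 then y0 else x0)
        (by
          intro i hi
          by_cases hi0 : i = 0
          · simp only [hi0, if_true]; exact y1
          · simp only [hi0, if_false]; exact x1)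
        (by
          intro i hi
          by_cases hi0 : i = 0
          · simp only [hi0, if_true]; exact y2
          · simp only [hi0, if_false]; exact x2)
        (by
          intro i i' hii hi' x hx y hy
          have hi0 : i = 0 := by omega
          have hi1 : i' = 1 := by omega
          subst hi0
          subst hi1
          simp only [if_true, show (1 = 0) = False by simp, if_false] at hx hy
          obtain ⟨p, p1, p2, rfl⟩ := y3 x hx
          obtain ⟨p', p1', p2', rfl⟩ := x3 y hy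
          exact hfar _ _ _ _ hτ3.1.le hτ3.1 p1 p2 p1' p2' (by omega) (by omega))
      omega
    · -- many far steps
      have hratio : ∀ i, i < r → 3 * lI c i ≤ 2 * uI b c i := by
        intro i hi
        have hinc := hp.inc i hi
        have hn := hp.le_n (j := i + 1) (by omega)
        have hsh := hp.short i hi
        have := h.item_ratio hα hexp (by omega) hinc hn (hp.adj i hi) (by omega)
        exact this
      have hLU3 : 3 * Lo ≤ 2 * Up := by
        rw [hLo, hUp]
        exact sumW_ratio hratio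
      obtain ⟨k, hk⟩ : ∃ k, k = (e - 15) / 6 := ⟨_, rfl⟩
      have hbigk := hbig k (by omega) (by omega) (by omega)
      have hsp : ∀ j, j < r → ¬ W j → e ≤ 2 * (b (c (j + 1)) - b (c j)) := by
        intro j hj hWj
        obtain ⟨i1, _, _, _, i5⟩ := hitem j hj hWj
        have := hratio j hj
        omega
      have hgrow : ∀ x d, x + 1 + d < J → d * e ≤ 2 * (b (c (τ (x + 1 + d))) - b (c (τ x + 1))) := by
        intro x d
        induction d with
        | zero =>
          intro _
          simp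
        | succ d ih =>
          intro hd
          have h1 := ih (by omega)
          have h2 := hτ2 (x + 1 + d) (x + 1 + (d + 1)) (by omega) (by omega)
          have h3 := hτm (x + 1 + d) (by omega)
          have h4 := hτm (x + 1 + (d + 1)) (by omega)
          have h5 := hsp _ h3.1 h3.2
          have h6 := hbm _ _ (show τ (x + 1 + d) + 1 ≤ τ (x + 1 + (d + 1)) by omega) h4.1.le
          have h7 := hbm (τ x + 1) (τ (x + 1 + d)) (by
            have := hτ2 x (x + 1 + d) (by omega) (by omega)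
            omega) h3.1.le
          have h8 := hbm _ _ (show τ (x + 1 + d) ≤ τ (x + 1 + d) + 1 by omega)
            (show τ (x + 1 + d) + 1 ≤ r by omega)
          rw [Nat.add_mul, Nat.one_mul]
          omega
      have hset : ∀ i, ∃ s : Finset V, i < 22 → (∀ y ∈ s, ∃ p, c (τ (15 * i)) < p ∧
          p < c (τ (15 * i) + 1) ∧ y = v (b p)) ∧ k < s.card ∧ ∀ x ∈ s, ∀ y ∈ s, ¬ G.Adj x y := by
        intro i
        by_cases hi : i < 22
        · have hm := hτm (15 * i) (by omega)
          obtain ⟨s, hs⟩ := hbigk _ hm.1 hm.2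
          exact ⟨s, fun _ => hs⟩
        · exact ⟨∅, fun hc => absurd hc hi⟩
      choose s hs using hset
      have hfam := far_family (w := 22) (k := k) hα s (fun i hi => (hs i hi).2.1)
        (fun i hi => (hs i hi).2.2)
        (by
          intro i i' hii hi' x hx y hy
          have hi : i < 22 := by omega
          obtain ⟨p, p1, p2, rfl⟩ := (hs i hi).1 x hx
          obtain ⟨p', p1', p2', rfl⟩ := (hs i' hi').1 y hy
          have hm1 := hτm (15 * i) (by omega)
          have hm2 := hτm (15 * i') (by omega)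
          have hg := hgrow (15 * i) 14 (by omega)
          have hm3 := hτm (15 * i + 1 + 14) (by omega)
          have hmono := hτle (15 * i + 1 + 14) (15 * i') (by omega) (by omega)
          have hc1 := hbm _ _ hmono hm2.1.le
          exact hfar _ _ _ _ hm2.1.le hm2.1 p1 p2 p1' p2' (by omega) (by omega))
      omega

end arc

end Vale.Agent.Lib.P048
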