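import Vale.Agent.Lib.P048.C8

/-!
Growing the chain, and the final theorem for `m ≥ 2 n + 2998`.
-/

namespace Vale.Agent.Lib.P048

open Finset

variable {V : Type*} {G : SimpleGraph V}

section top

variable {a m n : ℕ} {v : ℕ → V} {b : ℕ → ℕ}

/-- The closing step at the end of the chain. -/
theorem Cn.far_close2 [Fintype V] (h : Cn G m n v b) (hα : IndBd G a) (hexp : Exp G m)
    (hC : 2 * a + 3000 ≤ m) (hlarge : 8000 ≤ m)
    (hex : ∃ p, p < b n ∧ G.Adj (v p) (v (b n)) ∧ p + (m - 1) ≤ b n) : ∃ g, CycF G m g := by
  classical
  let F := (Finset.range (b n)).filter (fun p => G.Adj (v p) (v (b n)) ∧ p + (m - 1) ≤ b n)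
  have hF : F.Nonempty := by
    obtain ⟨p, h1, h2, h3⟩ := hex
    exact ⟨p, by simp [F, h1, h2, h3]⟩
  obtain ⟨x₀, hx₀, hmaxF⟩ : ∃ x₀, x₀ ∈ F ∧ ∀ z ∈ F, z ≤ x₀ :=
    ⟨F.max' hF, Finset.max'_mem _ _, fun z hz => Finset.le_max' _ z hz⟩
  simp only [F, Finset.mem_filter, Finset.mem_range] at hx₀
  obtain ⟨hx1, hx2, hx3⟩ := hx₀
  have hmax : ∀ p, x₀ < p → p < b n → G.Adj (v p) (v (b n)) → b n < p + (m - 1) := by
    intro p hp1 hp2 hp3
    by_contra hcon
    have hmem : p ∈ F := by
      simp only [F, Finset.mem_filter, Finset.mem_range]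
      exact ⟨hp2, hp3, by omega⟩
    have := hmaxF p hmem
    omega
  let S := (Finset.range (n + 1)).filter (fun i => x₀ ≤ b i)
  have hS : S.Nonempty := ⟨n, by simp [S]; omega⟩
  obtain ⟨i₀, hi₀, hminS⟩ : ∃ i₀, i₀ ∈ S ∧ ∀ z ∈ S, i₀ ≤ z :=
    ⟨S.min' hS, Finset.min'_mem _ _, fun z hz => Finset.min'_le _ z hz⟩
  simp only [S, Finset.mem_filter, Finset.mem_range] at hi₀
  obtain ⟨hi1, hi2⟩ := hi₀
  have hmin : ∀ i, i < i₀ → b i < x₀ := by
    intro i hi
    by_contra hcon
    have hmem : i ∈ S := by
      simp only [S, Finset.mem_filter, Finset.mem_range]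
      exact ⟨by omega, by omega⟩
    have := hminS i hmem
    omega
  have hi₀n : i₀ ≤ n := by omega
  have hL := h.monotone hi₀n (le_refl _)
  by_cases hbase : b i₀ = x₀
  · refine h.closure2 hα hexp hC hlarge (i₀ := i₀) (H₀ := 0) hi₀n (by omega) ?_ (by omega) ?_
    · refine ⟨fun _ => v (b n), ⟨?_, ?_⟩, rfl, ?_, ?_⟩
      · intro i j hi hj _; omega
      · intro i hi; omega
      · rw [hbase]; exact hx2.symm
      · intro j h1 h2; omega
    · intro i hi3 hi4 hadj
      have h1 := h.strict hi3 (by omega)
      have h2 := h.strict hi4 (le_refl _)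
      exact hmax _ (by omega) h2 hadj
  · have hlt : x₀ < b i₀ := by omega
    have hi₀1 : 1 ≤ i₀ := by
      by_contra hcon
      have h0 : i₀ = 0 := by omega
      rw [h0, h.b0] at hlt
      omega
    have hprev := hmin (i₀ - 1) (by omega)
    have hgap := h.gap (i₀ - 1) (by omega)
    rw [show i₀ - 1 + 1 = i₀ by omega] at hgap
    have hbi : b i₀ = x₀ + 1 := by omega
    refine h.closure2 hα hexp hC hlarge (i₀ := i₀) (H₀ := 1) hi₀n (by omega) ?_ (by omega) ?_
    · refine ⟨fun j => if j = 0 then v (b n) else v x₀, ⟨?_, ?_⟩, by simp, ?_, ?_⟩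
      · intro i j hi hj hij
        have hne : v (b n) ≠ v x₀ := by
          intro heq
          have := h.inj _ _ (by omega) (by omega) heq
          omega
        by_cases hi0 : i = 0 <;> by_cases hj0 : j = 0
        · omega
        · simp only [hi0, hj0, if_true, if_false] at hij
          exact absurd hij hne
        · simp only [hi0, hj0, if_true, if_false] at hij
          exact absurd hij.symm hne
        · omega
      · intro i hi
        have : i = 0 := by omega
        subst this
        simpa using hx2.symm
      · simp only [show (1 = 0) = False by simp, if_false]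
        have := h.path.adj x₀ (by omega)
        rwa [← hbi] at this
      · intro j h1 h2
        exact ⟨x₀, hlt, by simp [show j ≠ 0 by omega]⟩
    · intro i hi3 hi4 hadj
      have h1 := h.strict hi3 (by omega)
      have h2 := h.strict hi4 (le_refl _)
      exact hmax _ (by omega) h2 hadj

end top

/-- The theorem for graphs with expansion. -/
theorem exp_cycle [Fintype V] {a m : ℕ} (hα : IndBd G a) (hexp : Exp G m) (hC : 2 * a + 3000 ≤ m)
    (hlarge : 8000 ≤ m) (x₀ : V) : ∃ g, CycF G m g := by
  classical
  have key : ∀ (d n : ℕ) (v : ℕ → V) (b : ℕ → ℕ), Fintype.card V < b n + 1 + d →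
      Cn G m n v b → ∃ g, CycF G m g := by
    intro d
    induction d using Nat.strong_induction_on with
    | _ d ih =>
      intro n v b hc h
      by_cases hd : d = 0
      · exfalso
        have h1 : ((Finset.range (b n + 1)).image v).card = b n + 1 := by
          rw [Finset.card_image_of_injOn, Finset.card_range]
          intro x hx y hy hxy
          simp only [Finset.coe_range, Set.mem_Iio] at hx hy
          exact h.inj x y hx hy hxy
        have h2 := Finset.card_le_univ ((Finset.range (b n + 1)).image v)
        omega
      · by_cases hfar : ∃ p, p < b n ∧ G.Adj (v p) (v (b n)) ∧ p + (m - 1) ≤ b n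
        · exact h.far_close2 hα hexp hC hlarge hfar
        · have hband : ∀ k, k < b n → G.Adj (v k) (v (b n)) → b n < k + (m - 1) := by
            intro k hk hadj
            by_contra hcon
            exact hfar ⟨k, hk, hadj, by omega⟩
          obtain ⟨v', b', h', hb'⟩ := h.grow (by omega) hexp.min_deg hband
          exact ih (d - 1) (by omega) (n + 1) v' b' (by omega) h'
  exact key (Fintype.card V) 0 (fun _ => x₀) (fun _ => 0) (by omega) (Cn.single x₀)

/-- The theorem in terms of the number of vertices. -/
theorem order_cycle4.{u} : ∀ (a : ℕ) (V : Type u) [Fintype V] (G : SimpleGraph V) (m : ℕ),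
    IndBd G a → 2 * a + 3000 ≤ m → (m - 1) * a + 1 ≤ Fintype.card V → ∃ g, CycF G m g := by
  intro a
  induction a using Nat.strong_induction_on with
  | _ a ih =>
    intro V _ G m hα hm hc
    classical
    by_cases hsmall : 3 * a + 3 ≤ m
    · exact order_cycle3 a V G m hα hsmall hc
    by_cases hexp : Exp G m
    · have hcard : 0 < Fintype.card V := by omega
      obtain ⟨x⟩ := Fintype.card_pos_iff.mp hcard
      exact exp_cycle hα hexp hm (by omega) x
    · unfold Exp at hexp
      push Not at hexp
      obtain ⟨I, hI1, hI2, hI3⟩ := hexp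
      have hIa : I.card ≤ a := by
        by_contra hcon
        obtain ⟨x, hx, y, hy, hxy⟩ := hα I (by omega)
        exact hI2 x hx y hy hxy
      have hIpos : 1 ≤ I.card := Finset.card_pos.mpr hI1
      obtain ⟨a', ha'⟩ : ∃ a', a = a' + I.card := ⟨a - I.card, by omega⟩
      let W := {y : V // y ∉ clN G I}
      let G' : SimpleGraph W := G.comap Subtype.val
      have hcW : (m - 1) * a' + 1 ≤ Fintype.card W := by
        have h1 : Fintype.card W = (Finset.univ.filter (fun y => y ∉ clN G I)).card :=
          Fintype.card_subtype _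
        have h2 : (Finset.univ : Finset V) ⊆ (Finset.univ.filter (fun y => y ∉ clN G I)) ∪ clN G I := by
          intro y _
          by_cases hy : y ∈ clN G I
          · exact Finset.mem_union_right _ hy
          · exact Finset.mem_union_left _ (by simp [hy])
        have h3 := Finset.card_le_card h2
        have h4 := Finset.card_union_le (Finset.univ.filter (fun y => y ∉ clN G I)) (clN G I)
        rw [Finset.card_univ] at h3
        have h6 : (m - 1) * a = (m - 1) * a' + (m - 1) * I.card := by
          rw [ha']
          ring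
        omega
      have hαW : IndBd G' a' := by
        intro s hs
        let s' : Finset V := I ∪ s.map (Function.Embedding.subtype _)
        have hdisj : Disjoint I (s.map (Function.Embedding.subtype _)) := by
          rw [Finset.disjoint_left]
          intro x hx hx2
          rw [Finset.mem_map] at hx2
          obtain ⟨y, _, hy⟩ := hx2
          apply y.2
          have : (y : V) = x := hy
          rw [this]
          simp [clN, hx]
        have hcard : a < s'.card := by
          rw [Finset.card_union_of_disjoint hdisj, Finset.card_map]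
          omega
        obtain ⟨y, hy, z, hz, hyz⟩ := hα s' hcard
        rw [Finset.mem_union] at hy hz
        have hnot : ∀ x ∈ I, ∀ t ∈ s.map (Function.Embedding.subtype _), ¬ G.Adj x t := by
          intro x hx t ht hadj
          rw [Finset.mem_map] at ht
          obtain ⟨y', _, hy'⟩ := ht
          apply y'.2
          have : (y' : V) = t := hy'
          rw [this]
          simp only [clN, Finset.mem_filter, Finset.mem_univ, true_and]
          exact Or.inr ⟨x, hx, hadj⟩
        rcases hy with hy | hy <;> rcases hz with hz | hz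
        · exact absurd hyz (hI2 y hy z hz)
        · exact absurd hyz (hnot y hy z hz)
        · exact absurd hyz.symm (hnot z hz y hy)
        · rw [Finset.mem_map] at hy hz
          obtain ⟨y', hy', rfl⟩ := hy
          obtain ⟨z', hz', rfl⟩ := hz
          exact ⟨y', hy', z', hz', hyz⟩
      obtain ⟨g, hg⟩ := ih a' (by omega) W G' m hαW (by omega) hcW
      refine ⟨fun i => (g i).1, ⟨?_, ?_⟩, ?_⟩
      · intro i j hi hj hij
        exact hg.inj i j hi hj (Subtype.ext hij)
      · intro i hi
        exact hg.adj i hi
      · exact hg.close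

/-- A graph on `(m-1)(n-1)+1` vertices without an independent set of size `n` has a cycle of
length exactly `m`, as soon as `m ≥ 2 n + 2998`. -/
theorem cycle_or_indep4 {V : Type*} [Fintype V] (G : SimpleGraph V) (m n : ℕ) (hn : 2 ≤ n)
    (hm : 2 * n + 2998 ≤ m) (hV : (m - 1) * (n - 1) + 1 ≤ Fintype.card V) :
    (∃ (v : V) (c : G.Walk v v), c.IsCycle ∧ c.length = m) ∨
      ∃ s : Finset V, G.IsIndepSet (s : Set V) ∧ s.card = n := by
  classical
  by_cases hs : ∃ s : Finset V, G.IsIndepSet (s : Set V) ∧ s.card = n
  · exact Or.inr hs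
  · left
    have hα : IndBd G (n - 1) := by
      intro s hsc
      obtain ⟨t, hts, htc⟩ := Finset.exists_subset_card_eq (show n ≤ s.card by omega)
      by_contra hne
      push Not at hne
      apply hs
      refine ⟨t, ?_, htc⟩
      intro x hx y hy _
      exact hne x (hts hx) y (hts hy)
    obtain ⟨g, hg⟩ := order_cycle4 (n - 1) V G m hα (by omega) hV
    exact exists_isCycle_of_cycF hg (by omega)

end Vale.Agent.Lib.P048
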