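import Vale.Agent.Lib.P048.Reduce

namespace Vale.Agent.Lib.P048

open Finset

variable {V : Type*} {G : SimpleGraph V}

/-- The bookkeeping of a chain of triangles: `v 0, ..., v (L-1)` is a path, the positions in
`A` can be skipped, the positions in `B` have neighbours in every short window behind them. -/
structure Inv0 (G : SimpleGraph V) (a m L : ℕ) (v : ℕ → V) (A B : ℕ → Prop) : Prop where
  hL : 1 ≤ L
  inj : ∀ i j, i < L → j < L → v i = v j → i = j
  adj : ∀ i, i + 1 < L → G.Adj (v i) (v (i + 1))
  skipA : ∀ k, A k → 1 ≤ k ∧ k + 1 < L ∧ G.Adj (v (k - 1)) (v (k + 1))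
  ncA : ∀ k, A k → ¬ A (k + 1)
  AB : ∀ k, A k → ¬ B k
  gapNB : ∀ i, i + 1 < L → ¬ B i → A i ∨ A (i + 1)
  gapB : ∀ i, B i → ¬ B (i + 1)
  bare : ∀ j, B j → j + 1 < L ∧ ∀ x, x < j → j ≤ x + (m - 2) →
    ∃ q, x ≤ q ∧ q < j ∧ q < x + a ∧ G.Adj (v q) (v j)

open Classical in
/-- Number of skippable positions strictly between `s` and `q`. -/
noncomputable def cnt (A : ℕ → Prop) (s q : ℕ) : ℕ := ((Finset.Ioo s q).filter A).card

theorem cnt_le (A : ℕ → Prop) (s q : ℕ) : cnt A s q ≤ q - s - 1 := by
  classical
  unfold cnt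
  refine (Finset.card_filter_le _ _).trans ?_
  rw [Nat.card_Ioo]

theorem cnt_succ_of_not (A : ℕ → Prop) (s q : ℕ) (h : ¬ (A q ∧ s < q)) :
    cnt A s (q + 1) = cnt A s q := by
  classical
  unfold cnt
  congr 1
  ext x
  simp only [Finset.mem_filter, Finset.mem_Ioo]
  constructor
  · rintro ⟨⟨h1, h2⟩, h3⟩
    refine ⟨⟨h1, ?_⟩, h3⟩
    rcases (by omega : x < q ∨ x = q) with h4 | h4
    · exact h4
    · subst h4; exact absurd ⟨h3, h1⟩ h
  · rintro ⟨⟨h1, h2⟩, h3⟩
    exact ⟨⟨h1, by omega⟩, h3⟩

theorem cnt_succ_of_mem (A : ℕ → Prop) (s q : ℕ) (h : A q) (hs : s < q) :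
    cnt A s (q + 1) = cnt A s q + 1 := by
  classical
  unfold cnt
  have : (Finset.Ioo s (q + 1)).filter A = insert q ((Finset.Ioo s q).filter A) := by
    ext x
    simp only [Finset.mem_filter, Finset.mem_Ioo, Finset.mem_insert]
    constructor
    · rintro ⟨⟨h1, h2⟩, h3⟩
      rcases (by omega : x = q ∨ x < q) with h4 | h4
      · exact Or.inl h4
      · exact Or.inr ⟨⟨h1, h4⟩, h3⟩
    · rintro (h4 | ⟨⟨h1, h4⟩, h3⟩)
      · subst h4; exact ⟨⟨hs, by omega⟩, h⟩
      · exact ⟨⟨h1, by omega⟩, h3⟩
  rw [this, Finset.card_insert_of_notMem]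
  simp

/-- Lower bound when every third position is skippable. -/
theorem cnt_ge3 {A : ℕ → Prop} {s L : ℕ} (h3 : ∀ i, i + 2 < L → A i ∨ A (i + 1) ∨ A (i + 2)) :
    ∀ q, q ≤ L → (q - s - 1) / 3 ≤ cnt A s q := by
  intro q
  induction q using Nat.strong_induction_on with
  | _ q ih =>
    intro hq
    by_cases hq1 : q < s + 4
    · have : (q - s - 1) / 3 = 0 := by omega
      omega
    · obtain ⟨q', rfl⟩ : ∃ q', q = q' + 3 := ⟨q - 3, by omega⟩
      have hih := ih q' (by omega) (by omega)
      have hs : s < q' := by omega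
      have step : ∀ x, cnt A s x ≤ cnt A s (x + 1) := by
        intro x
        by_cases hx : A x ∧ s < x
        · rw [cnt_succ_of_mem A s x hx.1 hx.2]; omega
        · rw [cnt_succ_of_not A s x hx]
      have key : cnt A s q' + 1 ≤ cnt A s (q' + 3) := by
        rcases h3 q' (by omega) with h | h | h
        · have h1 : cnt A s (q' + 1) = cnt A s q' + 1 := cnt_succ_of_mem A s q' h hs
          have h2 : cnt A s (q' + 1) ≤ cnt A s (q' + 2) := step (q' + 1)
          have h4 : cnt A s (q' + 2) ≤ cnt A s (q' + 3) := step (q' + 2)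
          omega
        · have h1 : cnt A s q' ≤ cnt A s (q' + 1) := step q'
          have h2 : cnt A s (q' + 2) = cnt A s (q' + 1) + 1 :=
            cnt_succ_of_mem A s (q' + 1) h (by omega)
          have h4 : cnt A s (q' + 2) ≤ cnt A s (q' + 3) := step (q' + 2)
          omega
        · have h1 : cnt A s q' ≤ cnt A s (q' + 1) := step q'
          have h2 : cnt A s (q' + 1) ≤ cnt A s (q' + 2) := step (q' + 1)
          have h4 : cnt A s (q' + 3) = cnt A s (q' + 2) + 1 :=
            cnt_succ_of_mem A s (q' + 2) h (by omega)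
          omega
      have : (q' + 3 - s - 1) / 3 = (q' - s - 1) / 3 + 1 := by omega
      omega

/-- Lower bound when every second position is skippable. -/
theorem cnt_ge2 {A : ℕ → Prop} {s : ℕ} :
    ∀ q, (∀ i, s < i → i + 1 < q → A i ∨ A (i + 1)) → (q - s - 1) / 2 ≤ cnt A s q := by
  intro q
  induction q using Nat.strong_induction_on with
  | _ q ih =>
    intro hq
    by_cases hq1 : q < s + 3
    · have : (q - s - 1) / 2 = 0 := by omega
      omega
    · obtain ⟨q', rfl⟩ : ∃ q', q = q' + 2 := ⟨q - 2, by omega⟩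
      have hih := ih q' (by omega) (fun i hi1 hi2 => hq i hi1 (by omega))
      have hs : s < q' := by omega
      have step : ∀ x, cnt A s x ≤ cnt A s (x + 1) := by
        intro x
        by_cases hx : A x ∧ s < x
        · rw [cnt_succ_of_mem A s x hx.1 hx.2]; omega
        · rw [cnt_succ_of_not A s x hx]
      have key : cnt A s q' + 1 ≤ cnt A s (q' + 2) := by
        rcases hq q' hs (by omega) with h | h
        · have h1 : cnt A s (q' + 1) = cnt A s q' + 1 := cnt_succ_of_mem A s q' h hs
          have h2 : cnt A s (q' + 1) ≤ cnt A s (q' + 2) := step (q' + 1)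
          omega
        · have h1 : cnt A s q' ≤ cnt A s (q' + 1) := step q'
          have h2 : cnt A s (q' + 2) = cnt A s (q' + 1) + 1 :=
            cnt_succ_of_mem A s (q' + 1) h (by omega)
          omega
      have : (q' + 2 - s - 1) / 2 = (q' - s - 1) / 2 + 1 := by omega
      omega

section chain

variable {a m L : ℕ} {v : ℕ → V} {A B : ℕ → Prop}

theorem Inv0.h3 (h : Inv0 G a m L v A B) : ∀ i, i + 2 < L → A i ∨ A (i + 1) ∨ A (i + 2) := by
  intro i hi
  by_cases hB : B i
  · rcases h.gapNB (i + 1) (by omega) (h.gapB i hB) with h1 | h1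
    · exact Or.inr (Or.inl h1)
    · exact Or.inr (Or.inr h1)
  · rcases h.gapNB i (by omega) hB with h1 | h1
    · exact Or.inl h1
    · exact Or.inr (Or.inl h1)

/-- A path inside the chain, with its vertices taken from an index interval. -/
def IdxPath (G : SimpleGraph V) (v : ℕ → V) (s q t : ℕ) (f : ℕ → V) : Prop :=
  PathF G t f ∧ f 0 = v s ∧ f (t - 1) = v q ∧ ∀ i, i < t → ∃ k, s ≤ k ∧ k ≤ q ∧ f i = v k

theorem idxPath_append (hinj : ∀ i j, i < L → j < L → v i = v j → i = j)
    {s q q' t : ℕ} {f : ℕ → V} (hf : IdxPath G v s q t f) (ht : 1 ≤ t) (hqq : q < q') (hq' : q' < L)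
    (hadj : G.Adj (v q) (v q')) (hqL : q < L) :
    ∃ f', IdxPath G v s q' (t + 1) f' := by
  obtain ⟨h1, h2, h3, h4⟩ := hf
  refine ⟨fun i => if i < t then f i else v q', ⟨⟨?_, ?_⟩, ?_, ?_, ?_⟩⟩
  · intro i j hi hj hij
    have key : ∀ i', i' < t → f i' ≠ v q' := by
      intro i' hi' heq
      obtain ⟨k, _, hk2, hk3⟩ := h4 i' hi'
      rw [hk3] at heq
      have := hinj k q' (by omega) hq' heq
      omega
    split_ifs at hij with hi1 hj1 hj1
    · exact h1.inj i j hi1 hj1 hij
    · exact absurd hij (key i hi1)
    · exact absurd hij.symm (key j hj1)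
    · omega
  · intro i hi
    by_cases hi1 : i + 1 < t
    · simp only [hi1, if_true, show i < t by omega]
      exact h1.adj i hi1
    · have hi2 : i = t - 1 := by omega
      have hi3 : i < t := by omega
      simp only [hi3, if_true, hi1, if_false]
      rw [hi2, h3]
      exact hadj
  · simp only [show 0 < t by omega, if_true]; exact h2
  · simp
  · intro i hi
    by_cases hi1 : i < t
    · simp only [hi1, if_true]
      obtain ⟨k, hk1, hk2, hk3⟩ := h4 i hi1
      exact ⟨k, hk1, by omega, hk3⟩
    · simp only [hi1, if_false]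
      have hs : s ≤ q := by
        obtain ⟨k, hk1, hk2, _⟩ := h4 0 (by omega)
        omega
      exact ⟨q', by omega, le_refl _, rfl⟩

/-- All path lengths along the chain obtained by skipping positions of `A`. -/
theorem flex_path (h : Inv0 G a m L v A B) {s : ℕ} :
    ∀ q, s ≤ q → q < L → ∀ t, q - s + 1 - cnt A s q ≤ t → t ≤ q - s + 1 →
      ∃ f, IdxPath G v s q t f := by
  intro q
  induction q using Nat.strong_induction_on with
  | _ q ih =>
    intro hsq hqL t ht1 ht2
    by_cases hq : q = s
    · subst hq
      have hc := cnt_le A q q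
      have ht : t = 1 := by omega
      subst ht
      refine ⟨fun _ => v q, ⟨⟨?_, ?_⟩, rfl, rfl, ?_⟩⟩
      · intro i j hi hj _; omega
      · intro i hi; omega
      · intro i _; exact ⟨q, le_refl _, le_refl _, rfl⟩
    · obtain ⟨p, rfl⟩ : ∃ p, q = p + 1 := ⟨q - 1, by omega⟩
      have hsp : s ≤ p := by omega
      have hcle := cnt_le A s p
      by_cases hA : A p ∧ s < p
      · have hc1 := cnt_succ_of_mem A s p hA.1 hA.2
        obtain ⟨r, rfl⟩ : ∃ r, p = r + 1 := ⟨p - 1, by omega⟩
        have hnr : ¬ A r := by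
          intro hr
          exact h.ncA r hr hA.1
        have hc2 := cnt_succ_of_not A s r (fun hh => hnr hh.1)
        have hcler := cnt_le A s r
        by_cases htt : r + 1 - s + 1 - cnt A s (r + 1) + 1 ≤ t
        · obtain ⟨f, hf⟩ := ih (r + 1) (by omega) hsp (by omega) (t - 1) (by omega) (by omega)
          have := idxPath_append h.inj hf (by omega) (by omega : r + 1 < r + 1 + 1) hqL
            (h.adj (r + 1) hqL) (by omega)
          rwa [show t - 1 + 1 = t by omega] at this
        · obtain ⟨f, hf⟩ := ih r (by omega) (by omega) (by omega) (t - 1) (by omega) (by omega)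
          have hsk := (h.skipA (r + 1) hA.1).2.2
          simp only [Nat.add_sub_cancel] at hsk
          have := idxPath_append h.inj hf (by omega) (by omega : r < r + 1 + 1) hqL hsk (by omega)
          rwa [show t - 1 + 1 = t by omega] at this
      · have hc1 := cnt_succ_of_not A s p hA
        obtain ⟨f, hf⟩ := ih p (by omega) hsp (by omega) (t - 1) (by omega) (by omega)
        have := idxPath_append h.inj hf (by omega) (by omega : p < p + 1) hqL (h.adj p hqL)
          (by omega)
        rwa [show t - 1 + 1 = t by omega] at this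

/-- Paths ending at a position of `B`: long enough lengths are all available. -/
theorem skip_path (h : Inv0 G a m L v A B) (ha : 1 ≤ a) {s j : ℕ} (hj : B j) (hsj : s ≤ j)
    (hwin : j ≤ s + (m - 2)) {t : ℕ} (ht1 : 2 * a + 1 ≤ t) (ht2 : t ≤ j - s + 1) :
    ∃ f, IdxPath G v s j t f := by
  obtain ⟨hjL, hbare⟩ := h.bare j hj
  let x := s + t - 2
  have hx : x = s + t - 2 := rfl
  obtain ⟨q, hq1, hq2, hq3, hq4⟩ := hbare x (by omega) (by omega)
  have hc := cnt_ge3 (s := s) h.h3 q (by omega)
  obtain ⟨f, hf⟩ := flex_path h q (by omega : s ≤ q) (by omega) (t - 1) (by omega) (by omega)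
  have := idxPath_append h.inj hf (by omega) hq2 (by omega) hq4 (by omega)
  rwa [show t - 1 + 1 = t by omega] at this

/-- The closing step. -/
theorem closure_case (h : Inv0 G a m L v A B) (hα : IndBd G a) (ha : 1 ≤ a)
    (hm : 4 * a + 1 ≤ m) {s₀ E : ℕ} (hE : E + 1 = L) (h0 : s₀ + (m - 1) ≤ E)
    (hadj : G.Adj (v E) (v s₀)) : ∃ g, CycF G m g := by
  classical
  by_cases hk : ∃ k, s₀ ≤ k ∧ k < E ∧ B k ∧ E < k + (4 * a - 2)
  · -- the last position of `B` in the arc
    have hne : ((Finset.Ico s₀ E).filter B).Nonempty := by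
      obtain ⟨k, hk1, hk2, hk3, _⟩ := hk
      exact ⟨k, by simp [hk1, hk2, hk3]⟩
    let j := ((Finset.Ico s₀ E).filter B).max' hne
    have hjmem : j ∈ (Finset.Ico s₀ E).filter B := Finset.max'_mem _ hne
    simp only [Finset.mem_filter, Finset.mem_Ico] at hjmem
    obtain ⟨⟨hj1, hj2⟩, hj3⟩ := hjmem
    have hjmax : ∀ k, j < k → k < E → ¬ B k := by
      intro k hk1 hk2 hk3
      have hmem : k ∈ (Finset.Ico s₀ E).filter B := by
        simp only [Finset.mem_filter, Finset.mem_Ico]
        exact ⟨⟨by omega, hk2⟩, hk3⟩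
      have := Finset.le_max' _ k hmem
      omega
    have hj4 : E < j + (4 * a - 2) := by
      obtain ⟨k, hk1, hk2, hk3, hk4⟩ := hk
      have hmem : k ∈ (Finset.Ico s₀ E).filter B := by
        simp only [Finset.mem_filter, Finset.mem_Ico]
        exact ⟨⟨hk1, hk2⟩, hk3⟩
      have := Finset.le_max' _ k hmem
      have hjdef : j = ((Finset.Ico s₀ E).filter B).max' hne := rfl
      omega
    by_cases hcase : s₀ + (m - 2) ≤ j
    · -- case B: a whole window behind the position `j`
      let s := j + 2 - m
      have hs : s = j + 2 - m := rfl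
      let K : V → Prop := fun x => ∃ k, s ≤ k ∧ k ≤ j ∧ x = v k
      have hK : ∀ t, 2 * a + 1 ≤ t → t ≤ m - 1 → ∃ f, PathF G t f ∧ f 0 = v s ∧
          f (t - 1) = v j ∧ ∀ i, i < t → K (f i) := by
        intro t ht1 ht2
        obtain ⟨f, hf1, hf2, hf3, hf4⟩ :=
          skip_path h ha hj3 (by omega : s ≤ j) (by omega) ht1 (by omega)
        exact ⟨f, hf1, hf2, hf3, hf4⟩
      let idx : ℕ → ℕ := fun i => if i < E - j then j + 1 + i else s₀ + i - (E - j)
      have hidx1 : ∀ i, i < E - j → idx i = j + 1 + i := fun i hi => by simp [idx, hi]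
      have hidx2 : ∀ i, E - j ≤ i → idx i = s₀ + i - (E - j) := fun i hi => by
        have : ¬ i < E - j := by omega
        simp [idx, this]
      let q := (E - j) + (s - s₀)
      have hq : q = (E - j) + (s - s₀) := rfl
      have hidxL : ∀ i, i < q → idx i < L := by
        intro i hi
        by_cases hi1 : i < E - j
        · rw [hidx1 i hi1]; omega
        · rw [hidx2 i (by omega)]; omega
      have hpath : PathF G q (fun i => v (idx i)) := by
        constructor
        · intro x y hx hy hxy
          have h1 := h.inj _ _ (hidxL x hx) (hidxL y hy) hxy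
          by_cases hx1 : x < E - j <;> by_cases hy1 : y < E - j
          · rw [hidx1 x hx1, hidx1 y hy1] at h1; omega
          · rw [hidx1 x hx1, hidx2 y (by omega)] at h1; omega
          · rw [hidx2 x (by omega), hidx1 y hy1] at h1; omega
          · rw [hidx2 x (by omega), hidx2 y (by omega)] at h1; omega
        · intro i hi
          by_cases hi1 : i + 1 < E - j
          · show G.Adj (v (idx i)) (v (idx (i + 1)))
            rw [hidx1 i (by omega), hidx1 (i + 1) hi1]
            exact h.adj (j + 1 + i) (by omega)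
          · by_cases hi2 : i + 1 = E - j
            · show G.Adj (v (idx i)) (v (idx (i + 1)))
              rw [hidx1 i (by omega), hidx2 (i + 1) (by omega)]
              have h1 : j + 1 + i = E := by omega
              have h2 : s₀ + (i + 1) - (E - j) = s₀ := by omega
              rw [h1, h2]
              exact hadj
            · show G.Adj (v (idx i)) (v (idx (i + 1)))
              rw [hidx2 i (by omega), hidx2 (i + 1) (by omega)]
              have := h.adj (s₀ + i - (E - j)) (by omega)
              rwa [show s₀ + i - (E - j) + 1 = s₀ + (i + 1) - (E - j) by omega] at this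
      have hout : ∀ i, i < q → ¬ K (v (idx i)) := by
        rintro i hi ⟨k, hk1, hk2, hk3⟩
        have h1 := h.inj _ _ (hidxL i hi) (by omega) hk3
        by_cases hi1 : i < E - j
        · rw [hidx1 i hi1] at h1; omega
        · rw [hidx2 i (by omega)] at h1; omega
      have hE0 : G.Adj (v j) (v (idx 0)) := by
        rw [hidx1 0 (by omega)]
        exact h.adj j (by omega)
      have hE1 : G.Adj (v (idx (q - 1))) (v s) := by
        by_cases hss : s = s₀
        · have h2 : q - 1 < E - j := by omega
          rw [hidx1 _ h2]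
          have h3 : j + 1 + (q - 1) = E := by omega
          rw [h3, hss]
          exact hadj
        · rw [hidx2 _ (by omega)]
          have h3 : s₀ + (q - 1) - (E - j) + 1 = s := by omega
          have := h.adj (s₀ + (q - 1) - (E - j)) (by omega)
          rwa [h3] at this
      exact reduce_cycle hα (by omega) (by omega) ha hK q (fun i => v (idx i)) (by omega) hpath
        hout hE0 hE1 m (by omega) (by omega)
    · -- case C: no window, a direct count
      have hcE : (E - j - 1) / 2 ≤ cnt A j E := by
        apply cnt_ge2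
        intro i hi1 hi2
        exact h.gapNB i (by omega) (hjmax i hi1 (by omega))
      have hcE' := cnt_le A j E
      -- the length of the last part
      let κ := j - s₀ + 1
      have hκ : κ = j - s₀ + 1 := rfl
      obtain ⟨c₂, t, hc1, hc2, hc3, htt⟩ : ∃ c₂ t, E - j - cnt A j E ≤ c₂ ∧ c₂ ≤ E - j ∧
          c₂ + t = m ∧ (t = κ ∨ (2 * a + 1 ≤ t ∧ t ≤ κ)) := by
        by_cases hκ2 : κ ≤ 2 * a
        · exact ⟨m - κ, κ, by omega, by omega, by omega, Or.inl rfl⟩
        · by_cases hmax : m - κ ≤ E - j - cnt A j E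
          · exact ⟨E - j - cnt A j E, m - (E - j - cnt A j E), le_refl _, by omega, by omega,
              Or.inr ⟨by omega, by omega⟩⟩
          · exact ⟨m - κ, κ, by omega, by omega, by omega, Or.inl rfl⟩
      have hf1 : ∃ f, IdxPath G v s₀ j t f := by
        rcases htt with rfl | ⟨ht1, ht2⟩
        · exact flex_path h j hj1 (by omega) κ (by omega) (by omega)
        · exact skip_path h ha hj3 hj1 (by omega) ht1 ht2
      obtain ⟨f₁, hf11, hf12, hf13, hf14⟩ := hf1
      obtain ⟨f₂, hf21, hf22, hf23, hf24⟩ :=
        flex_path h E (by omega : j ≤ E) (by omega) (c₂ + 1) (by omega) (by omega)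
      have ht0 : 1 ≤ t := by
        rcases htt with rfl | ⟨ht1, _⟩ <;> omega
      have hc0 : 1 ≤ c₂ := by omega
      have hshift : PathF G c₂ (fun i => f₂ (i + 1)) := by
        constructor
        · intro x y hx hy hxy
          have := hf21.inj _ _ (by omega) (by omega) hxy
          omega
        · intro i hi
          exact hf21.adj (i + 1) (by omega)
      have hcat := PathF.concat hf11 hshift
        (by
          intro x y hx hy hxy
          obtain ⟨k₁, hk11, hk12, hk13⟩ := hf14 x hx
          obtain ⟨k₂, hk21, hk22, hk23⟩ := hf24 (y + 1) (by omega)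
          rw [hk13, hk23] at hxy
          have h1 := h.inj _ _ (by omega) (by omega) hxy
          have h2 : k₂ = j := by omega
          rw [h2, ← hf22] at hk23
          have := hf21.inj _ _ (by omega) (by omega) hk23
          omega)
        ht0
        (by
          intro _
          rw [hf13, ← hf22]
          exact hf21.adj 0 (by omega))
      have hsum : t + c₂ = m := by omega
      rw [hsum] at hcat
      refine ⟨_, cycF_of_pathF hcat ?_⟩
      have h2 : ¬ m - 1 < t := by omega
      simp only [h2, if_false, show 0 < t by omega, if_true]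
      have h4 : m - 1 - t + 1 = c₂ + 1 - 1 := by omega
      rw [h4, hf23, hf12]
      exact hadj
  · -- case A: a long stretch without positions of `B`
    let p := E + 1 - (4 * a - 2)
    have hp : p = E + 1 - (4 * a - 2) := rfl
    let K : V → Prop := fun x => ∃ k, p ≤ k ∧ k ≤ E ∧ x = v k
    have hcE : (E - p - 1) / 2 ≤ cnt A p E := by
      apply cnt_ge2
      intro i hi1 hi2
      refine h.gapNB i (by omega) ?_
      intro hB
      exact hk ⟨i, by omega, by omega, hB, by omega⟩
    have hK : ∀ t, 2 * a ≤ t → t ≤ 4 * a - 2 → ∃ f, PathF G t f ∧ f 0 = v p ∧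
        f (t - 1) = v E ∧ ∀ i, i < t → K (f i) := by
      intro t ht1 ht2
      obtain ⟨f, hf1, hf2, hf3, hf4⟩ :=
        flex_path h E (by omega : p ≤ E) (by omega) t (by omega) (by omega)
      exact ⟨f, hf1, hf2, hf3, hf4⟩
    have hpath : PathF G (p - s₀) (fun i => v (s₀ + i)) := by
      constructor
      · intro x y hx hy hxy
        have := h.inj _ _ (by omega) (by omega) hxy
        omega
      · intro i hi
        exact h.adj (s₀ + i) (by omega)
    have hout : ∀ i, i < p - s₀ → ¬ K (v (s₀ + i)) := by
      rintro i hi ⟨k, hk1, hk2, hk3⟩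
      have := h.inj _ _ (by omega) (by omega) hk3
      omega
    refine reduce_cycle hα (by omega) (by omega) ha hK (p - s₀) (fun i => v (s₀ + i)) (by omega)
      hpath hout (by simpa using hadj) ?_ m (by omega) (by omega)
    have h3 : s₀ + (p - s₀ - 1) + 1 = p := by omega
    have := h.adj (s₀ + (p - s₀ - 1)) (by omega)
    rwa [h3] at this

end chain

end Vale.Agent.Lib.P048
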