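import Mathlib

/-!
Cycles and paths written as functions on initial segments of the natural numbers.
-/

namespace Vale.Agent.Lib.P048

open Finset

variable {V : Type*} (G : SimpleGraph V)

/-- `g 0, ..., g (n-1)` are distinct and consecutive ones are adjacent. -/
structure PathF (n : ℕ) (g : ℕ → V) : Prop where
  inj : ∀ i j, i < n → j < n → g i = g j → i = j
  adj : ∀ i, i + 1 < n → G.Adj (g i) (g (i + 1))

/-- `g 0, ..., g (n-1)` is a closed chain of distinct vertices. -/
structure CycF (n : ℕ) (g : ℕ → V) : Prop extends PathF G n g where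
  close : G.Adj (g (n - 1)) (g 0)

/-- Every set of more than `a` vertices holds an edge. -/
def IndBd (a : ℕ) : Prop :=
  ∀ s : Finset V, a < s.card → ∃ x ∈ s, ∃ y ∈ s, G.Adj x y

variable {G}

/-- Walks along a function path. -/
theorem exists_walk_of_pathF {n : ℕ} {g : ℕ → V} (hg : PathF G n g) :
    ∀ k, k < n → ∃ p : G.Walk (g 0) (g k),
      p.support = (List.range (k + 1)).map g ∧
      p.edges = (List.range k).map (fun i => s(g i, g (i + 1))) := by
  intro k
  induction k with
  | zero =>
    intro _
    exact ⟨SimpleGraph.Walk.nil, by simp, by simp⟩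
  | succ k ih =>
    intro hk
    obtain ⟨p, hp1, hp2⟩ := ih (by omega)
    refine ⟨p.concat (hg.adj k hk), ?_, ?_⟩
    · rw [SimpleGraph.Walk.support_concat, hp1, List.range_succ (n := k + 1)]
      simp
    · rw [SimpleGraph.Walk.edges_concat, hp2, List.range_succ (n := k)]
      simp [List.concat_eq_append]

theorem exists_isCycle_of_cycF {n : ℕ} {g : ℕ → V} (hg : CycF G n g) (hn : 3 ≤ n) :
    ∃ (v : V) (c : G.Walk v v), c.IsCycle ∧ c.length = n := by
  obtain ⟨p, hp1, hp2⟩ := exists_walk_of_pathF hg.toPathF (n - 1) (by omega)
  refine ⟨g (n - 1), SimpleGraph.Walk.cons hg.close p, ?_, ?_⟩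
  · rw [SimpleGraph.Walk.cons_isCycle_iff]
    constructor
    · rw [SimpleGraph.Walk.isPath_def, hp1]
      rw [List.nodup_map_iff_inj_on List.nodup_range]
      intro x hx y hy hxy
      rw [List.mem_range] at hx hy
      exact hg.inj x y (by omega) (by omega) hxy
    · rw [hp2]
      intro hmem
      rw [List.mem_map] at hmem
      obtain ⟨i, hi, hi2⟩ := hmem
      rw [List.mem_range] at hi
      rw [Sym2.eq_iff] at hi2
      rcases hi2 with ⟨h1, h2⟩ | ⟨h1, h2⟩
      · have := hg.inj i (n - 1) (by omega) (by omega) h1
        omega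
      · have h3 := hg.inj i 0 (by omega) (by omega) h1
        have h4 := hg.inj (i + 1) (n - 1) (by omega) (by omega) h2
        omega
  · have : p.support.length = n := by
      rw [hp1]; simp; omega
    rw [SimpleGraph.Walk.length_support] at this
    simp only [SimpleGraph.Walk.length_cons]
    exact this

/-- Joining two disjoint paths. -/
theorem PathF.concat {t₁ t₂ : ℕ} {f₁ f₂ : ℕ → V} (h₁ : PathF G t₁ f₁) (h₂ : PathF G t₂ f₂)
    (hd : ∀ i j, i < t₁ → j < t₂ → f₁ i ≠ f₂ j) (ht : 1 ≤ t₁)
    (hadj : 1 ≤ t₂ → G.Adj (f₁ (t₁ - 1)) (f₂ 0)) :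
    PathF G (t₁ + t₂) (fun i => if i < t₁ then f₁ i else f₂ (i - t₁)) := by
  constructor
  · intro i j hi hj hij
    split_ifs at hij with h1 h2 h2
    · exact h₁.inj i j h1 h2 hij
    · exact absurd hij (hd i (j - t₁) h1 (by omega))
    · exact absurd hij.symm (hd j (i - t₁) h2 (by omega))
    · have := h₂.inj _ _ (by omega) (by omega) hij
      omega
  · intro i hi
    by_cases h1 : i + 1 < t₁
    · rw [if_pos h1, if_pos (by omega)]
      exact h₁.adj i h1
    · by_cases h2 : i < t₁
      · rw [if_pos h2, if_neg h1]
        have hi' : i = t₁ - 1 := by omega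
        have : i + 1 - t₁ = 0 := by omega
        rw [this, hi']
        exact hadj (by omega)
      · rw [if_neg h2, if_neg h1]
        have := h₂.adj (i - t₁) (by omega)
        rwa [show i - t₁ + 1 = i + 1 - t₁ by omega] at this

/-- Extending a cycle by a vertex with at least `a` neighbours on it. -/
theorem cyc_extend {a n : ℕ} {g : ℕ → V} (hα : IndBd G a) (hc : CycF G n g) (hn : 1 ≤ n)
    {z : V} (hz : ∀ i, i < n → g i ≠ z) (I : Finset ℕ) (hI : ∀ i ∈ I, i < n)
    (hIz : ∀ i ∈ I, G.Adj z (g i)) (hcard : a ≤ I.card) :
    ∃ g', CycF G (n + 1) g' ∧ (∀ i, i < n + 1 → g' i = z ∨ ∃ j, j < n ∧ g' i = g j) ∧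
      (∀ j, j < n → ∃ i, i < n + 1 ∧ g' i = g j) ∧ (∃ i, i < n + 1 ∧ g' i = z) := by
  classical
  -- successor set
  let σ : ℕ → V := fun i => g ((i + 1) % n)
  have hmodlt : ∀ i, (i + 1) % n < n := fun i => Nat.mod_lt _ (by omega)
  have hσinj : Set.InjOn σ (I : Set ℕ) := by
    intro i hi j hj hij
    have hi' := hI i hi
    have hj' := hI j hj
    have h := hc.inj _ _ (hmodlt i) (hmodlt j) hij
    by_cases h1 : i + 1 < n
    · by_cases h2 : j + 1 < n
      · rw [Nat.mod_eq_of_lt h1, Nat.mod_eq_of_lt h2] at h
        omega
      · have h3 : j + 1 = n := by omega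
        rw [Nat.mod_eq_of_lt h1, h3, Nat.mod_self] at h
        omega
    · have h3 : i + 1 = n := by omega
      by_cases h2 : j + 1 < n
      · rw [h3, Nat.mod_self, Nat.mod_eq_of_lt h2] at h
        omega
      · omega
  let T : Finset V := insert z (I.image σ)
  have hzT : z ∉ I.image σ := by
    intro hmem
    rw [Finset.mem_image] at hmem
    obtain ⟨i, _, hi⟩ := hmem
    exact hz _ (hmodlt i) hi
  have hTcard : a < T.card := by
    have : T.card = I.card + 1 := by
      rw [Finset.card_insert_of_notMem hzT, Finset.card_image_of_injOn hσinj]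
    omega
  obtain ⟨x, hx, y, hy, hxy⟩ := hα T hTcard
  -- insertion case
  have hins : ∀ i ∈ I, G.Adj z (σ i) →
      ∃ g', CycF G (n + 1) g' ∧ (∀ i, i < n + 1 → g' i = z ∨ ∃ j, j < n ∧ g' i = g j) ∧
      (∀ j, j < n → ∃ i, i < n + 1 ∧ g' i = g j) ∧ (∃ i, i < n + 1 ∧ g' i = z) := by
    intro i hi hzi
    have hin := hI i hi
    let g' : ℕ → V := fun k => if k ≤ i then g k else if k = i + 1 then z else g (k - 1)
    have h1 : ∀ k, k ≤ i → g' k = g k := fun k hk => by simp [g', hk]
    have h2 : g' (i + 1) = z := by simp [g']
    have h3 : ∀ k, i + 1 < k → g' k = g (k - 1) := fun k hk => by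
      have h4 : ¬ k ≤ i := by omega
      have h5 : k ≠ i + 1 := by omega
      simp [g', h4, h5]
    refine ⟨g', ⟨⟨?_, ?_⟩, ?_⟩, ?_, ?_, ⟨i + 1, by omega, h2⟩⟩
    · intro p q hp hq hpq
      rcases lt_trichotomy p (i + 1) with hp1 | hp1 | hp1 <;>
        rcases lt_trichotomy q (i + 1) with hq1 | hq1 | hq1
      · rw [h1 p (by omega), h1 q (by omega)] at hpq
        exact hc.inj _ _ (by omega) (by omega) hpq
      · subst hq1
        rw [h1 p (by omega), h2] at hpq
        exact absurd hpq (hz p (by omega))
      · rw [h1 p (by omega), h3 q hq1] at hpq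
        have := hc.inj _ _ (by omega) (by omega) hpq
        omega
      · subst hp1
        rw [h1 q (by omega), h2] at hpq
        exact absurd hpq.symm (hz q (by omega))
      · omega
      · subst hp1
        rw [h2, h3 q hq1] at hpq
        exact absurd hpq.symm (hz _ (by omega))
      · rw [h3 p hp1, h1 q (by omega)] at hpq
        have := hc.inj _ _ (by omega) (by omega) hpq
        omega
      · subst hq1
        rw [h3 p hp1, h2] at hpq
        exact absurd hpq (hz _ (by omega))
      · rw [h3 p hp1, h3 q hq1] at hpq
        have := hc.inj _ _ (by omega) (by omega) hpq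
        omega
    · intro k hk
      rcases lt_trichotomy k i with hk1 | hk1 | hk1
      · rw [h1 k (by omega), h1 (k + 1) (by omega)]
        exact hc.adj k (by omega)
      · subst hk1
        rw [h1 k (by omega), h2]
        exact (hIz k hi).symm
      · rcases (by omega : k = i + 1 ∨ i + 1 < k) with hk2 | hk2
        · subst hk2
          rw [h2, h3 (i + 1 + 1) (by omega)]
          have h6 : i + 1 + 1 - 1 = i + 1 := by omega
          rw [h6]
          have h7 : i + 1 < n := by omega
          have : σ i = g (i + 1) := by
            simp only [σ]; rw [Nat.mod_eq_of_lt h7]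
          rwa [this] at hzi
        · rw [h3 k hk2, h3 (k + 1) (by omega)]
          have := hc.adj (k - 1) (by omega)
          rwa [show k - 1 + 1 = k + 1 - 1 by omega] at this
    · -- closing edge
      rcases (by omega : i + 1 = n ∨ i + 1 < n) with hi1 | hi1
      · have h8 : n + 1 - 1 = i + 1 := by omega
        rw [h8, h2, h1 0 (by omega)]
        have : σ i = g 0 := by
          simp only [σ]; rw [hi1, Nat.mod_self]
        rwa [this] at hzi
      · have h8 : i + 1 < n + 1 - 1 := by omega
        rw [h3 _ h8, h1 0 (by omega)]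
        have := hc.close
        rwa [show n + 1 - 1 - 1 = n - 1 by omega]
    · intro k hk
      rcases lt_trichotomy k (i + 1) with hk1 | hk1 | hk1
      · right; exact ⟨k, by omega, h1 k (by omega)⟩
      · left; subst hk1; exact h2
      · right; exact ⟨k - 1, by omega, h3 k hk1⟩
    · intro j hj
      by_cases hj1 : j ≤ i
      · exact ⟨j, by omega, h1 j hj1⟩
      · refine ⟨j + 1, by omega, ?_⟩
        rw [h3 (j + 1) (by omega)]
        simp
  -- chord case
  have hcho : ∀ i ∈ I, ∀ i' ∈ I, i < i' → G.Adj (σ i) (σ i') →
      ∃ g', CycF G (n + 1) g' ∧ (∀ i, i < n + 1 → g' i = z ∨ ∃ j, j < n ∧ g' i = g j) ∧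
      (∀ j, j < n → ∃ i, i < n + 1 ∧ g' i = g j) ∧ (∃ i, i < n + 1 ∧ g' i = z) := by
    intro i hi i' hi' hlt hadj
    have hin := hI i hi
    have hin' := hI i' hi'
    let d := i' - i
    let idx : ℕ → ℕ := fun k =>
      if k ≤ d then i' + 1 - k else if k + i < n then k + i else k + i - n
    let g' : ℕ → V := fun k => if k = 0 then z else g (idx k)
    have hg0 : g' 0 = z := by simp [g']
    have hgk : ∀ k, 1 ≤ k → g' k = g (idx k) := fun k hk => by
      have : k ≠ 0 := by omega
      simp [g', this]
    have hidx1 : ∀ k, k ≤ d → idx k = i' + 1 - k := fun k hk => by simp [idx, hk]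
    have hidx2 : ∀ k, d < k → k + i < n → idx k = k + i := fun k hk hk2 => by
      have : ¬ k ≤ d := by omega
      simp [idx, this, hk2]
    have hidx3 : ∀ k, d < k → n ≤ k + i → idx k = k + i - n := fun k hk hk2 => by
      have h4 : ¬ k ≤ d := by omega
      have h5 : ¬ k + i < n := by omega
      simp [idx, h4, h5]
    have hd : d = i' - i := rfl
    have hidxlt : ∀ k, 1 ≤ k → k < n + 1 → idx k < n := by
      intro k hk1 hk2
      by_cases h4 : k ≤ d
      · rw [hidx1 k h4]; omega
      · by_cases h5 : k + i < n
        · rw [hidx2 k (by omega) h5]; exact h5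
        · rw [hidx3 k (by omega) (by omega)]; omega
    have hidxinj : ∀ p q, 1 ≤ p → p < n + 1 → 1 ≤ q → q < n + 1 → idx p = idx q → p = q := by
      intro p q hp1 hp2 hq1 hq2 h
      by_cases h4 : p ≤ d <;> by_cases h5 : q ≤ d
      · rw [hidx1 p h4, hidx1 q h5] at h; omega
      · by_cases h6 : q + i < n
        · rw [hidx1 p h4, hidx2 q (by omega) h6] at h; omega
        · rw [hidx1 p h4, hidx3 q (by omega) (by omega)] at h; omega
      · by_cases h6 : p + i < n
        · rw [hidx2 p (by omega) h6, hidx1 q h5] at h; omega
        · rw [hidx3 p (by omega) (by omega), hidx1 q h5] at h; omega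
      · by_cases h6 : p + i < n <;> by_cases h7 : q + i < n
        · rw [hidx2 p (by omega) h6, hidx2 q (by omega) h7] at h; omega
        · rw [hidx2 p (by omega) h6, hidx3 q (by omega) (by omega)] at h; omega
        · rw [hidx3 p (by omega) (by omega), hidx2 q (by omega) h7] at h; omega
        · rw [hidx3 p (by omega) (by omega), hidx3 q (by omega) (by omega)] at h; omega
    have hσ1 : σ i = g (i + 1) := by
      simp only [σ]; rw [Nat.mod_eq_of_lt (by omega)]
    refine ⟨g', ⟨⟨?_, ?_⟩, ?_⟩, ?_, ?_, ⟨0, by omega, hg0⟩⟩
    · intro p q hp hq hpq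
      by_cases hp0 : p = 0 <;> by_cases hq0 : q = 0
      · omega
      · subst hp0
        rw [hg0, hgk q (by omega)] at hpq
        exact absurd hpq.symm (hz _ (hidxlt q (by omega) hq))
      · subst hq0
        rw [hg0, hgk p (by omega)] at hpq
        exact absurd hpq (hz _ (hidxlt p (by omega) hp))
      · rw [hgk p (by omega), hgk q (by omega)] at hpq
        have := hc.inj _ _ (hidxlt p (by omega) hp) (hidxlt q (by omega) hq) hpq
        exact hidxinj p q (by omega) hp (by omega) hq this
    · intro k hk
      by_cases hk0 : k = 0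
      · subst hk0
        rw [hg0, hgk 1 (by omega), hidx1 1 (by omega)]
        simpa using hIz i' hi'
      · rw [hgk k (by omega), hgk (k + 1) (by omega)]
        by_cases h4 : k + 1 ≤ d
        · rw [hidx1 k (by omega), hidx1 (k + 1) h4]
          have := hc.adj (i' - k) (by omega)
          have h5 : i' - k + 1 = i' + 1 - k := by omega
          have h6 : i' - k = i' + 1 - (k + 1) := by omega
          rw [h5, h6] at this
          exact this.symm
        · by_cases h5 : k ≤ d
          · have h6 : k = d := by omega
            rw [hidx1 k h5]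
            have h7 : i' + 1 - k = i + 1 := by omega
            rw [h7, ← hσ1]
            by_cases h8 : k + 1 + i < n
            · rw [hidx2 (k + 1) (by omega) h8]
              have h9 : k + 1 + i = i' + 1 := by omega
              rw [h9]
              have : σ i' = g (i' + 1) := by
                simp only [σ]; rw [Nat.mod_eq_of_lt (by omega)]
              rwa [this] at hadj
            · rw [hidx3 (k + 1) (by omega) (by omega)]
              have h9 : k + 1 + i - n = 0 := by omega
              rw [h9]
              have h10 : i' + 1 = n := by omega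
              have : σ i' = g 0 := by
                simp only [σ]; rw [h10, Nat.mod_self]
              rwa [this] at hadj
          · by_cases h6 : k + 1 + i < n
            · rw [hidx2 k (by omega) (by omega), hidx2 (k + 1) (by omega) h6]
              have := hc.adj (k + i) (by omega)
              rwa [show k + i + 1 = k + 1 + i by omega] at this
            · by_cases h7 : k + i < n
              · rw [hidx2 k (by omega) h7, hidx3 (k + 1) (by omega) (by omega)]
                have h8 : k + i = n - 1 := by omega
                have h9 : k + 1 + i - n = 0 := by omega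
                rw [h8, h9]
                exact hc.close
              · rw [hidx3 k (by omega) (by omega), hidx3 (k + 1) (by omega) (by omega)]
                have := hc.adj (k + i - n) (by omega)
                rwa [show k + i - n + 1 = k + 1 + i - n by omega] at this
    · -- closing edge: g' n = g i
      have h4 : n + 1 - 1 = n := by omega
      rw [h4, hg0, hgk n (by omega), hidx3 n (by omega) (by omega)]
      have h5 : n + i - n = i := by omega
      rw [h5]
      exact (hIz i hi).symm
    · intro k hk
      by_cases hk0 : k = 0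
      · left; subst hk0; exact hg0
      · right; exact ⟨idx k, hidxlt k (by omega) hk, hgk k (by omega)⟩
    · intro j hj
      -- preimage of j under idx
      by_cases h4 : j ≤ i
      · refine ⟨j + n - i, by omega, ?_⟩
        rw [hgk _ (by omega), hidx3 _ (by omega) (by omega)]
        congr 1; omega
      · by_cases h5 : j ≤ i'
        · refine ⟨i' + 1 - j, by omega, ?_⟩
          rw [hgk _ (by omega), hidx1 _ (by omega)]
          congr 1; omega
        · refine ⟨j - i, by omega, ?_⟩
          rw [hgk _ (by omega), hidx2 _ (by omega) (by omega)]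
          congr 1; omega
  -- assemble
  rw [Finset.mem_insert, Finset.mem_image] at hx hy
  rcases hx with rfl | ⟨i, hi, rfl⟩ <;> rcases hy with rfl | ⟨i', hi', rfl⟩
  · exact absurd hxy (G.loopless.irrefl _)
  · exact hins i' hi' hxy
  · exact hins i hi hxy.symm
  · rcases lt_trichotomy i i' with h | h | h
    · exact hcho i hi i' hi' h hxy
    · subst h; exact absurd hxy (G.loopless.irrefl _)
    · exact hcho i' hi' i hi h hxy.symm

end Vale.Agent.Lib.P048
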