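import Vale.Agent.Lib.P048.Reduce

/-!
Paths with a prescribed number of vertices inside a block, and ranges of such lengths.
-/

namespace Vale.Agent.Lib.P048.E

set_option linter.unusedSectionVars false

open Finset

variable {V : Type*} [DecidableEq V] {G : SimpleGraph V}

/-- A path from `p` to `q` with exactly `L` vertices, all in `B`. -/
def Pth (G : SimpleGraph V) (B : Finset V) (p q : V) (L : ℕ) : Prop :=
  ∃ f : ℕ → V, PathF G L f ∧ 1 ≤ L ∧ f 0 = p ∧ f (L - 1) = q ∧ ∀ i, i < L → f i ∈ B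

theorem Pth.single {B : Finset V} {p : V} (h : p ∈ B) : Pth G B p p 1 := by
  refine ⟨fun _ => p, ⟨?_, ?_⟩, le_refl _, rfl, rfl, fun _ _ => h⟩
  · intro i j hi hj _; omega
  · intro i hi; omega

theorem Pth.mono {B B' : Finset V} {p q : V} {L : ℕ} (h : Pth G B p q L) (hB : B ⊆ B') :
    Pth G B' p q L := by
  obtain ⟨f, h1, h2, h3, h4, h5⟩ := h
  exact ⟨f, h1, h2, h3, h4, fun i hi => hB (h5 i hi)⟩

theorem Pth.symm {B : Finset V} {p q : V} {L : ℕ} (h : Pth G B p q L) : Pth G B q p L := by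
  obtain ⟨f, h1, h2, h3, h4, h5⟩ := h
  refine ⟨fun i => f (L - 1 - i), ⟨?_, ?_⟩, h2, ?_, ?_, ?_⟩
  · intro i j hi hj hij
    have := h1.inj _ _ (by omega) (by omega) hij
    omega
  · intro i hi
    have := h1.adj (L - 1 - (i + 1)) (by omega)
    rw [show L - 1 - (i + 1) + 1 = L - 1 - i by omega] at this
    exact this.symm
  · simpa using h4
  · simp only
    rw [show L - 1 - (L - 1) = 0 by omega]
    exact h3
  · intro i hi
    exact h5 _ (by omega)

theorem Pth.concat {B₁ B₂ : Finset V} {p q p' q' : V} {L₁ L₂ : ℕ} (h₁ : Pth G B₁ p q L₁)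
    (h₂ : Pth G B₂ p' q' L₂) (hd : Disjoint B₁ B₂) (hadj : G.Adj q p') :
    Pth G (B₁ ∪ B₂) p q' (L₁ + L₂) := by
  obtain ⟨f₁, a1, a2, a3, a4, a5⟩ := h₁
  obtain ⟨f₂, b1, b2, b3, b4, b5⟩ := h₂
  refine ⟨fun i => if i < L₁ then f₁ i else f₂ (i - L₁), ?_, by omega, ?_, ?_, ?_⟩
  · refine PathF.concat a1 b1 ?_ a2 ?_
    · intro i j hi hj heq
      exact (Finset.disjoint_left.mp hd) (a5 i hi) (heq ▸ b5 j hj)
    · intro _
      rw [a4, b3]
      exact hadj
  · simp only
    rw [if_pos (by omega)]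
    exact a3
  · simp only
    rw [if_neg (by omega), show L₁ + L₂ - 1 - L₁ = L₂ - 1 by omega]
    exact b4
  · intro i hi
    simp only
    by_cases h : i < L₁
    · rw [if_pos h]
      exact Finset.mem_union_left _ (a5 i h)
    · rw [if_neg h]
      exact Finset.mem_union_right _ (b5 _ (by omega))

theorem Pth.cycle {B : Finset V} {p q : V} {L : ℕ} (h : Pth G B p q L) (hadj : G.Adj q p) :
    ∃ g, CycF G L g := by
  obtain ⟨f, a1, a2, a3, a4, _⟩ := h
  refine ⟨f, a1, ?_⟩
  rw [a4, a3]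
  exact hadj

/-- A list of distinct vertices along edges is a path. -/
theorem Pth.of_list {B : Finset V} (l : List V) (hne : l ≠ []) (hc : l.IsChain G.Adj)
    (hn : l.Nodup) (hm : ∀ v ∈ l, v ∈ B) : Pth G B (l.head hne) (l.getLast hne) l.length := by
  have hlen : 1 ≤ l.length := by
    cases l with
    | nil => exact absurd rfl hne
    | cons a t => simp
  let d := l.head hne
  have hget : ∀ i (hi : i < l.length), l.getD i d = l[i] := by
    intro i hi
    simp [List.getD, hi]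
  refine ⟨fun i => l.getD i d, ⟨?_, ?_⟩, hlen, ?_, ?_, ?_⟩
  · intro i j hi hj hij
    have hij' : l.getD i d = l.getD j d := hij
    rw [hget i hi, hget j hj] at hij'
    exact (List.Nodup.getElem_inj_iff hn).mp hij'
  · intro i hi
    show G.Adj (l.getD i d) (l.getD (i + 1) d)
    rw [hget i (by omega), hget (i + 1) hi]
    exact (List.isChain_iff_getElem.mp hc) i hi
  · show l.getD 0 d = l.head hne
    rw [hget 0 (by omega)]
    exact (List.head_eq_getElem hne).symm
  · show l.getD (l.length - 1) d = l.getLast hne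
    rw [hget _ (by omega)]
    exact (List.getLast_eq_getElem hne).symm
  · intro i hi
    show l.getD i d ∈ B
    rw [hget i hi]
    exact hm _ (List.getElem_mem hi)

/-- All lengths from `lo` to `hi` are available. -/
def RP (G : SimpleGraph V) (B : Finset V) (p q : V) (lo hi : ℕ) : Prop :=
  lo ≤ hi ∧ ∀ L, lo ≤ L → L ≤ hi → Pth G B p q L

theorem RP.mono {B B' : Finset V} {p q : V} {lo hi : ℕ} (h : RP G B p q lo hi) (hB : B ⊆ B') :
    RP G B' p q lo hi :=
  ⟨h.1, fun L h1 h2 => (h.2 L h1 h2).mono hB⟩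

theorem RP.symm {B : Finset V} {p q : V} {lo hi : ℕ} (h : RP G B p q lo hi) : RP G B q p lo hi :=
  ⟨h.1, fun L h1 h2 => (h.2 L h1 h2).symm⟩

theorem RP.concat {B₁ B₂ : Finset V} {p q p' q' : V} {lo₁ hi₁ lo₂ hi₂ : ℕ}
    (h₁ : RP G B₁ p q lo₁ hi₁) (h₂ : RP G B₂ p' q' lo₂ hi₂) (hd : Disjoint B₁ B₂)
    (hadj : G.Adj q p') : RP G (B₁ ∪ B₂) p q' (lo₁ + lo₂) (hi₁ + hi₂) := by
  refine ⟨by have := h₁.1; have := h₂.1; omega, fun L h1 h2 => ?_⟩
  have e1 := h₁.1
  have e2 := h₂.1
  by_cases hc : L ≤ hi₁ + lo₂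
  · have := (h₁.2 (L - lo₂) (by omega) (by omega)).concat (h₂.2 lo₂ (le_refl _) e2) hd hadj
    rwa [show L - lo₂ + lo₂ = L by omega] at this
  · have := (h₁.2 hi₁ e1 (le_refl _)).concat (h₂.2 (L - hi₁) (by omega) (by omega)) hd hadj
    rwa [show hi₁ + (L - hi₁) = L by omega] at this

theorem RP.single {B : Finset V} {p : V} (h : p ∈ B) : RP G B p p 1 1 :=
  ⟨le_refl _, fun L h1 h2 => by
    rw [show L = 1 by omega]
    exact Pth.single h⟩

/-- Closing a range of paths to a cycle of any length in the range. -/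
theorem RP.cycle {B : Finset V} {p q : V} {lo hi L : ℕ} (h : RP G B p q lo hi) (hadj : G.Adj q p)
    (h1 : lo ≤ L) (h2 : L ≤ hi) : ∃ g, CycF G L g :=
  (h.2 L h1 h2).cycle hadj

end Vale.Agent.Lib.P048.E
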