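import Vale.Agent.Lib.P048.E5

/-!
The matching of terminals to hubs exists; the case where the graph on the hubs is 2-connected.
-/

namespace Vale.Agent.Lib.P048.E

open Finset

set_option linter.unusedSectionVars false
set_option linter.unusedVariables false

variable {V : Type*} [Fintype V] [DecidableEq V] {G : SimpleGraph V}
variable {I : Finset V} {A X : V → Finset V} {w : V → ℕ} {T : ℕ} {μ : V → Option V}

theorem exists_match_at {a k : ℕ} (h : Core G a k) (hs : Sys G I A X w (k - 1)) (hI : I.card = a)
    {x : V} (hx : x ∈ I) : ∃ g : V → Option V,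
      (∀ e ∈ X x, ∀ u, g e = some u → u ∈ I ∧ u ≠ x ∧ G.Adj e u) ∧
      (∀ e ∈ X x, ∀ e' ∈ X x, g e = g e' → e = e') ∧ (∀ v, v ∉ X x → g v = none) := by
  classical
  let t : ↥(X x) → Finset (Option V) := fun e =>
    insert none (((I.erase x).filter (fun u => G.Adj e.1 u)).image some)
  have hall : ∀ s : Finset ↥(X x), s.card ≤ (s.biUnion t).card := by
    intro s
    by_cases hsne : s.Nonempty
    · let N := (I.erase x).filter (fun u => ∃ e ∈ s, G.Adj e.1 u)
      have hsub : insert none (N.image some) ⊆ s.biUnion t := by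
        intro o ho
        rcases Finset.mem_insert.mp ho with rfl | ho'
        · obtain ⟨e, he⟩ := hsne
          exact Finset.mem_biUnion.mpr ⟨e, he, Finset.mem_insert_self _ _⟩
        · obtain ⟨u, hu, rfl⟩ := Finset.mem_image.mp ho'
          obtain ⟨hu1, e, he, hadj⟩ := Finset.mem_filter.mp hu
          refine Finset.mem_biUnion.mpr ⟨e, he, Finset.mem_insert_of_mem ?_⟩
          exact Finset.mem_image.mpr ⟨u, Finset.mem_filter.mpr ⟨hu1, hadj⟩, rfl⟩
      have hc1 : N.card + 1 ≤ (s.biUnion t).card := by
        have h1 := Finset.card_le_card hsub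
        rw [Finset.card_insert_of_notMem (by simp), Finset.card_image_of_injective _ (Option.some_injective V)] at h1
        exact h1
      by_contra hcon
      have hlt : N.card + 1 < s.card := by omega
      let X' : Finset V := s.image Subtype.val
      have hX'card : X'.card = s.card := Finset.card_image_of_injective _ Subtype.val_injective
      have hX'X : X' ⊆ X x := by
        intro v hv
        obtain ⟨e, _, rfl⟩ := Finset.mem_image.mp hv
        exact e.2
      let J := I \ insert x N
      have hNI : insert x N ⊆ I := by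
        intro v hv
        rcases Finset.mem_insert.mp hv with rfl | hv
        · exact hx
        · exact (Finset.mem_erase.mp (Finset.mem_filter.mp hv).1).2
      have hxN : x ∉ N := fun hh => (Finset.mem_erase.mp (Finset.mem_filter.mp hh).1).1 rfl
      have hJcard : J.card + (N.card + 1) = a := by
        have := Finset.card_sdiff_add_card_eq_card hNI
        rw [Finset.card_insert_of_notMem hxN, hI] at this
        exact this
      have hd : Disjoint J X' := by
        rw [Finset.disjoint_left]
        intro v hv hv'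
        have hvI := (Finset.mem_sdiff.mp hv).1
        exact hs.notI x hx v (hs.Xsub x hx (hX'X hv')) hvI
      have hcard : a < (J ∪ X').card := by
        rw [Finset.card_union_of_disjoint hd]
        omega
      obtain ⟨p, hp, q, hq, hpq⟩ := h.hα _ hcard
      have hnot : ∀ u ∈ J, ∀ v ∈ X', ¬ G.Adj u v := by
        intro u hu v hv huv
        obtain ⟨hu1, hu2⟩ := Finset.mem_sdiff.mp hu
        obtain ⟨e, he, rfl⟩ := Finset.mem_image.mp hv
        apply hu2
        by_cases hux : u = x
        · rw [hux]
          exact Finset.mem_insert_self _ _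
        · exact Finset.mem_insert_of_mem (Finset.mem_filter.mpr
            ⟨Finset.mem_erase.mpr ⟨hux, hu1⟩, e, he, huv.symm⟩)
      rw [Finset.mem_union] at hp hq
      rcases hp with hp | hp <;> rcases hq with hq | hq
      · exact hs.indep p (Finset.mem_sdiff.mp hp).1 q (Finset.mem_sdiff.mp hq).1 hpq
      · exact hnot p hp q hq hpq
      · exact hnot q hq p hp hpq.symm
      · exact hs.Xind x hx p (hX'X hp) q (hX'X hq) hpq
    · rw [Finset.not_nonempty_iff_eq_empty] at hsne
      rw [hsne]
      simp
  obtain ⟨f, hf1, hf2⟩ := (Finset.all_card_le_biUnion_card_iff_exists_injective t).mp hall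
  refine ⟨fun v => if hv : v ∈ X x then f ⟨v, hv⟩ else none, ?_, ?_, ?_⟩
  · intro e he u hu
    simp only [he, dite_true] at hu
    have := hf2 ⟨e, he⟩
    rw [hu] at this
    rcases Finset.mem_insert.mp this with h1 | h1
    · simp at h1
    · obtain ⟨u', hu', huu⟩ := Finset.mem_image.mp h1
      rw [Option.some.injEq] at huu
      subst huu
      obtain ⟨h3, h4⟩ := Finset.mem_filter.mp hu'
      have h5 := Finset.mem_erase.mp h3
      exact ⟨h5.2, h5.1, h4⟩
  · intro e he e' he' heq
    simp only [he, he', dite_true] at heq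
    have := hf1 heq
    exact congrArg Subtype.val this
  · intro v hv
    simp [hv]

theorem exists_mat {a k : ℕ} (h : Core G a k) (hs : Sys G I A X w (k - 1)) (hI : I.card = a) :
    ∃ μ, Mat G I X μ ∧ ∀ x ∈ I, ∀ e ∈ X x, ∀ e' ∈ X x, μ e = none → μ e' = none → e = e' := by
  classical
  have hg : ∀ x, ∃ g : V → Option V, x ∈ I →
      (∀ e ∈ X x, ∀ u, g e = some u → u ∈ I ∧ u ≠ x ∧ G.Adj e u) ∧
      (∀ e ∈ X x, ∀ e' ∈ X x, g e = g e' → e = e') ∧ (∀ v, v ∉ X x → g v = none) := by
    intro x
    by_cases hx : x ∈ I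
    · obtain ⟨g, h1⟩ := exists_match_at h hs hI hx
      exact ⟨g, fun _ => h1⟩
    · exact ⟨fun _ => none, fun hh => absurd hh hx⟩
  choose g hg using hg
  have hσ : ∀ v, ∃ x, x ∈ I ∧ v ∈ St A x := fun v => by
    obtain ⟨x, h1, h2⟩ := hs.exists_star v
    exact ⟨x, h1, h2⟩
  choose σ hσ1 hσ2 using hσ
  have hσe : ∀ x ∈ I, ∀ e ∈ X x, σ e = x := by
    intro x hx e he
    exact hs.star_unique (hσ1 e) hx (hσ2 e) (hs.X_star hx he)
  refine ⟨fun v => g (σ v) v, ⟨?_, ?_, ?_⟩, ?_⟩
  · intro x hx e he u hu
    simp only [hσe x hx e he] at hu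
    exact (hg x hx).1 e he u hu
  · intro x hx e he e' he' u hu hu'
    simp only [hσe x hx e he] at hu
    simp only [hσe x hx e' he'] at hu'
    exact (hg x hx).2.1 e he e' he' (hu.trans hu'.symm)
  · intro v hv
    exact (hg (σ v) (hσ1 v)).2.2 v (hv _ (hσ1 v))
  · intro x hx e he e' he' hu hu'
    simp only [hσe x hx e he] at hu
    simp only [hσe x hx e' he'] at hu'
    exact (hg x hx).2.1 e he e' he' (hu.trans hu'.symm)

theorem Mat.update (hm : Mat G I X μ) (y : V) : Mat G I X (Function.update μ y none) := by
  have hne : ∀ e u, Function.update μ y none e = some u → e ≠ y ∧ μ e = some u := by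
    intro e u hh
    by_cases he : e = y
    · subst he
      simp at hh
    · rw [Function.update_of_ne he] at hh
      exact ⟨he, hh⟩
  refine ⟨?_, ?_, ?_⟩
  · intro x hx e he u hu
    exact hm.mem x hx e he u (hne e u hu).2
  · intro x hx e he e' he' u hu hu'
    exact hm.inj x hx e he e' he' u (hne e u hu).2 (hne e' u hu').2
  · intro v hv
    by_cases he : v = y
    · subst he
      simp
    · rw [Function.update_of_ne he]
      exact hm.off v hv

theorem Gam_update_sub {y p q : V} (hg : Gam X (Function.update μ y none) p q) : Gam X μ p q := by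
  have hne : ∀ e u, Function.update μ y none e = some u → μ e = some u := by
    intro e u hh
    by_cases he : e = y
    · subst he
      simp at hh
    · rwa [Function.update_of_ne he] at hh
  rcases hg with ⟨e, he, hh⟩ | ⟨e, he, hh⟩
  · exact Or.inl ⟨e, he, hne e _ hh⟩
  · exact Or.inr ⟨e, he, hne e _ hh⟩

theorem cw_update {y v : V} (hy : y ∉ X v) : cw X (Function.update μ y none) w v = cw X μ w v := by
  unfold cw
  apply Finset.sum_congr _ (fun _ _ => rfl)
  ext e
  simp only [Finset.mem_filter]
  constructor
  · rintro ⟨h1, h2⟩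
    have he : e ≠ y := fun hh => hy (hh ▸ h1)
    rw [Function.update_of_ne he] at h2
    exact ⟨h1, h2⟩
  · rintro ⟨h1, h2⟩
    have he : e ≠ y := fun hh => hy (hh ▸ h1)
    rw [Function.update_of_ne he]
    exact ⟨h1, h2⟩

theorem Sys.X_card_le {a k : ℕ} (h : Core G a k) (hs : Sys G I A X w (k - 1)) {x : V} (hx : x ∈ I) :
    (X x).card ≤ a := by
  by_contra hcon
  obtain ⟨p, hp, q, hq, hpq⟩ := h.hα (X x) (by omega)
  exact hs.Xind x hx p hp q hq hpq

/-- The case of a 2-connected graph on the hubs. -/
theorem caseA {a k : ℕ} (h : Core G a k) (hs : Sys G I A X w (k - 1)) (hI : I.card = a)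
    (hm : Mat G I X μ) (hlost : ∀ x ∈ I, ∀ e ∈ X x, ∀ e' ∈ X x, μ e = none → μ e' = none → e = e')
    (hconn : ∀ c ∈ I, Conn (Gam X μ) (I.erase c)) : False := by
  classical
  have ha := h.ha
  have hIne : I.Nonempty := by
    rw [← Finset.card_pos]
    omega
  obtain ⟨x, hx, hxmax⟩ := Finset.exists_max_image I (cw X μ w) hIne
  have ha3 : 3 ≤ a := le_trans (h.three_arms hs hI hx) (Sys.X_card_le h hs hx)
  have hthird : ∀ p q : V, ∃ v ∈ I, v ≠ p ∧ v ≠ q := by
    intro p q
    have hc : ({p, q} : Finset V).card < I.card := by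
      have := Finset.card_le_two (a := p) (b := q)
      omega
    obtain ⟨v, hv1, hv2⟩ := Finset.exists_mem_notMem_of_card_lt_card hc
    simp only [Finset.mem_insert, Finset.mem_singleton, not_or] at hv2
    exact ⟨v, hv1, hv2.1, hv2.2⟩
  have hsymE : ∀ (μ' : V → Option V) u v, Gam X μ' u v → Gam X μ' v u := fun _ _ _ h => Or.symm h
  by_cases hc : cw X μ w x = 0
  · -- no lost arms at all
    have hcz : ∀ v ∈ I, cw X μ w v = 0 := fun v hv => by
      have := hxmax v hv
      omega
    have hXne : (X x).Nonempty := by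
      have := h.three_arms hs hI hx
      rw [← Finset.card_pos]
      omega
    obtain ⟨e, he⟩ := hXne
    have hμe : μ e ≠ none := by
      intro hh
      have h1 : w e ≤ cw X μ w x :=
        Finset.single_le_sum (f := w) (fun _ _ => Nat.zero_le _) (Finset.mem_filter.mpr ⟨he, hh⟩)
      have h2 := hs.wpos x hx e he
      omega
    obtain ⟨u, hu⟩ := Option.ne_none_iff_exists'.mp hμe
    obtain ⟨huI, hux, heu⟩ := hm.mem x hx e he u hu
    let μ' := Function.update μ e none
    have hm' : Mat G I X μ' := hm.update e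
    have hne_ue : u ≠ e := fun hh => hs.notI x hx e (hs.Xsub x hx he) (hh ▸ huI)
    have hconn' : ∀ c ∈ I, Conn (fun p q => Gam X μ' p q ∨ (p = x ∧ q = u) ∨ (p = u ∧ q = x))
        (I.erase c) := by
      intro c hc'
      refine (hconn c hc').mono ?_
      have harc : ∀ p q e₀, e₀ ∈ X p → μ e₀ = some q → Arc X μ' p q ∨ (p = x ∧ q = u) := by
        intro p q e₀ h1 h2
        by_cases he₀ : e₀ = e
        · subst he₀
          right
          have hpI : p ∈ I := by
            by_contra hp
            rw [hs.Xout p hp] at h1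
            simp at h1
          refine ⟨hs.X_unique hpI hx h1 he, ?_⟩
          rw [hu] at h2
          exact (Option.some.inj h2).symm
        · left
          exact ⟨e₀, h1, by simp only [μ']; rw [Function.update_of_ne he₀]; exact h2⟩
      intro p q hpq
      rcases hpq with ⟨e₀, h1, h2⟩ | ⟨e₀, h1, h2⟩
      · rcases harc p q e₀ h1 h2 with h3 | h3
        · exact Or.inl (Or.inl h3)
        · exact Or.inr (Or.inl h3)
      · rcases harc q p e₀ h1 h2 with h3 | h3
        · exact Or.inl (Or.inr h3)
        · exact Or.inr (Or.inr ⟨h3.2, h3.1⟩)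
    have hW : ∀ v ∈ I, v ≠ x → v ≠ u → k - 1 ≤ ∑ t ∈ I, sw X μ' w v t := by
      intro v hv hvx _
      have h1 := sum_aw hs hm' hv
      have hev : e ∉ X v := fun hh => hvx (hs.X_unique hv hx hh he)
      have h2 : cw X μ' w v = cw X μ w v := cw_update hev
      rw [h2, hcz v hv, add_zero] at h1
      rw [← h1]
      exact Finset.sum_le_sum (fun t _ => le_max_left _ _)
    obtain ⟨l, hl, hlw⟩ := eg (E := Gam X μ') (hsymE μ') (w := sw X μ' w) sw_comm
      (fun _ _ hh => sw_pos_gam hh) (sw_self hs hm') _ I x u rfl hx huI hux.symm hconn' (k - 1) hW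
      (hthird x u)
    refine close_ring h hs hI hm' hx he (by simp [μ']) huI hux (Finset.mem_insert_self _ _) heu.symm
      ?_ (E := Gam X μ') (fun _ _ _ hh => Or.inl hh) hl hlw (by omega)
    simp only [μ']
    rw [Function.update_of_ne hne_ue]
    exact Mat.off_hub hs hm huI
  · -- the heaviest lost arm
    have hfne : ((X x).filter (fun e => μ e = none)).Nonempty := by
      by_contra hcon
      rw [Finset.not_nonempty_iff_eq_empty] at hcon
      apply hc
      simp only [cw, hcon, Finset.sum_empty]
    obtain ⟨e, he'⟩ := hfne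
    obtain ⟨he, hμe⟩ := Finset.mem_filter.mp he'
    have hcwe : cw X μ w x = w e := by
      have : (X x).filter (fun e => μ e = none) = {e} := by
        ext e₀
        simp only [Finset.mem_filter, Finset.mem_singleton]
        constructor
        · rintro ⟨h1, h2⟩
          exact hlost x hx e₀ h1 e he h2 hμe
        · rintro rfl
          exact ⟨he, hμe⟩
      simp only [cw, this, Finset.sum_singleton]
    obtain ⟨y, hy1, hy2⟩ := h.outer_nbr hs.toStars hx (hs.X_star hx he)
    obtain ⟨j, hj, hyj⟩ := hs.exists_star y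
    have hjx : j ≠ x := by
      rintro rfl
      exact hy1 hyj
    let μ' := Function.update μ y none
    have hm' : Mat G I X μ' := hm.update y
    have hey : e ≠ y := fun hh => hy1 (hh ▸ hs.X_star hx he)
    have hμe' : μ' e = none := by
      simp only [μ']
      rw [Function.update_of_ne hey]
      exact hμe
    have hW : ∀ v ∈ I, v ≠ x → v ≠ j → k - 1 - w e ≤ ∑ t ∈ I, sw X μ' w v t := by
      intro v hv _ hvj
      have h1 := sum_aw hs hm' hv
      have hyv : y ∉ X v := fun hh => hvj (hs.star_unique hv hj (hs.X_star hv hh) hyj)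
      have h2 : cw X μ' w v = cw X μ w v := cw_update hyv
      have h3 := hxmax v hv
      rw [h2] at h1
      have h4 : ∑ t ∈ I, aw X μ' w v t ≤ ∑ t ∈ I, sw X μ' w v t :=
        Finset.sum_le_sum (fun t _ => le_max_left _ _)
      omega
    obtain ⟨l, hl, hlw⟩ := eg (E := Gam X μ) (hsymE μ) (w := sw X μ' w) sw_comm
      (fun _ _ hh => Gam_update_sub (sw_pos_gam hh)) (sw_self hs hm') _ I x j rfl hx hj hjx.symm
      (fun c hc' => (hconn c hc').mono (fun _ _ hh => Or.inl hh)) (k - 1 - w e) hW (hthird x j)
    have hsumx := sum_aw hs hm hx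
    refine close_ring h hs hI hm' hx he hμe' hj hjx hyj hy2.symm (by simp [μ'])
      (E := Gam X μ) ?_ hl hlw (by omega)
    intro p q hpj hpq
    have harc : ∀ p' q' e₀, e₀ ∈ X p' → μ e₀ = some q' → e₀ ≠ y → Arc X μ' p' q' := by
      intro p' q' e₀ h1 h2 h3
      exact ⟨e₀, h1, by simp only [μ']; rw [Function.update_of_ne h3]; exact h2⟩
    rcases hpq with ⟨e₀, h1, h2⟩ | ⟨e₀, h1, h2⟩
    · left
      left
      refine harc p q e₀ h1 h2 ?_
      rintro rfl
      have hpI : p ∈ I := by
        by_contra hp
        rw [hs.Xout p hp] at h1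
        simp at h1
      exact hpj (hs.star_unique hpI hj (hs.X_star hpI h1) hyj)
    · by_cases he₀ : e₀ = y
      · subst he₀
        right
        have hqI : q ∈ I := by
          by_contra hq
          rw [hs.Xout q hq] at h1
          simp at h1
        have hqj : q = j := hs.star_unique hqI hj (hs.X_star hqI h1) hyj
        exact ⟨hqj, (hm.mem q hqI e₀ h1 p h2).2.2⟩
      · left
        right
        exact harc q p e₀ h1 h2 he₀

end Vale.Agent.Lib.P048.E
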