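import Vale.Agent.Lib.P048.EG

/-!
Choice of a small end part of a graph on at most seven vertices which is not 2-connected, and short paths
in the remaining part.
-/

namespace Vale.Agent.Lib.P048.E

open Finset

set_option linter.unusedSectionVars false
set_option linter.unusedVariables false

variable {α : Type*} [DecidableEq α] {E : α → α → Prop}

theorem closed_card_ge_three (hirr : ∀ v, ¬ E v v) {I : Finset α}
    (hdeg : ∀ v ∈ I, ∃ u ∈ I, ∃ u' ∈ I, u ≠ u' ∧ E v u ∧ E v u') {D : Finset α} (hD : D ⊆ I)
    (hne : D.Nonempty) (hcl : ∀ u ∈ D, ∀ v ∈ I, v ∉ D → ¬ E u v) : 3 ≤ D.card := by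
  obtain ⟨v, hv⟩ := hne
  obtain ⟨u, hu, u', hu', hne, h1, h2⟩ := hdeg v (hD hv)
  have huD : u ∈ D := by
    by_contra hh
    exact hcl v hv u hu hh h1
  have hu'D : u' ∈ D := by
    by_contra hh
    exact hcl v hv u' hu' hh h2
  have hvu : v ≠ u := by
    rintro rfl
    exact hirr _ h1
  have hvu' : v ≠ u' := by
    rintro rfl
    exact hirr _ h2
  have hsub : ({v, u, u'} : Finset α) ⊆ D := by
    intro z hz
    simp only [Finset.mem_insert, Finset.mem_singleton] at hz
    rcases hz with rfl | rfl | rfl
    · exact hv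
    · exact huD
    · exact hu'D
  have := Finset.card_le_card hsub
  rwa [Finset.card_eq_three.mpr ⟨v, u, u', hvu, hvu', hne, rfl⟩] at this

/-- A small end part of a graph which is not 2-connected. -/
theorem zone_exists (hs : ∀ u v, E u v → E v u) (hirr : ∀ v, ¬ E v v) {I : Finset α}
    (hcard : I.card ≤ 7) (hdeg : ∀ v ∈ I, ∃ u ∈ I, ∃ u' ∈ I, u ≠ u' ∧ E v u ∧ E v u')
    (hnot : ¬ ∀ c ∈ I, Conn E (I.erase c)) :
    ∃ Z c, Z ⊆ I ∧ c ∈ I ∧ c ∉ Z ∧ Z.Nonempty ∧ Z.card ≤ 3 ∧
      (∀ u ∈ Z, ∀ v ∈ I, v ∉ Z → v ≠ c → ¬ E u v) ∧ Conn E (I \ Z) ∧ ((I \ Z).erase c).Nonempty := by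
  classical
  by_cases hI : Conn E I
  · -- connected: a cut vertex
    let Fam : α → Finset α → Prop := fun c P => c ∈ I ∧ P ⊆ I.erase c ∧ P.Nonempty ∧ P ≠ I.erase c ∧
      ∀ u ∈ P, ∀ v ∈ (I.erase c) \ P, ¬ E u v
    have h0 : ∃ m, ∃ c P, Fam c P ∧ P.card = m := by
      push Not at hnot
      obtain ⟨c, hc, hnc⟩ := hnot
      unfold Conn at hnc
      push Not at hnc
      obtain ⟨P, h1, h2, h3, h4⟩ := hnc
      exact ⟨_, c, P, ⟨hc, h1, h2, h3, h4⟩, rfl⟩
    obtain ⟨c, P, hF, hm⟩ := Nat.find_spec h0
    have hmin : ∀ c' P', Fam c' P' → P.card ≤ P'.card := by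
      intro c' P' hF'
      rw [hm]
      exact Nat.find_min' h0 ⟨c', P', hF', rfl⟩
    obtain ⟨hc, hP1, hP2, hP3, hP4⟩ := hF
    set Q := (I.erase c) \ P with hQ
    have hQne : Q.Nonempty := by
      by_contra hemp
      rw [Finset.not_nonempty_iff_eq_empty, hQ, Finset.sdiff_eq_empty_iff_subset] at hemp
      exact hP3 (Finset.Subset.antisymm hP1 hemp)
    have hFQ : Fam c Q := by
      refine ⟨hc, Finset.sdiff_subset, hQne, ?_, ?_⟩
      · intro hh
        obtain ⟨u, hu⟩ := hP2
        have : u ∈ Q := by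
          rw [hh]
          exact hP1 hu
        exact (Finset.mem_sdiff.mp this).2 hu
      · intro u hu v hv huv
        have hvP : v ∈ P := by
          by_contra hvP
          exact (Finset.mem_sdiff.mp hv).2 (Finset.mem_sdiff.mpr ⟨(Finset.mem_sdiff.mp hv).1, hvP⟩)
        exact hP4 v hvP u hu (hs _ _ huv)
    have hcardPQ : P.card ≤ Q.card := hmin c Q hFQ
    have hsum : Q.card + P.card = (I.erase c).card := Finset.card_sdiff_add_card_eq_card hP1
    have herase := Finset.card_erase_of_mem hc
    have hcI : 1 ≤ I.card := Finset.card_pos.mpr ⟨c, hc⟩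
    have hPI : P ⊆ I := fun v hv => (Finset.mem_erase.mp (hP1 hv)).2
    have hcP : c ∉ P := fun hh => (Finset.mem_erase.mp (hP1 hh)).1 rfl
    have hsep : ∀ u ∈ P, ∀ v ∈ I, v ∉ P → v ≠ c → ¬ E u v := fun u hu v hv hvP hvc =>
      hP4 u hu v (Finset.mem_sdiff.mpr ⟨Finset.mem_erase.mpr ⟨hvc, hv⟩, hvP⟩)
    refine ⟨P, c, hPI, hc, hcP, hP2, by omega, hsep, ?_, ?_⟩
    · -- the rest is connected
      have key : ∀ P₀, P₀ ⊆ I \ P → P₀.Nonempty → c ∉ P₀ →
          (∀ u ∈ P₀, ∀ v ∈ I \ P, v ∉ P₀ → ¬ E u v) → False := by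
        intro P₀ h1 h2 h3 h4
        have hsub : P₀ ⊆ I := fun v hv => (Finset.mem_sdiff.mp (h1 hv)).1
        have hne : P₀ ≠ I := by
          intro hh
          exact h3 (hh ▸ hc)
        obtain ⟨u, hu, v, hv, huv⟩ := hI P₀ hsub h2 hne
        obtain ⟨hv1, hv2⟩ := Finset.mem_sdiff.mp hv
        by_cases hvP : v ∈ P
        · have hu' := Finset.mem_sdiff.mp (h1 hu)
          refine hsep v hvP u hu'.1 hu'.2 ?_ (hs _ _ huv)
          rintro rfl
          exact h3 hu
        · exact h4 u hu v (Finset.mem_sdiff.mpr ⟨hv1, hvP⟩) hv2 huv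
      intro P₁ h1 h2 h3
      by_contra hno
      push Not at hno
      by_cases hcP₁ : c ∈ P₁
      · set R := (I \ P) \ P₁ with hR
        have hRne : R.Nonempty := by
          by_contra hemp
          rw [Finset.not_nonempty_iff_eq_empty, hR, Finset.sdiff_eq_empty_iff_subset] at hemp
          exact h3 (Finset.Subset.antisymm h1 hemp)
        refine key R Finset.sdiff_subset hRne (fun hh => (Finset.mem_sdiff.mp hh).2 hcP₁) ?_
        intro u hu v hv hvR huv
        have hvP : v ∈ P₁ := by
          by_contra hvP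
          exact hvR (Finset.mem_sdiff.mpr ⟨hv, hvP⟩)
        exact hno v hvP u hu (hs _ _ huv)
      · refine key P₁ h1 h2 hcP₁ ?_
        intro u hu v hv hvP
        exact hno u hu v (Finset.mem_sdiff.mpr ⟨hv, hvP⟩)
    · obtain ⟨v, hv⟩ := hQne
      obtain ⟨hv1, hv2⟩ := Finset.mem_sdiff.mp hv
      have hv3 := Finset.mem_erase.mp hv1
      exact ⟨v, Finset.mem_erase.mpr ⟨hv3.1, Finset.mem_sdiff.mpr ⟨hv3.2, hv2⟩⟩⟩
  · -- not connected: a component
    unfold Conn at hI
    push Not at hI
    let Fam : Finset α → Prop := fun P => P ⊆ I ∧ P.Nonempty ∧ P ≠ I ∧ ∀ u ∈ P, ∀ v ∈ I \ P, ¬ E u v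
    have h0 : ∃ m, ∃ P, Fam P ∧ P.card = m := by
      obtain ⟨P, h1, h2, h3, h4⟩ := hI
      exact ⟨_, P, ⟨h1, h2, h3, h4⟩, rfl⟩
    obtain ⟨P, hF, hm⟩ := Nat.find_spec h0
    have hmin : ∀ P', Fam P' → P.card ≤ P'.card := by
      intro P' hF'
      rw [hm]
      exact Nat.find_min' h0 ⟨P', hF', rfl⟩
    obtain ⟨hP1, hP2, hP3, hP4⟩ := hF
    set Q := I \ P with hQ
    have hQne : Q.Nonempty := by
      by_contra hemp
      rw [Finset.not_nonempty_iff_eq_empty, hQ, Finset.sdiff_eq_empty_iff_subset] at hemp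
      exact hP3 (Finset.Subset.antisymm hP1 hemp)
    have hQsep : ∀ u ∈ Q, ∀ v ∈ I, v ∉ Q → ¬ E u v := by
      intro u hu v hv hvQ huv
      have hvP : v ∈ P := by
        by_contra hvP
        exact hvQ (Finset.mem_sdiff.mpr ⟨hv, hvP⟩)
      exact hP4 v hvP u hu (hs _ _ huv)
    have hFQ : Fam Q := by
      refine ⟨Finset.sdiff_subset, hQne, ?_, ?_⟩
      · intro hh
        obtain ⟨u, hu⟩ := hP2
        have : u ∈ Q := by
          rw [hh]
          exact hP1 hu
        exact (Finset.mem_sdiff.mp this).2 hu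
      · intro u hu v hv
        exact hQsep u hu v (Finset.mem_sdiff.mp hv).1 (Finset.mem_sdiff.mp hv).2
    have hcardPQ : P.card ≤ Q.card := hmin Q hFQ
    have hsum : Q.card + P.card = I.card := Finset.card_sdiff_add_card_eq_card hP1
    have hP3' : 3 ≤ P.card := closed_card_ge_three hirr hdeg hP1 hP2
      (fun u hu v hv hvP => hP4 u hu v (Finset.mem_sdiff.mpr ⟨hv, hvP⟩))
    have hQ3 : 3 ≤ Q.card := closed_card_ge_three hirr hdeg Finset.sdiff_subset hQne hQsep
    obtain ⟨c, hc⟩ := hQne
    have hcI := (Finset.mem_sdiff.mp hc).1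
    have hcP := (Finset.mem_sdiff.mp hc).2
    refine ⟨P, c, hP1, hcI, hcP, hP2, by omega, ?_, ?_, ?_⟩
    · intro u hu v hv hvP _
      exact hP4 u hu v (Finset.mem_sdiff.mpr ⟨hv, hvP⟩)
    · -- the other side is connected
      intro P₁ h1 h2 h3
      by_contra hno
      push Not at hno
      have hsub1 : P₁ ⊆ I := fun v hv => (Finset.mem_sdiff.mp (h1 hv)).1
      have hc1 : 3 ≤ P₁.card := closed_card_ge_three hirr hdeg hsub1 h2 (by
        intro u hu v hv hvP huv
        by_cases hvQ : v ∈ Q
        · exact hno u hu v (Finset.mem_sdiff.mpr ⟨hvQ, hvP⟩) huv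
        · exact hQsep u (h1 hu) v hv hvQ huv)
      set R := Q \ P₁ with hR
      have hRne : R.Nonempty := by
        by_contra hemp
        rw [Finset.not_nonempty_iff_eq_empty, hR, Finset.sdiff_eq_empty_iff_subset] at hemp
        exact h3 (Finset.Subset.antisymm h1 hemp)
      have hsub2 : R ⊆ I := fun v hv =>
        (Finset.mem_sdiff.mp (Finset.mem_sdiff.mp hv).1).1
      have hc2 : 3 ≤ R.card := closed_card_ge_three hirr hdeg hsub2 hRne (by
        intro u hu v hv hvR huv
        have huQ := (Finset.mem_sdiff.mp hu).1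
        by_cases hvQ : v ∈ Q
        · have hvP₁ : v ∈ P₁ := by
            by_contra hh
            exact hvR (Finset.mem_sdiff.mpr ⟨hvQ, hh⟩)
          exact hno v hvP₁ u hu (hs _ _ huv)
        · exact hQsep u huQ v hv hvQ huv)
      have h4 : R.card + P₁.card = Q.card := Finset.card_sdiff_add_card_eq_card h1
      omega
    · have hc2 : 1 ≤ (Q.erase c).card := by
        rw [Finset.card_erase_of_mem hc]
        omega
      exact Finset.card_pos.mp hc2

theorem IsP.reverse (hs : ∀ u v, E u v → E v u) {S : Finset α} {a b : α} {l : List α}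
    (h : IsP E S a b l) : IsP E S b a l.reverse := by
  obtain ⟨h1, h2, h3, h4, h5⟩ := h
  refine ⟨?_, ?_, ?_, ?_, ?_⟩
  · rw [List.head?_reverse]
    exact h2
  · rw [List.getLast?_reverse]
    exact h1
  · rw [List.isChain_reverse]
    exact h3.imp (fun a b h => hs _ _ h)
  · exact List.nodup_reverse.mpr h4
  · intro v hv
    exact h5 v (List.mem_reverse.mp hv)

theorem isP_length_le' {S : Finset α} {a b : α} {l : List α} (h : IsP E S a b l) :
    l.length ≤ S.card := by
  rw [← List.toFinset_card_of_nodup h.2.2.2.1]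
  exact Finset.card_le_card (fun v hv => h.2.2.2.2 v (List.mem_toFinset.mp hv))

/-- A path through all the vertices of `W` can be shortened at a vertex of degree two. -/
theorem shortcut_head (hirr : ∀ v, ¬ E v v) {W : Finset α} {a b : α} {l : List α} (hl : IsP E W a b l)
    (hW2 : 2 ≤ W.card) (hfull : W.card ≤ l.length)
    (hdeg : ∃ u ∈ W, ∃ u' ∈ W, u ≠ u' ∧ E a u ∧ E a u') :
    ∃ l', IsP E W a b l' ∧ l'.length < l.length := by
  classical
  obtain ⟨h1, h2, h3, h4, h5⟩ := id hl
  have htf : l.toFinset = W := by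
    apply Finset.eq_of_subset_of_card_le
    · intro v hv
      exact h5 v (List.mem_toFinset.mp hv)
    · rw [List.toFinset_card_of_nodup h4]
      exact hfull
  cases l with
  | nil => simp at h1
  | cons a' t =>
    simp only [List.head?_cons, Option.some.injEq] at h1
    subst h1
    cases t with
    | nil =>
      simp only [List.length_singleton] at hfull
      omega
    | cons d t =>
      obtain ⟨v, hv, hvd, hav⟩ : ∃ v ∈ W, v ≠ d ∧ E a' v := by
        obtain ⟨u, hu, u', hu', hne, h6, h7⟩ := hdeg
        by_cases hud : u = d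
        · exact ⟨u', hu', fun hh => hne (hud.trans hh.symm), h7⟩
        · exact ⟨u, hu, hud, h6⟩
      have hvl : v ∈ a' :: d :: t := by
        rw [← List.mem_toFinset, htf]
        exact hv
      have hva : v ≠ a' := by
        rintro rfl
        exact hirr _ hav
      have hvt : v ∈ t := by
        simp only [List.mem_cons] at hvl
        rcases hvl with h | h | h
        · exact absurd h hva
        · exact absurd h hvd
        · exact h
      obtain ⟨s, r, hsr⟩ := List.append_of_mem hvt
      subst hsr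
      refine ⟨a' :: v :: r, ⟨rfl, ?_, ?_, ?_, ?_⟩, ?_⟩
      · have e1 : a' :: d :: (s ++ v :: r) = (a' :: d :: s) ++ v :: r := by simp
        rw [e1, List.getLast?_append_of_ne_nil _ (by simp)] at h2
        rw [List.getLast?_cons_cons]
        exact h2
      · have e1 : a' :: d :: (s ++ v :: r) = (a' :: d :: s) ++ v :: r := by simp
        rw [e1] at h3
        exact List.isChain_cons_cons.mpr ⟨hav, h3.right_of_append⟩
      · have e1 : a' :: d :: (s ++ v :: r) = (a' :: d :: s) ++ v :: r := by simp
        rw [e1] at h4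
        have h6 := List.nodup_append.mp h4
        rw [List.nodup_cons]
        refine ⟨?_, h6.2.1⟩
        intro hh
        have hmem : a' ∈ v :: r := hh
        exact h6.2.2 a' (by simp) a' hmem rfl
      · intro z hz
        apply h5
        simp only [List.mem_cons, List.mem_append] at hz ⊢
        tauto
      · simp only [List.length_cons, List.length_append]
        omega

/-- A short path in the outer part. -/
theorem short_path (hs : ∀ u v, E u v → E v u) (hirr : ∀ v, ¬ E v v) {W : Finset α} {c : α}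
    (hW2 : 2 ≤ W.card) (hdeg : ∀ y ∈ W, y ≠ c → ∃ u ∈ W, ∃ u' ∈ W, u ≠ u' ∧ E y u ∧ E y u')
    (hconn : Conn E W) {a b : α} (ha : a ∈ W) (hb : b ∈ W) :
    ∃ l, IsP E W a b l ∧ l.length + 1 ≤ W.card := by
  obtain ⟨l₀, hl₀⟩ := hconn.path ha hb
  have key : ∀ n (l : List α), l.length = n → IsP E W a b l →
      ∃ l', IsP E W a b l' ∧ l'.length + 1 ≤ W.card := by
    intro n
    induction n using Nat.strong_induction_on with
    | _ n ih =>
      intro l hn hl
      by_cases hshort : l.length + 1 ≤ W.card
      · exact ⟨l, hl, hshort⟩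
      · have hfull : W.card ≤ l.length := by omega
        by_cases hac : a = c
        · -- use the other end
          have hbc : b ≠ c := by
            rintro rfl
            have hab : a = b := hac
            subst hab
            -- a path from `a` to `a` has one vertex
            obtain ⟨h1, h2, h3, h4, h5⟩ := hl
            have hlen : l.length ≤ 1 := by
              cases l with
              | nil => simp at h1
              | cons x t =>
                simp only [List.head?_cons, Option.some.injEq] at h1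
                subst h1
                cases t with
                | nil => simp
                | cons y s =>
                  exfalso
                  rw [List.getLast?_cons_cons] at h2
                  have hm := List.mem_of_getLast? h2
                  exact (List.nodup_cons.mp h4).1 hm
            omega
          obtain ⟨l', hl', hlt⟩ := shortcut_head hirr (IsP.reverse hs hl) hW2
            (by rw [List.length_reverse]; exact hfull) (hdeg b hb hbc)
          have hl'r := IsP.reverse hs hl'
          rw [List.length_reverse] at hlt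
          exact ih l'.reverse.length (by rw [List.length_reverse]; omega) _ rfl hl'r
        · obtain ⟨l', hl', hlt⟩ := shortcut_head hirr hl hW2 hfull (hdeg a ha hac)
          exact ih l'.length (by omega) _ rfl hl'
  exact key _ l₀ rfl hl₀

end Vale.Agent.Lib.P048.E
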