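import Vale.Agent.Lib.P048.E8
import Vale.Agent.Lib.P048.E6
import Vale.Agent.Lib.P048.EZ

/-!
The extremal statement by induction on the independence number, up to independence number seven.
-/

namespace Vale.Agent.Lib.P048.E

open Finset

set_option linter.unusedSectionVars false
set_option linter.unusedVariables false

section core

variable {V : Type*} [Fintype V] [DecidableEq V] {G : SimpleGraph V}

/-- The core case cannot occur up to independence number seven. -/
theorem core_main {a k : ℕ} (h : Core G a k) (ha7 : a ≤ 7) : False := by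
  classical
  obtain ⟨I, A, hI, hst⟩ := h.exists_stars
  obtain ⟨X, w, hs⟩ := hst.exists_sys
  obtain ⟨μ, hm, hlost⟩ := exists_mat h hs hI
  by_cases hc : ∀ c ∈ I, Conn (Gam X μ) (I.erase c)
  · exact caseA h hs hI hm hlost hc
  · obtain ⟨Z, c, h1, h2, h3, h4, h5, h6, h7, h8⟩ := zone_exists (E := Gam X μ)
      (fun u v h => Gam.symm h) (gam_irr hs hm) (by omega) (gam_deg h hs hI hm hlost) hc
    exact zone_contra h hs hI hm hlost ⟨h1, h2, h3, h4, h6, h7, h8⟩ h5

end core

section clique

variable {V : Type*} [DecidableEq V] {G : SimpleGraph V}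

/-- Paths of all lengths inside a clique. -/
theorem clique_pth {Q : Finset V} (hcl : ∀ x ∈ Q, ∀ y ∈ Q, x ≠ y → G.Adj x y) {q q' : V}
    (hq : q ∈ Q) (hq' : q' ∈ Q) (hne : q ≠ q') {L : ℕ} (h2 : 2 ≤ L) (hL : L ≤ Q.card) :
    Pth G Q q q' L := by
  classical
  have hR : L - 2 ≤ ((Q.erase q).erase q').card := by
    rw [Finset.card_erase_of_mem (Finset.mem_erase.mpr ⟨hne.symm, hq'⟩),
      Finset.card_erase_of_mem hq]
    omega
  obtain ⟨R, hRs, hRc⟩ := Finset.exists_subset_card_eq hR
  have hRq : ∀ x ∈ R, x ≠ q ∧ x ≠ q' ∧ x ∈ Q := by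
    intro x hx
    have := hRs hx
    simp only [Finset.mem_erase] at this
    exact ⟨this.2.1, this.1, this.2.2⟩
  let l : List V := q :: (R.toList ++ [q'])
  have hn : l.Nodup := by
    simp only [l, List.nodup_cons, List.nodup_append, List.mem_append, Finset.mem_toList,
      List.mem_singleton]
    refine ⟨?_, R.nodup_toList, ?_⟩
    · rintro (hh | hh)
      · exact (hRq q hh).1 rfl
      · exact hne hh
    · refine ⟨by simp, ?_⟩
      intro a ha b hb
      rw [hb]
      exact (hRq a ha).2.1
  have hm : ∀ v ∈ l, v ∈ Q := by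
    intro v hv
    simp only [l, List.mem_cons, List.mem_append, Finset.mem_toList, List.not_mem_nil,
      or_false] at hv
    rcases hv with rfl | hv | rfl
    · exact hq
    · exact (hRq v hv).2.2
    · exact hq'
  have hc : l.IsChain G.Adj := by
    rw [List.isChain_iff_getElem]
    intro i hi
    apply hcl _ (hm _ (List.getElem_mem _)) _ (hm _ (List.getElem_mem _))
    intro heq
    have := (List.Nodup.getElem_inj_iff hn).mp heq
    omega
  have hlen : l.length = L := by
    simp only [l, List.length_cons, List.length_append, Finset.length_toList, List.length_nil]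
    omega
  have := Pth.of_list' (G := G) (B := Q) (p := q) (q := q') l hc hn hm (by simp [l])
    (by
      rw [show l = (q :: R.toList) ++ [q'] from rfl, List.getLast?_append]
      rfl)
  rwa [hlen] at this

/-- A clique on `k` vertices has a vertex with all its neighbours in the clique. -/
theorem clique_pendant [Fintype V] {k a : ℕ} (hk : 2 * a + 1 ≤ k) (hk3 : 3 ≤ k) (hα : IndBd G a)
    (hC : ¬ ∃ g, CycF G (k + 1) g) (Q : Finset V) (hQ : Q.card = k)
    (hcl : ∀ x ∈ Q, ∀ y ∈ Q, x ≠ y → G.Adj x y) : ∃ q ∈ Q, ∀ y, G.Adj q y → y ∈ Q := by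
  classical
  by_contra hcon
  push Not at hcon
  have hch : ∀ q, ∃ y, q ∈ Q → G.Adj q y ∧ y ∉ Q := by
    intro q
    by_cases hq : q ∈ Q
    · obtain ⟨y, hy⟩ := hcon q hq
      exact ⟨y, fun _ => hy⟩
    · exact ⟨q, fun hh => absurd hh hq⟩
  choose f hf using hch
  have hdisj : ∀ y, y ∉ Q → Disjoint ({y} : Finset V) Q := by
    intro y hy
    simpa using hy
  have hinj : Set.InjOn f (Q : Set V) := by
    intro q hq q' hq' heq
    by_contra hne
    have hq1 : q ∈ Q := hq
    have hq2 : q' ∈ Q := hq'
    obtain ⟨h1, h2⟩ := hf q hq1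
    obtain ⟨h3, h4⟩ := hf q' hq2
    have hp := clique_pth hcl hq1 hq2 hne (L := k) (by omega) (by omega)
    have hs := Pth.single (G := G) (Finset.mem_singleton_self (f q))
    have hcat := hs.concat hp (hdisj _ h2) h1.symm
    rw [show 1 + k = k + 1 by omega] at hcat
    apply hC
    apply hcat.cycle
    rw [heq]
    exact h3
  have hcard : (Q.image f).card = k := by
    rw [Finset.card_image_of_injOn hinj, hQ]
  obtain ⟨x, hx, y, hy, hxy⟩ := hα (Q.image f) (by omega)
  obtain ⟨q, hq, rfl⟩ := Finset.mem_image.mp hx
  obtain ⟨q', hq', rfl⟩ := Finset.mem_image.mp hy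
  have hne : q ≠ q' := by
    rintro rfl
    exact G.irrefl hxy
  obtain ⟨h1, h2⟩ := hf q hq
  obtain ⟨h3, h4⟩ := hf q' hq'
  have hp := clique_pth hcl hq hq' hne (L := k - 1) (by omega) (by omega)
  have hs := Pth.single (G := G) (Finset.mem_singleton_self (f q))
  have hs' := Pth.single (G := G) (Finset.mem_singleton_self (f q'))
  have hcat := hs.concat hp (hdisj _ h2) h1.symm
  have hd2 : Disjoint (({f q} : Finset V) ∪ Q) ({f q'} : Finset V) := by
    rw [Finset.disjoint_singleton_right, Finset.mem_union, not_or]
    refine ⟨?_, h4⟩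
    rw [Finset.mem_singleton]
    exact hxy.ne.symm
  have hcat2 := hcat.concat hs' hd2 h3
  rw [show 1 + (k - 1) + 1 = k + 1 by omega] at hcat2
  exact hC (hcat2.cycle hxy.symm)

end clique

/-- Cycles of an induced subgraph are cycles of the graph. -/
theorem cyc_comap {V : Type*} {G : SimpleGraph V} {P : V → Prop} {m : ℕ}
    (h : ∃ g, CycF (G.comap (Subtype.val : {x // P x} → V)) m g) : ∃ g, CycF G m g := by
  obtain ⟨g, hg⟩ := h
  refine ⟨fun i => (g i).1, ⟨?_, ?_⟩, ?_⟩
  · intro i j hi hj hij
    exact hg.inj i j hi hj (Subtype.ext hij)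
  · intro i hi
    exact hg.adj i hi
  · exact hg.close

/-- The independence bound on a subset. -/
theorem ind_comap {V : Type*} [DecidableEq V] {G : SimpleGraph V} {S : Finset V} {b : ℕ}
    (h : ∀ s, s ⊆ S → b < s.card → ∃ x ∈ s, ∃ y ∈ s, G.Adj x y) :
    IndBd (G.comap (Subtype.val : {x // x ∈ S} → V)) b := by
  classical
  intro s hs
  have hsub : s.map (Function.Embedding.subtype _) ⊆ S := by
    intro x hx
    obtain ⟨y, _, rfl⟩ := Finset.mem_map.mp hx
    exact y.2
  obtain ⟨x, hx, y, hy, hxy⟩ := h _ hsub (by rw [Finset.card_map]; exact hs)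
  obtain ⟨x', hx', rfl⟩ := Finset.mem_map.mp hx
  obtain ⟨y', hy', rfl⟩ := Finset.mem_map.mp hy
  exact ⟨x', hx', y', hy', hxy⟩

/-- The extremal statement: for independence number `a ≤ 7` and no cycle of length `k + 1`, at most
`k a` vertices, with a clique on `k` vertices in case of equality. -/
theorem main_a.{u} : ∀ a : ℕ, a ≤ 7 → ∀ (V : Type u) [Fintype V] (G : SimpleGraph V) (k : ℕ),
    2 * a + 1 ≤ k → IndBd G a → (¬ ∃ g, CycF G (k + 1) g) →
    Fintype.card V ≤ k * a ∧ (1 ≤ a → Fintype.card V = k * a →
      ∃ Q : Finset V, Q.card = k ∧ ∀ x ∈ Q, ∀ y ∈ Q, x ≠ y → G.Adj x y) := by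
  intro a
  induction a using Nat.strong_induction_on with
  | _ a ih =>
    intro ha7 V _ G k hk hα hC
    classical
    by_cases ha0 : a = 0
    · subst ha0
      have hemp : IsEmpty V := ⟨fun x => by
        obtain ⟨y, hy, z, hz, hyz⟩ := hα {x} (by simp)
        rw [Finset.mem_singleton] at hy hz
        rw [hy, hz] at hyz
        exact G.irrefl hyz⟩
      have hc0 : Fintype.card V = 0 := Fintype.card_eq_zero
      refine ⟨by omega, fun h => absurd h (by omega)⟩
    have hk3 : 3 ≤ k := by omega
    by_cases hQ : ∃ Q : Finset V, Q.card = k ∧ ∀ x ∈ Q, ∀ y ∈ Q, x ≠ y → G.Adj x y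
    · obtain ⟨Q, hQc, hcl⟩ := hQ
      refine ⟨?_, fun _ _ => ⟨Q, hQc, hcl⟩⟩
      obtain ⟨q, hq, hqN⟩ := clique_pendant hk hk3 hα hC Q hQc hcl
      obtain ⟨a', rfl⟩ : ∃ a', a = a' + 1 := ⟨a - 1, by omega⟩
      let W := {y : V // y ∉ Q}
      let G' : SimpleGraph W := G.comap Subtype.val
      have hαW : IndBd G' a' := by
        intro s hs
        let s' : Finset V := insert q (s.map (Function.Embedding.subtype _))
        have hqs : q ∉ s.map (Function.Embedding.subtype _) := by
          intro hh
          obtain ⟨y, _, hy⟩ := Finset.mem_map.mp hh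
          apply y.2
          have : (y : V) = q := hy
          rw [this]
          exact hq
        have hcard : a' + 1 < s'.card := by
          rw [Finset.card_insert_of_notMem hqs, Finset.card_map]
          omega
        obtain ⟨y, hy, z, hz, hyz⟩ := hα s' hcard
        rw [Finset.mem_insert] at hy hz
        have hnot : ∀ t ∈ s.map (Function.Embedding.subtype _), ¬ G.Adj q t := by
          intro t ht hadj
          obtain ⟨y', _, hy'⟩ := Finset.mem_map.mp ht
          apply y'.2
          have : (y' : V) = t := hy'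
          rw [this]
          exact hqN t hadj
        rcases hy with rfl | hy <;> rcases hz with rfl | hz
        · exact absurd hyz (G.irrefl)
        · exact absurd hyz (hnot z hz)
        · exact absurd hyz.symm (hnot y hy)
        · obtain ⟨y', hy', rfl⟩ := Finset.mem_map.mp hy
          obtain ⟨z', hz', rfl⟩ := Finset.mem_map.mp hz
          exact ⟨y', hy', z', hz', hyz⟩
      have h1 := (ih a' (by omega) (by omega) W G' k (by omega) hαW
        (fun hh => hC (cyc_comap (P := fun y => y ∉ Q) hh))).1
      have h2 : Fintype.card W = (Finset.univ.filter (fun y => y ∉ Q)).card :=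
        Fintype.card_subtype _
      have h3 : (Finset.univ : Finset V) ⊆ (Finset.univ.filter (fun y => y ∉ Q)) ∪ Q := by
        intro y _
        by_cases hy : y ∈ Q
        · exact Finset.mem_union_right _ hy
        · exact Finset.mem_union_left _ (by simp [hy])
      have h4 := Finset.card_le_card h3
      have h5 := Finset.card_union_le (Finset.univ.filter (fun y => y ∉ Q)) Q
      rw [Finset.card_univ] at h4
      have h6 : k * (a' + 1) = k * a' + k := by ring
      omega
    · suffices hlt : Fintype.card V < k * a by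
        exact ⟨by omega, fun _ he => absurd he (by omega)⟩
      by_contra hge
      push Not at hge
      obtain ⟨U, -, hUc⟩ := Finset.exists_subset_card_eq (s := (Finset.univ : Finset V))
        (n := k * a) (by rw [Finset.card_univ]; exact hge)
      by_cases ha1 : a = 1
      · subst ha1
        apply hQ
        refine ⟨U, by omega, ?_⟩
        intro x hx y hy hxy
        obtain ⟨p, hp, r, hr, hpr⟩ := hα {x, y} (by rw [Finset.card_pair hxy]; omega)
        simp only [Finset.mem_insert, Finset.mem_singleton] at hp hr
        rcases hp with rfl | rfl <;> rcases hr with rfl | rfl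
        · exact absurd hpr G.irrefl
        · exact hpr
        · exact hpr.symm
        · exact absurd hpr G.irrefl
      · let G' : SimpleGraph {x // x ∈ U} := G.comap Subtype.val
        have hcore : Core G' a k := by
          refine ⟨ind_comap (fun s _ hs => hα s hs),
            fun hh => hC (cyc_comap (P := fun x => x ∈ U) hh), hk, by omega, ?_, ?_⟩
          · rw [Fintype.card_coe, hUc]
          · intro S b hb1 hba hS
            have h1 := ih b hba (by omega) {x // x ∈ S} (G'.comap Subtype.val) k (by omega)
              (ind_comap hS)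
              (fun hh => hC (cyc_comap (P := fun x => x ∈ U) (cyc_comap (P := fun x => x ∈ S) hh)))
            rw [Fintype.card_coe] at h1
            refine lt_of_le_of_ne h1.1 (fun he => ?_)
            obtain ⟨Q, hQc, hcl⟩ := h1.2 hb1 he
            apply hQ
            let emb : {x // x ∈ S} ↪ V :=
              (Function.Embedding.subtype _).trans (Function.Embedding.subtype _)
            refine ⟨Q.map emb, by rw [Finset.card_map]; exact hQc, ?_⟩
            intro x hx y hy hxy
            obtain ⟨x', hx', rfl⟩ := Finset.mem_map.mp hx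
            obtain ⟨y', hy', rfl⟩ := Finset.mem_map.mp hy
            exact hcl x' hx' y' hy' (fun hh => hxy (by rw [hh]))
        exact core_main hcore ha7

/-- For at most eight prescribed independent vertices, `m ≥ 2 n` is enough. -/
theorem cycle_or_indep8 {V : Type*} [Fintype V] (G : SimpleGraph V) (m n : ℕ) (hn : 2 ≤ n)
    (hn8 : n ≤ 8) (hm : 2 * n ≤ m) (hV : (m - 1) * (n - 1) + 1 ≤ Fintype.card V) :
    (∃ (v : V) (c : G.Walk v v), c.IsCycle ∧ c.length = m) ∨
      ∃ s : Finset V, G.IsIndepSet (s : Set V) ∧ s.card = n := by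
  classical
  by_cases hs : ∃ s : Finset V, G.IsIndepSet (s : Set V) ∧ s.card = n
  · exact Or.inr hs
  · left
    have hα : IndBd G (n - 1) := by
      intro s hsc
      obtain ⟨t, hts, htc⟩ := Finset.exists_subset_card_eq (show n ≤ s.card by omega)
      by_contra hne
      push Not at hne
      apply hs
      refine ⟨t, ?_, htc⟩
      intro x hx y hy _
      exact hne x (hts hx) y (hts hy)
    by_cases hcy : ∃ g, CycF G (m - 1 + 1) g
    · obtain ⟨g, hg⟩ := hcy
      rw [show m - 1 + 1 = m by omega] at hg
      exact exists_isCycle_of_cycF hg (by omega)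
    · have := (main_a (n - 1) (by omega) V G (m - 1) (by omega) hα hcy).1
      omega

end Vale.Agent.Lib.P048.E
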