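import Vale.Agent.Lib.P048.E1

/-!
Cover of the neighbours of a hub by arms: paths whose terminals are independent.
The cover itself is hidden: what is kept are the terminals `X`, the arm lengths `w` and the passes
through the star.
-/

namespace Vale.Agent.Lib.P048.E

open Finset

set_option linter.unusedSectionVars false
set_option linter.unusedVariables false

variable {V : Type*} [DecidableEq V] {G : SimpleGraph V}

/-- A port costs one extra vertex unless it is the hub. -/
def pc (x v : V) : ℕ := if v = x then 0 else 1

/-- The hub `x`, its private neighbours `A`, the terminals `X` of a path cover of `A`, and the arm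
lengths `w`. Between two ports of the star there is a path of each length in the range. -/
structure Hub (G : SimpleGraph V) (x : V) (A X : Finset V) (w : V → ℕ) : Prop where
  sub : X ⊆ A
  indep : ∀ e ∈ X, ∀ e' ∈ X, ¬ G.Adj e e'
  wpos : ∀ e ∈ X, 1 ≤ w e
  wzero : ∀ v, v ∉ X → w v = 0
  sum : ∑ e ∈ X, w e = A.card
  pass : ∀ p q, p ∈ insert x A → q ∈ insert x A → p ≠ q →
    RP G (insert x A) p q (1 + pc x p + pc x q) (max (1 + pc x p + pc x q) (1 + w p + w q))

/-- Lists usable as arms. -/
structure ArmL (G : SimpleGraph V) (x : V) (R : List V) : Prop where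
  ne : R ≠ []
  chain : R.IsChain G.Adj
  nodup : R.Nodup
  adj : ∀ v ∈ R, G.Adj x v

/-- A cover of `A` by disjoint arms. -/
structure ArmFam (G : SimpleGraph V) (x : V) (A : Finset V) (F : Finset (List V)) : Prop where
  arm : ∀ R ∈ F, ArmL G x R
  cover : ∀ v, v ∈ A ↔ ∃ R ∈ F, v ∈ R
  disj : ∀ R ∈ F, ∀ R' ∈ F, R ≠ R' → ∀ v, v ∈ R → v ∉ R'

theorem Pth.of_list' {B : Finset V} {p q : V} (l : List V) (hc : l.IsChain G.Adj) (hn : l.Nodup)
    (hm : ∀ v ∈ l, v ∈ B) (hh : l.head? = some p) (hl : l.getLast? = some q) :
    Pth G B p q l.length := by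
  have hne : l ≠ [] := by
    intro h
    rw [h] at hh
    simp at hh
  have h := Pth.of_list (G := G) (B := B) l hne hc hn hm
  have e1 : l.head hne = p := by
    rw [List.head?_eq_some_head hne] at hh
    exact Option.some.inj hh
  have e2 : l.getLast hne = q := by
    rw [List.getLast?_eq_some_getLast hne] at hl
    exact Option.some.inj hl
  rwa [e1, e2] at h

/-- Two strands joined at the hub. -/
theorem route2 {x p q : V} {t₁ t₂ : List V} {B : Finset V}
    (h₁ : (p :: t₁).IsChain G.Adj) (h₂ : (q :: t₂).IsChain G.Adj) (n₁ : (p :: t₁).Nodup)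
    (n₂ : (q :: t₂).Nodup) (hd : ∀ v ∈ p :: t₁, v ∉ q :: t₂) (a₁ : ∀ v ∈ p :: t₁, G.Adj x v)
    (a₂ : ∀ v ∈ q :: t₂, G.Adj x v) (hB₁ : ∀ v ∈ p :: t₁, v ∈ B) (hB₂ : ∀ v ∈ q :: t₂, v ∈ B)
    (hx : x ∈ B) : Pth G B p q ((p :: t₁).length + 1 + (q :: t₂).length) := by
  have hlen : ((p :: t₁) ++ x :: (q :: t₂).reverse).length =
      (p :: t₁).length + 1 + (q :: t₂).length := by
    simp only [List.length_append, List.length_cons, List.length_reverse]
    omega
  rw [← hlen]
  have hrev : (q :: t₂).reverse.IsChain G.Adj := by
    rw [List.isChain_reverse]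
    exact h₂.imp (fun a b h => h.symm)
  have hxnot : ∀ v ∈ p :: t₁, v ≠ x := fun v hv h => (a₁ v hv).ne h.symm
  have hxnot2 : ∀ v ∈ q :: t₂, v ≠ x := fun v hv h => (a₂ v hv).ne h.symm
  apply Pth.of_list'
  · refine List.IsChain.append h₁ ?_ ?_
    · have := List.IsChain.append (R := G.Adj) (l₁ := [x]) (List.isChain_singleton x) hrev ?_
      · simpa using this
      · intro a ha b hb
        simp only [List.getLast?_singleton, Option.mem_def, Option.some.injEq] at ha
        subst ha
        have hb' := List.mem_of_head? hb
        rw [List.mem_reverse] at hb'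
        exact a₂ b hb'
    · intro a ha b hb
      simp only [List.head?_cons, Option.mem_def, Option.some.injEq] at hb
      subst hb
      exact (a₁ a (List.mem_of_getLast? ha)).symm
  · rw [List.nodup_append]
    refine ⟨n₁, ?_, ?_⟩
    · rw [List.nodup_cons]
      refine ⟨?_, ?_⟩
      · rw [List.mem_reverse]
        exact fun h => hxnot2 x h rfl
      · exact List.nodup_reverse.mpr n₂
    · intro a ha b hb hab
      subst hab
      rw [List.mem_cons, List.mem_reverse] at hb
      rcases hb with hb | hb
      · exact hxnot a ha hb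
      · exact hd a ha hb
  · intro v hv
    rw [List.mem_append] at hv
    rcases hv with hv | hv
    · exact hB₁ v hv
    · rw [List.mem_cons, List.mem_reverse] at hv
      rcases hv with rfl | hv
      · exact hx
      · exact hB₂ v hv
  · simp
  · have : (p :: t₁) ++ x :: (q :: t₂).reverse = ((p :: t₁) ++ x :: t₂.reverse) ++ [q] := by simp
    rw [this]
    simp only [List.getLast?_append, List.getLast?_singleton, Option.some_or]

/-- A strand following the hub. -/
theorem route1 {x q : V} {t₂ : List V} {B : Finset V}
    (h₂ : (q :: t₂).IsChain G.Adj) (n₂ : (q :: t₂).Nodup)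
    (a₂ : ∀ v ∈ q :: t₂, G.Adj x v) (hB₂ : ∀ v ∈ q :: t₂, v ∈ B)
    (hx : x ∈ B) : Pth G B x q (1 + (q :: t₂).length) := by
  have hlen : (x :: (q :: t₂).reverse).length = 1 + (q :: t₂).length := by
    simp only [List.length_cons, List.length_reverse]
    omega
  rw [← hlen]
  have hrev : (q :: t₂).reverse.IsChain G.Adj := by
    rw [List.isChain_reverse]
    exact h₂.imp (fun a b h => h.symm)
  have hxnot2 : ∀ v ∈ q :: t₂, v ≠ x := fun v hv h => (a₂ v hv).ne h.symm
  apply Pth.of_list'
  · have := List.IsChain.append (R := G.Adj) (l₁ := [x]) (List.isChain_singleton x) hrev ?_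
    · simpa using this
    · intro a ha b hb
      simp only [List.getLast?_singleton, Option.mem_def, Option.some.injEq] at ha
      subst ha
      have hb' := List.mem_of_head? hb
      rw [List.mem_reverse] at hb'
      exact a₂ b hb'
  · rw [List.nodup_cons]
    refine ⟨?_, List.nodup_reverse.mpr n₂⟩
    rw [List.mem_reverse]
    exact fun h => hxnot2 x h rfl
  · intro v hv
    rw [List.mem_cons, List.mem_reverse] at hv
    rcases hv with rfl | hv
    · exact hx
    · exact hB₂ v hv
  · simp
  · have : x :: (q :: t₂).reverse = (x :: t₂.reverse) ++ [q] := by simp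
    rw [this]
    simp only [List.getLast?_append, List.getLast?_singleton, Option.some_or]

/-- A strand of an arm. -/
theorem chain_sub {l t : List V} {R : V → V → Prop} (hc : l.IsChain R) (h : t <:+: l) :
    t.IsChain R := by
  obtain ⟨s, u, rfl⟩ := h
  exact (List.isChain_append.mp (List.isChain_append.mp hc).1).2.1

theorem strand_infix (pre : List V) (p : V) (t : List V) (n : ℕ) :
    (p :: t.take n) <:+: pre ++ p :: t :=
  ⟨pre, t.drop n, by simp⟩

theorem exists_minFam (x : V) (A : Finset V) (hx : x ∉ A) (hadj : ∀ v ∈ A, G.Adj x v) :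
    ∃ F, ArmFam G x A F ∧ ∀ F', ArmFam G x A F' → F.card ≤ F'.card := by
  have h0 : ∃ m, ∃ F, ArmFam G x A F ∧ F.card = m := by
    refine ⟨_, A.image (fun v => [v]), ⟨?_, ?_, ?_⟩, rfl⟩
    · intro R hR
      obtain ⟨v, hv, rfl⟩ := Finset.mem_image.mp hR
      refine ⟨by simp, List.isChain_singleton _, List.nodup_singleton _, ?_⟩
      intro u hu
      rw [List.mem_singleton] at hu
      rw [hu]
      exact hadj v hv
    · intro v
      constructor
      · intro hv
        exact ⟨[v], Finset.mem_image.mpr ⟨v, hv, rfl⟩, by simp⟩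
      · rintro ⟨R, hR, hvR⟩
        obtain ⟨u, hu, rfl⟩ := Finset.mem_image.mp hR
        rw [List.mem_singleton] at hvR
        rw [hvR]
        exact hu
    · intro R hR R' hR' hne v hv hv'
      obtain ⟨u, hu, rfl⟩ := Finset.mem_image.mp hR
      obtain ⟨u', hu', rfl⟩ := Finset.mem_image.mp hR'
      rw [List.mem_singleton] at hv hv'
      apply hne
      rw [← hv, ← hv']
  classical
  obtain ⟨F, hF, hc⟩ := Nat.find_spec h0
  refine ⟨F, hF, fun F' hF' => ?_⟩
  rw [hc]
  exact Nat.find_min' h0 ⟨F', hF', rfl⟩

/-- The terminal of an arm is its head. -/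
def termOf (x : V) (R : List V) : V := R.headD x

theorem termOf_mem {x : V} {R : List V} (h : R ≠ []) : termOf x R ∈ R := by
  cases R with
  | nil => exact absurd rfl h
  | cons a t => simp [termOf]

theorem merge_arms {x : V} {A : Finset V} {F : Finset (List V)} (hF : ArmFam G x A F)
    {R R' : List V} (hR : R ∈ F) (hR' : R' ∈ F) (hne : R ≠ R')
    (hadj : G.Adj (termOf x R) (termOf x R')) :
    ∃ F', ArmFam G x A F' ∧ F'.card < F.card := by
  have aR := hF.arm R hR
  have aR' := hF.arm R' hR'
  have hd := hF.disj R hR R' hR' hne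
  let N := R.reverse ++ R'
  have hNmem : ∀ v, v ∈ N ↔ v ∈ R ∨ v ∈ R' := by
    intro v
    simp [N]
  have hN : ArmL G x N := by
    refine ⟨?_, ?_, ?_, ?_⟩
    · intro h
      have := (List.append_eq_nil_iff.mp h).2
      exact aR'.ne this
    · refine List.IsChain.append ?_ aR'.chain ?_
      · rw [List.isChain_reverse]
        exact aR.chain.imp (fun a b h => h.symm)
      · intro a ha b hb
        cases R with
        | nil => exact absurd rfl aR.ne
        | cons c t =>
          cases R' with
          | nil => exact absurd rfl aR'.ne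
          | cons e s =>
            have h1 : ((c :: t).reverse).getLast? = some c := by simp
            rw [h1] at ha
            simp only [Option.mem_def, Option.some.injEq, List.head?_cons] at ha hb
            subst ha
            subst hb
            simpa [termOf] using hadj
    · rw [List.nodup_append]
      refine ⟨List.nodup_reverse.mpr aR.nodup, aR'.nodup, ?_⟩
      intro a ha b hb hab
      subst hab
      exact hd a (List.mem_reverse.mp ha) hb
    · intro v hv
      rcases (hNmem v).mp hv with h | h
      · exact aR.adj v h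
      · exact aR'.adj v h
  refine ⟨insert N ((F.erase R).erase R'), ⟨?_, ?_, ?_⟩, ?_⟩
  · intro S hS
    rcases Finset.mem_insert.mp hS with rfl | h
    · exact hN
    · exact hF.arm S (Finset.mem_of_mem_erase (Finset.mem_of_mem_erase h))
  · intro v
    constructor
    · intro hv
      obtain ⟨S, hS, hvS⟩ := (hF.cover v).mp hv
      by_cases h1 : S = R
      · exact ⟨N, Finset.mem_insert_self _ _, (hNmem v).mpr (Or.inl (h1 ▸ hvS))⟩
      by_cases h2 : S = R'
      · exact ⟨N, Finset.mem_insert_self _ _, (hNmem v).mpr (Or.inr (h2 ▸ hvS))⟩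
      · exact ⟨S, Finset.mem_insert_of_mem (Finset.mem_erase.mpr ⟨h2,
          Finset.mem_erase.mpr ⟨h1, hS⟩⟩), hvS⟩
    · rintro ⟨S, hS, hvS⟩
      rcases Finset.mem_insert.mp hS with rfl | h
      · rcases (hNmem v).mp hvS with h | h
        · exact (hF.cover v).mpr ⟨R, hR, h⟩
        · exact (hF.cover v).mpr ⟨R', hR', h⟩
      · exact (hF.cover v).mpr ⟨S, Finset.mem_of_mem_erase (Finset.mem_of_mem_erase h), hvS⟩
  · have hold : ∀ S ∈ (F.erase R).erase R', S ∈ F ∧ S ≠ R ∧ S ≠ R' := by
      intro S hS
      have h1 := Finset.mem_erase.mp hS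
      have h2 := Finset.mem_erase.mp h1.2
      exact ⟨h2.2, h2.1, h1.1⟩
    have hNold : ∀ S ∈ (F.erase R).erase R', ∀ v, v ∈ N → v ∉ S := by
      intro S hS v hv
      obtain ⟨h1, h2, h3⟩ := hold S hS
      rcases (hNmem v).mp hv with h | h
      · exact hF.disj R hR S h1 h2.symm v h
      · exact hF.disj R' hR' S h1 h3.symm v h
    intro S hS S' hS' hne' v hv hv'
    rcases Finset.mem_insert.mp hS with rfl | h
    · rcases Finset.mem_insert.mp hS' with rfl | h'
      · exact hne' rfl
      · exact hNold S' h' v hv hv'
    · rcases Finset.mem_insert.mp hS' with rfl | h'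
      · exact hNold S h v hv' hv
      · exact hF.disj S (hold S h).1 S' (hold S' h').1 hne' v hv hv'
  · have h1 := Finset.card_insert_le N ((F.erase R).erase R')
    have h2 : ((F.erase R).erase R').card = F.card - 2 := by
      rw [Finset.card_erase_of_mem (Finset.mem_erase.mpr ⟨hne.symm, hR'⟩),
        Finset.card_erase_of_mem hR]
      omega
    have h3 : 2 ≤ F.card := by
      have : ({R, R'} : Finset (List V)) ⊆ F := by
        intro S hS
        simp only [Finset.mem_insert, Finset.mem_singleton] at hS
        rcases hS with rfl | rfl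
        · exact hR
        · exact hR'
      have h4 := Finset.card_le_card this
      rwa [Finset.card_pair hne] at h4
    omega

/-- The main result on arms. -/
theorem exists_hub (x : V) (A : Finset V) (hx : x ∉ A) (hadj : ∀ v ∈ A, G.Adj x v) :
    ∃ X w, Hub G x A X w := by
  obtain ⟨F, hF, hmin⟩ := exists_minFam (G := G) x A hx hadj
  have hindep : ∀ R ∈ F, ∀ R' ∈ F, ¬ G.Adj (termOf x R) (termOf x R') := by
    intro R hR R' hR' h
    have hne : R ≠ R' := by
      rintro rfl
      exact G.loopless.irrefl _ h
    obtain ⟨F', h1, h2⟩ := merge_arms hF hR hR' hne h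
    have := hmin F' h1
    omega
  have hterm_inj : ∀ R ∈ F, ∀ R' ∈ F, termOf x R = termOf x R' → R = R' := by
    intro R hR R' hR' h
    by_contra hne
    have h1 := termOf_mem (x := x) (hF.arm R hR).ne
    have h2 := termOf_mem (x := x) (hF.arm R' hR').ne
    rw [← h] at h2
    exact hF.disj R hR R' hR' hne _ h1 h2
  let w : V → ℕ := fun v => ∑ R ∈ F.filter (fun R => termOf x R = v), R.length
  have hw_eq : ∀ R ∈ F, w (termOf x R) = R.length := by
    intro R hR
    have : F.filter (fun R' => termOf x R' = termOf x R) = {R} := by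
      ext S
      simp only [Finset.mem_filter, Finset.mem_singleton]
      constructor
      · rintro ⟨h1, h2⟩
        exact hterm_inj S h1 R hR h2
      · rintro rfl
        exact ⟨hR, rfl⟩
    simp only [w, this, Finset.sum_singleton]
  have hw_zero : ∀ v, (∀ R ∈ F, termOf x R ≠ v) → w v = 0 := by
    intro v hv
    have : F.filter (fun R' => termOf x R' = v) = ∅ := by
      rw [Finset.filter_eq_empty_iff]
      exact fun R hR => hv R hR
    simp only [w, this, Finset.sum_empty]
  -- a vertex of an arm with something before it is not a terminal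
  have hw_mid : ∀ R ∈ F, ∀ pre p post, pre ≠ [] → R = pre ++ p :: post → w p = 0 := by
    intro R hR pre p post hpre hsplit
    apply hw_zero
    intro R' hR' hterm
    have hpR : p ∈ R := by rw [hsplit]; simp
    have hpR' : p ∈ R' := by rw [← hterm]; exact termOf_mem (hF.arm R' hR').ne
    have hRR : R = R' := by
      by_contra hne
      exact hF.disj R hR R' hR' hne p hpR hpR'
    subst hRR
    have hnd := (hF.arm R hR).nodup
    cases pre with
    | nil => exact hpre rfl
    | cons a t =>
      rw [hsplit] at hterm hnd
      simp only [termOf, List.cons_append, List.headD_cons] at hterm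
      subst hterm
      simp only [List.cons_append, List.nodup_cons, List.mem_append, List.mem_cons, not_or] at hnd
      exact hnd.1.2.1 trivial
  have hw_le : ∀ R ∈ F, ∀ pre p post, R = pre ++ p :: post → w p ≤ 1 + post.length := by
    intro R hR pre p post hsplit
    by_cases hpre : pre = []
    · subst hpre
      simp only [List.nil_append] at hsplit
      have : termOf x R = p := by
        rw [hsplit]
        simp [termOf]
      rw [← this, hw_eq R hR, hsplit]
      simp only [List.length_cons]
      omega
    · rw [hw_mid R hR pre p post hpre hsplit]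
      omega
  let X := F.image (termOf x)
  have hstar : ∀ v ∈ A, ∃ R ∈ F, ∃ pre post, R = pre ++ v :: post := by
    intro v hv
    obtain ⟨R, hR, hvR⟩ := (hF.cover v).mp hv
    obtain ⟨s, t, h⟩ := List.append_of_mem hvR
    exact ⟨R, hR, s, t, h⟩
  have hRA : ∀ R ∈ F, ∀ v ∈ R, v ∈ insert x A := fun R hR v hv =>
    Finset.mem_insert_of_mem ((hF.cover v).mpr ⟨R, hR, hv⟩)
  have hxS : x ∈ insert x A := Finset.mem_insert_self _ _
  have hAx : ∀ v ∈ A, v ≠ x := fun v hv h => hx (h ▸ hv)
  -- hub to a vertex of an arm
  have key1 : ∀ q ∈ A, RP G (insert x A) x q (1 + pc x x + pc x q)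
      (max (1 + pc x x + pc x q) (1 + w x + w q)) := by
    intro q hq
    obtain ⟨R, hR, pre, post, hsplit⟩ := hstar q hq
    have aR := hF.arm R hR
    have hwx : w x = 0 := by
      apply hw_zero
      intro R' hR' h
      exact hx ((hF.cover x).mpr ⟨R', hR', h ▸ termOf_mem (hF.arm R' hR').ne⟩)
    have hpc : pc x x = 0 := by simp [pc]
    have hpc2 : pc x q = 1 := by simp [pc, hAx q hq]
    have hwq := hw_le R hR pre q post hsplit
    rw [hpc, hpc2, hwx]
    refine ⟨le_max_left _ _, fun L h1 h2 => ?_⟩
    have hinf := strand_infix pre q post (L - 2)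
    rw [← hsplit] at hinf
    have hlen : (q :: post.take (L - 2)).length = L - 1 := by
      simp only [List.length_cons, List.length_take]
      have : L ≤ 2 + post.length := by
        rcases le_max_iff.mp (le_refl (max (1 + 0 + 1) (1 + 0 + w q))) with h | h <;> omega
      omega
    have := route1 (G := G) (x := x) (q := q) (t₂ := post.take (L - 2)) (B := insert x A)
      (chain_sub aR.chain hinf) (aR.nodup.sublist hinf.sublist) (fun v hv => aR.adj v (hinf.subset hv))
      (fun v hv => hRA R hR v (hinf.subset hv)) hxS
    rw [hlen, show 1 + (L - 1) = L by omega] at this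
    exact this
  -- two vertices on different arms
  have key2 : ∀ p ∈ A, ∀ q ∈ A, ∀ R ∈ F, ∀ R' ∈ F, ∀ pre post pre' post', R ≠ R' →
      R = pre ++ p :: post → R' = pre' ++ q :: post' →
      RP G (insert x A) p q (1 + pc x p + pc x q) (max (1 + pc x p + pc x q) (1 + w p + w q)) := by
    intro p hp q hq R hR R' hR' pre post pre' post' hne hs hs'
    have aR := hF.arm R hR
    have aR' := hF.arm R' hR'
    have hpc : pc x p = 1 := by simp [pc, hAx p hp]
    have hpc2 : pc x q = 1 := by simp [pc, hAx q hq]
    have hwp := hw_le R hR pre p post hs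
    have hwq := hw_le R' hR' pre' q post' hs'
    rw [hpc, hpc2]
    refine ⟨le_max_left _ _, fun L h1 h2 => ?_⟩
    have hL : L ≤ 3 + post.length + post'.length := by
      rcases le_max_iff.mp h2 with h | h <;> omega
    obtain ⟨c₁, c₂, hc, hc1, hc2⟩ : ∃ c₁ c₂, c₁ + c₂ + 3 = L ∧ c₁ ≤ post.length ∧ c₂ ≤ post'.length := by
      by_cases h : L - 3 ≤ post.length
      · exact ⟨L - 3, 0, by omega, h, by omega⟩
      · exact ⟨post.length, L - 3 - post.length, by omega, le_refl _, by omega⟩
    have hinf := strand_infix pre p post c₁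
    have hinf' := strand_infix pre' q post' c₂
    rw [← hs] at hinf
    rw [← hs'] at hinf'
    have := route2 (G := G) (x := x) (p := p) (q := q) (t₁ := post.take c₁) (t₂ := post'.take c₂)
      (B := insert x A) (chain_sub aR.chain hinf) (chain_sub aR'.chain hinf')
      (aR.nodup.sublist hinf.sublist) (aR'.nodup.sublist hinf'.sublist)
      (fun v hv hv' => hF.disj R hR R' hR' hne v (hinf.subset hv) (hinf'.subset hv'))
      (fun v hv => aR.adj v (hinf.subset hv)) (fun v hv => aR'.adj v (hinf'.subset hv))
      (fun v hv => hRA R hR v (hinf.subset hv)) (fun v hv => hRA R' hR' v (hinf'.subset hv)) hxS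
    simp only [List.length_cons, List.length_take] at this
    rwa [show min c₁ post.length + 1 + 1 + (min c₂ post'.length + 1) = L by omega] at this
  -- two vertices on one arm, `q` nearer the terminal
  have key3 : ∀ p ∈ A, ∀ q ∈ A, ∀ R ∈ F, ∀ pre mid post, R = pre ++ q :: (mid ++ p :: post) →
      RP G (insert x A) p q (1 + pc x p + pc x q) (max (1 + pc x p + pc x q) (1 + w p + w q)) := by
    intro p hp q hq R hR pre mid post hs
    have aR := hF.arm R hR
    have hpc : pc x p = 1 := by simp [pc, hAx p hp]
    have hpc2 : pc x q = 1 := by simp [pc, hAx q hq]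
    have hs2 : R = (pre ++ q :: mid) ++ p :: post := by
      rw [hs]; simp
    have hwp : w p = 0 := hw_mid R hR (pre ++ q :: mid) p post (by simp) hs2
    have hwq := hw_le R hR pre q (mid ++ p :: post) hs
    simp only [List.length_append, List.length_cons] at hwq
    rw [hpc, hpc2, hwp]
    refine ⟨le_max_left _ _, fun L h1 h2 => ?_⟩
    have hL : L ≤ 3 + post.length + mid.length := by
      rcases le_max_iff.mp h2 with h | h <;> omega
    obtain ⟨c₁, c₂, hc, hc1, hc2⟩ : ∃ c₁ c₂, c₁ + c₂ + 3 = L ∧ c₁ ≤ post.length ∧ c₂ ≤ mid.length := by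
      by_cases h : L - 3 ≤ post.length
      · exact ⟨L - 3, 0, by omega, h, by omega⟩
      · exact ⟨post.length, L - 3 - post.length, by omega, le_refl _, by omega⟩
    have hinf : (p :: post.take c₁) <:+: R := by
      rw [hs2]; exact strand_infix _ p post c₁
    have hinf' : (q :: mid.take c₂) <:+: R := by
      rw [hs]
      exact ⟨pre, mid.drop c₂ ++ p :: post, by
        simp only [List.cons_append, List.append_assoc, List.append_cancel_left_eq, List.cons.injEq,
          true_and]
        rw [← List.append_assoc, List.take_append_drop]⟩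
    have hdisj : ∀ v ∈ p :: post.take c₁, v ∉ q :: mid.take c₂ := by
      intro v hv hv'
      have hnd := aR.nodup
      rw [hs2, List.nodup_append] at hnd
      have h3 : v ∈ p :: post := by
        rw [List.mem_cons] at hv ⊢
        rcases hv with hv | hv
        · exact Or.inl hv
        · exact Or.inr (List.mem_of_mem_take hv)
      have h4 : v ∈ pre ++ q :: mid := by
        rw [List.mem_append, List.mem_cons]
        rw [List.mem_cons] at hv'
        rcases hv' with hv' | hv'
        · exact Or.inr (Or.inl hv')
        · exact Or.inr (Or.inr (List.mem_of_mem_take hv'))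
      exact hnd.2.2 v h4 v h3 rfl
    have := route2 (G := G) (x := x) (p := p) (q := q) (t₁ := post.take c₁) (t₂ := mid.take c₂)
      (B := insert x A) (chain_sub aR.chain hinf) (chain_sub aR.chain hinf')
      (aR.nodup.sublist hinf.sublist) (aR.nodup.sublist hinf'.sublist)
      hdisj
      (fun v hv => aR.adj v (hinf.subset hv)) (fun v hv => aR.adj v (hinf'.subset hv))
      (fun v hv => hRA R hR v (hinf.subset hv)) (fun v hv => hRA R hR v (hinf'.subset hv)) hxS
    simp only [List.length_cons, List.length_take] at this
    rwa [show min c₁ post.length + 1 + 1 + (min c₂ mid.length + 1) = L by omega] at this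
  refine ⟨X, w, ?_, ?_, ?_, ?_, ?_, ?_⟩
  · intro e he
    obtain ⟨R, hR, rfl⟩ := Finset.mem_image.mp he
    exact (hF.cover _).mpr ⟨R, hR, termOf_mem (hF.arm R hR).ne⟩
  · intro e he e' he'
    obtain ⟨R, hR, rfl⟩ := Finset.mem_image.mp he
    obtain ⟨R', hR', rfl⟩ := Finset.mem_image.mp he'
    exact hindep R hR R' hR'
  · intro e he
    obtain ⟨R, hR, rfl⟩ := Finset.mem_image.mp he
    rw [hw_eq R hR]
    exact List.length_pos_iff.mpr (hF.arm R hR).ne
  · intro v hv
    apply hw_zero
    intro R hR h
    exact hv (Finset.mem_image.mpr ⟨R, hR, h⟩)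
  · have h1 : ∑ e ∈ X, w e = ∑ R ∈ F, R.length :=
      Finset.sum_fiberwise_of_maps_to (fun R hR => Finset.mem_image_of_mem _ hR) _
    rw [h1]
    have h2 : A = F.biUnion List.toFinset := by
      ext v
      rw [hF.cover v, Finset.mem_biUnion]
      simp
    rw [h2, Finset.card_biUnion]
    · refine Finset.sum_congr rfl ?_
      intro R hR
      rw [List.toFinset_card_of_nodup (hF.arm R hR).nodup]
    · intro R hR R' hR' hne
      show Disjoint R.toFinset R'.toFinset
      rw [Finset.disjoint_left]
      intro v hv hv'
      exact hF.disj R hR R' hR' hne v (List.mem_toFinset.mp hv) (List.mem_toFinset.mp hv')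
  · intro p q hp hq hpq
    have hswap : ∀ p q, RP G (insert x A) q p (1 + pc x q + pc x p)
        (max (1 + pc x q + pc x p) (1 + w q + w p)) →
        RP G (insert x A) p q (1 + pc x p + pc x q)
        (max (1 + pc x p + pc x q) (1 + w p + w q)) := by
      intro p q h
      have := h.symm
      rwa [show 1 + pc x q + pc x p = 1 + pc x p + pc x q by omega,
        show 1 + w q + w p = 1 + w p + w q by omega] at this
    rcases Finset.mem_insert.mp hp with rfl | hp'
    · rcases Finset.mem_insert.mp hq with h | hq'
      · exact absurd h.symm hpq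
      · exact key1 q hq'
    · rcases Finset.mem_insert.mp hq with rfl | hq'
      · exact hswap _ _ (key1 p hp')
      · obtain ⟨R, hR, pre, post, hs⟩ := hstar p hp'
        obtain ⟨R', hR', pre', post', hs'⟩ := hstar q hq'
        by_cases hRR : R = R'
        · subst hRR
          -- order on the arm
          have hqR : q ∈ pre ++ p :: post := by
            rw [← hs, hs']; simp
          rw [List.mem_append, List.mem_cons] at hqR
          rcases hqR with h | h | h
          · obtain ⟨s, t, hst⟩ := List.append_of_mem h
            refine key3 p hp' q hq' R hR s t post ?_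
            rw [hs, hst]
            simp
          · exact absurd h.symm hpq
          · obtain ⟨s, t, hst⟩ := List.append_of_mem h
            refine hswap _ _ (key3 q hq' p hp' R hR pre s t ?_)
            rw [hs, hst]
        · exact key2 p hp' q hq' R hR R' hR' pre post pre' post' hRR hs hs'

end Vale.Agent.Lib.P048.E
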