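import Vale.Agent.Lib.P048.E2
import Vale.Agent.Lib.P048.C2

/-!
The situation of the core case: exactly `k a` vertices, no cycle of length `k + 1`, no clique `K_k`;
the star partition.
-/

namespace Vale.Agent.Lib.P048.E

open Finset

set_option linter.unusedSectionVars false
set_option linter.unusedVariables false

variable {V : Type*} [Fintype V] [DecidableEq V] {G : SimpleGraph V}

/-- What the induction gives for the core case. -/
structure Core (G : SimpleGraph V) (a k : ℕ) : Prop where
  hα : IndBd G a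
  hC : ¬ ∃ g, CycF G (k + 1) g
  hk : 2 * a + 1 ≤ k
  ha : 2 ≤ a
  hcard : Fintype.card V = k * a
  hslack : ∀ (S : Finset V) (b : ℕ), 1 ≤ b → b < a →
    (∀ s, s ⊆ S → b < s.card → ∃ x ∈ s, ∃ y ∈ s, G.Adj x y) → S.card < k * b

theorem mem_clN {I : Finset V} {y : V} : y ∈ clN G I ↔ y ∈ I ∨ ∃ x ∈ I, G.Adj x y := by
  classical
  simp only [clN, Finset.mem_filter, Finset.mem_univ, true_and]

theorem Core.exp {a k : ℕ} (h : Core G a k) {J : Finset V} (hJ : J.Nonempty)
    (hind : ∀ x ∈ J, ∀ y ∈ J, ¬ G.Adj x y) (hlt : J.card < a) : k * J.card + 1 ≤ (clN G J).card := by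
  classical
  have hpos : 1 ≤ J.card := Finset.card_pos.mpr hJ
  obtain ⟨b, hb⟩ : ∃ b, a = b + J.card := ⟨a - J.card, by omega⟩
  have hs := h.hslack (Finset.univ \ clN G J) b (by omega) (by omega) (by
    intro s hs hbs
    have hd : Disjoint J s := by
      rw [Finset.disjoint_left]
      intro x hx hxs
      have := hs hxs
      rw [Finset.mem_sdiff] at this
      exact this.2 (mem_clN.mpr (Or.inl hx))
    have hcard : a < (J ∪ s).card := by
      rw [Finset.card_union_of_disjoint hd]
      omega
    obtain ⟨x, hx, y, hy, hxy⟩ := h.hα _ hcard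
    have hnot : ∀ u ∈ J, ∀ v ∈ s, ¬ G.Adj u v := by
      intro u hu v hv huv
      have := hs hv
      rw [Finset.mem_sdiff] at this
      exact this.2 (mem_clN.mpr (Or.inr ⟨u, hu, huv⟩))
    rw [Finset.mem_union] at hx hy
    rcases hx with hx | hx <;> rcases hy with hy | hy
    · exact absurd hxy (hind x hx y hy)
    · exact absurd hxy (hnot x hx y hy)
    · exact absurd hxy.symm (hnot y hy x hx)
    · exact ⟨x, hx, y, hy, hxy⟩)
  have h1 : (Finset.univ \ clN G J).card + (clN G J).card = Fintype.card V := by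
    rw [Finset.card_sdiff_add_card_eq_card (Finset.subset_univ _), Finset.card_univ]
  rw [h.hcard] at h1
  have h2 : k * a = k * b + k * J.card := by rw [hb]; ring
  omega

/-- The star partition. -/
structure Stars (G : SimpleGraph V) (I : Finset V) (A : V → Finset V) (T : ℕ) : Prop where
  indep : ∀ x ∈ I, ∀ y ∈ I, ¬ G.Adj x y
  adj : ∀ x ∈ I, ∀ v ∈ A x, G.Adj x v
  card : ∀ x ∈ I, (A x).card = T
  disj : ∀ x ∈ I, ∀ y ∈ I, x ≠ y → Disjoint (A x) (A y)
  notI : ∀ x ∈ I, ∀ v ∈ A x, v ∉ I
  cover : ∀ v, v ∉ I → ∃ x ∈ I, v ∈ A x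

/-- An independent set of size exactly `a`; every vertex lies in its closed neighbourhood. -/
theorem Core.exists_max {a k : ℕ} (h : Core G a k) :
    ∃ I : Finset V, I.card = a ∧ (∀ x ∈ I, ∀ y ∈ I, ¬ G.Adj x y) ∧ clN G I = Finset.univ := by
  classical
  have hk1 : 1 ≤ k := by have := h.hk; omega
  have ha := h.ha
  have hex : ∃ s : Finset V, a - 1 < s.card ∧ ∀ x ∈ s, ∀ y ∈ s, ¬ G.Adj x y := by
    by_contra hno
    push Not at hno
    have := h.hslack Finset.univ (a - 1) (by omega) (by omega) (by
      intro s _ hs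
      exact hno s hs)
    rw [Finset.card_univ, h.hcard] at this
    have h3 : k * a = k * (a - 1) + k := by
      conv_lhs => rw [show a = (a - 1) + 1 by omega]
      ring
    omega
  obtain ⟨I, hI1, hI2⟩ := hex
  have hIa : I.card ≤ a := by
    by_contra hcon
    obtain ⟨x, hx, y, hy, hxy⟩ := h.hα I (by omega)
    exact hI2 x hx y hy hxy
  refine ⟨I, by omega, hI2, ?_⟩
  ext v
  simp only [Finset.mem_univ, iff_true]
  by_contra hv
  rw [mem_clN, not_or] at hv
  have hcard : a < (insert v I).card := by
    rw [Finset.card_insert_of_notMem hv.1]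
    omega
  obtain ⟨x, hx, y, hy, hxy⟩ := h.hα _ hcard
  rw [Finset.mem_insert] at hx hy
  push Not at hv
  rcases hx with rfl | hx <;> rcases hy with rfl | hy
  · exact G.loopless.irrefl _ hxy
  · exact hv.2 y hy hxy.symm
  · exact hv.2 x hx hxy
  · exact hI2 x hx y hy hxy

/-- The star partition exists. -/
theorem Core.exists_stars {a k : ℕ} (h : Core G a k) :
    ∃ (I : Finset V) (A : V → Finset V), I.card = a ∧ Stars G I A (k - 1) := by
  classical
  obtain ⟨I, hIc, hIi, hIu⟩ := h.exists_max
  have hk1 : 1 ≤ k := by have := h.hk; omega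
  obtain ⟨T, hT⟩ : ∃ T, k = T + 1 := ⟨k - 1, by omega⟩
  let t : ↥I × Fin T → Finset V := fun p => Finset.univ.filter (fun v => G.Adj p.1.1 v)
  have hall : ∀ s : Finset (↥I × Fin T), s.card ≤ (s.biUnion t).card := by
    intro s
    let Y : Finset V := s.image (fun p => p.1.1)
    have hYI : Y ⊆ I := by
      intro v hv
      obtain ⟨p, _, rfl⟩ := Finset.mem_image.mp hv
      exact p.1.2
    have h1 : s.card ≤ Y.card * T := by
      let Y' : Finset ↥I := s.image (fun p => p.1)
      have hs : s ⊆ Y' ×ˢ Finset.univ := by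
        intro p hp
        exact Finset.mem_product.mpr ⟨Finset.mem_image_of_mem _ hp, Finset.mem_univ _⟩
      have h2 := Finset.card_le_card hs
      rw [Finset.card_product, Finset.card_univ, Fintype.card_fin] at h2
      have h3 : Y'.card ≤ Y.card := by
        have : Y = Y'.image Subtype.val := by
          ext v
          simp only [Y, Y', Finset.mem_image, Prod.exists]
          constructor
          · rintro ⟨x, i, hp, rfl⟩
            exact ⟨x, ⟨x, i, hp, rfl⟩, rfl⟩
          · rintro ⟨x, ⟨x', i, hp, rfl⟩, rfl⟩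
            exact ⟨x', i, hp, rfl⟩
        rw [this, Finset.card_image_of_injective _ Subtype.val_injective]
      calc s.card ≤ Y'.card * T := h2
        _ ≤ Y.card * T := Nat.mul_le_mul_right _ h3
    by_cases hY0 : Y.Nonempty
    · -- neighbours of `Y` are in the union
      have hcov : clN G Y ⊆ Y ∪ s.biUnion t := by
        intro v hv
        rcases mem_clN.mp hv with hv | ⟨x, hx, hxv⟩
        · exact Finset.mem_union_left _ hv
        · obtain ⟨p, hp, rfl⟩ := Finset.mem_image.mp hx
          refine Finset.mem_union_right _ (Finset.mem_biUnion.mpr ⟨p, hp, ?_⟩)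
          simp only [t, Finset.mem_filter, Finset.mem_univ, true_and]
          exact hxv
      have hc := Finset.card_le_card hcov
      have hc2 := Finset.card_union_le Y (s.biUnion t)
      have hYle : Y.card ≤ a := by
        rw [← hIc]
        exact Finset.card_le_card hYI
      by_cases hlt : Y.card < a
      · have := h.exp hY0 (fun x hx y hy => hIi x (hYI hx) y (hYI hy)) hlt
        rw [hT] at this
        have h5 : (T + 1) * Y.card = Y.card * T + Y.card := by ring
        omega
      · have hYeq : Y = I := Finset.eq_of_subset_of_card_le hYI (by omega)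
        rw [hYeq, hIu, Finset.card_univ, h.hcard, hT] at hc
        rw [hYeq] at hc2
        have h5 : (T + 1) * a = I.card * T + I.card := by rw [hIc]; ring
        rw [hYeq] at h1
        omega
    · have : Y = ∅ := Finset.not_nonempty_iff_eq_empty.mp hY0
      rw [this, Finset.card_empty] at h1
      omega
  obtain ⟨φ, hφi, hφm⟩ := (Finset.all_card_le_biUnion_card_iff_exists_injective t).mp hall
  have hφadj : ∀ p, G.Adj p.1.1 (φ p) := by
    intro p
    have := hφm p
    simpa [t] using this
  let A : V → Finset V := fun x => Finset.univ.filter (fun v => ∃ (hx : x ∈ I) (i : Fin T), φ (⟨x, hx⟩, i) = v)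
  have hAmem : ∀ x v, v ∈ A x ↔ ∃ (hx : x ∈ I) (i : Fin T), φ (⟨x, hx⟩, i) = v := by
    intro x v
    simp [A]
  have hnotI : ∀ x ∈ I, ∀ v ∈ A x, v ∉ I := by
    intro x hx v hv hvI
    obtain ⟨hx', i, rfl⟩ := (hAmem x v).mp hv
    exact hIi x hx _ hvI (hφadj (⟨x, hx'⟩, i))
  have hcardA : ∀ x ∈ I, (A x).card = T := by
    intro x hx
    have : A x = Finset.univ.image (fun i : Fin T => φ (⟨x, hx⟩, i)) := by
      ext v
      rw [hAmem]
      simp only [Finset.mem_image, Finset.mem_univ, true_and]
      constructor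
      · rintro ⟨_, i, rfl⟩
        exact ⟨i, rfl⟩
      · rintro ⟨i, rfl⟩
        exact ⟨hx, i, rfl⟩
    rw [this, Finset.card_image_of_injective, Finset.card_univ, Fintype.card_fin]
    intro i j hij
    have := hφi hij
    simpa using this
  have hdisjA : ∀ x ∈ I, ∀ y ∈ I, x ≠ y → Disjoint (A x) (A y) := by
    intro x hx y hy hne
    rw [Finset.disjoint_left]
    intro v hv hv'
    obtain ⟨hx', i, rfl⟩ := (hAmem x v).mp hv
    obtain ⟨hy', j, hj⟩ := (hAmem y _).mp hv'
    have := hφi hj
    simp only [Prod.mk.injEq, Subtype.mk.injEq] at this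
    exact hne this.1.symm
  refine ⟨I, A, hIc, hIi, ?_, fun x hx => by rw [hcardA x hx]; omega, hdisjA, hnotI, ?_⟩
  · intro x hx v hv
    obtain ⟨hx', i, rfl⟩ := (hAmem x v).mp hv
    exact hφadj (⟨x, hx'⟩, i)
  · -- by counting
    have hU : I.biUnion A = Finset.univ \ I := by
      apply Finset.eq_of_subset_of_card_le
      · intro v hv
        obtain ⟨x, hx, hvx⟩ := Finset.mem_biUnion.mp hv
        exact Finset.mem_sdiff.mpr ⟨Finset.mem_univ _, hnotI x hx v hvx⟩
      · rw [Finset.card_biUnion (fun x hx y hy hne => hdisjA x hx y hy hne)]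
        rw [Finset.sum_congr rfl hcardA, Finset.sum_const, smul_eq_mul, hIc]
        have h1 := Finset.card_sdiff_add_card_eq_card (Finset.subset_univ I)
        rw [Finset.card_univ, h.hcard, hIc, hT] at h1
        have h5 : (T + 1) * a = a * T + a := by ring
        omega
    intro v hv
    have : v ∈ I.biUnion A := by
      rw [hU]
      exact Finset.mem_sdiff.mpr ⟨Finset.mem_univ _, hv⟩
    obtain ⟨x, hx, hvx⟩ := Finset.mem_biUnion.mp this
    exact ⟨x, hx, hvx⟩

end Vale.Agent.Lib.P048.E
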