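import Mathlib

/-!
A weighted form of the Erdős–Gallai path lemma (in the spirit of Bondy–Fan).
-/

namespace Vale.Agent.Lib.P048.E

set_option linter.unusedSectionVars false
set_option linter.unusedVariables false

open Finset

variable {α : Type*} [DecidableEq α]

/-- Every proper nonempty part of `S` has an edge leaving it inside `S`. -/
def Conn (E : α → α → Prop) (S : Finset α) : Prop :=
  ∀ P, P ⊆ S → P.Nonempty → P ≠ S → ∃ u ∈ P, ∃ v ∈ S \ P, E u v

theorem Conn.mono {E E' : α → α → Prop} {S : Finset α} (h : Conn E S) (hE : ∀ u v, E u v → E' u v) :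
    Conn E' S := by
  intro P h1 h2 h3
  obtain ⟨u, hu, v, hv, huv⟩ := h P h1 h2 h3
  exact ⟨u, hu, v, hv, hE _ _ huv⟩

/-- The weight of a path. -/
def pw (w : α → α → ℕ) : List α → ℕ
  | [] => 0
  | [_] => 0
  | a :: b :: l => w a b + pw w (b :: l)

/-- A path from `a` to `b` inside `S`. -/
def IsP (E : α → α → Prop) (S : Finset α) (a b : α) (l : List α) : Prop :=
  l.head? = some a ∧ l.getLast? = some b ∧ l.IsChain E ∧ l.Nodup ∧ ∀ v ∈ l, v ∈ S

theorem pw_append (w : α → α → ℕ) : ∀ (l : List α) (b : α) (t : List α), l.getLast? = some b →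
    pw w (l ++ t) = pw w l + pw w (b :: t)
  | [], b, t, h => by simp at h
  | [x], b, t, h => by
    simp at h
    subst h
    simp [pw]
  | x :: y :: r, b, t, h => by
    have h' : (y :: r).getLast? = some b := by
      rw [List.getLast?_cons_cons] at h
      exact h
    have := pw_append w (y :: r) b t h'
    simp only [List.cons_append, pw] at this ⊢
    omega

theorem IsP.single {E : α → α → Prop} {S : Finset α} {a : α} (h : a ∈ S) : IsP E S a a [a] := by
  refine ⟨rfl, rfl, List.isChain_singleton _, List.nodup_singleton _, ?_⟩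
  intro v hv
  rw [List.mem_singleton] at hv
  rw [hv]
  exact h

theorem IsP.mono {E : α → α → Prop} {S S' : Finset α} {a b : α} {l : List α} (h : IsP E S a b l)
    (hS : S ⊆ S') : IsP E S' a b l :=
  ⟨h.1, h.2.1, h.2.2.1, h.2.2.2.1, fun v hv => hS (h.2.2.2.2 v hv)⟩

theorem IsP.cons {E : α → α → Prop} {S : Finset α} {x a b : α} {l : List α} (h : IsP E S a b l)
    (hx : x ∉ l) (hxS : x ∈ S) (hE : E x a) : IsP E S x b (x :: l) := by
  obtain ⟨h1, h2, h3, h4, h5⟩ := h
  cases l with
  | nil => simp at h1
  | cons c t =>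
    simp only [List.head?_cons, Option.some.injEq] at h1
    subst h1
    refine ⟨rfl, ?_, ?_, ?_, ?_⟩
    · rw [List.getLast?_cons_cons]
      exact h2
    · exact List.isChain_cons_cons.mpr ⟨hE, h3⟩
    · exact List.nodup_cons.mpr ⟨hx, h4⟩
    · intro v hv
      rw [List.mem_cons] at hv
      rcases hv with rfl | hv
      · exact hxS
      · exact h5 v hv

theorem pw_cons (w : α → α → ℕ) {x a : α} {l : List α} (h : l.head? = some a) :
    pw w (x :: l) = w x a + pw w l := by
  cases l with
  | nil => simp at h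
  | cons c t =>
    simp only [List.head?_cons, Option.some.injEq] at h
    subst h
    rfl

theorem IsP.join {E : α → α → Prop} {S₁ S₂ : Finset α} {a b c : α} {l₁ l₂ : List α}
    (h₁ : IsP E S₁ a b l₁) (h₂ : IsP E S₂ b c l₂) (hd : ∀ v, v ∈ l₁ → v ∈ l₂ → v = b)
    (w : α → α → ℕ) : ∃ l, IsP E (S₁ ∪ S₂) a c l ∧ pw w l = pw w l₁ + pw w l₂ := by
  obtain ⟨a1, a2, a3, a4, a5⟩ := h₁
  obtain ⟨b1, b2, b3, b4, b5⟩ := h₂
  cases l₂ with
  | nil => simp at b1
  | cons d t =>
    simp only [List.head?_cons, Option.some.injEq] at b1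
    subst b1
    have hne : l₁ ≠ [] := by
      intro h
      rw [h] at a1
      simp at a1
    refine ⟨l₁ ++ t, ⟨?_, ?_, ?_, ?_, ?_⟩, pw_append w l₁ d t a2⟩
    · rw [List.head?_append_of_ne_nil _ hne]
      exact a1
    · cases t with
      | nil =>
        simp only [List.append_nil]
        simp at b2
        subst b2
        exact a2
      | cons e r =>
        rw [List.getLast?_append_of_ne_nil _ (by simp)]
        rw [List.getLast?_cons_cons] at b2
        exact b2
    · cases t with
      | nil => simpa using a3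
      | cons e r =>
        refine List.IsChain.append a3 (List.isChain_cons_cons.mp b3).2 ?_
        intro x hx y hy
        rw [a2] at hx
        simp at hx hy
        subst hx
        subst hy
        exact (List.isChain_cons_cons.mp b3).1
    · rw [List.nodup_append]
      refine ⟨a4, (List.nodup_cons.mp b4).2, ?_⟩
      intro x hx y hy hxy
      subst hxy
      have := hd x hx (List.mem_cons_of_mem _ hy)
      subst this
      exact (List.nodup_cons.mp b4).1 hy
    · intro v hv
      rw [List.mem_append] at hv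
      rcases hv with hv | hv
      · exact Finset.mem_union_left _ (a5 v hv)
      · exact Finset.mem_union_right _ (b5 v (List.mem_cons_of_mem _ hv))

/-- In a connected set any two vertices are joined by a path (list version). -/
theorem Conn.path {E : α → α → Prop} {S : Finset α} (h : Conn E S) {a b : α} (ha : a ∈ S)
    (hb : b ∈ S) : ∃ l : List α, IsP E S a b l := by
  classical
  let R := S.filter (fun v => ∃ l, IsP E S a v l)
  have haR : a ∈ R := by
    simp only [R, Finset.mem_filter]
    exact ⟨ha, [a], IsP.single ha⟩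
  have hRS : R = S := by
    by_contra hne
    obtain ⟨u, hu, v, hv, huv⟩ := h R (Finset.filter_subset _ _) ⟨a, haR⟩ hne
    simp only [R, Finset.mem_filter, Finset.mem_sdiff, not_and, not_exists] at hu hv
    obtain ⟨hu1, l, hl⟩ := hu
    obtain ⟨hv1, hv2⟩ := hv
    by_cases hvl : v ∈ l
    · obtain ⟨l₁, l₂, hsplit⟩ := List.append_of_mem hvl
      apply hv2 hv1 (l₁ ++ [v])
      obtain ⟨h1, h2, h3, h4, h5⟩ := hl
      subst hsplit
      refine ⟨?_, ?_, ?_, ?_, ?_⟩
      · cases l₁ with
        | nil => simpa using h1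
        | cons x t => simpa using h1
      · simp
      · have : (l₁ ++ [v] ++ l₂).IsChain E := by simpa using h3
        exact this.left_of_append
      · have : (l₁ ++ [v] ++ l₂).Nodup := by simpa using h4
        exact List.Nodup.of_append_left this
      · intro x hx
        apply h5
        simp only [List.mem_append, List.mem_singleton] at hx
        simp only [List.mem_append, List.mem_cons]
        tauto
    · apply hv2 hv1 (l ++ [v])
      obtain ⟨h1, h2, h3, h4, h5⟩ := hl
      have hne : l ≠ [] := by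
        intro h
        rw [h] at h1
        simp at h1
      refine ⟨?_, ?_, ?_, ?_, ?_⟩
      · rw [List.head?_append_of_ne_nil _ hne]
        exact h1
      · simp
      · refine List.IsChain.append h3 (List.isChain_singleton _) ?_
        intro x hx y hy
        rw [h2] at hx
        simp at hx hy
        subst hx
        subst hy
        exact huv
      · rw [List.nodup_append]
        refine ⟨h4, List.nodup_singleton _, ?_⟩
        intro x hx y hy hxy
        simp at hy
        subst hy
        subst hxy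
        exact hvl hx
      · intro x hx
        rw [List.mem_append, List.mem_singleton] at hx
        rcases hx with hx | rfl
        · exact h5 x hx
        · exact hv1
  have : b ∈ R := by rw [hRS]; exact hb
  simp only [R, Finset.mem_filter] at this
  exact this.2

/-- Weighted Erdős–Gallai.  Let `S` with the edge `xy` added stay connected after deleting any
vertex, and let all vertices other than `x, y` have weighted degree at least `d`, where at least one
such vertex exists.  Then there is an `x`–`y` path of weight at least `d`. -/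
theorem eg {E : α → α → Prop} (hs : ∀ u v, E u v → E v u) {w : α → α → ℕ}
    (hws : ∀ u v, w u v = w v u) (hwE : ∀ u v, 0 < w u v → E u v) (hwl : ∀ u, w u u = 0) :
    ∀ (n : ℕ) (S : Finset α) (x y : α), S.card = n → x ∈ S → y ∈ S → x ≠ y →
      (∀ c ∈ S, Conn (fun u v => E u v ∨ (u = x ∧ v = y) ∨ (u = y ∧ v = x)) (S.erase c)) →
      ∀ d : ℕ, (∀ v ∈ S, v ≠ x → v ≠ y → d ≤ ∑ u ∈ S, w v u) →
      (∃ v ∈ S, v ≠ x ∧ v ≠ y) →
      ∃ l : List α, IsP E S x y l ∧ d ≤ pw w l := by
  classical
  intro n
  induction n using Nat.strong_induction_on with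
  | _ n ih =>
  intro S x y hcard hx hy hxy h2 d hW hthird
  set S' := S.erase x with hS'
  have hyS' : y ∈ S' := Finset.mem_erase.mpr ⟨hxy.symm, hy⟩
  have hconnS' : Conn E S' := by
    intro P h1 h3 h4
    obtain ⟨u, hu, v, hv, huv⟩ := h2 x hx P h1 h3 h4
    refine ⟨u, hu, v, hv, ?_⟩
    have hu' := h1 hu
    have hv' := (Finset.mem_sdiff.mp hv).1
    have hux : u ≠ x := (Finset.mem_erase.mp hu').1
    have hvx : v ≠ x := (Finset.mem_erase.mp hv').1
    rcases huv with h | ⟨h, _⟩ | ⟨_, h⟩
    · exact h
    · exact absurd h hux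
    · exact absurd h hvx
  -- the family of separated parts
  let Fam : α → Finset α → Prop := fun c A => c ∈ S' ∧ A ⊆ S'.erase c ∧ A.Nonempty ∧ y ∉ A ∧
    ∀ u ∈ A, ∀ v ∈ S', v ≠ c → v ∉ A → ¬ E u v
  have hF0 : ∃ m, ∃ c A, Fam c A ∧ A.card = m := by
    refine ⟨_, y, S'.erase y, ⟨hyS', Finset.Subset.refl _, ?_, ?_, ?_⟩, rfl⟩
    · obtain ⟨v, hv, hvx, hvy⟩ := hthird
      exact ⟨v, Finset.mem_erase.mpr ⟨hvy, Finset.mem_erase.mpr ⟨hvx, hv⟩⟩⟩
    · simp
    · intro u _ v hv hvy hvA
      exact absurd (Finset.mem_erase.mpr ⟨hvy, hv⟩) hvA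
  obtain ⟨c, A, hFam, hAm⟩ := Nat.find_spec hF0
  have hmin : ∀ c' A', Fam c' A' → A.card ≤ A'.card := by
    intro c' A' hF
    rw [hAm]
    exact Nat.find_min' hF0 ⟨c', A', hF, rfl⟩
  obtain ⟨hcS', hAsub, hAne, hyA, hAsep⟩ := hFam
  have hAS' : A ⊆ S' := fun v hv => (Finset.mem_erase.mp (hAsub hv)).2
  have hcA : c ∉ A := fun h => (Finset.mem_erase.mp (hAsub h)).1 rfl
  have hxA : x ∉ A := fun h => (Finset.mem_erase.mp (hAS' h)).1 rfl
  have hcS : c ∈ S := (Finset.mem_erase.mp hcS').2
  have hcx : c ≠ x := (Finset.mem_erase.mp hcS').1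
  have hAS : ∀ v ∈ A, v ∈ S ∧ v ≠ x ∧ v ≠ y ∧ v ≠ c := by
    intro v hv
    have h1 := Finset.mem_erase.mp (hAS' hv)
    refine ⟨h1.2, h1.1, ?_, ?_⟩
    · rintro rfl; exact hyA hv
    · rintro rfl; exact hcA hv
  -- `x` has a neighbour in `A`
  have hxnbr : ∃ u ∈ A, E u x := by
    have hsub : A ⊆ S.erase c := by
      intro v hv
      have := hAS v hv
      exact Finset.mem_erase.mpr ⟨this.2.2.2, this.1⟩
    have hne : A ≠ S.erase c := by
      intro h
      apply hxA
      rw [h]
      exact Finset.mem_erase.mpr ⟨hcx.symm, hx⟩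
    obtain ⟨u, hu, v, hv, huv⟩ := h2 c hcS A hsub hAne hne
    have huA := hAS u hu
    rcases huv with h | ⟨h, _⟩ | ⟨h, _⟩
    · refine ⟨u, hu, ?_⟩
      by_cases hvx : v = x
      · rw [← hvx]; exact h
      · exfalso
        have hv' := Finset.mem_sdiff.mp hv
        have hv'' := Finset.mem_erase.mp hv'.1
        exact hAsep u hu v (Finset.mem_erase.mpr ⟨hvx, hv''.2⟩) hv''.1 hv'.2 h
    · exact absurd h huA.2.1
    · exact absurd h huA.2.2.1
  -- `A` is connected
  have hAconn : Conn E A := by
    intro P h1 h3 h4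
    by_contra hno
    push Not at hno
    have hF : Fam c P := by
      refine ⟨hcS', fun v hv => hAsub (h1 hv), h3, fun h => hyA (h1 h), ?_⟩
      intro u hu v hv hvc hvP
      by_cases hvA : v ∈ A
      · exact hno u hu v (Finset.mem_sdiff.mpr ⟨hvA, hvP⟩)
      · exact hAsep u (h1 hu) v hv hvc hvA
    have h5 := hmin c P hF
    have h6 := Finset.card_lt_card (Finset.ssubset_iff_subset_ne.mpr ⟨h1, h4⟩)
    omega
  -- deleting a vertex of `A` from `A + c` keeps it connected
  have hKconn : ∀ c' ∈ A, Conn E ((insert c A).erase c') := by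
    intro c' hc'
    have key : ∀ P₀, P₀ ⊆ A.erase c' → P₀.Nonempty →
        (∀ u ∈ P₀, ∀ v ∈ (insert c A).erase c', v ∉ P₀ → ¬ E u v) → False := by
      intro P₀ h1 h3 h4
      have hP₀A : P₀ ⊆ A := fun v hv => (Finset.mem_erase.mp (h1 hv)).2
      have hF : Fam c' P₀ := by
        refine ⟨hAS' hc', ?_, h3, fun h => hyA (hP₀A h), ?_⟩
        · intro v hv
          have := Finset.mem_erase.mp (h1 hv)
          exact Finset.mem_erase.mpr ⟨this.1, hAS' this.2⟩
        · intro u hu v hv hvc hvP
          by_cases hvK : v ∈ insert c A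
          · exact h4 u hu v (Finset.mem_erase.mpr ⟨hvc, hvK⟩) hvP
          · rw [Finset.mem_insert, not_or] at hvK
            exact hAsep u (hP₀A hu) v hv hvK.1 hvK.2
      have h5 := hmin c' P₀ hF
      have h6 := Finset.card_le_card h1
      have h7 := Finset.card_erase_lt_of_mem hc'
      omega
    intro P h1 h3 h4
    by_contra hno
    push Not at hno
    by_cases hcP : c ∈ P
    · -- use the complement
      set Q := (insert c A).erase c' \ P with hQ
      have hQne : Q.Nonempty := by
        by_contra hemp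
        rw [Finset.not_nonempty_iff_eq_empty, hQ, Finset.sdiff_eq_empty_iff_subset] at hemp
        exact h4 (Finset.Subset.antisymm h1 hemp)
      refine key Q ?_ hQne ?_
      · intro v hv
        have hv' := Finset.mem_sdiff.mp hv
        have hv'' := Finset.mem_erase.mp hv'.1
        rcases Finset.mem_insert.mp hv''.2 with h | h
        · exact absurd (h ▸ hcP) hv'.2
        · exact Finset.mem_erase.mpr ⟨hv''.1, h⟩
      · intro u hu v hv hvQ huv
        have hvP : v ∈ P := by
          by_contra hvP
          exact hvQ (Finset.mem_sdiff.mpr ⟨hv, hvP⟩)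
        exact hno v hvP u hu (hs _ _ huv)
    · refine key P ?_ h3 ?_
      · intro v hv
        have hv' := Finset.mem_erase.mp (h1 hv)
        rcases Finset.mem_insert.mp hv'.2 with h | h
        · exact absurd (h ▸ hv) hcP
        · exact Finset.mem_erase.mpr ⟨hv'.1, h⟩
      · intro u hu v hv hvP
        exact hno u hu v (Finset.mem_sdiff.mpr ⟨hv, hvP⟩)
  -- the rest is connected
  have hRconn : Conn E (S' \ A) := by
    have key : ∀ P₀, P₀ ⊆ S' \ A → P₀.Nonempty → c ∉ P₀ →
        (∀ u ∈ P₀, ∀ v ∈ S' \ A, v ∉ P₀ → ¬ E u v) → False := by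
      intro P₀ h1 h3 h5 h4
      have hsub : P₀ ⊆ S' := fun v hv => (Finset.mem_sdiff.mp (h1 hv)).1
      have hne : P₀ ≠ S' := by
        intro h
        apply h5
        rw [h]
        exact hcS'
      obtain ⟨u, hu, v, hv, huv⟩ := hconnS' P₀ hsub h3 hne
      have hv' := Finset.mem_sdiff.mp hv
      by_cases hvA : v ∈ A
      · have hu' := Finset.mem_sdiff.mp (h1 hu)
        refine hAsep v hvA u hu'.1 ?_ hu'.2 (hs _ _ huv)
        rintro rfl
        exact h5 hu
      · exact h4 u hu v (Finset.mem_sdiff.mpr ⟨hv'.1, hvA⟩) hv'.2 huv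
    intro P h1 h3 h4
    by_contra hno
    push Not at hno
    by_cases hcP : c ∈ P
    · set Q := (S' \ A) \ P with hQ
      have hQne : Q.Nonempty := by
        by_contra hemp
        rw [Finset.not_nonempty_iff_eq_empty, hQ, Finset.sdiff_eq_empty_iff_subset] at hemp
        exact h4 (Finset.Subset.antisymm h1 hemp)
      refine key Q (Finset.sdiff_subset) hQne ?_ ?_
      · intro h
        exact (Finset.mem_sdiff.mp h).2 hcP
      · intro u hu v hv hvQ huv
        have hvP : v ∈ P := by
          by_contra hvP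
          exact hvQ (Finset.mem_sdiff.mpr ⟨hv, hvP⟩)
        exact hno v hvP u hu (hs _ _ huv)
    · refine key P h1 h3 hcP ?_
      intro u hu v hv hvP
      exact hno u hu v (Finset.mem_sdiff.mpr ⟨hv, hvP⟩)
  obtain ⟨l₂, hl₂⟩ := hRconn.path (Finset.mem_sdiff.mpr ⟨hcS', hcA⟩)
    (Finset.mem_sdiff.mpr ⟨hyS', hyA⟩)
  -- the best neighbour of `x` in `A`
  have hfne : (A.filter (fun u => E u x)).Nonempty := by
    obtain ⟨u, hu, h⟩ := hxnbr
    exact ⟨u, Finset.mem_filter.mpr ⟨hu, h⟩⟩
  obtain ⟨z, hz, hzmax⟩ := Finset.exists_max_image _ (fun u => w x u) hfne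
  obtain ⟨hzA, hzx⟩ := Finset.mem_filter.mp hz
  have hwmax : ∀ v ∈ A, w x v ≤ w x z := by
    intro v hv
    by_cases hvx : E v x
    · exact hzmax v (Finset.mem_filter.mpr ⟨hv, hvx⟩)
    · have : w x v = 0 := by
        by_contra hne
        exact hvx (hs _ _ (hwE x v (by omega)))
      omega
  -- the degree splits
  have hsplit : ∀ v ∈ A, ∑ u ∈ S, w v u = w v x + ∑ u ∈ insert c A, w v u := by
    intro v hv
    have hsub : insert x (insert c A) ⊆ S := by
      intro u hu
      rw [Finset.mem_insert, Finset.mem_insert] at hu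
      rcases hu with rfl | rfl | hu
      · exact hx
      · exact hcS
      · exact (hAS u hu).1
    rw [← Finset.sum_subset hsub]
    · rw [Finset.sum_insert]
      rw [Finset.mem_insert, not_or]
      exact ⟨hcx.symm, hxA⟩
    · intro u hu hu'
      rw [Finset.mem_insert, Finset.mem_insert, not_or, not_or] at hu'
      by_contra hne
      have hE : E v u := hwE v u (by omega)
      exact hAsep v hv u (Finset.mem_erase.mpr ⟨hu'.1, hu⟩) hu'.2.1 hu'.2.2 hE
  have hzS := hAS z hzA
  -- the rest of the path avoids `A` and `x`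
  obtain ⟨b1, b2, b3, b4, b5⟩ := id hl₂
  have hl₂A : ∀ v ∈ l₂, v ∉ A ∧ v ≠ x := by
    intro v hv
    have := Finset.mem_sdiff.mp (b5 v hv)
    exact ⟨this.2, (Finset.mem_erase.mp this.1).1⟩
  have hl₂S : ∀ v ∈ l₂, v ∈ S := fun v hv =>
    (Finset.mem_erase.mp (Finset.mem_sdiff.mp (b5 v hv)).1).2
  by_cases hA1 : A.erase z = ∅
  · -- `A = {z}`
    have hAz : A = {z} := by
      ext v
      rw [Finset.mem_singleton]
      constructor
      · intro hv
        by_contra hvz
        have : v ∈ A.erase z := Finset.mem_erase.mpr ⟨hvz, hv⟩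
        rw [hA1] at this
        simp at this
      · rintro rfl; exact hzA
    have hzc : E z c := by
      have hP : ({z} : Finset α) ⊆ S' := by
        intro v hv
        rw [Finset.mem_singleton] at hv
        rw [hv]
        exact hAS' hzA
      have hne : ({z} : Finset α) ≠ S' := by
        intro h
        rw [← h, Finset.mem_singleton] at hyS'
        exact hzS.2.2.1 hyS'.symm
      obtain ⟨u, hu, v, hv, huv⟩ := hconnS' {z} hP ⟨z, by simp⟩ hne
      rw [Finset.mem_singleton] at hu
      subst hu
      have hv' := Finset.mem_sdiff.mp hv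
      by_cases hvc : v = c
      · rw [← hvc]; exact huv
      · exfalso
        refine hAsep u hzA v hv'.1 hvc ?_ huv
        rw [hAz]
        exact hv'.2
    have hdeg := hW z hzS.1 hzS.2.1 hzS.2.2.1
    rw [hsplit z hzA, hAz, Finset.sum_insert (by simpa [hAz] using hcA), Finset.sum_singleton,
      hwl z] at hdeg
    have hzl : z ∉ l₂ := fun h => (hl₂A z h).1 hzA
    have hP1 : IsP E S z y (z :: l₂) :=
      (hl₂.mono (fun v hv => (Finset.mem_erase.mp (Finset.mem_sdiff.mp hv).1).2)).cons hzl hzS.1 hzc
    have hxl : x ∉ z :: l₂ := by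
      intro h
      rw [List.mem_cons] at h
      rcases h with h | h
      · exact hzS.2.1 h.symm
      · exact (hl₂A x h).2 rfl
    refine ⟨x :: z :: l₂, hP1.cons hxl hx (hs _ _ hzx), ?_⟩
    rw [pw_cons w (a := z) rfl, pw_cons w (a := c) (l := l₂) b1, hws x z]
    omega
  · -- recursion into `A + c`
    have hKsub : insert c A ⊆ S.erase x := by
      intro v hv
      rw [Finset.mem_insert] at hv
      rcases hv with rfl | hv
      · exact hcS'
      · exact hAS' hv
    have hKcard : (insert c A).card < n := by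
      have h1 := Finset.card_le_card hKsub
      have h2 := Finset.card_erase_lt_of_mem hx
      omega
    have hz' : z ∈ insert c A := Finset.mem_insert_of_mem hzA
    have hc' : c ∈ insert c A := Finset.mem_insert_self _ _
    have h2' : ∀ c' ∈ insert c A,
        Conn (fun u v => E u v ∨ (u = z ∧ v = c) ∨ (u = c ∧ v = z)) ((insert c A).erase c') := by
      intro c' hc1
      rcases Finset.mem_insert.mp hc1 with rfl | hc2
      · rw [Finset.erase_insert hcA]
        exact hAconn.mono (fun u v h => Or.inl h)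
      · exact (hKconn c' hc2).mono (fun u v h => Or.inl h)
    have hW' : ∀ v ∈ insert c A, v ≠ z → v ≠ c → d - w x z ≤ ∑ u ∈ insert c A, w v u := by
      intro v hv hvz hvc
      have hvA : v ∈ A := by
        rcases Finset.mem_insert.mp hv with h | h
        · exact absurd h hvc
        · exact h
      have hvS := hAS v hvA
      have h1 := hW v hvS.1 hvS.2.1 hvS.2.2.1
      rw [hsplit v hvA, hws v x] at h1
      have h3 := hwmax v hvA
      omega
    have hthird' : ∃ v ∈ insert c A, v ≠ z ∧ v ≠ c := by
      rw [← Ne, ← Finset.nonempty_iff_ne_empty] at hA1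
      obtain ⟨v, hv⟩ := hA1
      have hv' := Finset.mem_erase.mp hv
      exact ⟨v, Finset.mem_insert_of_mem hv'.2, hv'.1, (hAS v hv'.2).2.2.2⟩
    obtain ⟨l₁, hl₁, hl₁w⟩ := ih _ hKcard (insert c A) z c rfl hz' hc' hzS.2.2.2 h2' (d - w x z)
      hW' hthird'
    have hd : ∀ v, v ∈ l₁ → v ∈ l₂ → v = c := by
      intro v hv1 hv2
      have h1 := hl₁.2.2.2.2 v hv1
      rcases Finset.mem_insert.mp h1 with h | h
      · exact h
      · exact absurd h (hl₂A v hv2).1
    obtain ⟨l, hl, hlw⟩ := IsP.join hl₁ hl₂ hd w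
    have hlS : IsP E S z y l := by
      refine hl.mono ?_
      intro v hv
      rcases Finset.mem_union.mp hv with h | h
      · rcases Finset.mem_insert.mp h with h | h
        · rw [h]; exact hcS
        · exact (hAS v h).1
      · exact (Finset.mem_erase.mp (Finset.mem_sdiff.mp h).1).2
    have hxl : x ∉ l := by
      intro h
      have h3 := hl.2.2.2.2 x h
      rcases Finset.mem_union.mp h3 with h | h
      · rcases Finset.mem_insert.mp h with h | h
        · exact hcx h.symm
        · exact hxA h
      · exact (Finset.mem_erase.mp (Finset.mem_sdiff.mp h).1).1 rfl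
    refine ⟨x :: l, hlS.cons hxl hx (hs _ _ hzx), ?_⟩
    rw [pw_cons w (a := z) hlS.1, hlw]
    omega

end Vale.Agent.Lib.P048.E
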