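import Vale.Agent.Lib.P048.E3
import Vale.Agent.Lib.P048.EG

/-!
The full structure of the core case: stars with arms, the hub of a vertex, expansion in terms of stars,
connectivity outside a star, and at least three arms at each hub.
-/

namespace Vale.Agent.Lib.P048.E

open Finset

set_option linter.unusedSectionVars false
set_option linter.unusedVariables false

variable {V : Type*} [Fintype V] [DecidableEq V] {G : SimpleGraph V}

/-- The weight of a pass through a star between two ports. -/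
def pii (w : V → ℕ) (p q : V) : ℕ := if p = q then 0 else w p + w q

omit [Fintype V] in
theorem pii_lb {w : V → ℕ} {p q : V} (h : p ≠ q) : w p + w q ≤ pii w p q := by
  simp [pii, h]

omit [Fintype V] in
theorem pii_eq {w : V → ℕ} {p q : V} (h : p ≠ q) : pii w p q = w p + w q := by
  simp [pii, h]

/-- Stars with terminals and arm lengths. -/
structure Sys (G : SimpleGraph V) (I : Finset V) (A X : V → Finset V) (w : V → ℕ) (T : ℕ) : Prop
    extends Stars G I A T where
  Xsub : ∀ x ∈ I, X x ⊆ A x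
  Xout : ∀ x, x ∉ I → X x = ∅
  Xind : ∀ x ∈ I, ∀ e ∈ X x, ∀ e' ∈ X x, ¬ G.Adj e e'
  wpos : ∀ x ∈ I, ∀ e ∈ X x, 1 ≤ w e
  wzero : ∀ v, (∀ x ∈ I, v ∉ X x) → w v = 0
  wsum : ∀ x ∈ I, ∑ e ∈ X x, w e = T
  pass : ∀ x ∈ I, ∀ p q, p ∈ insert x (A x) → q ∈ insert x (A x) → p ≠ q →
    RP G (insert x (A x)) p q (1 + pc x p + pc x q) (max (1 + pc x p + pc x q) (1 + w p + w q))

variable {I : Finset V} {A X : V → Finset V} {w : V → ℕ} {T : ℕ}

/-- The star of a hub. -/
abbrev St (A : V → Finset V) (x : V) : Finset V := insert x (A x)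

theorem Stars.star_disj (h : Stars G I A T) {x y : V} (hx : x ∈ I) (hy : y ∈ I) (hne : x ≠ y) :
    Disjoint (St A x) (St A y) := by
  rw [Finset.disjoint_left]
  intro v hv hv'
  rcases Finset.mem_insert.mp hv with rfl | hv <;> rcases Finset.mem_insert.mp hv' with h' | hv'
  · exact hne h'
  · exact h.notI y hy _ hv' hx
  · exact h.notI x hx _ hv (h' ▸ hy)
  · exact (Finset.disjoint_left.mp (h.disj x hx y hy hne)) hv hv'

theorem Stars.exists_star (h : Stars G I A T) (v : V) : ∃ x ∈ I, v ∈ St A x := by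
  by_cases hv : v ∈ I
  · exact ⟨v, hv, Finset.mem_insert_self _ _⟩
  · obtain ⟨x, hx, hvx⟩ := h.cover v hv
    exact ⟨x, hx, Finset.mem_insert_of_mem hvx⟩

theorem Stars.star_unique (h : Stars G I A T) {v x y : V} (hx : x ∈ I) (hy : y ∈ I)
    (hvx : v ∈ St A x) (hvy : v ∈ St A y) : x = y := by
  by_contra hne
  exact (Finset.disjoint_left.mp (h.star_disj hx hy hne)) hvx hvy

theorem Stars.star_card (h : Stars G I A T) {x : V} (hx : x ∈ I) : (St A x).card = T + 1 := by
  rw [Finset.card_insert_of_notMem (fun hh => h.notI x hx x hh hx), h.card x hx]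

/-- Adding arms to the star partition. -/
theorem Stars.exists_sys (h : Stars G I A T) : ∃ X w, Sys G I A X w T := by
  classical
  have hch : ∀ x, ∃ (Y : Finset V) (u : V → ℕ), (x ∈ I → Hub G x (A x) Y u) ∧ (x ∉ I → Y = ∅) := by
    intro x
    by_cases hx : x ∈ I
    · obtain ⟨Y, u, hh⟩ := exists_hub (G := G) x (A x) (fun hh => h.notI x hx x hh hx) (h.adj x hx)
      exact ⟨Y, u, fun _ => hh, fun hh => absurd hx hh⟩
    · exact ⟨∅, fun _ => 0, fun hh => absurd hh hx, fun _ => rfl⟩
  choose X u hXu hXout using hch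
  let w : V → ℕ := fun v => ∑ x ∈ I, if v ∈ X x then u x v else 0
  have hXA : ∀ x ∈ I, X x ⊆ A x := fun x hx => (hXu x hx).sub
  have hothers : ∀ x ∈ I, ∀ v ∈ St A x, ∀ y ∈ I, y ≠ x → v ∉ X y := by
    intro x hx v hv y hy hne hvy
    exact (Finset.disjoint_left.mp (h.star_disj hx hy hne.symm)) hv
      (Finset.mem_insert_of_mem (hXA y hy hvy))
  have hw1 : ∀ x ∈ I, ∀ v ∈ St A x, w v = u x v := by
    intro x hx v hv
    have h1 : w v = if v ∈ X x then u x v else 0 := by
      apply Finset.sum_eq_single x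
      · intro y hy hne
        rw [if_neg (hothers x hx v hv y hy hne)]
      · intro hh
        exact absurd hx hh
    rw [h1]
    by_cases hvX : v ∈ X x
    · rw [if_pos hvX]
    · rw [if_neg hvX, (hXu x hx).wzero v hvX]
  refine ⟨X, w, { h with
    Xsub := hXA
    Xout := hXout
    Xind := fun x hx => (hXu x hx).indep
    wpos := ?_
    wzero := ?_
    wsum := ?_
    pass := ?_ }⟩
  · intro x hx e he
    rw [hw1 x hx e (Finset.mem_insert_of_mem (hXA x hx he))]
    exact (hXu x hx).wpos e he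
  · intro v hv
    apply Finset.sum_eq_zero
    intro x hx
    rw [if_neg (hv x hx)]
  · intro x hx
    have h1 : ∑ e ∈ X x, w e = ∑ e ∈ X x, u x e := by
      apply Finset.sum_congr rfl
      intro e he
      exact hw1 x hx e (Finset.mem_insert_of_mem (hXA x hx he))
    rw [h1, (hXu x hx).sum, h.card x hx]
  · intro x hx p q hp hq hpq
    rw [hw1 x hx p hp, hw1 x hx q hq]
    exact (hXu x hx).pass p q hp hq hpq

/-- The pass between any two ports of a star, in a form that also allows equal ports. -/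
theorem Sys.range (h : Sys G I A X w T) {x p q : V} (hx : x ∈ I) (hp : p ∈ St A x)
    (hq : q ∈ St A x) : ∃ lo hi, RP G (St A x) p q lo hi ∧ lo ≤ 1 + pc x p + pc x q ∧
      1 + pii w p q ≤ hi ∧ 1 ≤ hi := by
  by_cases hpq : p = q
  · subst hpq
    refine ⟨1, 1, RP.single hp, by omega, ?_, le_refl _⟩
    simp [pii]
  · refine ⟨_, _, h.pass x hx p q hp hq hpq, le_refl _, ?_, ?_⟩
    · rw [pii_eq hpq]
      have := le_max_right (1 + pc x p + pc x q) (1 + w p + w q)
      omega
    · have := le_max_left (1 + pc x p + pc x q) (1 + w p + w q)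
      omega

theorem Sys.hub_notX (h : Sys G I A X w T) {x y : V} (hx : x ∈ I) (hy : y ∈ I) : x ∉ X y := by
  intro hh
  exact h.notI y hy x (h.Xsub y hy hh) hx

theorem Sys.w_hub (h : Sys G I A X w T) {x : V} (hx : x ∈ I) : w x = 0 :=
  h.wzero x (fun y hy => h.hub_notX hx hy)

theorem Sys.X_star (h : Sys G I A X w T) {x e : V} (hx : x ∈ I) (he : e ∈ X x) : e ∈ St A x :=
  Finset.mem_insert_of_mem (h.Xsub x hx he)

theorem Sys.hub_adj (h : Sys G I A X w T) {x e : V} (hx : x ∈ I) (he : e ∈ X x) : G.Adj x e :=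
  h.adj x hx e (h.Xsub x hx he)

theorem Sys.X_ne_hub (h : Sys G I A X w T) {x e : V} (hx : x ∈ I) (he : e ∈ X x) : e ≠ x :=
  (h.hub_adj hx he).ne.symm

theorem Sys.X_unique (h : Sys G I A X w T) {x y e : V} (hx : x ∈ I) (hy : y ∈ I) (he : e ∈ X x)
    (he' : e ∈ X y) : x = y :=
  h.star_unique hx hy (h.X_star hx he) (h.X_star hy he')

theorem pc_hub {x : V} : pc x x = 0 := by simp [pc]

theorem pc_le (x v : V) : pc x v ≤ 1 := by
  unfold pc
  split_ifs <;> omega

theorem pc_of_ne {x v : V} (h : v ≠ x) : pc x v = 1 := by simp [pc, h]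

/-- Paths of bounded number of vertices. -/
theorem Pth.short {a : ℕ} {B : Finset V} {u v : V} {L : ℕ} (hα : IndBd G a) (h : Pth G B u v L) :
    ∃ L', L' ≤ 2 * a ∧ 1 ≤ L' ∧ Pth G B u v L' := by
  induction L using Nat.strong_induction_on with
  | _ L ih =>
    obtain ⟨f, h1, h2, h3, h4, h5⟩ := id h
    by_cases hL : L ≤ 2 * a
    · exact ⟨L, hL, h2, h⟩
    · obtain ⟨r, f', a1, a2, a3, a4, a5, a6, a7⟩ := exists_shortcut hα h1 (by omega)
      refine ih (L - r) (by omega) ⟨f', a4, by omega, ?_, ?_, ?_⟩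
      · rw [a5, h3]
      · rw [a6, h4]
      · intro i hi
        obtain ⟨j, hj, hij⟩ := a7 i hi
        rw [hij]
        exact h5 j hj

/-- The interior of a path with its ends removed. -/
theorem Pth.drop_first {B B' : Finset V} {u v : V} {L : ℕ} (h : Pth G B u v L) (hL : 2 ≤ L)
    (hB : ∀ y ∈ B, y ≠ u → y ∈ B') : ∃ u', G.Adj u u' ∧ Pth G B' u' v (L - 1) := by
  obtain ⟨f, h1, h2, h3, h4, h5⟩ := h
  refine ⟨f 1, ?_, fun i => f (i + 1), ⟨?_, ?_⟩, by omega, rfl, ?_, ?_⟩
  · rw [← h3]
    exact h1.adj 0 (by omega)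
  · intro i j hi hj hij
    have := h1.inj _ _ (by omega) (by omega) hij
    omega
  · intro i hi
    exact h1.adj (i + 1) (by omega)
  · simp only
    rw [show L - 1 - 1 + 1 = L - 1 by omega]
    exact h4
  · intro i hi
    apply hB _ (h5 _ (by omega))
    rw [← h3]
    intro heq
    have := h1.inj _ _ (by omega) (by omega) heq
    omega

theorem Core.slack_indep {a k : ℕ} (h : Core G a k) (hs : Stars G I A (k - 1)) {Y : Finset V}
    (hY : Y ⊆ I) (h1 : 1 ≤ Y.card) (h2 : Y.card < a) :
    ∃ s, s ⊆ Y.biUnion (St A) ∧ Y.card < s.card ∧ ∀ x ∈ s, ∀ y ∈ s, ¬ G.Adj x y := by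
  by_contra hno
  push Not at hno
  have := h.hslack (Y.biUnion (St A)) Y.card h1 h2 (by
    intro s hs1 hs2
    exact hno s hs1 hs2)
  rw [Finset.card_biUnion (fun x hx y hy hne => hs.star_disj (hY hx) (hY hy) hne)] at this
  rw [Finset.sum_congr rfl (fun x hx => hs.star_card (hY hx))] at this
  rw [Finset.sum_const, smul_eq_mul] at this
  have hk : k - 1 + 1 = k := by have := h.hk; omega
  rw [hk, mul_comm] at this
  omega

/-- The graph outside a star is connected. -/
theorem Core.conn_rest {a k : ℕ} (h : Core G a k) (hs : Stars G I A (k - 1)) (hI : I.card = a)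
    {x : V} (hx : x ∈ I) : Conn G.Adj (Finset.univ \ St A x) := by
  classical
  intro P hP hPne hPR
  by_contra hno
  push Not at hno
  -- stars are on one side
  have hinside : ∀ y ∈ I.erase x, ∀ v ∈ St A y, v ∈ P → St A y ⊆ P := by
    intro y hy v hv hvP
    have hy' := Finset.mem_erase.mp hy
    have hrest : ∀ u ∈ St A y, u ∈ Finset.univ \ St A x := by
      intro u hu
      refine Finset.mem_sdiff.mpr ⟨Finset.mem_univ _, fun hu' => ?_⟩
      exact hy'.1 (hs.star_unique hy'.2 hx hu hu')
    have hhub : y ∈ P := by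
      rcases Finset.mem_insert.mp hv with rfl | hv'
      · exact hvP
      · by_contra hyP
        exact hno v hvP y (Finset.mem_sdiff.mpr ⟨hrest y (Finset.mem_insert_self _ _), hyP⟩)
          (hs.adj y hy'.2 v hv').symm
    intro u hu
    rcases Finset.mem_insert.mp hu with rfl | hu'
    · exact hhub
    · by_contra huP
      exact hno y hhub u (Finset.mem_sdiff.mpr ⟨hrest u hu, huP⟩) (hs.adj y hy'.2 u hu')
  let Y := (I.erase x).filter (fun y => y ∈ P)
  let Y' := (I.erase x).filter (fun y => y ∉ P)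
  have hYP : ∀ v, v ∈ P ↔ v ∈ Y.biUnion (St A) := by
    intro v
    constructor
    · intro hvP
      obtain ⟨y, hy, hvy⟩ := hs.exists_star v
      have hyx : y ≠ x := by
        rintro rfl
        exact (Finset.mem_sdiff.mp (hP hvP)).2 hvy
      have hy2 : y ∈ I.erase x := Finset.mem_erase.mpr ⟨hyx, hy⟩
      exact Finset.mem_biUnion.mpr ⟨y, Finset.mem_filter.mpr ⟨hy2,
        hinside y hy2 v hvy hvP (Finset.mem_insert_self _ _)⟩, hvy⟩
    · intro hv
      obtain ⟨y, hy, hvy⟩ := Finset.mem_biUnion.mp hv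
      obtain ⟨hy1, hy2⟩ := Finset.mem_filter.mp hy
      exact hinside y hy1 y (Finset.mem_insert_self _ _) hy2 hvy
  have hY'out : ∀ v ∈ Y'.biUnion (St A), v ∈ (Finset.univ \ St A x) \ P := by
    intro v hv
    obtain ⟨y, hy, hvy⟩ := Finset.mem_biUnion.mp hv
    obtain ⟨hy1, hy2⟩ := Finset.mem_filter.mp hy
    have hy' := Finset.mem_erase.mp hy1
    refine Finset.mem_sdiff.mpr ⟨Finset.mem_sdiff.mpr ⟨Finset.mem_univ _, fun hvx => ?_⟩, fun hvP => ?_⟩
    · exact hy'.1 (hs.star_unique hy'.2 hx hvy hvx)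
    · exact hy2 (hinside y hy1 v hvy hvP (Finset.mem_insert_self _ _))
  have hcards : Y.card + Y'.card = a - 1 := by
    have := Finset.card_filter_add_card_filter_not (s := I.erase x) (fun y => y ∈ P)
    rw [Finset.card_erase_of_mem hx, hI] at this
    exact this
  have hYne : 1 ≤ Y.card := by
    obtain ⟨v, hv⟩ := hPne
    obtain ⟨y, hy, _⟩ := Finset.mem_biUnion.mp ((hYP v).mp hv)
    exact Finset.card_pos.mpr ⟨y, hy⟩
  have hY'ne : 1 ≤ Y'.card := by
    by_contra hcon
    have h0 : Y'.card = 0 := by omega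
    rw [Finset.card_eq_zero] at h0
    apply hPR
    apply Finset.Subset.antisymm hP
    intro v hv
    obtain ⟨hv1, hv2⟩ := Finset.mem_sdiff.mp hv
    obtain ⟨y, hy, hvy⟩ := hs.exists_star v
    have hyx : y ≠ x := by
      rintro rfl
      exact hv2 hvy
    have hy2 : y ∈ I.erase x := Finset.mem_erase.mpr ⟨hyx, hy⟩
    by_cases hyP : y ∈ P
    · exact hinside y hy2 y (Finset.mem_insert_self _ _) hyP hvy
    · have : y ∈ Y' := Finset.mem_filter.mpr ⟨hy2, hyP⟩
      rw [h0] at this
      simp at this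
  have hYI : Y ⊆ I := fun y hy => (Finset.mem_erase.mp (Finset.mem_filter.mp hy).1).2
  have hY'I : Y' ⊆ I := fun y hy => (Finset.mem_erase.mp (Finset.mem_filter.mp hy).1).2
  have ha := h.ha
  obtain ⟨s, hs1, hs2, hs3⟩ := h.slack_indep hs hYI hYne (by omega)
  obtain ⟨s', hs1', hs2', hs3'⟩ := h.slack_indep hs hY'I hY'ne (by omega)
  have hsP : ∀ v ∈ s, v ∈ P := fun v hv => (hYP v).mpr (hs1 hv)
  have hsP' : ∀ v ∈ s', v ∈ (Finset.univ \ St A x) \ P := fun v hv => hY'out v (hs1' hv)
  have hd : Disjoint s s' := by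
    rw [Finset.disjoint_left]
    intro v hv hv'
    exact (Finset.mem_sdiff.mp (hsP' v hv')).2 (hsP v hv)
  obtain ⟨u, hu, v, hv, huv⟩ := h.hα (s ∪ s') (by
    rw [Finset.card_union_of_disjoint hd]
    omega)
  rw [Finset.mem_union] at hu hv
  rcases hu with hu | hu <;> rcases hv with hv | hv
  · exact hs3 u hu v hv huv
  · exact hno u (hsP u hu) v (hsP' v hv) huv
  · exact hno v (hsP v hv) u (hsP' u hu) huv.symm
  · exact hs3' u hu v hv huv

/-- Every vertex has a neighbour outside any given star containing it. -/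
theorem Core.outer_nbr {a k : ℕ} (h : Core G a k) (hs : Stars G I A (k - 1)) {x v : V} (hx : x ∈ I)
    (hv : v ∈ St A x) : ∃ y, y ∉ St A x ∧ G.Adj v y := by
  have ha := h.ha
  have h1 := h.exp (J := {v}) ⟨v, by simp⟩ (by
    intro y hy z hz
    rw [Finset.mem_singleton] at hy hz
    rw [hy, hz]
    exact G.loopless.irrefl _) (by simp; omega)
  rw [Finset.card_singleton, mul_one] at h1
  have hcard := hs.star_card hx
  have hk : k - 1 + 1 = k := by have := h.hk; omega
  rw [hk] at hcard
  obtain ⟨y, hy1, hy2⟩ := Finset.exists_mem_notMem_of_card_lt_card (show (St A x).card < (clN G {v}).card by omega)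
  refine ⟨y, hy2, ?_⟩
  rcases mem_clN.mp hy1 with h2 | ⟨z, hz, h3⟩
  · rw [Finset.mem_singleton] at h2
    rw [h2] at hy2
    exact absurd hv hy2
  · rw [Finset.mem_singleton] at hz
    rw [← hz]
    exact h3

/-- A path in the rest between two outer neighbours. -/
theorem Core.rest_path {a k : ℕ} (h : Core G a k) (hs : Stars G I A (k - 1)) (hI : I.card = a)
    {x u v : V} (hx : x ∈ I) (hu : u ∉ St A x) (hv : v ∉ St A x) :
    ∃ L, 1 ≤ L ∧ Pth G (Finset.univ \ St A x) u v L := by
  obtain ⟨l, hl1, hl2, hl3, hl4, hl5⟩ := (h.conn_rest hs hI hx).path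
    (Finset.mem_sdiff.mpr ⟨Finset.mem_univ _, hu⟩) (Finset.mem_sdiff.mpr ⟨Finset.mem_univ _, hv⟩)
  have := Pth.of_list' (G := G) l hl3 hl4 hl5 hl1 hl2
  exact ⟨l.length, this.elim (fun f hf => hf.2.1), this⟩

/-- Every hub has at least three arms. -/
theorem Core.three_arms {a k : ℕ} (h : Core G a k) (hsy : Sys G I A X w (k - 1)) (hI : I.card = a)
    {x : V} (hx : x ∈ I) : 3 ≤ (X x).card := by
  classical
  have hs := hsy.toStars
  have hk := h.hk
  have ha := h.ha
  have hT : 2 * a ≤ k - 1 := by omega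
  have hsum := hsy.wsum x hx
  by_contra hcon
  have hle : (X x).card ≤ 2 := by omega
  have hne : (X x).Nonempty := by
    rw [Finset.nonempty_iff_ne_empty]
    intro hemp
    rw [hemp, Finset.sum_empty] at hsum
    omega
  obtain ⟨e₁, he₁⟩ := hne
  by_cases h1 : (X x).card = 1
  · -- one arm
    have hX : X x = {e₁} := by
      obtain ⟨c, hc⟩ := Finset.card_eq_one.mp h1
      rw [hc, Finset.mem_singleton] at he₁
      rw [hc, he₁]
    rw [hX, Finset.sum_singleton] at hsum
    obtain ⟨y, hy1, hy2⟩ := h.outer_nbr hs hx (Finset.mem_insert_self x (A x))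
    obtain ⟨y₁, hy3, hy4⟩ := h.outer_nbr hs hx (hsy.X_star hx he₁)
    obtain ⟨L, hL, hp⟩ := h.rest_path hs hI hx hy3 hy1
    -- extend by the terminal and shorten
    have hes : Pth G {e₁} e₁ e₁ 1 := Pth.single (by simp)
    have hdj : Disjoint ({e₁} : Finset V) (Finset.univ \ St A x) := by
      rw [Finset.disjoint_singleton_left]
      intro hh
      exact (Finset.mem_sdiff.mp hh).2 (hsy.X_star hx he₁)
    have hp2 := hes.concat hp hdj hy4
    obtain ⟨L', hL1, hL2, hp3⟩ := Pth.short h.hα hp2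
    have hey : e₁ ≠ y := fun hh => hy1 (hh ▸ hsy.X_star hx he₁)
    have hL3 : 2 ≤ L' := by
      by_contra hcon2
      have : L' = 1 := by omega
      subst this
      obtain ⟨f, _, _, f1, f2, _⟩ := hp3
      exact hey (f1.symm.trans f2)
    obtain ⟨u', hu1, hu2⟩ := hp3.drop_first hL3 (B' := Finset.univ \ St A x) (by
      intro z hz hze
      rcases Finset.mem_union.mp hz with hz | hz
      · rw [Finset.mem_singleton] at hz
        exact absurd hz hze
      · exact hz)
    have hpass := hsy.pass x hx x e₁ (Finset.mem_insert_self _ _) (hsy.X_star hx he₁)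
      (hsy.X_ne_hub hx he₁).symm
    have hdj2 : Disjoint (St A x) (Finset.univ \ St A x) := by
      rw [Finset.disjoint_left]
      intro z hz hz'
      exact (Finset.mem_sdiff.mp hz').2 hz
    have hr : RP G (Finset.univ \ St A x) u' y (L' - 1) (L' - 1) :=
      ⟨le_refl _, fun L h1 h2 => by
        rw [show L = L' - 1 by omega]
        exact hu2⟩
    have hall := hpass.concat hr hdj2 hu1
    have hwx := hsy.w_hub hx
    have hpc1 : pc x x = 0 := pc_hub
    have hpc2 : pc x e₁ = 1 := pc_of_ne (hsy.X_ne_hub hx he₁)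
    rw [hpc1, hpc2, hwx] at hall
    apply h.hC
    refine hall.cycle hy2.symm ?_ ?_
    · omega
    · have := le_max_right (1 + 0 + 1) (1 + 0 + w e₁)
      omega
  · -- two arms
    have h2 : (X x).card = 2 := by
      have : 1 ≤ (X x).card := Finset.card_pos.mpr ⟨e₁, he₁⟩
      omega
    obtain ⟨p, q, hpq, hX⟩ := Finset.card_eq_two.mp h2
    have hpX : p ∈ X x := by rw [hX]; simp
    have hqX : q ∈ X x := by rw [hX]; simp
    rw [hX, Finset.sum_pair hpq] at hsum
    obtain ⟨y₁, hy1, hy2⟩ := h.outer_nbr hs hx (hsy.X_star hx hpX)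
    obtain ⟨y₂, hy3, hy4⟩ := h.outer_nbr hs hx (hsy.X_star hx hqX)
    obtain ⟨L, hL, hp⟩ := h.rest_path hs hI hx hy1 hy3
    have hes : Pth G {p} p p 1 := Pth.single (by simp)
    have hes2 : Pth G {q} q q 1 := Pth.single (by simp)
    have hnot : ∀ z ∈ X x, z ∉ Finset.univ \ St A x := fun z hz hh =>
      (Finset.mem_sdiff.mp hh).2 (hsy.X_star hx hz)
    have hdj : Disjoint ({p} : Finset V) (Finset.univ \ St A x) := by
      rw [Finset.disjoint_singleton_left]
      exact hnot p hpX
    have hp2 := hes.concat hp hdj hy2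
    have hdj' : Disjoint ({p} ∪ (Finset.univ \ St A x)) ({q} : Finset V) := by
      rw [Finset.disjoint_singleton_right, Finset.mem_union, not_or, Finset.mem_singleton]
      exact ⟨fun hh => hpq hh.symm, hnot q hqX⟩
    have hp3 := hp2.concat hes2 hdj' hy4.symm
    obtain ⟨L', hL1, hL2, hp4⟩ := Pth.short h.hα hp3
    have hL3 : 3 ≤ L' := by
      by_contra hcon2
      have h12 : L' = 1 ∨ L' = 2 := by omega
      rcases h12 with rfl | rfl
      · obtain ⟨f, _, _, f1, f2, _⟩ := hp4
        exact hpq (f1.symm.trans f2)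
      · obtain ⟨f, f0, _, f1, f2, _⟩ := hp4
        have := f0.adj 0 (by omega)
        rw [f1] at this
        simp only [show 2 - 1 = 0 + 1 by omega] at f2
        rw [f2] at this
        exact hsy.Xind x hx p hpX q hqX this
    obtain ⟨u', hu1, hu2⟩ := hp4.drop_first (by omega) (B' := (Finset.univ \ St A x) ∪ {q}) (by
      intro z hz hze
      rcases Finset.mem_union.mp hz with hz | hz
      · rcases Finset.mem_union.mp hz with hz | hz
        · rw [Finset.mem_singleton] at hz
          exact absurd hz hze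
        · exact Finset.mem_union_left _ hz
      · exact Finset.mem_union_right _ hz)
    obtain ⟨v', hv1, hv2⟩ := hu2.symm.drop_first (by omega) (B' := Finset.univ \ St A x) (by
      intro z hz hze
      rcases Finset.mem_union.mp hz with hz | hz
      · exact hz
      · rw [Finset.mem_singleton] at hz
        exact absurd hz hze)
    have hpass := hsy.pass x hx q p (hsy.X_star hx hqX) (hsy.X_star hx hpX) hpq.symm
    have hdj2 : Disjoint (St A x) (Finset.univ \ St A x) := by
      rw [Finset.disjoint_left]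
      intro z hz hz'
      exact (Finset.mem_sdiff.mp hz').2 hz
    have hr : RP G (Finset.univ \ St A x) u' v' (L' - 1 - 1) (L' - 1 - 1) :=
      ⟨le_refl _, fun L h1 h2 => by
        rw [show L = L' - 1 - 1 by omega]
        exact hv2.symm⟩
    have hall := hpass.concat hr hdj2 hu1
    have hpc1 : pc x q = 1 := pc_of_ne (hsy.X_ne_hub hx hqX)
    have hpc2 : pc x p = 1 := pc_of_ne (hsy.X_ne_hub hx hpX)
    rw [hpc1, hpc2] at hall
    apply h.hC
    refine hall.cycle hv1.symm ?_ ?_
    · omega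
    · have := le_max_right (1 + 1 + 1) (1 + w q + w p)
      omega

end Vale.Agent.Lib.P048.E
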