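import Vale.Agent.Lib.P048.E4

/-!
Matchings of arms to hubs, the weighted graph on the hubs, and cycles along paths of hubs.
-/

namespace Vale.Agent.Lib.P048.E

open Finset

set_option linter.unusedSectionVars false
set_option linter.unusedVariables false

variable {V : Type*} [Fintype V] [DecidableEq V] {G : SimpleGraph V}
variable {I : Finset V} {A X : V → Finset V} {w : V → ℕ} {T : ℕ} {μ : V → Option V}

/-- A matching of terminals to hubs. -/
structure Mat (G : SimpleGraph V) (I : Finset V) (X : V → Finset V) (μ : V → Option V) : Prop where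
  mem : ∀ x ∈ I, ∀ e ∈ X x, ∀ u, μ e = some u → u ∈ I ∧ u ≠ x ∧ G.Adj e u
  inj : ∀ x ∈ I, ∀ e ∈ X x, ∀ e' ∈ X x, ∀ u, μ e = some u → μ e' = some u → e = e'
  off : ∀ v, (∀ x ∈ I, v ∉ X x) → μ v = none

/-- There is an arm at `x` matched to `u`. -/
def Arc (X : V → Finset V) (μ : V → Option V) (x u : V) : Prop := ∃ e ∈ X x, μ e = some u

/-- The graph on the hubs. -/
def Gam (X : V → Finset V) (μ : V → Option V) (x u : V) : Prop := Arc X μ x u ∨ Arc X μ u x

theorem Gam.symm {x u : V} (h : Gam X μ x u) : Gam X μ u x := Or.symm h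

/-- The weight of the arm at `x` matched to `u`. -/
def aw (X : V → Finset V) (μ : V → Option V) (w : V → ℕ) (x u : V) : ℕ :=
  ∑ e ∈ (X x).filter (fun e => μ e = some u), w e

/-- The weight of the link between two hubs. -/
def sw (X : V → Finset V) (μ : V → Option V) (w : V → ℕ) (x u : V) : ℕ :=
  max (aw X μ w x u) (aw X μ w u x)

/-- The weight of the arms without a matched hub. -/
def cw (X : V → Finset V) (μ : V → Option V) (w : V → ℕ) (x : V) : ℕ :=
  ∑ e ∈ (X x).filter (fun e => μ e = none), w e

theorem sw_comm (x u : V) : sw X μ w x u = sw X μ w u x := by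
  unfold sw
  exact max_comm _ _

theorem aw_eq (hm : Mat G I X μ) {x u e : V} (hx : x ∈ I) (he : e ∈ X x) (hμ : μ e = some u) :
    aw X μ w x u = w e := by
  have : (X x).filter (fun e => μ e = some u) = {e} := by
    ext e'
    simp only [Finset.mem_filter, Finset.mem_singleton]
    constructor
    · rintro ⟨h1, h2⟩
      exact hm.inj x hx e' h1 e he u h2 hμ
    · rintro rfl
      exact ⟨he, hμ⟩
  simp only [aw, this, Finset.sum_singleton]

theorem aw_zero {x u : V} (h : ¬ Arc X μ x u) : aw X μ w x u = 0 := by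
  have : (X x).filter (fun e => μ e = some u) = ∅ := by
    rw [Finset.filter_eq_empty_iff]
    intro e he hμ
    exact h ⟨e, he, hμ⟩
  simp only [aw, this, Finset.sum_empty]

theorem sw_pos_gam {x u : V} (h : 0 < sw X μ w x u) : Gam X μ x u := by
  by_contra hcon
  rw [Gam, not_or] at hcon
  unfold sw at h
  rw [aw_zero hcon.1, aw_zero hcon.2] at h
  simp at h

theorem sw_zero {x u : V} (h : ¬ Gam X μ x u) : sw X μ w x u = 0 := by
  by_contra hcon
  exact h (sw_pos_gam (w := w) (by omega))

theorem sum_aw (hs : Sys G I A X w T) (hm : Mat G I X μ) {x : V} (hx : x ∈ I) :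
    ∑ u ∈ I, aw X μ w x u + cw X μ w x = T := by
  have h1 : ∀ e ∈ X x, (∑ u ∈ I, if μ e = some u then w e else 0) +
      (if μ e = none then w e else 0) = w e := by
    intro e he
    cases hμ : μ e with
    | none => simp
    | some u₀ =>
      have hu₀ := (hm.mem x hx e he u₀ hμ).1
      simp only [Option.some.injEq, reduceCtorEq, if_false, add_zero]
      rw [Finset.sum_ite_eq]
      simp [hu₀]
  rw [← hs.wsum x hx, ← Finset.sum_congr rfl h1, Finset.sum_add_distrib, Finset.sum_comm]
  congr 1
  · apply Finset.sum_congr rfl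
    intro u _
    simp only [aw, Finset.sum_filter]
  · simp only [cw, Finset.sum_filter]

theorem sw_self (hs : Sys G I A X w T) (hm : Mat G I X μ) (u : V) : sw X μ w u u = 0 := by
  apply sw_zero
  rintro (⟨e, he, hμ⟩ | ⟨e, he, hμ⟩)
  all_goals
    by_cases hu : u ∈ I
    · exact (hm.mem u hu e he u hμ).2.1 rfl
    · rw [hs.Xout u hu] at he
      simp at he

/-- The two ports of a link between two hubs. -/
theorem link_exists (hs : Sys G I A X w T) (hm : Mat G I X μ) {v v' : V} (hv : v ∈ I) (hv' : v' ∈ I)
    (hE : Gam X μ v v') :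
    ∃ q ∈ St A v, ∃ p ∈ St A v', G.Adj q p ∧ w q + w p = sw X μ w v v' ∧ pc v q + pc v' p = 1 ∧
      (q = v ∨ (q ∈ X v ∧ μ q = some v')) ∧ (p = v' ∨ (p ∈ X v' ∧ μ p = some v)) := by
  have hcase : (∃ e ∈ X v, μ e = some v' ∧ aw X μ w v' v ≤ w e) ∨
      (∃ e ∈ X v', μ e = some v ∧ aw X μ w v v' ≤ w e) := by
    rcases hE with ⟨e, he, hμ⟩ | ⟨e, he, hμ⟩
    · by_cases h1 : aw X μ w v' v ≤ w e
      · exact Or.inl ⟨e, he, hμ, h1⟩
      · have hpos : Arc X μ v' v := by
          by_contra hcon
          rw [aw_zero hcon] at h1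
          omega
        obtain ⟨e', he', hμ'⟩ := hpos
        refine Or.inr ⟨e', he', hμ', ?_⟩
        rw [aw_eq hm hv he hμ]
        rw [aw_eq hm hv' he' hμ'] at h1
        omega
    · by_cases h1 : aw X μ w v v' ≤ w e
      · exact Or.inr ⟨e, he, hμ, h1⟩
      · have hpos : Arc X μ v v' := by
          by_contra hcon
          rw [aw_zero hcon] at h1
          omega
        obtain ⟨e', he', hμ'⟩ := hpos
        refine Or.inl ⟨e', he', hμ', ?_⟩
        rw [aw_eq hm hv' he hμ]
        rw [aw_eq hm hv he' hμ'] at h1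
        omega
  rcases hcase with ⟨e, he, hμ, hle⟩ | ⟨e, he, hμ, hle⟩
  · refine ⟨e, hs.X_star hv he, v', Finset.mem_insert_self _ _, (hm.mem v hv e he v' hμ).2.2, ?_, ?_,
      Or.inr ⟨he, hμ⟩, Or.inl rfl⟩
    · rw [hs.w_hub hv', add_zero]
      unfold sw
      rw [aw_eq hm hv he hμ]
      exact (max_eq_left hle).symm
    · rw [pc_hub, pc_of_ne (hs.X_ne_hub hv he)]
  · refine ⟨v, Finset.mem_insert_self _ _, e, hs.X_star hv' he, (hm.mem v' hv' e he v hμ).2.2.symm,
      ?_, ?_, Or.inl rfl, Or.inr ⟨he, hμ⟩⟩
    · rw [hs.w_hub hv, zero_add]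
      unfold sw
      rw [aw_eq hm hv' he hμ]
      exact (max_eq_right hle).symm
    · rw [pc_hub, pc_of_ne (hs.X_ne_hub hv' he)]

theorem Mat.off_hub (hs : Sys G I A X w T) (hm : Mat G I X μ) {x : V} (hx : x ∈ I) : μ x = none :=
  hm.off x (fun y hy => hs.hub_notX hx hy)

/-- Passes through the stars of a path of hubs. -/
theorem hub_path (hs : Sys G I A X w T) (hm : Mat G I X μ) :
    ∀ (l : List V) (a b p q : V), IsP (Gam X μ) I a b l → p ∈ St A a → q ∈ St A b →
      ∃ lo hi, RP G (l.toFinset.biUnion (St A)) p q lo hi ∧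
        lo + 1 ≤ 2 * l.length + pc a p + pc b q ∧ 1 ≤ hi ∧
        ((∀ u ∈ l, μ p ≠ some u) → (∀ u ∈ l, μ q ≠ some u) → (p = q → w p = 0) →
          l.length + pw (sw X μ w) l + w p + w q ≤ hi) := by
  intro l
  induction l with
  | nil =>
    intro a b p q hP
    simp [IsP] at hP
  | cons c t ih =>
    intro a b p q hP hp hq
    obtain ⟨h1, h2, h3, h4, h5⟩ := hP
    simp only [List.head?_cons, Option.some.injEq] at h1
    subst h1
    cases t with
    | nil =>
      simp only [List.getLast?_singleton, Option.some.injEq] at h2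
      subst h2
      have hcI : c ∈ I := h5 c (by simp)
      obtain ⟨lo, hi, r1, r2, r3, r4⟩ := hs.range hcI hp hq
      refine ⟨lo, hi, ?_, ?_, r4, ?_⟩
      · simpa using r1
      · simp only [List.length_singleton]
        omega
      · intro _ _ hpq
        simp only [List.length_singleton, pw]
        by_cases he : p = q
        · subst he
          have := hpq rfl
          omega
        · rw [pii_eq he] at r3
          omega
    | cons d t =>
      have hcI : c ∈ I := h5 c (by simp)
      have hdI : d ∈ I := h5 d (by simp)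
      have hE : Gam X μ c d := (List.isChain_cons_cons.mp h3).1
      obtain ⟨q₁, hq₁, p₂, hp₂, hadj, hweight, hpc, hq₁c, hp₂c⟩ := link_exists hs hm hcI hdI hE
      have hP' : IsP (Gam X μ) I d b (d :: t) := by
        refine ⟨rfl, ?_, (List.isChain_cons_cons.mp h3).2, (List.nodup_cons.mp h4).2, ?_⟩
        · rw [List.getLast?_cons_cons] at h2
          exact h2
        · intro v hv
          exact h5 v (List.mem_cons_of_mem _ hv)
      obtain ⟨lo₂, hi₂, r1, r2, r3, r4⟩ := ih d b p₂ q hP' hp₂ hq
      obtain ⟨lo₁, hi₁, s1, s2, s3, s4⟩ := hs.range hcI hp hq₁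
      have hcnot : c ∉ d :: t := (List.nodup_cons.mp h4).1
      have hdisj : Disjoint (St A c) ((d :: t).toFinset.biUnion (St A)) := by
        rw [Finset.disjoint_left]
        intro v hv hv'
        obtain ⟨u, hu, hvu⟩ := Finset.mem_biUnion.mp hv'
        have hu' : u ∈ d :: t := List.mem_toFinset.mp hu
        have huI : u ∈ I := h5 u (List.mem_cons_of_mem _ hu')
        have := hs.star_unique hcI huI hv hvu
        subst this
        exact hcnot hu'
      have hall := s1.concat r1 hdisj hadj
      refine ⟨lo₁ + lo₂, hi₁ + hi₂, ?_, ?_, by omega, ?_⟩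
      · have e : (c :: d :: t).toFinset.biUnion (St A) =
            St A c ∪ (d :: t).toFinset.biUnion (St A) := by
          rw [List.toFinset_cons, Finset.biUnion_insert]
        rw [e]
        exact hall
      · have e : (c :: d :: t).length = (d :: t).length + 1 := rfl
        rw [e]
        omega
      · intro hp1 hq1 hpq
        have hp'' : ∀ u ∈ d :: t, μ p₂ ≠ some u := by
          intro u hu
          rcases hp₂c with rfl | ⟨_, hμ⟩
          · rw [Mat.off_hub hs hm hdI]
            simp
          · rw [hμ]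
            intro hh
            rw [Option.some.injEq] at hh
            subst hh
            exact hcnot hu
        have hq'' : ∀ u ∈ d :: t, μ q ≠ some u := fun u hu => hq1 u (List.mem_cons_of_mem _ hu)
        have hpq'' : p₂ = q → w p₂ = 0 := by
          intro heq
          rcases hp₂c with rfl | ⟨_, hμ⟩
          · exact hs.w_hub hdI
          · exfalso
            rw [heq] at hμ
            exact hq1 c (by simp) hμ
        have r5 := r4 hp'' hq'' hpq''
        have hq₁p : w p + w q₁ ≤ pii w p q₁ := by
          by_cases he : p = q₁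
          · subst he
            rcases hq₁c with rfl | ⟨_, hμ⟩
            · rw [hs.w_hub hcI]
              simp
            · exact absurd hμ (hp1 d (by simp))
          · exact pii_lb he
        have e1 : (c :: d :: t).length = (d :: t).length + 1 := rfl
        have e2 : pw (sw X μ w) (c :: d :: t) = sw X μ w c d + pw (sw X μ w) (d :: t) := rfl
        rw [e1, e2]
        omega

theorem isP_length_le {E : V → V → Prop} {S : Finset V} {a b : V} {l : List V} (h : IsP E S a b l) :
    l.length ≤ S.card := by
  rw [← List.toFinset_card_of_nodup h.2.2.2.1]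
  exact Finset.card_le_card (fun v hv => h.2.2.2.2 v (List.mem_toFinset.mp hv))

/-- Closing a path of hubs by a lost arm. -/
theorem close_ring {a k : ℕ} (h : Core G a k) (hs : Sys G I A X w (k - 1)) (hI : I.card = a)
    {μ' : V → Option V} (hm : Mat G I X μ') {x e j y : V} (hx : x ∈ I) (he : e ∈ X x)
    (hμe : μ' e = none) (hj : j ∈ I) (hjx : j ≠ x) (hy : y ∈ St A j) (hadj : G.Adj y e)
    (hμy : μ' y = none) {E : V → V → Prop}
    (hE : ∀ u v, u ≠ j → E u v → Gam X μ' u v ∨ (v = j ∧ G.Adj y u)) {l : List V}
    (hl : IsP E I x j l) {d : ℕ} (hd : d ≤ pw (sw X μ' w) l) (hde : k - 1 ≤ d + w e) : False := by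
  obtain ⟨h1, h2, h3, h4, h5⟩ := id hl
  have hk := h.hk
  have hne : l ≠ [] := by
    intro hh
    rw [hh] at h1
    simp at h1
  obtain ⟨l₀, hsplit⟩ : ∃ l₀, l = l₀ ++ [j] := by
    refine ⟨l.dropLast, ?_⟩
    have := List.dropLast_append_getLast hne
    rw [List.getLast?_eq_some_getLast hne, Option.some.injEq] at h2
    rw [h2] at this
    exact this.symm
  subst hsplit
  have hl₀ne : l₀ ≠ [] := by
    intro hh
    rw [hh] at h1
    simp only [List.nil_append, List.head?_cons, Option.some.injEq] at h1
    exact hjx h1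
  have hl₀h : l₀.head? = some x := by
    rw [List.head?_append_of_ne_nil _ hl₀ne] at h1
    exact h1
  have hnd := List.nodup_append.mp h4
  have hjl₀ : j ∉ l₀ := fun hh => hnd.2.2 j hh j (by simp) rfl
  have hl₀c : l₀.IsChain E := h3.left_of_append
  -- the links inside `l₀` are links of the matching
  have hsub : ∀ {l : List V}, j ∉ l → l.IsChain E → l.IsChain (Gam X μ') := by
    intro l hjl hc
    induction l with
    | nil => exact List.isChain_nil
    | cons b t ih =>
      cases t with
      | nil => exact List.isChain_singleton _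
      | cons c t =>
        have hc' := List.isChain_cons_cons.mp hc
        refine List.isChain_cons_cons.mpr ⟨?_, ih (fun hh => hjl (List.mem_cons_of_mem _ hh)) hc'.2⟩
        have hbj : b ≠ j := fun hh => hjl (hh ▸ (by simp : b ∈ b :: c :: t))
        rcases hE _ _ hbj hc'.1 with h6 | ⟨h6, _⟩
        · exact h6
        · exact absurd (h6 ▸ (by simp : c ∈ b :: c :: t)) hjl
  obtain ⟨q', hq'⟩ : ∃ q', l₀.getLast? = some q' :=
    ⟨l₀.getLast hl₀ne, List.getLast?_eq_some_getLast hl₀ne⟩
  have hq'l : q' ∈ l₀ := List.mem_of_getLast? hq'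
  have hq'I : q' ∈ I := h5 q' (by simp [hq'l])
  have hlink : E q' j := by
    have := h3
    rw [List.isChain_append] at this
    exact this.2.2 q' hq' j (by simp)
  have hpw : pw (sw X μ' w) (l₀ ++ [j]) = pw (sw X μ' w) l₀ + sw X μ' w q' j := by
    rw [pw_append _ l₀ q' [j] hq']
    simp [pw]
  have hxI : x ∈ I := hx
  have hes := hs.X_star hx he
  have hey : e ≠ y := by
    rintro rfl
    exact hjx (hs.star_unique hj hx hy hes)
  have hl₀P : IsP (Gam X μ') I x q' l₀ := by
    refine ⟨hl₀h, hq', hsub hjl₀ hl₀c, hnd.1, ?_⟩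
    intro v hv
    exact h5 v (by simp [hv])
  have hl₀len := isP_length_le hl₀P
  have hlen2 : (l₀ ++ [j]).length ≤ I.card := isP_length_le hl
  have hl₀pos : 1 ≤ l₀.length := List.length_pos_iff.mpr hl₀ne
  simp only [List.length_append, List.length_singleton] at hlen2
  rw [hI] at hlen2
  by_cases hgam : Gam X μ' q' j
  · -- the whole path runs along the matching
    have hfull : IsP (Gam X μ') I x j (l₀ ++ [j]) := by
      refine ⟨h1, h2, ?_, h4, h5⟩
      refine List.IsChain.append (hsub hjl₀ hl₀c) (List.isChain_singleton _) ?_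
      intro a' ha' b' hb'
      rw [hq'] at ha'
      simp only [Option.mem_def, Option.some.injEq, List.head?_cons] at ha' hb'
      subst ha'
      subst hb'
      exact hgam
    obtain ⟨lo, hi, r1, r2, r3, r4⟩ := hub_path hs hm _ x j e y hfull hes hy
    have r5 := r4 (fun u _ => by rw [hμe]; simp) (fun u _ => by rw [hμy]; simp)
      (fun hh => absurd hh hey)
    have hp1 := pc_le x e
    have hp2 := pc_le j y
    simp only [List.length_append, List.length_singleton] at r2 r5
    apply h.hC
    exact r1.cycle hadj (by omega) (by omega)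
  · -- the last link is the arm ending in `y`
    have hzero : sw X μ' w q' j = 0 := sw_zero hgam
    have hadjq : G.Adj y q' := by
      rcases hE _ _ (fun hh => hjl₀ (hh ▸ hq'l)) hlink with h6 | ⟨_, h6⟩
      · exact absurd h6 hgam
      · exact h6
    obtain ⟨lo, hi, r1, r2, r3, r4⟩ := hub_path hs hm _ x q' e q' hl₀P hes (Finset.mem_insert_self _ _)
    have r5 := r4 (fun u _ => by rw [hμe]; simp)
      (fun u _ => by rw [Mat.off_hub hs hm hq'I]; simp)
      (fun hh => absurd (hh ▸ hq'I) (fun hI' => hs.notI x hx e (hs.Xsub x hx he) hI'))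
    have hdisj : Disjoint (l₀.toFinset.biUnion (St A)) ({y} : Finset V) := by
      rw [Finset.disjoint_singleton_right]
      intro hh
      obtain ⟨u, hu, hvu⟩ := Finset.mem_biUnion.mp hh
      have hu' : u ∈ l₀ := List.mem_toFinset.mp hu
      have huI : u ∈ I := h5 u (by simp [hu'])
      have := hs.star_unique huI hj hvu hy
      subst this
      exact hjl₀ hu'
    have hall := r1.concat (RP.single (by simp : y ∈ ({y} : Finset V))) hdisj hadjq.symm
    have hp1 := pc_le x e
    have hwq := hs.w_hub hq'I
    rw [pc_hub] at r2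
    apply h.hC
    exact hall.cycle hadj (by omega) (by omega)

end Vale.Agent.Lib.P048.E
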