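import Vale.Agent.Lib.P048.E6
import Vale.Agent.Lib.P048.EZ

/-!
A small end part of the graph on the hubs: paths in the remaining stars, rings through the zone,
and the assignment of the arms of a hub of the zone to different targets.
-/

namespace Vale.Agent.Lib.P048.E

open Finset

set_option linter.unusedSectionVars false
set_option linter.unusedVariables false

variable {V : Type*} [Fintype V] [DecidableEq V] {G : SimpleGraph V}
variable {I : Finset V} {A X : V → Finset V} {w : V → ℕ} {T : ℕ} {μ : V → Option V}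

theorem gam_irr (hs : Sys G I A X w T) (hm : Mat G I X μ) (v : V) : ¬ Gam X μ v v := by
  rintro (⟨e, he, hμ⟩ | ⟨e, he, hμ⟩)
  all_goals
    by_cases hu : v ∈ I
    · exact (hm.mem v hu e he v hμ).2.1 rfl
    · rw [hs.Xout v hu] at he
      simp at he

theorem gam_deg {a k : ℕ} (h : Core G a k) (hs : Sys G I A X w (k - 1)) (hI : I.card = a)
    (hm : Mat G I X μ) (hlost : ∀ x ∈ I, ∀ e ∈ X x, ∀ e' ∈ X x, μ e = none → μ e' = none → e = e') :
    ∀ v ∈ I, ∃ u ∈ I, ∃ u' ∈ I, u ≠ u' ∧ Gam X μ v u ∧ Gam X μ v u' := by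
  intro v hv
  have h3 := h.three_arms hs hI hv
  have h1 : ((X v).filter (fun e => μ e = none)).card ≤ 1 := by
    rw [Finset.card_le_one]
    intro e he e' he'
    obtain ⟨a1, a2⟩ := Finset.mem_filter.mp he
    obtain ⟨b1, b2⟩ := Finset.mem_filter.mp he'
    exact hlost v hv e a1 e' b1 a2 b2
  have h2 := Finset.card_filter_add_card_filter_not (s := X v) (fun e => μ e = none)
  have h4 : 1 < ((X v).filter (fun e => ¬ μ e = none)).card := by omega
  obtain ⟨e, he, e', he', hne⟩ := Finset.one_lt_card.mp h4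
  obtain ⟨a1, a2⟩ := Finset.mem_filter.mp he
  obtain ⟨b1, b2⟩ := Finset.mem_filter.mp he'
  obtain ⟨u, hu⟩ := Option.ne_none_iff_exists'.mp a2
  obtain ⟨u', hu'⟩ := Option.ne_none_iff_exists'.mp b2
  refine ⟨u, (hm.mem v hv e a1 u hu).1, u', (hm.mem v hv e' b1 u' hu').1, ?_, Or.inl ⟨e, a1, hu⟩,
    Or.inl ⟨e', b1, hu'⟩⟩
  rintro rfl
  exact hne (hm.inj v hv e a1 e' b1 u hu hu')

/-- The end part. -/
structure Zone (I : Finset V) (X : V → Finset V) (μ : V → Option V) (Z : Finset V) (c : V) : Prop where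
  sub : Z ⊆ I
  hc : c ∈ I
  hcZ : c ∉ Z
  ne : Z.Nonempty
  sep : ∀ u ∈ Z, ∀ v ∈ I, v ∉ Z → v ≠ c → ¬ Gam X μ u v
  conn : Conn (Gam X μ) (I \ Z)
  rest : ((I \ Z).erase c).Nonempty

/-- Paths among the stars outside the zone. -/
theorem outer_range {a k : ℕ} (h : Core G a k) (hs : Sys G I A X w (k - 1)) (hI : I.card = a)
    (hm : Mat G I X μ) (hlost : ∀ x ∈ I, ∀ e ∈ X x, ∀ e' ∈ X x, μ e = none → μ e' = none → e = e')
    {Z : Finset V} {c : V} (hz : Zone I X μ Z c) :
    ∀ y₁ ∈ (I \ Z).biUnion (St A), ∀ y₂ ∈ (I \ Z).biUnion (St A),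
      ∃ lo hi, RP G ((I \ Z).biUnion (St A)) y₁ y₂ lo hi ∧ lo + 1 ≤ 2 * (I \ Z).card ∧ 1 ≤ hi := by
  intro y₁ hy₁ y₂ hy₂
  obtain ⟨b₁, hb₁, hy₁'⟩ := Finset.mem_biUnion.mp hy₁
  obtain ⟨b₂, hb₂, hy₂'⟩ := Finset.mem_biUnion.mp hy₂
  have hWI : I \ Z ⊆ I := Finset.sdiff_subset
  have hcW : c ∈ I \ Z := Finset.mem_sdiff.mpr ⟨hz.hc, hz.hcZ⟩
  have hW2 : 2 ≤ (I \ Z).card := by
    have h1 := Finset.card_pos.mpr hz.rest
    rw [Finset.card_erase_of_mem hcW] at h1
    omega
  have hdeg := gam_deg h hs hI hm hlost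
  have hdegW : ∀ y ∈ I \ Z, y ≠ c → ∃ u ∈ I \ Z, ∃ u' ∈ I \ Z, u ≠ u' ∧ Gam X μ y u ∧ Gam X μ y u' := by
    intro y hy hyc
    obtain ⟨hy1, hy2⟩ := Finset.mem_sdiff.mp hy
    obtain ⟨u, hu, u', hu', hne, h1, h2⟩ := hdeg y hy1
    have hnot : ∀ t, t ∈ I → Gam X μ y t → t ∈ I \ Z := by
      intro t ht hg
      refine Finset.mem_sdiff.mpr ⟨ht, fun htZ => ?_⟩
      exact hz.sep t htZ y hy1 hy2 hyc (Or.symm hg)
    exact ⟨u, hnot u hu h1, u', hnot u' hu' h2, hne, h1, h2⟩
  obtain ⟨l, hl, hlen⟩ := short_path (E := Gam X μ) (fun _ _ hh => Or.symm hh) (gam_irr hs hm) hW2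
    hdegW hz.conn hb₁ hb₂
  obtain ⟨lo, hi, r1, r2, r3, _⟩ := hub_path hs hm l b₁ b₂ y₁ y₂ (hl.mono hWI) hy₁' hy₂'
  refine ⟨lo, hi, r1.mono ?_, ?_, r3⟩
  · intro v hv
    obtain ⟨u, hu, hvu⟩ := Finset.mem_biUnion.mp hv
    exact Finset.mem_biUnion.mpr ⟨u, hl.2.2.2.2 u (List.mem_toFinset.mp hu), hvu⟩
  · have hp1 := pc_le b₁ y₁
    have hp2 := pc_le b₂ y₂
    omega

/-- Rings through one or two stars and the outer part. -/
theorem ring2 {a k n : ℕ} (h : Core G a k) (hs : Sys G I A X w (k - 1)) {S : Finset V}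
    (hout : ∀ y₁ ∈ S, ∀ y₂ ∈ S, ∃ lo hi, RP G S y₁ y₂ lo hi ∧ lo + 1 ≤ n ∧ 1 ≤ hi)
    {u v t q p t' y y' : V} (hu : u ∈ I) (hv : v ∈ I) (huv : u ≠ v)
    (hdu : Disjoint (St A u) S) (hdv : Disjoint (St A v) S)
    (ht : t ∈ St A u) (hq : q ∈ St A u) (hp : p ∈ St A v) (ht' : t' ∈ St A v)
    (hadj : G.Adj q p) (hy : y ∈ S) (hy' : y' ∈ S) (a1 : G.Adj t y) (a2 : G.Adj t' y')
    (hb : n + 5 ≤ k + 1) : pii w t q + pii w p t' < k - 1 := by
  by_contra hcon
  obtain ⟨lo₁, hi₁, r1, r2, r3, _⟩ := hs.range hu ht hq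
  obtain ⟨lo₂, hi₂, s1, s2, s3, _⟩ := hs.range hv hp ht'
  obtain ⟨lo₃, hi₃, w1, w2, w3⟩ := hout y' hy' y hy
  have hd1 := hs.star_disj hu hv huv
  have hall := (r1.concat s1 hd1 hadj).concat w1
    (Finset.disjoint_union_left.mpr ⟨hdu, hdv⟩) a2
  have p1 := pc_le u t
  have p2 := pc_le u q
  have p3 := pc_le v p
  have p4 := pc_le v t'
  have hk := h.hk
  apply h.hC
  exact hall.cycle a1.symm (by omega) (by omega)

theorem ring3 {a k n : ℕ} (h : Core G a k) (hs : Sys G I A X w (k - 1)) {S : Finset V}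
    (hout : ∀ y₁ ∈ S, ∀ y₂ ∈ S, ∃ lo hi, RP G S y₁ y₂ lo hi ∧ lo + 1 ≤ n ∧ 1 ≤ hi)
    {u v l t q p q' p' t' y y' : V} (hu : u ∈ I) (hv : v ∈ I) (hl : l ∈ I) (huv : u ≠ v) (hvl : v ≠ l)
    (hul : u ≠ l) (hdu : Disjoint (St A u) S) (hdv : Disjoint (St A v) S)
    (hdl : Disjoint (St A l) S)
    (ht : t ∈ St A u) (hq : q ∈ St A u) (hp : p ∈ St A v) (hq' : q' ∈ St A v) (hp' : p' ∈ St A l)
    (ht' : t' ∈ St A l) (hadj : G.Adj q p) (hadj' : G.Adj q' p')
    (hy : y ∈ S) (hy' : y' ∈ S) (a1 : G.Adj t y) (a2 : G.Adj t' y')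
    (hb : n + 8 ≤ k + 1) : pii w t q + pii w p q' + pii w p' t' < k - 1 := by
  by_contra hcon
  obtain ⟨lo₁, hi₁, r1, r2, r3, _⟩ := hs.range hu ht hq
  obtain ⟨lo₂, hi₂, s1, s2, s3, _⟩ := hs.range hv hp hq'
  obtain ⟨lo₄, hi₄, u1, u2, u3, _⟩ := hs.range hl hp' ht'
  obtain ⟨lo₃, hi₃, w1, w2, w3⟩ := hout y' hy' y hy
  have hd1 := hs.star_disj hu hv huv
  have hd2 := hs.star_disj hu hl hul
  have hd3 := hs.star_disj hv hl hvl
  have hall := ((r1.concat s1 hd1 hadj).concat u1
    (Finset.disjoint_union_left.mpr ⟨hd2, hd3⟩) hadj').concat w1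
    (Finset.disjoint_union_left.mpr ⟨Finset.disjoint_union_left.mpr ⟨hdu, hdv⟩, hdl⟩) a2
  have p1 := pc_le u t
  have p2 := pc_le u q
  have p3 := pc_le v p
  have p4 := pc_le v q'
  have p5 := pc_le l p'
  have p6 := pc_le l t'
  have hk := h.hk
  apply h.hC
  exact hall.cycle a1.symm (by omega) (by omega)

/-- The arms of a hub of the zone go to different targets: other hubs of the zone, the star of `c`,
or some other star outside the zone. -/
theorem zone_hall {a k : ℕ} (h : Core G a k) (hs : Sys G I A X w (k - 1)) (hI : I.card = a)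
    (hm : Mat G I X μ) (hlost : ∀ x ∈ I, ∀ e ∈ X x, ∀ e' ∈ X x, μ e = none → μ e' = none → e = e')
    {Z : Finset V} {c : V} (hz : Zone I X μ Z c) {x r₀ : V} (hx : x ∈ Z)
    (hr₀ : r₀ ∈ (I \ Z).erase c) :
    ∃ f land : V → V, ∀ e ∈ X x, f e ∈ insert c (insert r₀ (Z.erase x)) ∧ G.Adj e (land e) ∧
      (f e ∈ Z → land e ∈ St A (f e)) ∧ (f e ∉ Z → land e ∈ (I \ Z).biUnion (St A)) ∧
      ∀ e' ∈ X x, f e = f e' → e = e' := by
  classical
  have hxI : x ∈ I := hz.sub hx
  have hk := h.hk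
  have hkpos : 0 < k := by omega
  let R' := (I \ Z).erase c
  let τ : V → V := fun b => if b ∈ R' then r₀ else b
  let Tch : V → Finset V := fun e => (I.erase x).filter (fun b => ∃ y ∈ St A b, G.Adj e y)
  let t : ↥(X x) → Finset V := fun e => (Tch e.1).image τ
  have hr₀Z : r₀ ∉ Z := fun hh =>
    (Finset.mem_sdiff.mp (Finset.mem_erase.mp hr₀).2).2 hh
  have hr₀c : r₀ ≠ c := (Finset.mem_erase.mp hr₀).1
  have hτ : ∀ b, b ∉ R' → τ b = b := fun b hb => by simp [τ, hb]
  have hZcard : Z.card + (I \ Z).card = a := by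
    have := Finset.card_sdiff_add_card_eq_card hz.sub
    omega
  have hW2 : 2 ≤ (I \ Z).card := by
    have hcW : c ∈ I \ Z := Finset.mem_sdiff.mpr ⟨hz.hc, hz.hcZ⟩
    have h1 := Finset.card_pos.mpr hz.rest
    rw [Finset.card_erase_of_mem hcW] at h1
    omega
  have hall : ∀ s : Finset ↥(X x), s.card ≤ (s.biUnion t).card := by
    intro s
    let H := s.biUnion (fun e => Tch e.1)
    have hHt : H.image τ ⊆ s.biUnion t := by
      intro v hv
      obtain ⟨b, hb, rfl⟩ := Finset.mem_image.mp hv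
      obtain ⟨e, he, hbe⟩ := Finset.mem_biUnion.mp hb
      exact Finset.mem_biUnion.mpr ⟨e, he, Finset.mem_image_of_mem _ hbe⟩
    have hHI : H ⊆ I := by
      intro b hb
      obtain ⟨e, he, hbe⟩ := Finset.mem_biUnion.mp hb
      exact (Finset.mem_erase.mp (Finset.mem_filter.mp hbe).1).2
    -- the matched terminals
    let s' := s.filter (fun e => ¬ μ e.1 = none)
    have hlost1 : s.card ≤ s'.card + 1 := by
      have h1 : (s.filter (fun e => μ e.1 = none)).card ≤ 1 := by
        rw [Finset.card_le_one]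
        intro e he e' he'
        obtain ⟨a1, a2⟩ := Finset.mem_filter.mp he
        obtain ⟨b1, b2⟩ := Finset.mem_filter.mp he'
        exact Subtype.ext (hlost x hxI e.1 e.2 e'.1 e'.2 a2 b2)
      have h2 := Finset.card_filter_add_card_filter_not (s := s) (fun e => μ e.1 = none)
      simp only [s']
      omega
    let D := s'.image (fun e => (μ e.1).getD x)
    have hDinfo : ∀ e ∈ s', ∃ u, μ e.1 = some u ∧ (μ e.1).getD x = u ∧ u ∈ I ∧ u ≠ x ∧ G.Adj e.1 u := by
      intro e he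
      obtain ⟨_, hne⟩ := Finset.mem_filter.mp he
      obtain ⟨u, hu⟩ := Option.ne_none_iff_exists'.mp hne
      obtain ⟨h1, h2, h3⟩ := hm.mem x hxI e.1 e.2 u hu
      exact ⟨u, hu, by simp [hu], h1, h2, h3⟩
    have hDcard : D.card = s'.card := by
      apply Finset.card_image_of_injOn
      intro e he e' he' heq
      obtain ⟨u, h1, h2, _⟩ := hDinfo e he
      obtain ⟨u', h3, h4, _⟩ := hDinfo e' he'
      simp only at heq
      rw [h2, h4] at heq
      subst heq
      exact Subtype.ext (hm.inj x hxI e.1 e.2 e'.1 e'.2 u h1 h3)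
    have hDsub : D ⊆ insert c (Z.erase x) := by
      intro v hv
      obtain ⟨e, he, rfl⟩ := Finset.mem_image.mp hv
      obtain ⟨u, h1, h2, h3, h4, h5⟩ := hDinfo e he
      rw [h2]
      by_cases huZ : u ∈ Z
      · exact Finset.mem_insert_of_mem (Finset.mem_erase.mpr ⟨h4, huZ⟩)
      · by_cases huc : u = c
        · rw [huc]
          exact Finset.mem_insert_self _ _
        · exact absurd (Or.inl ⟨e.1, e.2, h1⟩) (hz.sep x hx u h3 huZ huc)
    have hDτ : D ⊆ H.image τ := by
      intro v hv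
      obtain ⟨e, he, rfl⟩ := Finset.mem_image.mp hv
      obtain ⟨u, h1, h2, h3, h4, h5⟩ := hDinfo e he
      rw [h2]
      have hue : u ∈ H := by
        refine Finset.mem_biUnion.mpr ⟨e, (Finset.mem_filter.mp he).1, Finset.mem_filter.mpr
          ⟨Finset.mem_erase.mpr ⟨h4, h3⟩, u, Finset.mem_insert_self _ _, h5⟩⟩
      have huR : u ∉ R' := by
        have hv' : u ∈ insert c (Z.erase x) := hDsub (by
          have : u = (μ e.1).getD x := h2.symm
          rw [this]
          exact Finset.mem_image_of_mem _ he)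
        intro huR
        have h6 := Finset.mem_erase.mp huR
        rcases Finset.mem_insert.mp hv' with h7 | h7
        · exact h6.1 h7
        · exact (Finset.mem_sdiff.mp h6.2).2 (Finset.mem_erase.mp h7).2
      rw [← hτ u huR]
      exact Finset.mem_image_of_mem _ hue
    have hDle : D.card ≤ Z.card := by
      have h1 := Finset.card_le_card hDsub
      have h2 := Finset.card_insert_le c (Z.erase x)
      rw [Finset.card_erase_of_mem hx] at h2
      have h3 : 1 ≤ Z.card := Finset.card_pos.mpr ⟨x, hx⟩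
      omega
    by_cases hHR : ∃ b ∈ H, b ∈ R'
    · obtain ⟨b, hb, hbR⟩ := hHR
      have hr : r₀ ∈ H.image τ := by
        have : τ b = r₀ := by simp [τ, hbR]
        rw [← this]
        exact Finset.mem_image_of_mem _ hb
      have hsub : insert r₀ D ⊆ H.image τ := by
        intro v hv
        rcases Finset.mem_insert.mp hv with rfl | hv
        · exact hr
        · exact hDτ hv
      have hr₀D : r₀ ∉ D := by
        intro hh
        rcases Finset.mem_insert.mp (hDsub hh) with h1 | h1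
        · exact hr₀c h1
        · exact hr₀Z (Finset.mem_erase.mp h1).2
      have h1 := Finset.card_le_card hsub
      rw [Finset.card_insert_of_notMem hr₀D] at h1
      have h2 := Finset.card_le_card hHt
      omega
    · push Not at hHR
      have hHim : H.image τ = H := by
        ext v
        simp only [Finset.mem_image]
        constructor
        · rintro ⟨b, hb, rfl⟩
          rw [hτ b (hHR b hb)]
          exact hb
        · intro hv
          exact ⟨v, hv, hτ v (hHR v hv)⟩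
      have h2 := Finset.card_le_card hHt
      rw [hHim] at h2
      by_cases hsne : s.Nonempty
      · -- expansion
        let J : Finset V := s.image Subtype.val
        have hJcard : J.card = s.card := Finset.card_image_of_injective _ Subtype.val_injective
        have hJX : J ⊆ X x := by
          intro v hv
          obtain ⟨e, _, rfl⟩ := Finset.mem_image.mp hv
          exact e.2
        have hJlt : J.card < a := by omega
        have hJne : J.Nonempty := hsne.image _
        have hexp := h.exp hJne (fun p hp q hq => hs.Xind x hxI p (hJX hp) q (hJX hq)) hJlt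
        have hcov : clN G J ⊆ (insert x H).biUnion (St A) := by
          intro v hv
          rcases mem_clN.mp hv with hv | ⟨e, he, hev⟩
          · exact Finset.mem_biUnion.mpr ⟨x, Finset.mem_insert_self _ _, hs.X_star hxI (hJX hv)⟩
          · obtain ⟨b, hb, hvb⟩ := hs.exists_star v
            by_cases hbx : b = x
            · subst hbx
              exact Finset.mem_biUnion.mpr ⟨b, Finset.mem_insert_self _ _, hvb⟩
            · refine Finset.mem_biUnion.mpr ⟨b, Finset.mem_insert_of_mem ?_, hvb⟩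
              obtain ⟨e', he', rfl⟩ := Finset.mem_image.mp he
              exact Finset.mem_biUnion.mpr ⟨e', he', Finset.mem_filter.mpr
                ⟨Finset.mem_erase.mpr ⟨hbx, hb⟩, v, hvb, hev⟩⟩
        have hbound : ((insert x H).biUnion (St A)).card ≤ (insert x H).card * k := by
          apply Finset.card_biUnion_le_card_mul
          intro b hb
          have hbI : b ∈ I := by
            rcases Finset.mem_insert.mp hb with rfl | hb
            · exact hxI
            · exact hHI hb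
          rw [hs.star_card hbI]
          omega
        have h3 := Finset.card_le_card hcov
        have h4 := Finset.card_insert_le x H
        have h5 : k * J.card < k * (H.card + 1) := by
          have h6 : (insert x H).card * k ≤ (H.card + 1) * k := Nat.mul_le_mul_right _ h4
          rw [mul_comm k (H.card + 1)]
          omega
        have h6 := Nat.lt_of_mul_lt_mul_left h5
        omega
      · rw [Finset.not_nonempty_iff_eq_empty] at hsne
        rw [hsne]
        simp
  obtain ⟨f₀, hf1, hf2⟩ := (Finset.all_card_le_biUnion_card_iff_exists_injective t).mp hall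
  have hch : ∀ e : ↥(X x), ∃ b y, b ∈ Tch e.1 ∧ τ b = f₀ e ∧ y ∈ St A b ∧ G.Adj e.1 y := by
    intro e
    obtain ⟨b, hb, hbe⟩ := Finset.mem_image.mp (hf2 e)
    obtain ⟨_, y, hy, hadj⟩ := Finset.mem_filter.mp hb
    exact ⟨b, y, hb, hbe, hy, hadj⟩
  choose bb yy hb1 hb2 hb3 hb4 using hch
  refine ⟨fun v => if hv : v ∈ X x then f₀ ⟨v, hv⟩ else v,
    fun v => if hv : v ∈ X x then yy ⟨v, hv⟩ else v, ?_⟩
  intro e he
  simp only [he, dite_true]
  have hbI := Finset.mem_filter.mp (hb1 ⟨e, he⟩)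
  have hb5 := Finset.mem_erase.mp hbI.1
  refine ⟨?_, hb4 ⟨e, he⟩, ?_, ?_, ?_⟩
  · rw [← hb2 ⟨e, he⟩]
    by_cases hbR : bb ⟨e, he⟩ ∈ R'
    · have : τ (bb ⟨e, he⟩) = r₀ := by simp [τ, hbR]
      rw [this]
      exact Finset.mem_insert_of_mem (Finset.mem_insert_self _ _)
    · rw [hτ _ hbR]
      by_cases hbZ : bb ⟨e, he⟩ ∈ Z
      · exact Finset.mem_insert_of_mem (Finset.mem_insert_of_mem
          (Finset.mem_erase.mpr ⟨hb5.1, hbZ⟩))
      · have hbc : bb ⟨e, he⟩ = c := by
          by_contra hne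
          exact hbR (Finset.mem_erase.mpr ⟨hne, Finset.mem_sdiff.mpr ⟨hb5.2, hbZ⟩⟩)
        rw [hbc]
        exact Finset.mem_insert_self _ _
  · intro hfZ
    rw [← hb2 ⟨e, he⟩] at hfZ ⊢
    by_cases hbR : bb ⟨e, he⟩ ∈ R'
    · have : τ (bb ⟨e, he⟩) = r₀ := by simp [τ, hbR]
      rw [this] at hfZ
      exact absurd hfZ hr₀Z
    · rw [hτ _ hbR]
      exact hb3 ⟨e, he⟩
  · intro hfZ
    rw [← hb2 ⟨e, he⟩] at hfZ
    refine Finset.mem_biUnion.mpr ⟨bb ⟨e, he⟩, ?_, hb3 ⟨e, he⟩⟩
    by_cases hbR : bb ⟨e, he⟩ ∈ R'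
    · exact (Finset.mem_erase.mp hbR).2
    · rw [hτ _ hbR] at hfZ
      exact Finset.mem_sdiff.mpr ⟨hb5.2, hfZ⟩
  · intro e' he' heq
    simp only [he', dite_true] at heq
    have := hf1 heq
    exact congrArg Subtype.val this

end Vale.Agent.Lib.P048.E
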