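import Vale.Agent.Lib.P048.E4

/-!
Three hubs: generated case analysis (patterns of present arms, and whether a landing is a terminal).
-/

namespace Vale.Agent.Lib.P048.E

set_option linter.unusedSectionVars false
set_option linter.unusedVariables false

variable {ι V : Type*} [DecidableEq V] {w : V → ℕ} {T : ℕ} {x : ι → ι → ℕ} {tX lX : ι → ι → V}
  {g h : ι → ℕ} {tG tH : ι → V} {a b c : ι}

/-- The arms of three hubs: to the other two hubs, and at most two to the outside. -/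
structure D3 (w : V → ℕ) (T : ℕ) (x : ι → ι → ℕ) (tX lX : ι → ι → V) (g h : ι → ℕ)
    (tG tH : ι → V) : Prop where
  sum : ∀ i j l, i ≠ j → i ≠ l → j ≠ l → T = x i j + x i l + g i + h i
  pat : ∀ i j l, i ≠ j → i ≠ l → j ≠ l → (0 < x i j ∧ 0 < x i l) ∨ (0 < h i ∧ (0 < x i j ∨ 0 < x i l))
  hg : ∀ i, h i ≤ g i
  wX : ∀ i j, 0 < x i j → w (tX i j) = x i j
  wG : ∀ i, w (tG i) = g i
  wH : ∀ i, 0 < h i → w (tH i) = h i
  neXX : ∀ i j l, j ≠ l → 0 < x i j → 0 < x i l → tX i j ≠ tX i l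
  neGX : ∀ i j, 0 < x i j → tG i ≠ tX i j
  neHX : ∀ i j, 0 < h i → 0 < x i j → tH i ≠ tX i j
  neGH : ∀ i, 0 < h i → tG i ≠ tH i

/-- A link between two hubs. -/
def Lk (x : ι → ι → ℕ) (tX lX : ι → ι → V) (i j : ι) (q p : V) : Prop :=
  (0 < x i j ∧ q = tX i j ∧ p = lX i j) ∨ (0 < x j i ∧ q = lX j i ∧ p = tX j i)

/-- A terminal going to the outside. -/
def BT (h : ι → ℕ) (tG tH : ι → V) (i : ι) (t : V) : Prop :=
  t = tG i ∨ (0 < h i ∧ t = tH i)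

/-- All cycles through the outside are light. -/
structure Ctx3 (w : V → ℕ) (T : ℕ) (x : ι → ι → ℕ) (tX lX : ι → ι → V) (g h : ι → ℕ)
    (tG tH : ι → V) (a b c : ι) : Prop where
  d : D3 w T x tX lX g h tG tH
  O3 : ∀ i j l, i ≠ j → j ≠ l → i ≠ l → ∀ t q p q' p' t', BT h tG tH i t → Lk x tX lX i j q p →
    Lk x tX lX j l q' p' → BT h tG tH l t' → pii w t q + pii w p q' + pii w p' t' < T
  O2 : ∀ i j, i ≠ j → ∀ t q p t', BT h tG tH i t → Lk x tX lX i j q p → BT h tG tH j t' →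
    pii w t q + pii w p t' < T
  hab : a ≠ b
  hac : a ≠ c
  hbc : b ≠ c
  hmax1 : g b ≤ g a
  hmax2 : g c ≤ g a

theorem abs3_p0 (C : Ctx3 w T x tX lX g h tG tH a b c) (pX_0_1 : 0 < x a b) (pX_0_2 : 0 < x a c) (zH_0 : h a = 0) (pX_1_0 : 0 < x b a) (pX_1_2 : 0 < x b c) (zH_1 : h b = 0) (pX_2_0 : 0 < x c a) (pX_2_1 : 0 < x c b) (zH_2 : h c = 0) : False := by
  have sa := C.d.sum a b c C.hab C.hac C.hbc
  have sb := C.d.sum b a c C.hab.symm C.hbc C.hac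
  have sc := C.d.sum c a b C.hac.symm C.hbc.symm C.hab
  have g1 := C.d.hg a
  have g2 := C.d.hg b
  have g3 := C.d.hg c
  have m1 := C.hmax1
  have m2 := C.hmax2
  have wG_0 := C.d.wG a
  have wX_0_1 := C.d.wX a b pX_0_1
  have wX_0_2 := C.d.wX a c pX_0_2
  have wG_1 := C.d.wG b
  have wX_1_0 := C.d.wX b a pX_1_0
  have wX_1_2 := C.d.wX b c pX_1_2
  have wG_2 := C.d.wG c
  have wX_2_0 := C.d.wX c a pX_2_0
  have wX_2_1 := C.d.wX c b pX_2_1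
  have c1 := C.O3 b a c C.hab.symm C.hac C.hbc (tG b) (tX b a) (lX b a) (lX c a) (tX c a) (tG c) (Or.inl rfl) (Or.inl ⟨pX_1_0, rfl, rfl⟩) (Or.inr ⟨pX_2_0, rfl, rfl⟩) (Or.inl rfl)
  have b2 := pii_lb (w := w) (p := (tG b)) (q := (tX b a)) ((C.d.neGX b a pX_1_0))
  have b3 := pii_lb (w := w) (p := (tX c a)) (q := (tG c)) ((C.d.neGX c a pX_2_0).symm)
  have c4 := C.O3 a c b C.hac C.hbc.symm C.hab (tG a) (tX a c) (lX a c) (lX b c) (tX b c) (tG b) (Or.inl rfl) (Or.inl ⟨pX_0_2, rfl, rfl⟩) (Or.inr ⟨pX_1_2, rfl, rfl⟩) (Or.inl rfl)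
  have b5 := pii_lb (w := w) (p := (tG a)) (q := (tX a c)) ((C.d.neGX a c pX_0_2))
  have b6 := pii_lb (w := w) (p := (tX b c)) (q := (tG b)) ((C.d.neGX b c pX_1_2).symm)
  have c7 := C.O3 a b c C.hab C.hbc C.hac (tG a) (tX a b) (lX a b) (lX c b) (tX c b) (tG c) (Or.inl rfl) (Or.inl ⟨pX_0_1, rfl, rfl⟩) (Or.inr ⟨pX_2_1, rfl, rfl⟩) (Or.inl rfl)
  have b8 := pii_lb (w := w) (p := (tG a)) (q := (tX a b)) ((C.d.neGX a b pX_0_1))
  have b9 := pii_lb (w := w) (p := (tX c b)) (q := (tG c)) ((C.d.neGX c b pX_2_1).symm)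
  omega

theorem abs3_p1 (C : Ctx3 w T x tX lX g h tG tH a b c) (pX_0_1 : 0 < x a b) (pX_0_2 : 0 < x a c) (zH_0 : h a = 0) (pX_1_0 : 0 < x b a) (pX_1_2 : 0 < x b c) (zH_1 : h b = 0) (pX_2_0 : 0 < x c a) (pX_2_1 : 0 < x c b) (pH_2 : 0 < h c) : False := by
  have sa := C.d.sum a b c C.hab C.hac C.hbc
  have sb := C.d.sum b a c C.hab.symm C.hbc C.hac
  have sc := C.d.sum c a b C.hac.symm C.hbc.symm C.hab
  have g1 := C.d.hg a
  have g2 := C.d.hg b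
  have g3 := C.d.hg c
  have m1 := C.hmax1
  have m2 := C.hmax2
  have wG_0 := C.d.wG a
  have wX_0_1 := C.d.wX a b pX_0_1
  have wX_0_2 := C.d.wX a c pX_0_2
  have wG_1 := C.d.wG b
  have wX_1_0 := C.d.wX b a pX_1_0
  have wX_1_2 := C.d.wX b c pX_1_2
  have wG_2 := C.d.wG c
  have wX_2_0 := C.d.wX c a pX_2_0
  have wX_2_1 := C.d.wX c b pX_2_1
  have wH_2 := C.d.wH c pH_2
  have c1 := C.O3 a c b C.hac C.hbc.symm C.hab (tG a) (tX a c) (lX a c) (lX b c) (tX b c) (tG b) (Or.inl rfl) (Or.inl ⟨pX_0_2, rfl, rfl⟩) (Or.inr ⟨pX_1_2, rfl, rfl⟩) (Or.inl rfl)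
  have b2 := pii_lb (w := w) (p := (tG a)) (q := (tX a c)) ((C.d.neGX a c pX_0_2))
  have b3 := pii_lb (w := w) (p := (tX b c)) (q := (tG b)) ((C.d.neGX b c pX_1_2).symm)
  have c4 := C.O3 b a c C.hab.symm C.hac C.hbc (tG b) (tX b a) (lX b a) (lX c a) (tX c a) (tG c) (Or.inl rfl) (Or.inl ⟨pX_1_0, rfl, rfl⟩) (Or.inr ⟨pX_2_0, rfl, rfl⟩) (Or.inl rfl)
  have b5 := pii_lb (w := w) (p := (tG b)) (q := (tX b a)) ((C.d.neGX b a pX_1_0))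
  have b6 := pii_lb (w := w) (p := (tX c a)) (q := (tG c)) ((C.d.neGX c a pX_2_0).symm)
  have c7 := C.O3 a b c C.hab C.hbc C.hac (tG a) (tX a b) (lX a b) (lX c b) (tX c b) (tG c) (Or.inl rfl) (Or.inl ⟨pX_0_1, rfl, rfl⟩) (Or.inr ⟨pX_2_1, rfl, rfl⟩) (Or.inl rfl)
  have b8 := pii_lb (w := w) (p := (tG a)) (q := (tX a b)) ((C.d.neGX a b pX_0_1))
  have b9 := pii_lb (w := w) (p := (tX c b)) (q := (tG c)) ((C.d.neGX c b pX_2_1).symm)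
  omega

theorem abs3_p2 (C : Ctx3 w T x tX lX g h tG tH a b c) (pX_0_1 : 0 < x a b) (pX_0_2 : 0 < x a c) (zH_0 : h a = 0) (pX_1_0 : 0 < x b a) (pX_1_2 : 0 < x b c) (zH_1 : h b = 0) (pX_2_0 : 0 < x c a) (zX_2_1 : x c b = 0) (pH_2 : 0 < h c) : False := by
  have sa := C.d.sum a b c C.hab C.hac C.hbc
  have sb := C.d.sum b a c C.hab.symm C.hbc C.hac
  have sc := C.d.sum c a b C.hac.symm C.hbc.symm C.hab
  have g1 := C.d.hg a
  have g2 := C.d.hg b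
  have g3 := C.d.hg c
  have m1 := C.hmax1
  have m2 := C.hmax2
  have wG_0 := C.d.wG a
  have wX_0_1 := C.d.wX a b pX_0_1
  have wX_0_2 := C.d.wX a c pX_0_2
  have wG_1 := C.d.wG b
  have wX_1_0 := C.d.wX b a pX_1_0
  have wX_1_2 := C.d.wX b c pX_1_2
  have wG_2 := C.d.wG c
  have wX_2_0 := C.d.wX c a pX_2_0
  have wH_2 := C.d.wH c pH_2
  have c1 := C.O3 b a c C.hab.symm C.hac C.hbc (tG b) (tX b a) (lX b a) (lX c a) (tX c a) (tG c) (Or.inl rfl) (Or.inl ⟨pX_1_0, rfl, rfl⟩) (Or.inr ⟨pX_2_0, rfl, rfl⟩) (Or.inl rfl)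
  have b2 := pii_lb (w := w) (p := (tG b)) (q := (tX b a)) ((C.d.neGX b a pX_1_0))
  have b3 := pii_lb (w := w) (p := (tX c a)) (q := (tG c)) ((C.d.neGX c a pX_2_0).symm)
  have c4 := C.O3 a c b C.hac C.hbc.symm C.hab (tG a) (tX a c) (lX a c) (lX b c) (tX b c) (tG b) (Or.inl rfl) (Or.inl ⟨pX_0_2, rfl, rfl⟩) (Or.inr ⟨pX_1_2, rfl, rfl⟩) (Or.inl rfl)
  have b5 := pii_lb (w := w) (p := (tG a)) (q := (tX a c)) ((C.d.neGX a c pX_0_2))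
  have b6 := pii_lb (w := w) (p := (tX b c)) (q := (tG b)) ((C.d.neGX b c pX_1_2).symm)
  omega

theorem abs3_p3 (C : Ctx3 w T x tX lX g h tG tH a b c) (pX_0_1 : 0 < x a b) (pX_0_2 : 0 < x a c) (zH_0 : h a = 0) (pX_1_0 : 0 < x b a) (pX_1_2 : 0 < x b c) (zH_1 : h b = 0) (zX_2_0 : x c a = 0) (pX_2_1 : 0 < x c b) (pH_2 : 0 < h c) : False := by
  have sa := C.d.sum a b c C.hab C.hac C.hbc
  have sb := C.d.sum b a c C.hab.symm C.hbc C.hac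
  have sc := C.d.sum c a b C.hac.symm C.hbc.symm C.hab
  have g1 := C.d.hg a
  have g2 := C.d.hg b
  have g3 := C.d.hg c
  have m1 := C.hmax1
  have m2 := C.hmax2
  have wG_0 := C.d.wG a
  have wX_0_1 := C.d.wX a b pX_0_1
  have wX_0_2 := C.d.wX a c pX_0_2
  have wG_1 := C.d.wG b
  have wX_1_0 := C.d.wX b a pX_1_0
  have wX_1_2 := C.d.wX b c pX_1_2
  have wG_2 := C.d.wG c
  have wX_2_1 := C.d.wX c b pX_2_1
  have wH_2 := C.d.wH c pH_2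
  have c1 := C.O3 a b c C.hab C.hbc C.hac (tG a) (tX a b) (lX a b) (lX c b) (tX c b) (tG c) (Or.inl rfl) (Or.inl ⟨pX_0_1, rfl, rfl⟩) (Or.inr ⟨pX_2_1, rfl, rfl⟩) (Or.inl rfl)
  have b2 := pii_lb (w := w) (p := (tG a)) (q := (tX a b)) ((C.d.neGX a b pX_0_1))
  have b3 := pii_lb (w := w) (p := (tX c b)) (q := (tG c)) ((C.d.neGX c b pX_2_1).symm)
  omega

theorem abs3_p4 (C : Ctx3 w T x tX lX g h tG tH a b c) (pX_0_1 : 0 < x a b) (pX_0_2 : 0 < x a c) (zH_0 : h a = 0) (pX_1_0 : 0 < x b a) (pX_1_2 : 0 < x b c) (pH_1 : 0 < h b) (pX_2_0 : 0 < x c a) (pX_2_1 : 0 < x c b) (zH_2 : h c = 0) : False := by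
  have sa := C.d.sum a b c C.hab C.hac C.hbc
  have sb := C.d.sum b a c C.hab.symm C.hbc C.hac
  have sc := C.d.sum c a b C.hac.symm C.hbc.symm C.hab
  have g1 := C.d.hg a
  have g2 := C.d.hg b
  have g3 := C.d.hg c
  have m1 := C.hmax1
  have m2 := C.hmax2
  have wG_0 := C.d.wG a
  have wX_0_1 := C.d.wX a b pX_0_1
  have wX_0_2 := C.d.wX a c pX_0_2
  have wG_1 := C.d.wG b
  have wX_1_0 := C.d.wX b a pX_1_0
  have wX_1_2 := C.d.wX b c pX_1_2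
  have wH_1 := C.d.wH b pH_1
  have wG_2 := C.d.wG c
  have wX_2_0 := C.d.wX c a pX_2_0
  have wX_2_1 := C.d.wX c b pX_2_1
  have c1 := C.O3 a b c C.hab C.hbc C.hac (tG a) (tX a b) (lX a b) (lX c b) (tX c b) (tG c) (Or.inl rfl) (Or.inl ⟨pX_0_1, rfl, rfl⟩) (Or.inr ⟨pX_2_1, rfl, rfl⟩) (Or.inl rfl)
  have b2 := pii_lb (w := w) (p := (tG a)) (q := (tX a b)) ((C.d.neGX a b pX_0_1))
  have b3 := pii_lb (w := w) (p := (tX c b)) (q := (tG c)) ((C.d.neGX c b pX_2_1).symm)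
  have c4 := C.O3 b a c C.hab.symm C.hac C.hbc (tG b) (tX b a) (lX b a) (lX c a) (tX c a) (tG c) (Or.inl rfl) (Or.inl ⟨pX_1_0, rfl, rfl⟩) (Or.inr ⟨pX_2_0, rfl, rfl⟩) (Or.inl rfl)
  have b5 := pii_lb (w := w) (p := (tG b)) (q := (tX b a)) ((C.d.neGX b a pX_1_0))
  have b6 := pii_lb (w := w) (p := (tX c a)) (q := (tG c)) ((C.d.neGX c a pX_2_0).symm)
  have c7 := C.O3 a c b C.hac C.hbc.symm C.hab (tG a) (tX a c) (lX a c) (lX b c) (tX b c) (tH b) (Or.inl rfl) (Or.inl ⟨pX_0_2, rfl, rfl⟩) (Or.inr ⟨pX_1_2, rfl, rfl⟩) (Or.inr ⟨pH_1, rfl⟩)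
  have b8 := pii_lb (w := w) (p := (tG a)) (q := (tX a c)) ((C.d.neGX a c pX_0_2))
  have b9 := pii_lb (w := w) (p := (tX b c)) (q := (tH b)) ((C.d.neHX b c pH_1 pX_1_2).symm)
  omega

theorem abs3_p5 (C : Ctx3 w T x tX lX g h tG tH a b c) (pX_0_1 : 0 < x a b) (pX_0_2 : 0 < x a c) (zH_0 : h a = 0) (pX_1_0 : 0 < x b a) (pX_1_2 : 0 < x b c) (pH_1 : 0 < h b) (pX_2_0 : 0 < x c a) (pX_2_1 : 0 < x c b) (pH_2 : 0 < h c) : False := by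
  have sa := C.d.sum a b c C.hab C.hac C.hbc
  have sb := C.d.sum b a c C.hab.symm C.hbc C.hac
  have sc := C.d.sum c a b C.hac.symm C.hbc.symm C.hab
  have g1 := C.d.hg a
  have g2 := C.d.hg b
  have g3 := C.d.hg c
  have m1 := C.hmax1
  have m2 := C.hmax2
  have wG_0 := C.d.wG a
  have wX_0_1 := C.d.wX a b pX_0_1
  have wX_0_2 := C.d.wX a c pX_0_2
  have wG_1 := C.d.wG b
  have wX_1_0 := C.d.wX b a pX_1_0
  have wX_1_2 := C.d.wX b c pX_1_2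
  have wH_1 := C.d.wH b pH_1
  have wG_2 := C.d.wG c
  have wX_2_0 := C.d.wX c a pX_2_0
  have wX_2_1 := C.d.wX c b pX_2_1
  have wH_2 := C.d.wH c pH_2
  have c1 := C.O3 a b c C.hab C.hbc C.hac (tG a) (tX a b) (lX a b) (lX c b) (tX c b) (tG c) (Or.inl rfl) (Or.inl ⟨pX_0_1, rfl, rfl⟩) (Or.inr ⟨pX_2_1, rfl, rfl⟩) (Or.inl rfl)
  have b2 := pii_lb (w := w) (p := (tG a)) (q := (tX a b)) ((C.d.neGX a b pX_0_1))
  have b3 := pii_lb (w := w) (p := (tX c b)) (q := (tG c)) ((C.d.neGX c b pX_2_1).symm)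
  have c4 := C.O3 a c b C.hac C.hbc.symm C.hab (tG a) (tX a c) (lX a c) (lX b c) (tX b c) (tG b) (Or.inl rfl) (Or.inl ⟨pX_0_2, rfl, rfl⟩) (Or.inr ⟨pX_1_2, rfl, rfl⟩) (Or.inl rfl)
  have b5 := pii_lb (w := w) (p := (tG a)) (q := (tX a c)) ((C.d.neGX a c pX_0_2))
  have b6 := pii_lb (w := w) (p := (tX b c)) (q := (tG b)) ((C.d.neGX b c pX_1_2).symm)
  have c7 := C.O3 b a c C.hab.symm C.hac C.hbc (tH b) (tX b a) (lX b a) (lX c a) (tX c a) (tH c) (Or.inr ⟨pH_1, rfl⟩) (Or.inl ⟨pX_1_0, rfl, rfl⟩) (Or.inr ⟨pX_2_0, rfl, rfl⟩) (Or.inr ⟨pH_2, rfl⟩)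
  have b8 := pii_lb (w := w) (p := (tH b)) (q := (tX b a)) ((C.d.neHX b a pH_1 pX_1_0))
  have b9 := pii_lb (w := w) (p := (tX c a)) (q := (tH c)) ((C.d.neHX c a pH_2 pX_2_0).symm)
  omega

theorem abs3_p6 (C : Ctx3 w T x tX lX g h tG tH a b c) (pX_0_1 : 0 < x a b) (pX_0_2 : 0 < x a c) (zH_0 : h a = 0) (pX_1_0 : 0 < x b a) (pX_1_2 : 0 < x b c) (pH_1 : 0 < h b) (pX_2_0 : 0 < x c a) (zX_2_1 : x c b = 0) (pH_2 : 0 < h c) : False := by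
  have sa := C.d.sum a b c C.hab C.hac C.hbc
  have sb := C.d.sum b a c C.hab.symm C.hbc C.hac
  have sc := C.d.sum c a b C.hac.symm C.hbc.symm C.hab
  have g1 := C.d.hg a
  have g2 := C.d.hg b
  have g3 := C.d.hg c
  have m1 := C.hmax1
  have m2 := C.hmax2
  have wG_0 := C.d.wG a
  have wX_0_1 := C.d.wX a b pX_0_1
  have wX_0_2 := C.d.wX a c pX_0_2
  have wG_1 := C.d.wG b
  have wX_1_0 := C.d.wX b a pX_1_0
  have wX_1_2 := C.d.wX b c pX_1_2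
  have wH_1 := C.d.wH b pH_1
  have wG_2 := C.d.wG c
  have wX_2_0 := C.d.wX c a pX_2_0
  have wH_2 := C.d.wH c pH_2
  have c1 := C.O3 b a c C.hab.symm C.hac C.hbc (tG b) (tX b a) (lX b a) (lX c a) (tX c a) (tH c) (Or.inl rfl) (Or.inl ⟨pX_1_0, rfl, rfl⟩) (Or.inr ⟨pX_2_0, rfl, rfl⟩) (Or.inr ⟨pH_2, rfl⟩)
  have b2 := pii_lb (w := w) (p := (tG b)) (q := (tX b a)) ((C.d.neGX b a pX_1_0))
  have b3 := pii_lb (w := w) (p := (tX c a)) (q := (tH c)) ((C.d.neHX c a pH_2 pX_2_0).symm)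
  have c4 := C.O3 a c b C.hac C.hbc.symm C.hab (tG a) (tX a c) (lX a c) (lX b c) (tX b c) (tH b) (Or.inl rfl) (Or.inl ⟨pX_0_2, rfl, rfl⟩) (Or.inr ⟨pX_1_2, rfl, rfl⟩) (Or.inr ⟨pH_1, rfl⟩)
  have b5 := pii_lb (w := w) (p := (tG a)) (q := (tX a c)) ((C.d.neGX a c pX_0_2))
  have b6 := pii_lb (w := w) (p := (tX b c)) (q := (tH b)) ((C.d.neHX b c pH_1 pX_1_2).symm)
  omega

theorem abs3_p7 (C : Ctx3 w T x tX lX g h tG tH a b c) (pX_0_1 : 0 < x a b) (pX_0_2 : 0 < x a c) (zH_0 : h a = 0) (pX_1_0 : 0 < x b a) (pX_1_2 : 0 < x b c) (pH_1 : 0 < h b) (zX_2_0 : x c a = 0) (pX_2_1 : 0 < x c b) (pH_2 : 0 < h c) : False := by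
  have sa := C.d.sum a b c C.hab C.hac C.hbc
  have sb := C.d.sum b a c C.hab.symm C.hbc C.hac
  have sc := C.d.sum c a b C.hac.symm C.hbc.symm C.hab
  have g1 := C.d.hg a
  have g2 := C.d.hg b
  have g3 := C.d.hg c
  have m1 := C.hmax1
  have m2 := C.hmax2
  have wG_0 := C.d.wG a
  have wX_0_1 := C.d.wX a b pX_0_1
  have wX_0_2 := C.d.wX a c pX_0_2
  have wG_1 := C.d.wG b
  have wX_1_0 := C.d.wX b a pX_1_0
  have wX_1_2 := C.d.wX b c pX_1_2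
  have wH_1 := C.d.wH b pH_1
  have wG_2 := C.d.wG c
  have wX_2_1 := C.d.wX c b pX_2_1
  have wH_2 := C.d.wH c pH_2
  have c1 := C.O3 a b c C.hab C.hbc C.hac (tG a) (tX a b) (lX a b) (lX c b) (tX c b) (tG c) (Or.inl rfl) (Or.inl ⟨pX_0_1, rfl, rfl⟩) (Or.inr ⟨pX_2_1, rfl, rfl⟩) (Or.inl rfl)
  have b2 := pii_lb (w := w) (p := (tG a)) (q := (tX a b)) ((C.d.neGX a b pX_0_1))
  have b3 := pii_lb (w := w) (p := (tX c b)) (q := (tG c)) ((C.d.neGX c b pX_2_1).symm)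
  omega

theorem abs3_p8 (C : Ctx3 w T x tX lX g h tG tH a b c) (pX_0_1 : 0 < x a b) (pX_0_2 : 0 < x a c) (zH_0 : h a = 0) (pX_1_0 : 0 < x b a) (zX_1_2 : x b c = 0) (pH_1 : 0 < h b) (pX_2_0 : 0 < x c a) (pX_2_1 : 0 < x c b) (zH_2 : h c = 0) : False := by
  have sa := C.d.sum a b c C.hab C.hac C.hbc
  have sb := C.d.sum b a c C.hab.symm C.hbc C.hac
  have sc := C.d.sum c a b C.hac.symm C.hbc.symm C.hab
  have g1 := C.d.hg a
  have g2 := C.d.hg b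
  have g3 := C.d.hg c
  have m1 := C.hmax1
  have m2 := C.hmax2
  have wG_0 := C.d.wG a
  have wX_0_1 := C.d.wX a b pX_0_1
  have wX_0_2 := C.d.wX a c pX_0_2
  have wG_1 := C.d.wG b
  have wX_1_0 := C.d.wX b a pX_1_0
  have wH_1 := C.d.wH b pH_1
  have wG_2 := C.d.wG c
  have wX_2_0 := C.d.wX c a pX_2_0
  have wX_2_1 := C.d.wX c b pX_2_1
  have c1 := C.O3 b a c C.hab.symm C.hac C.hbc (tG b) (tX b a) (lX b a) (lX c a) (tX c a) (tG c) (Or.inl rfl) (Or.inl ⟨pX_1_0, rfl, rfl⟩) (Or.inr ⟨pX_2_0, rfl, rfl⟩) (Or.inl rfl)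
  have b2 := pii_lb (w := w) (p := (tG b)) (q := (tX b a)) ((C.d.neGX b a pX_1_0))
  have b3 := pii_lb (w := w) (p := (tX c a)) (q := (tG c)) ((C.d.neGX c a pX_2_0).symm)
  have c4 := C.O3 a b c C.hab C.hbc C.hac (tG a) (tX a b) (lX a b) (lX c b) (tX c b) (tG c) (Or.inl rfl) (Or.inl ⟨pX_0_1, rfl, rfl⟩) (Or.inr ⟨pX_2_1, rfl, rfl⟩) (Or.inl rfl)
  have b5 := pii_lb (w := w) (p := (tG a)) (q := (tX a b)) ((C.d.neGX a b pX_0_1))
  have b6 := pii_lb (w := w) (p := (tX c b)) (q := (tG c)) ((C.d.neGX c b pX_2_1).symm)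
  omega

theorem abs3_p9 (C : Ctx3 w T x tX lX g h tG tH a b c) (pX_0_1 : 0 < x a b) (pX_0_2 : 0 < x a c) (zH_0 : h a = 0) (pX_1_0 : 0 < x b a) (zX_1_2 : x b c = 0) (pH_1 : 0 < h b) (pX_2_0 : 0 < x c a) (pX_2_1 : 0 < x c b) (pH_2 : 0 < h c) : False := by
  have sa := C.d.sum a b c C.hab C.hac C.hbc
  have sb := C.d.sum b a c C.hab.symm C.hbc C.hac
  have sc := C.d.sum c a b C.hac.symm C.hbc.symm C.hab
  have g1 := C.d.hg a
  have g2 := C.d.hg b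
  have g3 := C.d.hg c
  have m1 := C.hmax1
  have m2 := C.hmax2
  have wG_0 := C.d.wG a
  have wX_0_1 := C.d.wX a b pX_0_1
  have wX_0_2 := C.d.wX a c pX_0_2
  have wG_1 := C.d.wG b
  have wX_1_0 := C.d.wX b a pX_1_0
  have wH_1 := C.d.wH b pH_1
  have wG_2 := C.d.wG c
  have wX_2_0 := C.d.wX c a pX_2_0
  have wX_2_1 := C.d.wX c b pX_2_1
  have wH_2 := C.d.wH c pH_2
  have c1 := C.O3 b a c C.hab.symm C.hac C.hbc (tG b) (tX b a) (lX b a) (lX c a) (tX c a) (tH c) (Or.inl rfl) (Or.inl ⟨pX_1_0, rfl, rfl⟩) (Or.inr ⟨pX_2_0, rfl, rfl⟩) (Or.inr ⟨pH_2, rfl⟩)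
  have b2 := pii_lb (w := w) (p := (tG b)) (q := (tX b a)) ((C.d.neGX b a pX_1_0))
  have b3 := pii_lb (w := w) (p := (tX c a)) (q := (tH c)) ((C.d.neHX c a pH_2 pX_2_0).symm)
  have c4 := C.O3 a b c C.hab C.hbc C.hac (tG a) (tX a b) (lX a b) (lX c b) (tX c b) (tG c) (Or.inl rfl) (Or.inl ⟨pX_0_1, rfl, rfl⟩) (Or.inr ⟨pX_2_1, rfl, rfl⟩) (Or.inl rfl)
  have b5 := pii_lb (w := w) (p := (tG a)) (q := (tX a b)) ((C.d.neGX a b pX_0_1))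
  have b6 := pii_lb (w := w) (p := (tX c b)) (q := (tG c)) ((C.d.neGX c b pX_2_1).symm)
  omega

theorem abs3_p10 (C : Ctx3 w T x tX lX g h tG tH a b c) (pX_0_1 : 0 < x a b) (pX_0_2 : 0 < x a c) (zH_0 : h a = 0) (pX_1_0 : 0 < x b a) (zX_1_2 : x b c = 0) (pH_1 : 0 < h b) (pX_2_0 : 0 < x c a) (zX_2_1 : x c b = 0) (pH_2 : 0 < h c) : False := by
  have sa := C.d.sum a b c C.hab C.hac C.hbc
  have sb := C.d.sum b a c C.hab.symm C.hbc C.hac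
  have sc := C.d.sum c a b C.hac.symm C.hbc.symm C.hab
  have g1 := C.d.hg a
  have g2 := C.d.hg b
  have g3 := C.d.hg c
  have m1 := C.hmax1
  have m2 := C.hmax2
  have wG_0 := C.d.wG a
  have wX_0_1 := C.d.wX a b pX_0_1
  have wX_0_2 := C.d.wX a c pX_0_2
  have wG_1 := C.d.wG b
  have wX_1_0 := C.d.wX b a pX_1_0
  have wH_1 := C.d.wH b pH_1
  have wG_2 := C.d.wG c
  have wX_2_0 := C.d.wX c a pX_2_0
  have wH_2 := C.d.wH c pH_2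
  have c1 := C.O3 b a c C.hab.symm C.hac C.hbc (tG b) (tX b a) (lX b a) (lX c a) (tX c a) (tG c) (Or.inl rfl) (Or.inl ⟨pX_1_0, rfl, rfl⟩) (Or.inr ⟨pX_2_0, rfl, rfl⟩) (Or.inl rfl)
  have b2 := pii_lb (w := w) (p := (tG b)) (q := (tX b a)) ((C.d.neGX b a pX_1_0))
  have b3 := pii_lb (w := w) (p := (tX c a)) (q := (tG c)) ((C.d.neGX c a pX_2_0).symm)
  omega

theorem abs3_p11 (C : Ctx3 w T x tX lX g h tG tH a b c) (pX_0_1 : 0 < x a b) (pX_0_2 : 0 < x a c) (zH_0 : h a = 0) (pX_1_0 : 0 < x b a) (zX_1_2 : x b c = 0) (pH_1 : 0 < h b) (zX_2_0 : x c a = 0) (pX_2_1 : 0 < x c b) (pH_2 : 0 < h c) : False := by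
  have sa := C.d.sum a b c C.hab C.hac C.hbc
  have sb := C.d.sum b a c C.hab.symm C.hbc C.hac
  have sc := C.d.sum c a b C.hac.symm C.hbc.symm C.hab
  have g1 := C.d.hg a
  have g2 := C.d.hg b
  have g3 := C.d.hg c
  have m1 := C.hmax1
  have m2 := C.hmax2
  have wG_0 := C.d.wG a
  have wX_0_1 := C.d.wX a b pX_0_1
  have wX_0_2 := C.d.wX a c pX_0_2
  have wG_1 := C.d.wG b
  have wX_1_0 := C.d.wX b a pX_1_0
  have wH_1 := C.d.wH b pH_1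
  have wG_2 := C.d.wG c
  have wX_2_1 := C.d.wX c b pX_2_1
  have wH_2 := C.d.wH c pH_2
  have c1 := C.O3 a b c C.hab C.hbc C.hac (tG a) (tX a b) (lX a b) (lX c b) (tX c b) (tG c) (Or.inl rfl) (Or.inl ⟨pX_0_1, rfl, rfl⟩) (Or.inr ⟨pX_2_1, rfl, rfl⟩) (Or.inl rfl)
  have b2 := pii_lb (w := w) (p := (tG a)) (q := (tX a b)) ((C.d.neGX a b pX_0_1))
  have b3 := pii_lb (w := w) (p := (tX c b)) (q := (tG c)) ((C.d.neGX c b pX_2_1).symm)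
  omega

theorem abs3_p12 (C : Ctx3 w T x tX lX g h tG tH a b c) (pX_0_1 : 0 < x a b) (pX_0_2 : 0 < x a c) (zH_0 : h a = 0) (zX_1_0 : x b a = 0) (pX_1_2 : 0 < x b c) (pH_1 : 0 < h b) (pX_2_0 : 0 < x c a) (pX_2_1 : 0 < x c b) (zH_2 : h c = 0) : False := by
  have sa := C.d.sum a b c C.hab C.hac C.hbc
  have sb := C.d.sum b a c C.hab.symm C.hbc C.hac
  have sc := C.d.sum c a b C.hac.symm C.hbc.symm C.hab
  have g1 := C.d.hg a
  have g2 := C.d.hg b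
  have g3 := C.d.hg c
  have m1 := C.hmax1
  have m2 := C.hmax2
  have wG_0 := C.d.wG a
  have wX_0_1 := C.d.wX a b pX_0_1
  have wX_0_2 := C.d.wX a c pX_0_2
  have wG_1 := C.d.wG b
  have wX_1_2 := C.d.wX b c pX_1_2
  have wH_1 := C.d.wH b pH_1
  have wG_2 := C.d.wG c
  have wX_2_0 := C.d.wX c a pX_2_0
  have wX_2_1 := C.d.wX c b pX_2_1
  have c1 := C.O3 a c b C.hac C.hbc.symm C.hab (tG a) (tX a c) (lX a c) (lX b c) (tX b c) (tG b) (Or.inl rfl) (Or.inl ⟨pX_0_2, rfl, rfl⟩) (Or.inr ⟨pX_1_2, rfl, rfl⟩) (Or.inl rfl)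
  have b2 := pii_lb (w := w) (p := (tG a)) (q := (tX a c)) ((C.d.neGX a c pX_0_2))
  have b3 := pii_lb (w := w) (p := (tX b c)) (q := (tG b)) ((C.d.neGX b c pX_1_2).symm)
  omega

theorem abs3_p13 (C : Ctx3 w T x tX lX g h tG tH a b c) (pX_0_1 : 0 < x a b) (pX_0_2 : 0 < x a c) (zH_0 : h a = 0) (zX_1_0 : x b a = 0) (pX_1_2 : 0 < x b c) (pH_1 : 0 < h b) (pX_2_0 : 0 < x c a) (pX_2_1 : 0 < x c b) (pH_2 : 0 < h c) : False := by
  have sa := C.d.sum a b c C.hab C.hac C.hbc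
  have sb := C.d.sum b a c C.hab.symm C.hbc C.hac
  have sc := C.d.sum c a b C.hac.symm C.hbc.symm C.hab
  have g1 := C.d.hg a
  have g2 := C.d.hg b
  have g3 := C.d.hg c
  have m1 := C.hmax1
  have m2 := C.hmax2
  have wG_0 := C.d.wG a
  have wX_0_1 := C.d.wX a b pX_0_1
  have wX_0_2 := C.d.wX a c pX_0_2
  have wG_1 := C.d.wG b
  have wX_1_2 := C.d.wX b c pX_1_2
  have wH_1 := C.d.wH b pH_1
  have wG_2 := C.d.wG c
  have wX_2_0 := C.d.wX c a pX_2_0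
  have wX_2_1 := C.d.wX c b pX_2_1
  have wH_2 := C.d.wH c pH_2
  have c1 := C.O3 a c b C.hac C.hbc.symm C.hab (tG a) (tX a c) (lX a c) (lX b c) (tX b c) (tG b) (Or.inl rfl) (Or.inl ⟨pX_0_2, rfl, rfl⟩) (Or.inr ⟨pX_1_2, rfl, rfl⟩) (Or.inl rfl)
  have b2 := pii_lb (w := w) (p := (tG a)) (q := (tX a c)) ((C.d.neGX a c pX_0_2))
  have b3 := pii_lb (w := w) (p := (tX b c)) (q := (tG b)) ((C.d.neGX b c pX_1_2).symm)
  omega

theorem abs3_p14 (C : Ctx3 w T x tX lX g h tG tH a b c) (pX_0_1 : 0 < x a b) (pX_0_2 : 0 < x a c) (zH_0 : h a = 0) (zX_1_0 : x b a = 0) (pX_1_2 : 0 < x b c) (pH_1 : 0 < h b) (pX_2_0 : 0 < x c a) (zX_2_1 : x c b = 0) (pH_2 : 0 < h c) : False := by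
  have sa := C.d.sum a b c C.hab C.hac C.hbc
  have sb := C.d.sum b a c C.hab.symm C.hbc C.hac
  have sc := C.d.sum c a b C.hac.symm C.hbc.symm C.hab
  have g1 := C.d.hg a
  have g2 := C.d.hg b
  have g3 := C.d.hg c
  have m1 := C.hmax1
  have m2 := C.hmax2
  have wG_0 := C.d.wG a
  have wX_0_1 := C.d.wX a b pX_0_1
  have wX_0_2 := C.d.wX a c pX_0_2
  have wG_1 := C.d.wG b
  have wX_1_2 := C.d.wX b c pX_1_2
  have wH_1 := C.d.wH b pH_1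
  have wG_2 := C.d.wG c
  have wX_2_0 := C.d.wX c a pX_2_0
  have wH_2 := C.d.wH c pH_2
  have c1 := C.O3 a c b C.hac C.hbc.symm C.hab (tG a) (tX a c) (lX a c) (lX b c) (tX b c) (tG b) (Or.inl rfl) (Or.inl ⟨pX_0_2, rfl, rfl⟩) (Or.inr ⟨pX_1_2, rfl, rfl⟩) (Or.inl rfl)
  have b2 := pii_lb (w := w) (p := (tG a)) (q := (tX a c)) ((C.d.neGX a c pX_0_2))
  have b3 := pii_lb (w := w) (p := (tX b c)) (q := (tG b)) ((C.d.neGX b c pX_1_2).symm)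
  omega

theorem abs3_p15 (C : Ctx3 w T x tX lX g h tG tH a b c) (pX_0_1 : 0 < x a b) (pX_0_2 : 0 < x a c) (zH_0 : h a = 0) (zX_1_0 : x b a = 0) (pX_1_2 : 0 < x b c) (pH_1 : 0 < h b) (zX_2_0 : x c a = 0) (pX_2_1 : 0 < x c b) (pH_2 : 0 < h c) : False := by
  have sa := C.d.sum a b c C.hab C.hac C.hbc
  have sb := C.d.sum b a c C.hab.symm C.hbc C.hac
  have sc := C.d.sum c a b C.hac.symm C.hbc.symm C.hab
  have g1 := C.d.hg a
  have g2 := C.d.hg b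
  have g3 := C.d.hg c
  have m1 := C.hmax1
  have m2 := C.hmax2
  have wG_0 := C.d.wG a
  have wX_0_1 := C.d.wX a b pX_0_1
  have wX_0_2 := C.d.wX a c pX_0_2
  have wG_1 := C.d.wG b
  have wX_1_2 := C.d.wX b c pX_1_2
  have wH_1 := C.d.wH b pH_1
  have wG_2 := C.d.wG c
  have wX_2_1 := C.d.wX c b pX_2_1
  have wH_2 := C.d.wH c pH_2
  have c1 := C.O3 a b c C.hab C.hbc C.hac (tG a) (tX a b) (lX a b) (lX c b) (tX c b) (tG c) (Or.inl rfl) (Or.inl ⟨pX_0_1, rfl, rfl⟩) (Or.inr ⟨pX_2_1, rfl, rfl⟩) (Or.inl rfl)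
  have b2 := pii_lb (w := w) (p := (tG a)) (q := (tX a b)) ((C.d.neGX a b pX_0_1))
  have b3 := pii_lb (w := w) (p := (tX c b)) (q := (tG c)) ((C.d.neGX c b pX_2_1).symm)
  omega

theorem abs3_p16 (C : Ctx3 w T x tX lX g h tG tH a b c) (pX_0_1 : 0 < x a b) (pX_0_2 : 0 < x a c) (pH_0 : 0 < h a) (pX_1_0 : 0 < x b a) (pX_1_2 : 0 < x b c) (zH_1 : h b = 0) (pX_2_0 : 0 < x c a) (pX_2_1 : 0 < x c b) (zH_2 : h c = 0) : False := by
  have sa := C.d.sum a b c C.hab C.hac C.hbc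
  have sb := C.d.sum b a c C.hab.symm C.hbc C.hac
  have sc := C.d.sum c a b C.hac.symm C.hbc.symm C.hab
  have g1 := C.d.hg a
  have g2 := C.d.hg b
  have g3 := C.d.hg c
  have m1 := C.hmax1
  have m2 := C.hmax2
  have wG_0 := C.d.wG a
  have wX_0_1 := C.d.wX a b pX_0_1
  have wX_0_2 := C.d.wX a c pX_0_2
  have wH_0 := C.d.wH a pH_0
  have wG_1 := C.d.wG b
  have wX_1_0 := C.d.wX b a pX_1_0
  have wX_1_2 := C.d.wX b c pX_1_2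
  have wG_2 := C.d.wG c
  have wX_2_0 := C.d.wX c a pX_2_0
  have wX_2_1 := C.d.wX c b pX_2_1
  have c1 := C.O3 a b c C.hab C.hbc C.hac (tH a) (tX a b) (lX a b) (lX c b) (tX c b) (tG c) (Or.inr ⟨pH_0, rfl⟩) (Or.inl ⟨pX_0_1, rfl, rfl⟩) (Or.inr ⟨pX_2_1, rfl, rfl⟩) (Or.inl rfl)
  have b2 := pii_lb (w := w) (p := (tH a)) (q := (tX a b)) ((C.d.neHX a b pH_0 pX_0_1))
  have b3 := pii_lb (w := w) (p := (tX c b)) (q := (tG c)) ((C.d.neGX c b pX_2_1).symm)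
  have c4 := C.O3 a c b C.hac C.hbc.symm C.hab (tG a) (tX a c) (lX a c) (lX b c) (tX b c) (tG b) (Or.inl rfl) (Or.inl ⟨pX_0_2, rfl, rfl⟩) (Or.inr ⟨pX_1_2, rfl, rfl⟩) (Or.inl rfl)
  have b5 := pii_lb (w := w) (p := (tG a)) (q := (tX a c)) ((C.d.neGX a c pX_0_2))
  have b6 := pii_lb (w := w) (p := (tX b c)) (q := (tG b)) ((C.d.neGX b c pX_1_2).symm)
  have c7 := C.O3 b a c C.hab.symm C.hac C.hbc (tG b) (tX b a) (lX b a) (lX c a) (tX c a) (tG c) (Or.inl rfl) (Or.inl ⟨pX_1_0, rfl, rfl⟩) (Or.inr ⟨pX_2_0, rfl, rfl⟩) (Or.inl rfl)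
  have b8 := pii_lb (w := w) (p := (tG b)) (q := (tX b a)) ((C.d.neGX b a pX_1_0))
  have b9 := pii_lb (w := w) (p := (tX c a)) (q := (tG c)) ((C.d.neGX c a pX_2_0).symm)
  omega

theorem abs3_p17 (C : Ctx3 w T x tX lX g h tG tH a b c) (pX_0_1 : 0 < x a b) (pX_0_2 : 0 < x a c) (pH_0 : 0 < h a) (pX_1_0 : 0 < x b a) (pX_1_2 : 0 < x b c) (zH_1 : h b = 0) (pX_2_0 : 0 < x c a) (pX_2_1 : 0 < x c b) (pH_2 : 0 < h c) : False := by
  have sa := C.d.sum a b c C.hab C.hac C.hbc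
  have sb := C.d.sum b a c C.hab.symm C.hbc C.hac
  have sc := C.d.sum c a b C.hac.symm C.hbc.symm C.hab
  have g1 := C.d.hg a
  have g2 := C.d.hg b
  have g3 := C.d.hg c
  have m1 := C.hmax1
  have m2 := C.hmax2
  have wG_0 := C.d.wG a
  have wX_0_1 := C.d.wX a b pX_0_1
  have wX_0_2 := C.d.wX a c pX_0_2
  have wH_0 := C.d.wH a pH_0
  have wG_1 := C.d.wG b
  have wX_1_0 := C.d.wX b a pX_1_0
  have wX_1_2 := C.d.wX b c pX_1_2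
  have wG_2 := C.d.wG c
  have wX_2_0 := C.d.wX c a pX_2_0
  have wX_2_1 := C.d.wX c b pX_2_1
  have wH_2 := C.d.wH c pH_2
  have c1 := C.O3 a b c C.hab C.hbc C.hac (tH a) (tX a b) (lX a b) (lX c b) (tX c b) (tH c) (Or.inr ⟨pH_0, rfl⟩) (Or.inl ⟨pX_0_1, rfl, rfl⟩) (Or.inr ⟨pX_2_1, rfl, rfl⟩) (Or.inr ⟨pH_2, rfl⟩)
  have b2 := pii_lb (w := w) (p := (tH a)) (q := (tX a b)) ((C.d.neHX a b pH_0 pX_0_1))
  have b3 := pii_lb (w := w) (p := (tX c b)) (q := (tH c)) ((C.d.neHX c b pH_2 pX_2_1).symm)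
  have c4 := C.O3 a c b C.hac C.hbc.symm C.hab (tG a) (tX a c) (lX a c) (lX b c) (tX b c) (tG b) (Or.inl rfl) (Or.inl ⟨pX_0_2, rfl, rfl⟩) (Or.inr ⟨pX_1_2, rfl, rfl⟩) (Or.inl rfl)
  have b5 := pii_lb (w := w) (p := (tG a)) (q := (tX a c)) ((C.d.neGX a c pX_0_2))
  have b6 := pii_lb (w := w) (p := (tX b c)) (q := (tG b)) ((C.d.neGX b c pX_1_2).symm)
  have c7 := C.O3 b a c C.hab.symm C.hac C.hbc (tG b) (tX b a) (lX b a) (lX c a) (tX c a) (tG c) (Or.inl rfl) (Or.inl ⟨pX_1_0, rfl, rfl⟩) (Or.inr ⟨pX_2_0, rfl, rfl⟩) (Or.inl rfl)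
  have b8 := pii_lb (w := w) (p := (tG b)) (q := (tX b a)) ((C.d.neGX b a pX_1_0))
  have b9 := pii_lb (w := w) (p := (tX c a)) (q := (tG c)) ((C.d.neGX c a pX_2_0).symm)
  omega

theorem abs3_p18 (C : Ctx3 w T x tX lX g h tG tH a b c) (pX_0_1 : 0 < x a b) (pX_0_2 : 0 < x a c) (pH_0 : 0 < h a) (pX_1_0 : 0 < x b a) (pX_1_2 : 0 < x b c) (zH_1 : h b = 0) (pX_2_0 : 0 < x c a) (zX_2_1 : x c b = 0) (pH_2 : 0 < h c) : False := by
  have sa := C.d.sum a b c C.hab C.hac C.hbc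
  have sb := C.d.sum b a c C.hab.symm C.hbc C.hac
  have sc := C.d.sum c a b C.hac.symm C.hbc.symm C.hab
  have g1 := C.d.hg a
  have g2 := C.d.hg b
  have g3 := C.d.hg c
  have m1 := C.hmax1
  have m2 := C.hmax2
  have wG_0 := C.d.wG a
  have wX_0_1 := C.d.wX a b pX_0_1
  have wX_0_2 := C.d.wX a c pX_0_2
  have wH_0 := C.d.wH a pH_0
  have wG_1 := C.d.wG b
  have wX_1_0 := C.d.wX b a pX_1_0
  have wX_1_2 := C.d.wX b c pX_1_2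
  have wG_2 := C.d.wG c
  have wX_2_0 := C.d.wX c a pX_2_0
  have wH_2 := C.d.wH c pH_2
  have c1 := C.O3 a c b C.hac C.hbc.symm C.hab (tG a) (tX a c) (lX a c) (lX b c) (tX b c) (tG b) (Or.inl rfl) (Or.inl ⟨pX_0_2, rfl, rfl⟩) (Or.inr ⟨pX_1_2, rfl, rfl⟩) (Or.inl rfl)
  have b2 := pii_lb (w := w) (p := (tG a)) (q := (tX a c)) ((C.d.neGX a c pX_0_2))
  have b3 := pii_lb (w := w) (p := (tX b c)) (q := (tG b)) ((C.d.neGX b c pX_1_2).symm)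
  have c4 := C.O3 b a c C.hab.symm C.hac C.hbc (tG b) (tX b a) (lX b a) (lX c a) (tX c a) (tG c) (Or.inl rfl) (Or.inl ⟨pX_1_0, rfl, rfl⟩) (Or.inr ⟨pX_2_0, rfl, rfl⟩) (Or.inl rfl)
  have b5 := pii_lb (w := w) (p := (tG b)) (q := (tX b a)) ((C.d.neGX b a pX_1_0))
  have b6 := pii_lb (w := w) (p := (tX c a)) (q := (tG c)) ((C.d.neGX c a pX_2_0).symm)
  omega

theorem abs3_p19 (C : Ctx3 w T x tX lX g h tG tH a b c) (pX_0_1 : 0 < x a b) (pX_0_2 : 0 < x a c) (pH_0 : 0 < h a) (pX_1_0 : 0 < x b a) (pX_1_2 : 0 < x b c) (zH_1 : h b = 0) (zX_2_0 : x c a = 0) (pX_2_1 : 0 < x c b) (pH_2 : 0 < h c) : False := by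
  have sa := C.d.sum a b c C.hab C.hac C.hbc
  have sb := C.d.sum b a c C.hab.symm C.hbc C.hac
  have sc := C.d.sum c a b C.hac.symm C.hbc.symm C.hab
  have g1 := C.d.hg a
  have g2 := C.d.hg b
  have g3 := C.d.hg c
  have m1 := C.hmax1
  have m2 := C.hmax2
  have wG_0 := C.d.wG a
  have wX_0_1 := C.d.wX a b pX_0_1
  have wX_0_2 := C.d.wX a c pX_0_2
  have wH_0 := C.d.wH a pH_0
  have wG_1 := C.d.wG b
  have wX_1_0 := C.d.wX b a pX_1_0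
  have wX_1_2 := C.d.wX b c pX_1_2
  have wG_2 := C.d.wG c
  have wX_2_1 := C.d.wX c b pX_2_1
  have wH_2 := C.d.wH c pH_2
  have c1 := C.O3 a b c C.hab C.hbc C.hac (tG a) (tX a b) (lX a b) (lX c b) (tX c b) (tG c) (Or.inl rfl) (Or.inl ⟨pX_0_1, rfl, rfl⟩) (Or.inr ⟨pX_2_1, rfl, rfl⟩) (Or.inl rfl)
  have b2 := pii_lb (w := w) (p := (tG a)) (q := (tX a b)) ((C.d.neGX a b pX_0_1))
  have b3 := pii_lb (w := w) (p := (tX c b)) (q := (tG c)) ((C.d.neGX c b pX_2_1).symm)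
  omega

theorem abs3_p20 (C : Ctx3 w T x tX lX g h tG tH a b c) (pX_0_1 : 0 < x a b) (pX_0_2 : 0 < x a c) (pH_0 : 0 < h a) (pX_1_0 : 0 < x b a) (pX_1_2 : 0 < x b c) (pH_1 : 0 < h b) (pX_2_0 : 0 < x c a) (pX_2_1 : 0 < x c b) (zH_2 : h c = 0) : False := by
  have sa := C.d.sum a b c C.hab C.hac C.hbc
  have sb := C.d.sum b a c C.hab.symm C.hbc C.hac
  have sc := C.d.sum c a b C.hac.symm C.hbc.symm C.hab
  have g1 := C.d.hg a
  have g2 := C.d.hg b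
  have g3 := C.d.hg c
  have m1 := C.hmax1
  have m2 := C.hmax2
  have wG_0 := C.d.wG a
  have wX_0_1 := C.d.wX a b pX_0_1
  have wX_0_2 := C.d.wX a c pX_0_2
  have wH_0 := C.d.wH a pH_0
  have wG_1 := C.d.wG b
  have wX_1_0 := C.d.wX b a pX_1_0
  have wX_1_2 := C.d.wX b c pX_1_2
  have wH_1 := C.d.wH b pH_1
  have wG_2 := C.d.wG c
  have wX_2_0 := C.d.wX c a pX_2_0
  have wX_2_1 := C.d.wX c b pX_2_1
  have c1 := C.O3 a c b C.hac C.hbc.symm C.hab (tG a) (tX a c) (lX a c) (lX b c) (tX b c) (tH b) (Or.inl rfl) (Or.inl ⟨pX_0_2, rfl, rfl⟩) (Or.inr ⟨pX_1_2, rfl, rfl⟩) (Or.inr ⟨pH_1, rfl⟩)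
  have b2 := pii_lb (w := w) (p := (tG a)) (q := (tX a c)) ((C.d.neGX a c pX_0_2))
  have b3 := pii_lb (w := w) (p := (tX b c)) (q := (tH b)) ((C.d.neHX b c pH_1 pX_1_2).symm)
  have c4 := C.O3 b a c C.hab.symm C.hac C.hbc (tG b) (tX b a) (lX b a) (lX c a) (tX c a) (tG c) (Or.inl rfl) (Or.inl ⟨pX_1_0, rfl, rfl⟩) (Or.inr ⟨pX_2_0, rfl, rfl⟩) (Or.inl rfl)
  have b5 := pii_lb (w := w) (p := (tG b)) (q := (tX b a)) ((C.d.neGX b a pX_1_0))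
  have b6 := pii_lb (w := w) (p := (tX c a)) (q := (tG c)) ((C.d.neGX c a pX_2_0).symm)
  have c7 := C.O3 a b c C.hab C.hbc C.hac (tH a) (tX a b) (lX a b) (lX c b) (tX c b) (tG c) (Or.inr ⟨pH_0, rfl⟩) (Or.inl ⟨pX_0_1, rfl, rfl⟩) (Or.inr ⟨pX_2_1, rfl, rfl⟩) (Or.inl rfl)
  have b8 := pii_lb (w := w) (p := (tH a)) (q := (tX a b)) ((C.d.neHX a b pH_0 pX_0_1))
  have b9 := pii_lb (w := w) (p := (tX c b)) (q := (tG c)) ((C.d.neGX c b pX_2_1).symm)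
  omega

theorem abs3_p21 (C : Ctx3 w T x tX lX g h tG tH a b c) (pX_0_1 : 0 < x a b) (pX_0_2 : 0 < x a c) (pH_0 : 0 < h a) (pX_1_0 : 0 < x b a) (pX_1_2 : 0 < x b c) (pH_1 : 0 < h b) (pX_2_0 : 0 < x c a) (pX_2_1 : 0 < x c b) (pH_2 : 0 < h c) : False := by
  have sa := C.d.sum a b c C.hab C.hac C.hbc
  have sb := C.d.sum b a c C.hab.symm C.hbc C.hac
  have sc := C.d.sum c a b C.hac.symm C.hbc.symm C.hab
  have g1 := C.d.hg a
  have g2 := C.d.hg b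
  have g3 := C.d.hg c
  have m1 := C.hmax1
  have m2 := C.hmax2
  have wG_0 := C.d.wG a
  have wX_0_1 := C.d.wX a b pX_0_1
  have wX_0_2 := C.d.wX a c pX_0_2
  have wH_0 := C.d.wH a pH_0
  have wG_1 := C.d.wG b
  have wX_1_0 := C.d.wX b a pX_1_0
  have wX_1_2 := C.d.wX b c pX_1_2
  have wH_1 := C.d.wH b pH_1
  have wG_2 := C.d.wG c
  have wX_2_0 := C.d.wX c a pX_2_0
  have wX_2_1 := C.d.wX c b pX_2_1
  have wH_2 := C.d.wH c pH_2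
  have c1 := C.O3 a b c C.hab C.hbc C.hac (tG a) (tX a b) (lX a b) (lX c b) (tX c b) (tH c) (Or.inl rfl) (Or.inl ⟨pX_0_1, rfl, rfl⟩) (Or.inr ⟨pX_2_1, rfl, rfl⟩) (Or.inr ⟨pH_2, rfl⟩)
  have b2 := pii_lb (w := w) (p := (tG a)) (q := (tX a b)) ((C.d.neGX a b pX_0_1))
  have b3 := pii_lb (w := w) (p := (tX c b)) (q := (tH c)) ((C.d.neHX c b pH_2 pX_2_1).symm)
  have c4 := C.O3 b a c C.hab.symm C.hac C.hbc (tG b) (tX b a) (lX b a) (lX c a) (tX c a) (tG c) (Or.inl rfl) (Or.inl ⟨pX_1_0, rfl, rfl⟩) (Or.inr ⟨pX_2_0, rfl, rfl⟩) (Or.inl rfl)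
  have b5 := pii_lb (w := w) (p := (tG b)) (q := (tX b a)) ((C.d.neGX b a pX_1_0))
  have b6 := pii_lb (w := w) (p := (tX c a)) (q := (tG c)) ((C.d.neGX c a pX_2_0).symm)
  have c7 := C.O3 a c b C.hac C.hbc.symm C.hab (tH a) (tX a c) (lX a c) (lX b c) (tX b c) (tG b) (Or.inr ⟨pH_0, rfl⟩) (Or.inl ⟨pX_0_2, rfl, rfl⟩) (Or.inr ⟨pX_1_2, rfl, rfl⟩) (Or.inl rfl)
  have b8 := pii_lb (w := w) (p := (tH a)) (q := (tX a c)) ((C.d.neHX a c pH_0 pX_0_2))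
  have b9 := pii_lb (w := w) (p := (tX b c)) (q := (tG b)) ((C.d.neGX b c pX_1_2).symm)
  omega

theorem abs3_p22 (C : Ctx3 w T x tX lX g h tG tH a b c) (pX_0_1 : 0 < x a b) (pX_0_2 : 0 < x a c) (pH_0 : 0 < h a) (pX_1_0 : 0 < x b a) (pX_1_2 : 0 < x b c) (pH_1 : 0 < h b) (pX_2_0 : 0 < x c a) (zX_2_1 : x c b = 0) (pH_2 : 0 < h c) : False := by
  have sa := C.d.sum a b c C.hab C.hac C.hbc
  have sb := C.d.sum b a c C.hab.symm C.hbc C.hac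
  have sc := C.d.sum c a b C.hac.symm C.hbc.symm C.hab
  have g1 := C.d.hg a
  have g2 := C.d.hg b
  have g3 := C.d.hg c
  have m1 := C.hmax1
  have m2 := C.hmax2
  have wG_0 := C.d.wG a
  have wX_0_1 := C.d.wX a b pX_0_1
  have wX_0_2 := C.d.wX a c pX_0_2
  have wH_0 := C.d.wH a pH_0
  have wG_1 := C.d.wG b
  have wX_1_0 := C.d.wX b a pX_1_0
  have wX_1_2 := C.d.wX b c pX_1_2
  have wH_1 := C.d.wH b pH_1
  have wG_2 := C.d.wG c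
  have wX_2_0 := C.d.wX c a pX_2_0
  have wH_2 := C.d.wH c pH_2
  have c1 := C.O3 a c b C.hac C.hbc.symm C.hab (tG a) (tX a c) (lX a c) (lX b c) (tX b c) (tH b) (Or.inl rfl) (Or.inl ⟨pX_0_2, rfl, rfl⟩) (Or.inr ⟨pX_1_2, rfl, rfl⟩) (Or.inr ⟨pH_1, rfl⟩)
  have b2 := pii_lb (w := w) (p := (tG a)) (q := (tX a c)) ((C.d.neGX a c pX_0_2))
  have b3 := pii_lb (w := w) (p := (tX b c)) (q := (tH b)) ((C.d.neHX b c pH_1 pX_1_2).symm)
  have c4 := C.O3 b a c C.hab.symm C.hac C.hbc (tG b) (tX b a) (lX b a) (lX c a) (tX c a) (tG c) (Or.inl rfl) (Or.inl ⟨pX_1_0, rfl, rfl⟩) (Or.inr ⟨pX_2_0, rfl, rfl⟩) (Or.inl rfl)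
  have b5 := pii_lb (w := w) (p := (tG b)) (q := (tX b a)) ((C.d.neGX b a pX_1_0))
  have b6 := pii_lb (w := w) (p := (tX c a)) (q := (tG c)) ((C.d.neGX c a pX_2_0).symm)
  omega

theorem abs3_p23 (C : Ctx3 w T x tX lX g h tG tH a b c) (pX_0_1 : 0 < x a b) (pX_0_2 : 0 < x a c) (pH_0 : 0 < h a) (pX_1_0 : 0 < x b a) (pX_1_2 : 0 < x b c) (pH_1 : 0 < h b) (zX_2_0 : x c a = 0) (pX_2_1 : 0 < x c b) (pH_2 : 0 < h c) : False := by
  have sa := C.d.sum a b c C.hab C.hac C.hbc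
  have sb := C.d.sum b a c C.hab.symm C.hbc C.hac
  have sc := C.d.sum c a b C.hac.symm C.hbc.symm C.hab
  have g1 := C.d.hg a
  have g2 := C.d.hg b
  have g3 := C.d.hg c
  have m1 := C.hmax1
  have m2 := C.hmax2
  have wG_0 := C.d.wG a
  have wX_0_1 := C.d.wX a b pX_0_1
  have wX_0_2 := C.d.wX a c pX_0_2
  have wH_0 := C.d.wH a pH_0
  have wG_1 := C.d.wG b
  have wX_1_0 := C.d.wX b a pX_1_0
  have wX_1_2 := C.d.wX b c pX_1_2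
  have wH_1 := C.d.wH b pH_1
  have wG_2 := C.d.wG c
  have wX_2_1 := C.d.wX c b pX_2_1
  have wH_2 := C.d.wH c pH_2
  have c1 := C.O3 a b c C.hab C.hbc C.hac (tG a) (tX a b) (lX a b) (lX c b) (tX c b) (tG c) (Or.inl rfl) (Or.inl ⟨pX_0_1, rfl, rfl⟩) (Or.inr ⟨pX_2_1, rfl, rfl⟩) (Or.inl rfl)
  have b2 := pii_lb (w := w) (p := (tG a)) (q := (tX a b)) ((C.d.neGX a b pX_0_1))
  have b3 := pii_lb (w := w) (p := (tX c b)) (q := (tG c)) ((C.d.neGX c b pX_2_1).symm)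
  omega

theorem abs3_p24 (C : Ctx3 w T x tX lX g h tG tH a b c) (pX_0_1 : 0 < x a b) (pX_0_2 : 0 < x a c) (pH_0 : 0 < h a) (pX_1_0 : 0 < x b a) (zX_1_2 : x b c = 0) (pH_1 : 0 < h b) (pX_2_0 : 0 < x c a) (pX_2_1 : 0 < x c b) (zH_2 : h c = 0) : False := by
  have sa := C.d.sum a b c C.hab C.hac C.hbc
  have sb := C.d.sum b a c C.hab.symm C.hbc C.hac
  have sc := C.d.sum c a b C.hac.symm C.hbc.symm C.hab
  have g1 := C.d.hg a
  have g2 := C.d.hg b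
  have g3 := C.d.hg c
  have m1 := C.hmax1
  have m2 := C.hmax2
  have wG_0 := C.d.wG a
  have wX_0_1 := C.d.wX a b pX_0_1
  have wX_0_2 := C.d.wX a c pX_0_2
  have wH_0 := C.d.wH a pH_0
  have wG_1 := C.d.wG b
  have wX_1_0 := C.d.wX b a pX_1_0
  have wH_1 := C.d.wH b pH_1
  have wG_2 := C.d.wG c
  have wX_2_0 := C.d.wX c a pX_2_0
  have wX_2_1 := C.d.wX c b pX_2_1
  have c1 := C.O3 a b c C.hab C.hbc C.hac (tG a) (tX a b) (lX a b) (lX c b) (tX c b) (tG c) (Or.inl rfl) (Or.inl ⟨pX_0_1, rfl, rfl⟩) (Or.inr ⟨pX_2_1, rfl, rfl⟩) (Or.inl rfl)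
  have b2 := pii_lb (w := w) (p := (tG a)) (q := (tX a b)) ((C.d.neGX a b pX_0_1))
  have b3 := pii_lb (w := w) (p := (tX c b)) (q := (tG c)) ((C.d.neGX c b pX_2_1).symm)
  have c4 := C.O3 b a c C.hab.symm C.hac C.hbc (tH b) (tX b a) (lX b a) (lX c a) (tX c a) (tG c) (Or.inr ⟨pH_1, rfl⟩) (Or.inl ⟨pX_1_0, rfl, rfl⟩) (Or.inr ⟨pX_2_0, rfl, rfl⟩) (Or.inl rfl)
  have b5 := pii_lb (w := w) (p := (tH b)) (q := (tX b a)) ((C.d.neHX b a pH_1 pX_1_0))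
  have b6 := pii_lb (w := w) (p := (tX c a)) (q := (tG c)) ((C.d.neGX c a pX_2_0).symm)
  omega

theorem abs3_p25 (C : Ctx3 w T x tX lX g h tG tH a b c) (pX_0_1 : 0 < x a b) (pX_0_2 : 0 < x a c) (pH_0 : 0 < h a) (pX_1_0 : 0 < x b a) (zX_1_2 : x b c = 0) (pH_1 : 0 < h b) (pX_2_0 : 0 < x c a) (pX_2_1 : 0 < x c b) (pH_2 : 0 < h c) : False := by
  have sa := C.d.sum a b c C.hab C.hac C.hbc
  have sb := C.d.sum b a c C.hab.symm C.hbc C.hac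
  have sc := C.d.sum c a b C.hac.symm C.hbc.symm C.hab
  have g1 := C.d.hg a
  have g2 := C.d.hg b
  have g3 := C.d.hg c
  have m1 := C.hmax1
  have m2 := C.hmax2
  have wG_0 := C.d.wG a
  have wX_0_1 := C.d.wX a b pX_0_1
  have wX_0_2 := C.d.wX a c pX_0_2
  have wH_0 := C.d.wH a pH_0
  have wG_1 := C.d.wG b
  have wX_1_0 := C.d.wX b a pX_1_0
  have wH_1 := C.d.wH b pH_1
  have wG_2 := C.d.wG c
  have wX_2_0 := C.d.wX c a pX_2_0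
  have wX_2_1 := C.d.wX c b pX_2_1
  have wH_2 := C.d.wH c pH_2
  have c1 := C.O3 a b c C.hab C.hbc C.hac (tG a) (tX a b) (lX a b) (lX c b) (tX c b) (tG c) (Or.inl rfl) (Or.inl ⟨pX_0_1, rfl, rfl⟩) (Or.inr ⟨pX_2_1, rfl, rfl⟩) (Or.inl rfl)
  have b2 := pii_lb (w := w) (p := (tG a)) (q := (tX a b)) ((C.d.neGX a b pX_0_1))
  have b3 := pii_lb (w := w) (p := (tX c b)) (q := (tG c)) ((C.d.neGX c b pX_2_1).symm)
  have c4 := C.O3 b a c C.hab.symm C.hac C.hbc (tH b) (tX b a) (lX b a) (lX c a) (tX c a) (tG c) (Or.inr ⟨pH_1, rfl⟩) (Or.inl ⟨pX_1_0, rfl, rfl⟩) (Or.inr ⟨pX_2_0, rfl, rfl⟩) (Or.inl rfl)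
  have b5 := pii_lb (w := w) (p := (tH b)) (q := (tX b a)) ((C.d.neHX b a pH_1 pX_1_0))
  have b6 := pii_lb (w := w) (p := (tX c a)) (q := (tG c)) ((C.d.neGX c a pX_2_0).symm)
  omega

theorem abs3_p26 (C : Ctx3 w T x tX lX g h tG tH a b c) (pX_0_1 : 0 < x a b) (pX_0_2 : 0 < x a c) (pH_0 : 0 < h a) (pX_1_0 : 0 < x b a) (zX_1_2 : x b c = 0) (pH_1 : 0 < h b) (pX_2_0 : 0 < x c a) (zX_2_1 : x c b = 0) (pH_2 : 0 < h c) : False := by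
  have sa := C.d.sum a b c C.hab C.hac C.hbc
  have sb := C.d.sum b a c C.hab.symm C.hbc C.hac
  have sc := C.d.sum c a b C.hac.symm C.hbc.symm C.hab
  have g1 := C.d.hg a
  have g2 := C.d.hg b
  have g3 := C.d.hg c
  have m1 := C.hmax1
  have m2 := C.hmax2
  have wG_0 := C.d.wG a
  have wX_0_1 := C.d.wX a b pX_0_1
  have wX_0_2 := C.d.wX a c pX_0_2
  have wH_0 := C.d.wH a pH_0
  have wG_1 := C.d.wG b
  have wX_1_0 := C.d.wX b a pX_1_0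
  have wH_1 := C.d.wH b pH_1
  have wG_2 := C.d.wG c
  have wX_2_0 := C.d.wX c a pX_2_0
  have wH_2 := C.d.wH c pH_2
  have c1 := C.O3 b a c C.hab.symm C.hac C.hbc (tG b) (tX b a) (lX b a) (lX c a) (tX c a) (tG c) (Or.inl rfl) (Or.inl ⟨pX_1_0, rfl, rfl⟩) (Or.inr ⟨pX_2_0, rfl, rfl⟩) (Or.inl rfl)
  have b2 := pii_lb (w := w) (p := (tG b)) (q := (tX b a)) ((C.d.neGX b a pX_1_0))
  have b3 := pii_lb (w := w) (p := (tX c a)) (q := (tG c)) ((C.d.neGX c a pX_2_0).symm)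
  omega

theorem abs3_p27 (C : Ctx3 w T x tX lX g h tG tH a b c) (pX_0_1 : 0 < x a b) (pX_0_2 : 0 < x a c) (pH_0 : 0 < h a) (pX_1_0 : 0 < x b a) (zX_1_2 : x b c = 0) (pH_1 : 0 < h b) (zX_2_0 : x c a = 0) (pX_2_1 : 0 < x c b) (pH_2 : 0 < h c) : False := by
  have sa := C.d.sum a b c C.hab C.hac C.hbc
  have sb := C.d.sum b a c C.hab.symm C.hbc C.hac
  have sc := C.d.sum c a b C.hac.symm C.hbc.symm C.hab
  have g1 := C.d.hg a
  have g2 := C.d.hg b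
  have g3 := C.d.hg c
  have m1 := C.hmax1
  have m2 := C.hmax2
  have wG_0 := C.d.wG a
  have wX_0_1 := C.d.wX a b pX_0_1
  have wX_0_2 := C.d.wX a c pX_0_2
  have wH_0 := C.d.wH a pH_0
  have wG_1 := C.d.wG b
  have wX_1_0 := C.d.wX b a pX_1_0
  have wH_1 := C.d.wH b pH_1
  have wG_2 := C.d.wG c
  have wX_2_1 := C.d.wX c b pX_2_1
  have wH_2 := C.d.wH c pH_2
  have c1 := C.O3 a b c C.hab C.hbc C.hac (tG a) (tX a b) (lX a b) (lX c b) (tX c b) (tG c) (Or.inl rfl) (Or.inl ⟨pX_0_1, rfl, rfl⟩) (Or.inr ⟨pX_2_1, rfl, rfl⟩) (Or.inl rfl)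
  have b2 := pii_lb (w := w) (p := (tG a)) (q := (tX a b)) ((C.d.neGX a b pX_0_1))
  have b3 := pii_lb (w := w) (p := (tX c b)) (q := (tG c)) ((C.d.neGX c b pX_2_1).symm)
  omega

theorem abs3_p28 (C : Ctx3 w T x tX lX g h tG tH a b c) (pX_0_1 : 0 < x a b) (pX_0_2 : 0 < x a c) (pH_0 : 0 < h a) (zX_1_0 : x b a = 0) (pX_1_2 : 0 < x b c) (pH_1 : 0 < h b) (pX_2_0 : 0 < x c a) (pX_2_1 : 0 < x c b) (zH_2 : h c = 0) : False := by
  have sa := C.d.sum a b c C.hab C.hac C.hbc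
  have sb := C.d.sum b a c C.hab.symm C.hbc C.hac
  have sc := C.d.sum c a b C.hac.symm C.hbc.symm C.hab
  have g1 := C.d.hg a
  have g2 := C.d.hg b
  have g3 := C.d.hg c
  have m1 := C.hmax1
  have m2 := C.hmax2
  have wG_0 := C.d.wG a
  have wX_0_1 := C.d.wX a b pX_0_1
  have wX_0_2 := C.d.wX a c pX_0_2
  have wH_0 := C.d.wH a pH_0
  have wG_1 := C.d.wG b
  have wX_1_2 := C.d.wX b c pX_1_2
  have wH_1 := C.d.wH b pH_1
  have wG_2 := C.d.wG c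
  have wX_2_0 := C.d.wX c a pX_2_0
  have wX_2_1 := C.d.wX c b pX_2_1
  have c1 := C.O3 a c b C.hac C.hbc.symm C.hab (tG a) (tX a c) (lX a c) (lX b c) (tX b c) (tH b) (Or.inl rfl) (Or.inl ⟨pX_0_2, rfl, rfl⟩) (Or.inr ⟨pX_1_2, rfl, rfl⟩) (Or.inr ⟨pH_1, rfl⟩)
  have b2 := pii_lb (w := w) (p := (tG a)) (q := (tX a c)) ((C.d.neGX a c pX_0_2))
  have b3 := pii_lb (w := w) (p := (tX b c)) (q := (tH b)) ((C.d.neHX b c pH_1 pX_1_2).symm)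
  omega

theorem abs3_p29 (C : Ctx3 w T x tX lX g h tG tH a b c) (pX_0_1 : 0 < x a b) (pX_0_2 : 0 < x a c) (pH_0 : 0 < h a) (zX_1_0 : x b a = 0) (pX_1_2 : 0 < x b c) (pH_1 : 0 < h b) (pX_2_0 : 0 < x c a) (pX_2_1 : 0 < x c b) (pH_2 : 0 < h c) : False := by
  have sa := C.d.sum a b c C.hab C.hac C.hbc
  have sb := C.d.sum b a c C.hab.symm C.hbc C.hac
  have sc := C.d.sum c a b C.hac.symm C.hbc.symm C.hab
  have g1 := C.d.hg a
  have g2 := C.d.hg b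
  have g3 := C.d.hg c
  have m1 := C.hmax1
  have m2 := C.hmax2
  have wG_0 := C.d.wG a
  have wX_0_1 := C.d.wX a b pX_0_1
  have wX_0_2 := C.d.wX a c pX_0_2
  have wH_0 := C.d.wH a pH_0
  have wG_1 := C.d.wG b
  have wX_1_2 := C.d.wX b c pX_1_2
  have wH_1 := C.d.wH b pH_1
  have wG_2 := C.d.wG c
  have wX_2_0 := C.d.wX c a pX_2_0
  have wX_2_1 := C.d.wX c b pX_2_1
  have wH_2 := C.d.wH c pH_2
  have c1 := C.O3 a c b C.hac C.hbc.symm C.hab (tG a) (tX a c) (lX a c) (lX b c) (tX b c) (tG b) (Or.inl rfl) (Or.inl ⟨pX_0_2, rfl, rfl⟩) (Or.inr ⟨pX_1_2, rfl, rfl⟩) (Or.inl rfl)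
  have b2 := pii_lb (w := w) (p := (tG a)) (q := (tX a c)) ((C.d.neGX a c pX_0_2))
  have b3 := pii_lb (w := w) (p := (tX b c)) (q := (tG b)) ((C.d.neGX b c pX_1_2).symm)
  omega

theorem abs3_p30 (C : Ctx3 w T x tX lX g h tG tH a b c) (pX_0_1 : 0 < x a b) (pX_0_2 : 0 < x a c) (pH_0 : 0 < h a) (zX_1_0 : x b a = 0) (pX_1_2 : 0 < x b c) (pH_1 : 0 < h b) (pX_2_0 : 0 < x c a) (zX_2_1 : x c b = 0) (pH_2 : 0 < h c) : False := by
  have sa := C.d.sum a b c C.hab C.hac C.hbc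
  have sb := C.d.sum b a c C.hab.symm C.hbc C.hac
  have sc := C.d.sum c a b C.hac.symm C.hbc.symm C.hab
  have g1 := C.d.hg a
  have g2 := C.d.hg b
  have g3 := C.d.hg c
  have m1 := C.hmax1
  have m2 := C.hmax2
  have wG_0 := C.d.wG a
  have wX_0_1 := C.d.wX a b pX_0_1
  have wX_0_2 := C.d.wX a c pX_0_2
  have wH_0 := C.d.wH a pH_0
  have wG_1 := C.d.wG b
  have wX_1_2 := C.d.wX b c pX_1_2
  have wH_1 := C.d.wH b pH_1
  have wG_2 := C.d.wG c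
  have wX_2_0 := C.d.wX c a pX_2_0
  have wH_2 := C.d.wH c pH_2
  have c1 := C.O3 a c b C.hac C.hbc.symm C.hab (tG a) (tX a c) (lX a c) (lX b c) (tX b c) (tH b) (Or.inl rfl) (Or.inl ⟨pX_0_2, rfl, rfl⟩) (Or.inr ⟨pX_1_2, rfl, rfl⟩) (Or.inr ⟨pH_1, rfl⟩)
  have b2 := pii_lb (w := w) (p := (tG a)) (q := (tX a c)) ((C.d.neGX a c pX_0_2))
  have b3 := pii_lb (w := w) (p := (tX b c)) (q := (tH b)) ((C.d.neHX b c pH_1 pX_1_2).symm)
  omega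

theorem abs3_p31 (C : Ctx3 w T x tX lX g h tG tH a b c) (pX_0_1 : 0 < x a b) (pX_0_2 : 0 < x a c) (pH_0 : 0 < h a) (zX_1_0 : x b a = 0) (pX_1_2 : 0 < x b c) (pH_1 : 0 < h b) (zX_2_0 : x c a = 0) (pX_2_1 : 0 < x c b) (pH_2 : 0 < h c) : False := by
  have sa := C.d.sum a b c C.hab C.hac C.hbc
  have sb := C.d.sum b a c C.hab.symm C.hbc C.hac
  have sc := C.d.sum c a b C.hac.symm C.hbc.symm C.hab
  have g1 := C.d.hg a
  have g2 := C.d.hg b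
  have g3 := C.d.hg c
  have m1 := C.hmax1
  have m2 := C.hmax2
  have wG_0 := C.d.wG a
  have wX_0_1 := C.d.wX a b pX_0_1
  have wX_0_2 := C.d.wX a c pX_0_2
  have wH_0 := C.d.wH a pH_0
  have wG_1 := C.d.wG b
  have wX_1_2 := C.d.wX b c pX_1_2
  have wH_1 := C.d.wH b pH_1
  have wG_2 := C.d.wG c
  have wX_2_1 := C.d.wX c b pX_2_1
  have wH_2 := C.d.wH c pH_2
  have c1 := C.O3 a b c C.hab C.hbc C.hac (tG a) (tX a b) (lX a b) (lX c b) (tX c b) (tH c) (Or.inl rfl) (Or.inl ⟨pX_0_1, rfl, rfl⟩) (Or.inr ⟨pX_2_1, rfl, rfl⟩) (Or.inr ⟨pH_2, rfl⟩)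
  have b2 := pii_lb (w := w) (p := (tG a)) (q := (tX a b)) ((C.d.neGX a b pX_0_1))
  have b3 := pii_lb (w := w) (p := (tX c b)) (q := (tH c)) ((C.d.neHX c b pH_2 pX_2_1).symm)
  omega

theorem abs3_p32 (C : Ctx3 w T x tX lX g h tG tH a b c) (pX_0_1 : 0 < x a b) (zX_0_2 : x a c = 0) (pH_0 : 0 < h a) (pX_1_0 : 0 < x b a) (pX_1_2 : 0 < x b c) (zH_1 : h b = 0) (pX_2_0 : 0 < x c a) (pX_2_1 : 0 < x c b) (zH_2 : h c = 0) : False := by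
  have sa := C.d.sum a b c C.hab C.hac C.hbc
  have sb := C.d.sum b a c C.hab.symm C.hbc C.hac
  have sc := C.d.sum c a b C.hac.symm C.hbc.symm C.hab
  have g1 := C.d.hg a
  have g2 := C.d.hg b
  have g3 := C.d.hg c
  have m1 := C.hmax1
  have m2 := C.hmax2
  have wG_0 := C.d.wG a
  have wX_0_1 := C.d.wX a b pX_0_1
  have wH_0 := C.d.wH a pH_0
  have wG_1 := C.d.wG b
  have wX_1_0 := C.d.wX b a pX_1_0
  have wX_1_2 := C.d.wX b c pX_1_2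
  have wG_2 := C.d.wG c
  have wX_2_0 := C.d.wX c a pX_2_0
  have wX_2_1 := C.d.wX c b pX_2_1
  by_cases cf_1_0_G : (lX b a) = (tG a)
  · -- lands
    have c1 := C.O3 a b c C.hab C.hbc C.hac (tH a) (lX b a) (tX b a) (tX b c) (lX b c) (tG c) (Or.inr ⟨pH_0, rfl⟩) (Or.inr ⟨pX_1_0, rfl, rfl⟩) (Or.inl ⟨pX_1_2, rfl, rfl⟩) (Or.inl rfl)
    have b2 := pii_lb (w := w) (p := (tH a)) (q := (lX b a)) (Ne.symm (by rw [cf_1_0_G]; exact (C.d.neGH a pH_0)))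
    have e3 : w (lX b a) = w (tG a) := by rw [cf_1_0_G]
    have b4 := pii_lb (w := w) (p := (tX b a)) (q := (tX b c)) ((C.d.neXX b a c C.hac pX_1_0 pX_1_2))
    omega
  · -- not
    have c5 := C.O3 a b c C.hab C.hbc C.hac (tG a) (lX b a) (tX b a) (tX b c) (lX b c) (tG c) (Or.inl rfl) (Or.inr ⟨pX_1_0, rfl, rfl⟩) (Or.inl ⟨pX_1_2, rfl, rfl⟩) (Or.inl rfl)
    have b6 := pii_lb (w := w) (p := (tG a)) (q := (lX b a)) (Ne.symm cf_1_0_G)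
    have b7 := pii_lb (w := w) (p := (tX b a)) (q := (tX b c)) ((C.d.neXX b a c C.hac pX_1_0 pX_1_2))
    omega

theorem abs3_p33 (C : Ctx3 w T x tX lX g h tG tH a b c) (pX_0_1 : 0 < x a b) (zX_0_2 : x a c = 0) (pH_0 : 0 < h a) (pX_1_0 : 0 < x b a) (pX_1_2 : 0 < x b c) (zH_1 : h b = 0) (pX_2_0 : 0 < x c a) (pX_2_1 : 0 < x c b) (pH_2 : 0 < h c) : False := by
  have sa := C.d.sum a b c C.hab C.hac C.hbc
  have sb := C.d.sum b a c C.hab.symm C.hbc C.hac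
  have sc := C.d.sum c a b C.hac.symm C.hbc.symm C.hab
  have g1 := C.d.hg a
  have g2 := C.d.hg b
  have g3 := C.d.hg c
  have m1 := C.hmax1
  have m2 := C.hmax2
  have wG_0 := C.d.wG a
  have wX_0_1 := C.d.wX a b pX_0_1
  have wH_0 := C.d.wH a pH_0
  have wG_1 := C.d.wG b
  have wX_1_0 := C.d.wX b a pX_1_0
  have wX_1_2 := C.d.wX b c pX_1_2
  have wG_2 := C.d.wG c
  have wX_2_0 := C.d.wX c a pX_2_0
  have wX_2_1 := C.d.wX c b pX_2_1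
  have wH_2 := C.d.wH c pH_2
  by_cases cf_1_0_G : (lX b a) = (tG a)
  · -- lands
    have c1 := C.O3 a b c C.hab C.hbc C.hac (tH a) (lX b a) (tX b a) (tX b c) (lX b c) (tG c) (Or.inr ⟨pH_0, rfl⟩) (Or.inr ⟨pX_1_0, rfl, rfl⟩) (Or.inl ⟨pX_1_2, rfl, rfl⟩) (Or.inl rfl)
    have b2 := pii_lb (w := w) (p := (tH a)) (q := (lX b a)) (Ne.symm (by rw [cf_1_0_G]; exact (C.d.neGH a pH_0)))
    have e3 : w (lX b a) = w (tG a) := by rw [cf_1_0_G]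
    have b4 := pii_lb (w := w) (p := (tX b a)) (q := (tX b c)) ((C.d.neXX b a c C.hac pX_1_0 pX_1_2))
    omega
  · -- not
    have c5 := C.O3 a b c C.hab C.hbc C.hac (tG a) (lX b a) (tX b a) (tX b c) (lX b c) (tG c) (Or.inl rfl) (Or.inr ⟨pX_1_0, rfl, rfl⟩) (Or.inl ⟨pX_1_2, rfl, rfl⟩) (Or.inl rfl)
    have b6 := pii_lb (w := w) (p := (tG a)) (q := (lX b a)) (Ne.symm cf_1_0_G)
    have b7 := pii_lb (w := w) (p := (tX b a)) (q := (tX b c)) ((C.d.neXX b a c C.hac pX_1_0 pX_1_2))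
    omega

theorem abs3_p34 (C : Ctx3 w T x tX lX g h tG tH a b c) (pX_0_1 : 0 < x a b) (zX_0_2 : x a c = 0) (pH_0 : 0 < h a) (pX_1_0 : 0 < x b a) (pX_1_2 : 0 < x b c) (zH_1 : h b = 0) (pX_2_0 : 0 < x c a) (zX_2_1 : x c b = 0) (pH_2 : 0 < h c) : False := by
  have sa := C.d.sum a b c C.hab C.hac C.hbc
  have sb := C.d.sum b a c C.hab.symm C.hbc C.hac
  have sc := C.d.sum c a b C.hac.symm C.hbc.symm C.hab
  have g1 := C.d.hg a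
  have g2 := C.d.hg b
  have g3 := C.d.hg c
  have m1 := C.hmax1
  have m2 := C.hmax2
  have wG_0 := C.d.wG a
  have wX_0_1 := C.d.wX a b pX_0_1
  have wH_0 := C.d.wH a pH_0
  have wG_1 := C.d.wG b
  have wX_1_0 := C.d.wX b a pX_1_0
  have wX_1_2 := C.d.wX b c pX_1_2
  have wG_2 := C.d.wG c
  have wX_2_0 := C.d.wX c a pX_2_0
  have wH_2 := C.d.wH c pH_2
  by_cases cf_0_1_2 : (lX a b) = (tX b c)
  · -- lands
    have c1 := C.O3 b a c C.hab.symm C.hac C.hbc (tG b) (tX b a) (lX b a) (lX c a) (tX c a) (tG c) (Or.inl rfl) (Or.inl ⟨pX_1_0, rfl, rfl⟩) (Or.inr ⟨pX_2_0, rfl, rfl⟩) (Or.inl rfl)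
    have b2 := pii_lb (w := w) (p := (tG b)) (q := (tX b a)) ((C.d.neGX b a pX_1_0))
    have b3 := pii_lb (w := w) (p := (tX c a)) (q := (tG c)) ((C.d.neGX c a pX_2_0).symm)
    have c4 := C.O3 b a c C.hab.symm C.hac C.hbc (tG b) (lX a b) (tX a b) (lX c a) (tX c a) (tG c) (Or.inl rfl) (Or.inr ⟨pX_0_1, rfl, rfl⟩) (Or.inr ⟨pX_2_0, rfl, rfl⟩) (Or.inl rfl)
    have b5 := pii_lb (w := w) (p := (tG b)) (q := (lX a b)) (Ne.symm (by rw [cf_0_1_2]; exact (C.d.neGX b c pX_1_2).symm))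
    have e6 : w (lX a b) = w (tX b c) := by rw [cf_0_1_2]
    have b7 := pii_lb (w := w) (p := (tX c a)) (q := (tG c)) ((C.d.neGX c a pX_2_0).symm)
    omega
  · -- not
    have c8 := C.O3 b a c C.hab.symm C.hac C.hbc (tG b) (tX b a) (lX b a) (lX c a) (tX c a) (tG c) (Or.inl rfl) (Or.inl ⟨pX_1_0, rfl, rfl⟩) (Or.inr ⟨pX_2_0, rfl, rfl⟩) (Or.inl rfl)
    have b9 := pii_lb (w := w) (p := (tG b)) (q := (tX b a)) ((C.d.neGX b a pX_1_0))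
    have b10 := pii_lb (w := w) (p := (tX c a)) (q := (tG c)) ((C.d.neGX c a pX_2_0).symm)
    have c11 := C.O3 a b c C.hab C.hbc C.hac (tG a) (tX a b) (lX a b) (tX b c) (lX b c) (tG c) (Or.inl rfl) (Or.inl ⟨pX_0_1, rfl, rfl⟩) (Or.inl ⟨pX_1_2, rfl, rfl⟩) (Or.inl rfl)
    have b12 := pii_lb (w := w) (p := (tG a)) (q := (tX a b)) ((C.d.neGX a b pX_0_1))
    have b13 := pii_lb (w := w) (p := (lX a b)) (q := (tX b c)) (cf_0_1_2)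
    omega

theorem abs3_p35 (C : Ctx3 w T x tX lX g h tG tH a b c) (pX_0_1 : 0 < x a b) (zX_0_2 : x a c = 0) (pH_0 : 0 < h a) (pX_1_0 : 0 < x b a) (pX_1_2 : 0 < x b c) (zH_1 : h b = 0) (zX_2_0 : x c a = 0) (pX_2_1 : 0 < x c b) (pH_2 : 0 < h c) : False := by
  have sa := C.d.sum a b c C.hab C.hac C.hbc
  have sb := C.d.sum b a c C.hab.symm C.hbc C.hac
  have sc := C.d.sum c a b C.hac.symm C.hbc.symm C.hab
  have g1 := C.d.hg a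
  have g2 := C.d.hg b
  have g3 := C.d.hg c
  have m1 := C.hmax1
  have m2 := C.hmax2
  have wG_0 := C.d.wG a
  have wX_0_1 := C.d.wX a b pX_0_1
  have wH_0 := C.d.wH a pH_0
  have wG_1 := C.d.wG b
  have wX_1_0 := C.d.wX b a pX_1_0
  have wX_1_2 := C.d.wX b c pX_1_2
  have wG_2 := C.d.wG c
  have wX_2_1 := C.d.wX c b pX_2_1
  have wH_2 := C.d.wH c pH_2
  have c1 := C.O3 a b c C.hab C.hbc C.hac (tG a) (tX a b) (lX a b) (lX c b) (tX c b) (tG c) (Or.inl rfl) (Or.inl ⟨pX_0_1, rfl, rfl⟩) (Or.inr ⟨pX_2_1, rfl, rfl⟩) (Or.inl rfl)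
  have b2 := pii_lb (w := w) (p := (tG a)) (q := (tX a b)) ((C.d.neGX a b pX_0_1))
  have b3 := pii_lb (w := w) (p := (tX c b)) (q := (tG c)) ((C.d.neGX c b pX_2_1).symm)
  omega

theorem abs3_p36 (C : Ctx3 w T x tX lX g h tG tH a b c) (pX_0_1 : 0 < x a b) (zX_0_2 : x a c = 0) (pH_0 : 0 < h a) (pX_1_0 : 0 < x b a) (pX_1_2 : 0 < x b c) (pH_1 : 0 < h b) (pX_2_0 : 0 < x c a) (pX_2_1 : 0 < x c b) (zH_2 : h c = 0) : False := by
  have sa := C.d.sum a b c C.hab C.hac C.hbc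
  have sb := C.d.sum b a c C.hab.symm C.hbc C.hac
  have sc := C.d.sum c a b C.hac.symm C.hbc.symm C.hab
  have g1 := C.d.hg a
  have g2 := C.d.hg b
  have g3 := C.d.hg c
  have m1 := C.hmax1
  have m2 := C.hmax2
  have wG_0 := C.d.wG a
  have wX_0_1 := C.d.wX a b pX_0_1
  have wH_0 := C.d.wH a pH_0
  have wG_1 := C.d.wG b
  have wX_1_0 := C.d.wX b a pX_1_0
  have wX_1_2 := C.d.wX b c pX_1_2
  have wH_1 := C.d.wH b pH_1
  have wG_2 := C.d.wG c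
  have wX_2_0 := C.d.wX c a pX_2_0
  have wX_2_1 := C.d.wX c b pX_2_1
  by_cases cf_1_2_0 : (lX b c) = (tX c a)
  · -- lands
    have c1 := C.O3 a b c C.hab C.hbc C.hac (tG a) (tX a b) (lX a b) (lX c b) (tX c b) (tG c) (Or.inl rfl) (Or.inl ⟨pX_0_1, rfl, rfl⟩) (Or.inr ⟨pX_2_1, rfl, rfl⟩) (Or.inl rfl)
    have b2 := pii_lb (w := w) (p := (tG a)) (q := (tX a b)) ((C.d.neGX a b pX_0_1))
    have b3 := pii_lb (w := w) (p := (tX c b)) (q := (tG c)) ((C.d.neGX c b pX_2_1).symm)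
    have c4 := C.O3 a b c C.hab C.hbc C.hac (tG a) (tX a b) (lX a b) (tX b c) (lX b c) (tG c) (Or.inl rfl) (Or.inl ⟨pX_0_1, rfl, rfl⟩) (Or.inl ⟨pX_1_2, rfl, rfl⟩) (Or.inl rfl)
    have b5 := pii_lb (w := w) (p := (tG a)) (q := (tX a b)) ((C.d.neGX a b pX_0_1))
    have b6 := pii_lb (w := w) (p := (lX b c)) (q := (tG c)) (by rw [cf_1_2_0]; exact (C.d.neGX c a pX_2_0).symm)
    have e7 : w (lX b c) = w (tX c a) := by rw [cf_1_2_0]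
    omega
  · -- not
    have c8 := C.O3 a c b C.hac C.hbc.symm C.hab (tG a) (lX c a) (tX c a) (lX b c) (tX b c) (tG b) (Or.inl rfl) (Or.inr ⟨pX_2_0, rfl, rfl⟩) (Or.inr ⟨pX_1_2, rfl, rfl⟩) (Or.inl rfl)
    have b9 := pii_lb (w := w) (p := (tX c a)) (q := (lX b c)) (Ne.symm cf_1_2_0)
    have b10 := pii_lb (w := w) (p := (tX b c)) (q := (tG b)) ((C.d.neGX b c pX_1_2).symm)
    have c11 := C.O3 a b c C.hab C.hbc C.hac (tG a) (tX a b) (lX a b) (lX c b) (tX c b) (tG c) (Or.inl rfl) (Or.inl ⟨pX_0_1, rfl, rfl⟩) (Or.inr ⟨pX_2_1, rfl, rfl⟩) (Or.inl rfl)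
    have b12 := pii_lb (w := w) (p := (tG a)) (q := (tX a b)) ((C.d.neGX a b pX_0_1))
    have b13 := pii_lb (w := w) (p := (tX c b)) (q := (tG c)) ((C.d.neGX c b pX_2_1).symm)
    have c14 := C.O3 b a c C.hab.symm C.hac C.hbc (tH b) (tX b a) (lX b a) (lX c a) (tX c a) (tG c) (Or.inr ⟨pH_1, rfl⟩) (Or.inl ⟨pX_1_0, rfl, rfl⟩) (Or.inr ⟨pX_2_0, rfl, rfl⟩) (Or.inl rfl)
    have b15 := pii_lb (w := w) (p := (tH b)) (q := (tX b a)) ((C.d.neHX b a pH_1 pX_1_0))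
    have b16 := pii_lb (w := w) (p := (tX c a)) (q := (tG c)) ((C.d.neGX c a pX_2_0).symm)
    omega

theorem abs3_p37 (C : Ctx3 w T x tX lX g h tG tH a b c) (pX_0_1 : 0 < x a b) (zX_0_2 : x a c = 0) (pH_0 : 0 < h a) (pX_1_0 : 0 < x b a) (pX_1_2 : 0 < x b c) (pH_1 : 0 < h b) (pX_2_0 : 0 < x c a) (pX_2_1 : 0 < x c b) (pH_2 : 0 < h c) : False := by
  have sa := C.d.sum a b c C.hab C.hac C.hbc
  have sb := C.d.sum b a c C.hab.symm C.hbc C.hac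
  have sc := C.d.sum c a b C.hac.symm C.hbc.symm C.hab
  have g1 := C.d.hg a
  have g2 := C.d.hg b
  have g3 := C.d.hg c
  have m1 := C.hmax1
  have m2 := C.hmax2
  have wG_0 := C.d.wG a
  have wX_0_1 := C.d.wX a b pX_0_1
  have wH_0 := C.d.wH a pH_0
  have wG_1 := C.d.wG b
  have wX_1_0 := C.d.wX b a pX_1_0
  have wX_1_2 := C.d.wX b c pX_1_2
  have wH_1 := C.d.wH b pH_1
  have wG_2 := C.d.wG c
  have wX_2_0 := C.d.wX c a pX_2_0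
  have wX_2_1 := C.d.wX c b pX_2_1
  have wH_2 := C.d.wH c pH_2
  by_cases cf_1_2_0 : (lX b c) = (tX c a)
  · -- lands
    have c1 := C.O3 a b c C.hab C.hbc C.hac (tG a) (tX a b) (lX a b) (lX c b) (tX c b) (tH c) (Or.inl rfl) (Or.inl ⟨pX_0_1, rfl, rfl⟩) (Or.inr ⟨pX_2_1, rfl, rfl⟩) (Or.inr ⟨pH_2, rfl⟩)
    have b2 := pii_lb (w := w) (p := (tG a)) (q := (tX a b)) ((C.d.neGX a b pX_0_1))
    have b3 := pii_lb (w := w) (p := (tX c b)) (q := (tH c)) ((C.d.neHX c b pH_2 pX_2_1).symm)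
    have c4 := C.O3 a b c C.hab C.hbc C.hac (tH a) (tX a b) (lX a b) (tX b c) (lX b c) (tG c) (Or.inr ⟨pH_0, rfl⟩) (Or.inl ⟨pX_0_1, rfl, rfl⟩) (Or.inl ⟨pX_1_2, rfl, rfl⟩) (Or.inl rfl)
    have b5 := pii_lb (w := w) (p := (tH a)) (q := (tX a b)) ((C.d.neHX a b pH_0 pX_0_1))
    have b6 := pii_lb (w := w) (p := (lX b c)) (q := (tG c)) (by rw [cf_1_2_0]; exact (C.d.neGX c a pX_2_0).symm)
    have e7 : w (lX b c) = w (tX c a) := by rw [cf_1_2_0]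
    omega
  · -- not
    by_cases cf_2_0_G : (lX c a) = (tG a)
    · -- lands
      have c8 := C.O3 a b c C.hab C.hbc C.hac (tG a) (tX a b) (lX a b) (lX c b) (tX c b) (tH c) (Or.inl rfl) (Or.inl ⟨pX_0_1, rfl, rfl⟩) (Or.inr ⟨pX_2_1, rfl, rfl⟩) (Or.inr ⟨pH_2, rfl⟩)
      have b9 := pii_lb (w := w) (p := (tG a)) (q := (tX a b)) ((C.d.neGX a b pX_0_1))
      have b10 := pii_lb (w := w) (p := (tX c b)) (q := (tH c)) ((C.d.neHX c b pH_2 pX_2_1).symm)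
      have c11 := C.O2 a c C.hac (tH a) (lX c a) (tX c a) (tG c) (Or.inr ⟨pH_0, rfl⟩) (Or.inr ⟨pX_2_0, rfl, rfl⟩) (Or.inl rfl)
      have b12 := pii_lb (w := w) (p := (tH a)) (q := (lX c a)) (Ne.symm (by rw [cf_2_0_G]; exact (C.d.neGH a pH_0)))
      have e13 : w (lX c a) = w (tG a) := by rw [cf_2_0_G]
      have b14 := pii_lb (w := w) (p := (tX c a)) (q := (tG c)) ((C.d.neGX c a pX_2_0).symm)
      omega
    · -- not
      have c15 := C.O3 a b c C.hab C.hbc C.hac (tG a) (tX a b) (lX a b) (lX c b) (tX c b) (tH c) (Or.inl rfl) (Or.inl ⟨pX_0_1, rfl, rfl⟩) (Or.inr ⟨pX_2_1, rfl, rfl⟩) (Or.inr ⟨pH_2, rfl⟩)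
      have b16 := pii_lb (w := w) (p := (tG a)) (q := (tX a b)) ((C.d.neGX a b pX_0_1))
      have b17 := pii_lb (w := w) (p := (tX c b)) (q := (tH c)) ((C.d.neHX c b pH_2 pX_2_1).symm)
      have c18 := C.O3 b a c C.hab.symm C.hac C.hbc (tH b) (tX b a) (lX b a) (lX c a) (tX c a) (tG c) (Or.inr ⟨pH_1, rfl⟩) (Or.inl ⟨pX_1_0, rfl, rfl⟩) (Or.inr ⟨pX_2_0, rfl, rfl⟩) (Or.inl rfl)
      have b19 := pii_lb (w := w) (p := (tH b)) (q := (tX b a)) ((C.d.neHX b a pH_1 pX_1_0))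
      have b20 := pii_lb (w := w) (p := (tX c a)) (q := (tG c)) ((C.d.neGX c a pX_2_0).symm)
      have c21 := C.O3 a c b C.hac C.hbc.symm C.hab (tG a) (lX c a) (tX c a) (lX b c) (tX b c) (tG b) (Or.inl rfl) (Or.inr ⟨pX_2_0, rfl, rfl⟩) (Or.inr ⟨pX_1_2, rfl, rfl⟩) (Or.inl rfl)
      have b22 := pii_lb (w := w) (p := (tG a)) (q := (lX c a)) (Ne.symm cf_2_0_G)
      have b23 := pii_lb (w := w) (p := (tX c a)) (q := (lX b c)) (Ne.symm cf_1_2_0)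
      have b24 := pii_lb (w := w) (p := (tX b c)) (q := (tG b)) ((C.d.neGX b c pX_1_2).symm)
      omega

theorem abs3_p38 (C : Ctx3 w T x tX lX g h tG tH a b c) (pX_0_1 : 0 < x a b) (zX_0_2 : x a c = 0) (pH_0 : 0 < h a) (pX_1_0 : 0 < x b a) (pX_1_2 : 0 < x b c) (pH_1 : 0 < h b) (pX_2_0 : 0 < x c a) (zX_2_1 : x c b = 0) (pH_2 : 0 < h c) : False := by
  have sa := C.d.sum a b c C.hab C.hac C.hbc
  have sb := C.d.sum b a c C.hab.symm C.hbc C.hac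
  have sc := C.d.sum c a b C.hac.symm C.hbc.symm C.hab
  have g1 := C.d.hg a
  have g2 := C.d.hg b
  have g3 := C.d.hg c
  have m1 := C.hmax1
  have m2 := C.hmax2
  have wG_0 := C.d.wG a
  have wX_0_1 := C.d.wX a b pX_0_1
  have wH_0 := C.d.wH a pH_0
  have wG_1 := C.d.wG b
  have wX_1_0 := C.d.wX b a pX_1_0
  have wX_1_2 := C.d.wX b c pX_1_2
  have wH_1 := C.d.wH b pH_1
  have wG_2 := C.d.wG c
  have wX_2_0 := C.d.wX c a pX_2_0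
  have wH_2 := C.d.wH c pH_2
  by_cases cf_0_1_2 : (lX a b) = (tX b c)
  · -- lands
    have c1 := C.O3 b a c C.hab.symm C.hac C.hbc (tG b) (tX b a) (lX b a) (lX c a) (tX c a) (tG c) (Or.inl rfl) (Or.inl ⟨pX_1_0, rfl, rfl⟩) (Or.inr ⟨pX_2_0, rfl, rfl⟩) (Or.inl rfl)
    have b2 := pii_lb (w := w) (p := (tG b)) (q := (tX b a)) ((C.d.neGX b a pX_1_0))
    have b3 := pii_lb (w := w) (p := (tX c a)) (q := (tG c)) ((C.d.neGX c a pX_2_0).symm)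
    have c4 := C.O3 b a c C.hab.symm C.hac C.hbc (tG b) (lX a b) (tX a b) (lX c a) (tX c a) (tH c) (Or.inl rfl) (Or.inr ⟨pX_0_1, rfl, rfl⟩) (Or.inr ⟨pX_2_0, rfl, rfl⟩) (Or.inr ⟨pH_2, rfl⟩)
    have b5 := pii_lb (w := w) (p := (tG b)) (q := (lX a b)) (Ne.symm (by rw [cf_0_1_2]; exact (C.d.neGX b c pX_1_2).symm))
    have e6 : w (lX a b) = w (tX b c) := by rw [cf_0_1_2]
    have b7 := pii_lb (w := w) (p := (tX c a)) (q := (tH c)) ((C.d.neHX c a pH_2 pX_2_0).symm)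
    omega
  · -- not
    by_cases cf_1_2_G : (lX b c) = (tG c)
    · -- lands
      have c8 := C.O3 a b c C.hab C.hbc C.hac (tG a) (tX a b) (lX a b) (tX b c) (lX b c) (tH c) (Or.inl rfl) (Or.inl ⟨pX_0_1, rfl, rfl⟩) (Or.inl ⟨pX_1_2, rfl, rfl⟩) (Or.inr ⟨pH_2, rfl⟩)
      have b9 := pii_lb (w := w) (p := (tG a)) (q := (tX a b)) ((C.d.neGX a b pX_0_1))
      have b10 := pii_lb (w := w) (p := (lX a b)) (q := (tX b c)) (cf_0_1_2)
      have b11 := pii_lb (w := w) (p := (lX b c)) (q := (tH c)) (by rw [cf_1_2_G]; exact (C.d.neGH c pH_2))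
      have e12 : w (lX b c) = w (tG c) := by rw [cf_1_2_G]
      have c13 := C.O3 b a c C.hab.symm C.hac C.hbc (tH b) (tX b a) (lX b a) (lX c a) (tX c a) (tH c) (Or.inr ⟨pH_1, rfl⟩) (Or.inl ⟨pX_1_0, rfl, rfl⟩) (Or.inr ⟨pX_2_0, rfl, rfl⟩) (Or.inr ⟨pH_2, rfl⟩)
      have b14 := pii_lb (w := w) (p := (tH b)) (q := (tX b a)) ((C.d.neHX b a pH_1 pX_1_0))
      have b15 := pii_lb (w := w) (p := (tX c a)) (q := (tH c)) ((C.d.neHX c a pH_2 pX_2_0).symm)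
      omega
    · -- not
      have c16 := C.O2 b c C.hbc (tG b) (tX b c) (lX b c) (tG c) (Or.inl rfl) (Or.inl ⟨pX_1_2, rfl, rfl⟩) (Or.inl rfl)
      have b17 := pii_lb (w := w) (p := (tG b)) (q := (tX b c)) ((C.d.neGX b c pX_1_2))
      have b18 := pii_lb (w := w) (p := (lX b c)) (q := (tG c)) (cf_1_2_G)
      have c19 := C.O3 b a c C.hab.symm C.hac C.hbc (tH b) (tX b a) (lX b a) (lX c a) (tX c a) (tH c) (Or.inr ⟨pH_1, rfl⟩) (Or.inl ⟨pX_1_0, rfl, rfl⟩) (Or.inr ⟨pX_2_0, rfl, rfl⟩) (Or.inr ⟨pH_2, rfl⟩)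
      have b20 := pii_lb (w := w) (p := (tH b)) (q := (tX b a)) ((C.d.neHX b a pH_1 pX_1_0))
      have b21 := pii_lb (w := w) (p := (tX c a)) (q := (tH c)) ((C.d.neHX c a pH_2 pX_2_0).symm)
      omega

theorem abs3_p39 (C : Ctx3 w T x tX lX g h tG tH a b c) (pX_0_1 : 0 < x a b) (zX_0_2 : x a c = 0) (pH_0 : 0 < h a) (pX_1_0 : 0 < x b a) (pX_1_2 : 0 < x b c) (pH_1 : 0 < h b) (zX_2_0 : x c a = 0) (pX_2_1 : 0 < x c b) (pH_2 : 0 < h c) : False := by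
  have sa := C.d.sum a b c C.hab C.hac C.hbc
  have sb := C.d.sum b a c C.hab.symm C.hbc C.hac
  have sc := C.d.sum c a b C.hac.symm C.hbc.symm C.hab
  have g1 := C.d.hg a
  have g2 := C.d.hg b
  have g3 := C.d.hg c
  have m1 := C.hmax1
  have m2 := C.hmax2
  have wG_0 := C.d.wG a
  have wX_0_1 := C.d.wX a b pX_0_1
  have wH_0 := C.d.wH a pH_0
  have wG_1 := C.d.wG b
  have wX_1_0 := C.d.wX b a pX_1_0
  have wX_1_2 := C.d.wX b c pX_1_2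
  have wH_1 := C.d.wH b pH_1
  have wG_2 := C.d.wG c
  have wX_2_1 := C.d.wX c b pX_2_1
  have wH_2 := C.d.wH c pH_2
  have c1 := C.O3 a b c C.hab C.hbc C.hac (tG a) (tX a b) (lX a b) (lX c b) (tX c b) (tH c) (Or.inl rfl) (Or.inl ⟨pX_0_1, rfl, rfl⟩) (Or.inr ⟨pX_2_1, rfl, rfl⟩) (Or.inr ⟨pH_2, rfl⟩)
  have b2 := pii_lb (w := w) (p := (tG a)) (q := (tX a b)) ((C.d.neGX a b pX_0_1))
  have b3 := pii_lb (w := w) (p := (tX c b)) (q := (tH c)) ((C.d.neHX c b pH_2 pX_2_1).symm)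
  omega

theorem abs3_p40 (C : Ctx3 w T x tX lX g h tG tH a b c) (pX_0_1 : 0 < x a b) (zX_0_2 : x a c = 0) (pH_0 : 0 < h a) (pX_1_0 : 0 < x b a) (zX_1_2 : x b c = 0) (pH_1 : 0 < h b) (pX_2_0 : 0 < x c a) (pX_2_1 : 0 < x c b) (zH_2 : h c = 0) : False := by
  have sa := C.d.sum a b c C.hab C.hac C.hbc
  have sb := C.d.sum b a c C.hab.symm C.hbc C.hac
  have sc := C.d.sum c a b C.hac.symm C.hbc.symm C.hab
  have g1 := C.d.hg a
  have g2 := C.d.hg b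
  have g3 := C.d.hg c
  have m1 := C.hmax1
  have m2 := C.hmax2
  have wG_0 := C.d.wG a
  have wX_0_1 := C.d.wX a b pX_0_1
  have wH_0 := C.d.wH a pH_0
  have wG_1 := C.d.wG b
  have wX_1_0 := C.d.wX b a pX_1_0
  have wH_1 := C.d.wH b pH_1
  have wG_2 := C.d.wG c
  have wX_2_0 := C.d.wX c a pX_2_0
  have wX_2_1 := C.d.wX c b pX_2_1
  have c1 := C.O3 b a c C.hab.symm C.hac C.hbc (tG b) (tX b a) (lX b a) (lX c a) (tX c a) (tG c) (Or.inl rfl) (Or.inl ⟨pX_1_0, rfl, rfl⟩) (Or.inr ⟨pX_2_0, rfl, rfl⟩) (Or.inl rfl)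
  have b2 := pii_lb (w := w) (p := (tG b)) (q := (tX b a)) ((C.d.neGX b a pX_1_0))
  have b3 := pii_lb (w := w) (p := (tX c a)) (q := (tG c)) ((C.d.neGX c a pX_2_0).symm)
  have c4 := C.O3 a b c C.hab C.hbc C.hac (tG a) (tX a b) (lX a b) (lX c b) (tX c b) (tG c) (Or.inl rfl) (Or.inl ⟨pX_0_1, rfl, rfl⟩) (Or.inr ⟨pX_2_1, rfl, rfl⟩) (Or.inl rfl)
  have b5 := pii_lb (w := w) (p := (tG a)) (q := (tX a b)) ((C.d.neGX a b pX_0_1))
  have b6 := pii_lb (w := w) (p := (tX c b)) (q := (tG c)) ((C.d.neGX c b pX_2_1).symm)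
  omega

theorem abs3_p41 (C : Ctx3 w T x tX lX g h tG tH a b c) (pX_0_1 : 0 < x a b) (zX_0_2 : x a c = 0) (pH_0 : 0 < h a) (pX_1_0 : 0 < x b a) (zX_1_2 : x b c = 0) (pH_1 : 0 < h b) (pX_2_0 : 0 < x c a) (pX_2_1 : 0 < x c b) (pH_2 : 0 < h c) : False := by
  have sa := C.d.sum a b c C.hab C.hac C.hbc
  have sb := C.d.sum b a c C.hab.symm C.hbc C.hac
  have sc := C.d.sum c a b C.hac.symm C.hbc.symm C.hab
  have g1 := C.d.hg a
  have g2 := C.d.hg b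
  have g3 := C.d.hg c
  have m1 := C.hmax1
  have m2 := C.hmax2
  have wG_0 := C.d.wG a
  have wX_0_1 := C.d.wX a b pX_0_1
  have wH_0 := C.d.wH a pH_0
  have wG_1 := C.d.wG b
  have wX_1_0 := C.d.wX b a pX_1_0
  have wH_1 := C.d.wH b pH_1
  have wG_2 := C.d.wG c
  have wX_2_0 := C.d.wX c a pX_2_0
  have wX_2_1 := C.d.wX c b pX_2_1
  have wH_2 := C.d.wH c pH_2
  have c1 := C.O3 a b c C.hab C.hbc C.hac (tG a) (tX a b) (lX a b) (lX c b) (tX c b) (tG c) (Or.inl rfl) (Or.inl ⟨pX_0_1, rfl, rfl⟩) (Or.inr ⟨pX_2_1, rfl, rfl⟩) (Or.inl rfl)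
  have b2 := pii_lb (w := w) (p := (tG a)) (q := (tX a b)) ((C.d.neGX a b pX_0_1))
  have b3 := pii_lb (w := w) (p := (tX c b)) (q := (tG c)) ((C.d.neGX c b pX_2_1).symm)
  have c4 := C.O3 b a c C.hab.symm C.hac C.hbc (tG b) (tX b a) (lX b a) (lX c a) (tX c a) (tH c) (Or.inl rfl) (Or.inl ⟨pX_1_0, rfl, rfl⟩) (Or.inr ⟨pX_2_0, rfl, rfl⟩) (Or.inr ⟨pH_2, rfl⟩)
  have b5 := pii_lb (w := w) (p := (tG b)) (q := (tX b a)) ((C.d.neGX b a pX_1_0))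
  have b6 := pii_lb (w := w) (p := (tX c a)) (q := (tH c)) ((C.d.neHX c a pH_2 pX_2_0).symm)
  omega

theorem abs3_p42 (C : Ctx3 w T x tX lX g h tG tH a b c) (pX_0_1 : 0 < x a b) (zX_0_2 : x a c = 0) (pH_0 : 0 < h a) (pX_1_0 : 0 < x b a) (zX_1_2 : x b c = 0) (pH_1 : 0 < h b) (pX_2_0 : 0 < x c a) (zX_2_1 : x c b = 0) (pH_2 : 0 < h c) : False := by
  have sa := C.d.sum a b c C.hab C.hac C.hbc
  have sb := C.d.sum b a c C.hab.symm C.hbc C.hac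
  have sc := C.d.sum c a b C.hac.symm C.hbc.symm C.hab
  have g1 := C.d.hg a
  have g2 := C.d.hg b
  have g3 := C.d.hg c
  have m1 := C.hmax1
  have m2 := C.hmax2
  have wG_0 := C.d.wG a
  have wX_0_1 := C.d.wX a b pX_0_1
  have wH_0 := C.d.wH a pH_0
  have wG_1 := C.d.wG b
  have wX_1_0 := C.d.wX b a pX_1_0
  have wH_1 := C.d.wH b pH_1
  have wG_2 := C.d.wG c
  have wX_2_0 := C.d.wX c a pX_2_0
  have wH_2 := C.d.wH c pH_2
  have c1 := C.O3 b a c C.hab.symm C.hac C.hbc (tG b) (tX b a) (lX b a) (lX c a) (tX c a) (tG c) (Or.inl rfl) (Or.inl ⟨pX_1_0, rfl, rfl⟩) (Or.inr ⟨pX_2_0, rfl, rfl⟩) (Or.inl rfl)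
  have b2 := pii_lb (w := w) (p := (tG b)) (q := (tX b a)) ((C.d.neGX b a pX_1_0))
  have b3 := pii_lb (w := w) (p := (tX c a)) (q := (tG c)) ((C.d.neGX c a pX_2_0).symm)
  omega

theorem abs3_p43 (C : Ctx3 w T x tX lX g h tG tH a b c) (pX_0_1 : 0 < x a b) (zX_0_2 : x a c = 0) (pH_0 : 0 < h a) (pX_1_0 : 0 < x b a) (zX_1_2 : x b c = 0) (pH_1 : 0 < h b) (zX_2_0 : x c a = 0) (pX_2_1 : 0 < x c b) (pH_2 : 0 < h c) : False := by
  have sa := C.d.sum a b c C.hab C.hac C.hbc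
  have sb := C.d.sum b a c C.hab.symm C.hbc C.hac
  have sc := C.d.sum c a b C.hac.symm C.hbc.symm C.hab
  have g1 := C.d.hg a
  have g2 := C.d.hg b
  have g3 := C.d.hg c
  have m1 := C.hmax1
  have m2 := C.hmax2
  have wG_0 := C.d.wG a
  have wX_0_1 := C.d.wX a b pX_0_1
  have wH_0 := C.d.wH a pH_0
  have wG_1 := C.d.wG b
  have wX_1_0 := C.d.wX b a pX_1_0
  have wH_1 := C.d.wH b pH_1
  have wG_2 := C.d.wG c
  have wX_2_1 := C.d.wX c b pX_2_1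
  have wH_2 := C.d.wH c pH_2
  have c1 := C.O3 a b c C.hab C.hbc C.hac (tG a) (tX a b) (lX a b) (lX c b) (tX c b) (tG c) (Or.inl rfl) (Or.inl ⟨pX_0_1, rfl, rfl⟩) (Or.inr ⟨pX_2_1, rfl, rfl⟩) (Or.inl rfl)
  have b2 := pii_lb (w := w) (p := (tG a)) (q := (tX a b)) ((C.d.neGX a b pX_0_1))
  have b3 := pii_lb (w := w) (p := (tX c b)) (q := (tG c)) ((C.d.neGX c b pX_2_1).symm)
  omega

theorem abs3_p44 (C : Ctx3 w T x tX lX g h tG tH a b c) (pX_0_1 : 0 < x a b) (zX_0_2 : x a c = 0) (pH_0 : 0 < h a) (zX_1_0 : x b a = 0) (pX_1_2 : 0 < x b c) (pH_1 : 0 < h b) (pX_2_0 : 0 < x c a) (pX_2_1 : 0 < x c b) (zH_2 : h c = 0) : False := by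
  have sa := C.d.sum a b c C.hab C.hac C.hbc
  have sb := C.d.sum b a c C.hab.symm C.hbc C.hac
  have sc := C.d.sum c a b C.hac.symm C.hbc.symm C.hab
  have g1 := C.d.hg a
  have g2 := C.d.hg b
  have g3 := C.d.hg c
  have m1 := C.hmax1
  have m2 := C.hmax2
  have wG_0 := C.d.wG a
  have wX_0_1 := C.d.wX a b pX_0_1
  have wH_0 := C.d.wH a pH_0
  have wG_1 := C.d.wG b
  have wX_1_2 := C.d.wX b c pX_1_2
  have wH_1 := C.d.wH b pH_1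
  have wG_2 := C.d.wG c
  have wX_2_0 := C.d.wX c a pX_2_0
  have wX_2_1 := C.d.wX c b pX_2_1
  by_cases cf_1_2_0 : (lX b c) = (tX c a)
  · -- lands
    have c1 := C.O3 a b c C.hab C.hbc C.hac (tG a) (tX a b) (lX a b) (lX c b) (tX c b) (tG c) (Or.inl rfl) (Or.inl ⟨pX_0_1, rfl, rfl⟩) (Or.inr ⟨pX_2_1, rfl, rfl⟩) (Or.inl rfl)
    have b2 := pii_lb (w := w) (p := (tG a)) (q := (tX a b)) ((C.d.neGX a b pX_0_1))
    have b3 := pii_lb (w := w) (p := (tX c b)) (q := (tG c)) ((C.d.neGX c b pX_2_1).symm)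
    have c4 := C.O3 a b c C.hab C.hbc C.hac (tH a) (tX a b) (lX a b) (tX b c) (lX b c) (tG c) (Or.inr ⟨pH_0, rfl⟩) (Or.inl ⟨pX_0_1, rfl, rfl⟩) (Or.inl ⟨pX_1_2, rfl, rfl⟩) (Or.inl rfl)
    have b5 := pii_lb (w := w) (p := (tH a)) (q := (tX a b)) ((C.d.neHX a b pH_0 pX_0_1))
    have b6 := pii_lb (w := w) (p := (lX b c)) (q := (tG c)) (by rw [cf_1_2_0]; exact (C.d.neGX c a pX_2_0).symm)
    have e7 : w (lX b c) = w (tX c a) := by rw [cf_1_2_0]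
    omega
  · -- not
    have c8 := C.O3 a c b C.hac C.hbc.symm C.hab (tG a) (lX c a) (tX c a) (lX b c) (tX b c) (tH b) (Or.inl rfl) (Or.inr ⟨pX_2_0, rfl, rfl⟩) (Or.inr ⟨pX_1_2, rfl, rfl⟩) (Or.inr ⟨pH_1, rfl⟩)
    have b9 := pii_lb (w := w) (p := (tX c a)) (q := (lX b c)) (Ne.symm cf_1_2_0)
    have b10 := pii_lb (w := w) (p := (tX b c)) (q := (tH b)) ((C.d.neHX b c pH_1 pX_1_2).symm)
    have c11 := C.O3 a b c C.hab C.hbc C.hac (tG a) (tX a b) (lX a b) (lX c b) (tX c b) (tG c) (Or.inl rfl) (Or.inl ⟨pX_0_1, rfl, rfl⟩) (Or.inr ⟨pX_2_1, rfl, rfl⟩) (Or.inl rfl)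
    have b12 := pii_lb (w := w) (p := (tG a)) (q := (tX a b)) ((C.d.neGX a b pX_0_1))
    have b13 := pii_lb (w := w) (p := (tX c b)) (q := (tG c)) ((C.d.neGX c b pX_2_1).symm)
    omega

theorem abs3_p45 (C : Ctx3 w T x tX lX g h tG tH a b c) (pX_0_1 : 0 < x a b) (zX_0_2 : x a c = 0) (pH_0 : 0 < h a) (zX_1_0 : x b a = 0) (pX_1_2 : 0 < x b c) (pH_1 : 0 < h b) (pX_2_0 : 0 < x c a) (pX_2_1 : 0 < x c b) (pH_2 : 0 < h c) : False := by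
  have sa := C.d.sum a b c C.hab C.hac C.hbc
  have sb := C.d.sum b a c C.hab.symm C.hbc C.hac
  have sc := C.d.sum c a b C.hac.symm C.hbc.symm C.hab
  have g1 := C.d.hg a
  have g2 := C.d.hg b
  have g3 := C.d.hg c
  have m1 := C.hmax1
  have m2 := C.hmax2
  have wG_0 := C.d.wG a
  have wX_0_1 := C.d.wX a b pX_0_1
  have wH_0 := C.d.wH a pH_0
  have wG_1 := C.d.wG b
  have wX_1_2 := C.d.wX b c pX_1_2
  have wH_1 := C.d.wH b pH_1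
  have wG_2 := C.d.wG c
  have wX_2_0 := C.d.wX c a pX_2_0
  have wX_2_1 := C.d.wX c b pX_2_1
  have wH_2 := C.d.wH c pH_2
  by_cases cf_1_2_0 : (lX b c) = (tX c a)
  · -- lands
    have c1 := C.O3 a b c C.hab C.hbc C.hac (tG a) (tX a b) (lX a b) (lX c b) (tX c b) (tG c) (Or.inl rfl) (Or.inl ⟨pX_0_1, rfl, rfl⟩) (Or.inr ⟨pX_2_1, rfl, rfl⟩) (Or.inl rfl)
    have b2 := pii_lb (w := w) (p := (tG a)) (q := (tX a b)) ((C.d.neGX a b pX_0_1))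
    have b3 := pii_lb (w := w) (p := (tX c b)) (q := (tG c)) ((C.d.neGX c b pX_2_1).symm)
    have c4 := C.O2 b c C.hbc (tG b) (tX b c) (lX b c) (tH c) (Or.inl rfl) (Or.inl ⟨pX_1_2, rfl, rfl⟩) (Or.inr ⟨pH_2, rfl⟩)
    have b5 := pii_lb (w := w) (p := (tG b)) (q := (tX b c)) ((C.d.neGX b c pX_1_2))
    have b6 := pii_lb (w := w) (p := (lX b c)) (q := (tH c)) (by rw [cf_1_2_0]; exact (C.d.neHX c a pH_2 pX_2_0).symm)
    have e7 : w (lX b c) = w (tX c a) := by rw [cf_1_2_0]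
    omega
  · -- not
    by_cases cf_2_0_G : (lX c a) = (tG a)
    · -- lands
      have c8 := C.O3 a c b C.hac C.hbc.symm C.hab (tH a) (lX c a) (tX c a) (lX b c) (tX b c) (tH b) (Or.inr ⟨pH_0, rfl⟩) (Or.inr ⟨pX_2_0, rfl, rfl⟩) (Or.inr ⟨pX_1_2, rfl, rfl⟩) (Or.inr ⟨pH_1, rfl⟩)
      have b9 := pii_lb (w := w) (p := (tH a)) (q := (lX c a)) (Ne.symm (by rw [cf_2_0_G]; exact (C.d.neGH a pH_0)))
      have e10 : w (lX c a) = w (tG a) := by rw [cf_2_0_G]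
      have b11 := pii_lb (w := w) (p := (tX c a)) (q := (lX b c)) (Ne.symm cf_1_2_0)
      have b12 := pii_lb (w := w) (p := (tX b c)) (q := (tH b)) ((C.d.neHX b c pH_1 pX_1_2).symm)
      omega
    · -- not
      have c13 := C.O2 a c C.hac (tG a) (lX c a) (tX c a) (tG c) (Or.inl rfl) (Or.inr ⟨pX_2_0, rfl, rfl⟩) (Or.inl rfl)
      have b14 := pii_lb (w := w) (p := (tG a)) (q := (lX c a)) (Ne.symm cf_2_0_G)
      have b15 := pii_lb (w := w) (p := (tX c a)) (q := (tG c)) ((C.d.neGX c a pX_2_0).symm)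
      have c16 := C.O3 a b c C.hab C.hbc C.hac (tG a) (tX a b) (lX a b) (lX c b) (tX c b) (tH c) (Or.inl rfl) (Or.inl ⟨pX_0_1, rfl, rfl⟩) (Or.inr ⟨pX_2_1, rfl, rfl⟩) (Or.inr ⟨pH_2, rfl⟩)
      have b17 := pii_lb (w := w) (p := (tG a)) (q := (tX a b)) ((C.d.neGX a b pX_0_1))
      have b18 := pii_lb (w := w) (p := (tX c b)) (q := (tH c)) ((C.d.neHX c b pH_2 pX_2_1).symm)
      omega

theorem abs3_p46 (C : Ctx3 w T x tX lX g h tG tH a b c) (pX_0_1 : 0 < x a b) (zX_0_2 : x a c = 0) (pH_0 : 0 < h a) (zX_1_0 : x b a = 0) (pX_1_2 : 0 < x b c) (pH_1 : 0 < h b) (pX_2_0 : 0 < x c a) (zX_2_1 : x c b = 0) (pH_2 : 0 < h c) : False := by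
  have sa := C.d.sum a b c C.hab C.hac C.hbc
  have sb := C.d.sum b a c C.hab.symm C.hbc C.hac
  have sc := C.d.sum c a b C.hac.symm C.hbc.symm C.hab
  have g1 := C.d.hg a
  have g2 := C.d.hg b
  have g3 := C.d.hg c
  have m1 := C.hmax1
  have m2 := C.hmax2
  have wG_0 := C.d.wG a
  have wX_0_1 := C.d.wX a b pX_0_1
  have wH_0 := C.d.wH a pH_0
  have wG_1 := C.d.wG b
  have wX_1_2 := C.d.wX b c pX_1_2
  have wH_1 := C.d.wH b pH_1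
  have wG_2 := C.d.wG c
  have wX_2_0 := C.d.wX c a pX_2_0
  have wH_2 := C.d.wH c pH_2
  by_cases cf_0_1_2 : (lX a b) = (tX b c)
  · -- lands
    have c1 := C.O2 a b C.hab (tG a) (tX a b) (lX a b) (tH b) (Or.inl rfl) (Or.inl ⟨pX_0_1, rfl, rfl⟩) (Or.inr ⟨pH_1, rfl⟩)
    have b2 := pii_lb (w := w) (p := (tG a)) (q := (tX a b)) ((C.d.neGX a b pX_0_1))
    have b3 := pii_lb (w := w) (p := (lX a b)) (q := (tH b)) (by rw [cf_0_1_2]; exact (C.d.neHX b c pH_1 pX_1_2).symm)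
    have e4 : w (lX a b) = w (tX b c) := by rw [cf_0_1_2]
    omega
  · -- not
    by_cases cf_0_1_G : (lX a b) = (tG b)
    · -- lands
      have c5 := C.O2 a b C.hab (tG a) (tX a b) (lX a b) (tH b) (Or.inl rfl) (Or.inl ⟨pX_0_1, rfl, rfl⟩) (Or.inr ⟨pH_1, rfl⟩)
      have b6 := pii_lb (w := w) (p := (tG a)) (q := (tX a b)) ((C.d.neGX a b pX_0_1))
      have b7 := pii_lb (w := w) (p := (lX a b)) (q := (tH b)) (by rw [cf_0_1_G]; exact (C.d.neGH b pH_1))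
      have e8 : w (lX a b) = w (tG b) := by rw [cf_0_1_G]
      have c9 := C.O3 a b c C.hab C.hbc C.hac (tH a) (tX a b) (lX a b) (tX b c) (lX b c) (tG c) (Or.inr ⟨pH_0, rfl⟩) (Or.inl ⟨pX_0_1, rfl, rfl⟩) (Or.inl ⟨pX_1_2, rfl, rfl⟩) (Or.inl rfl)
      have b10 := pii_lb (w := w) (p := (tH a)) (q := (tX a b)) ((C.d.neHX a b pH_0 pX_0_1))
      have b11 := pii_lb (w := w) (p := (lX a b)) (q := (tX b c)) (by rw [cf_0_1_G]; exact (C.d.neGX b c pX_1_2))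
      have e12 : w (lX a b) = w (tG b) := by rw [cf_0_1_G]
      omega
    · -- not
      by_cases cf_1_2_G : (lX b c) = (tG c)
      · -- lands
        have c13 := C.O3 a c b C.hac C.hbc.symm C.hab (tG a) (lX c a) (tX c a) (lX b c) (tX b c) (tG b) (Or.inl rfl) (Or.inr ⟨pX_2_0, rfl, rfl⟩) (Or.inr ⟨pX_1_2, rfl, rfl⟩) (Or.inl rfl)
        have b14 := pii_lb (w := w) (p := (tX c a)) (q := (lX b c)) (Ne.symm (by rw [cf_1_2_G]; exact (C.d.neGX c a pX_2_0)))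
        have e15 : w (lX b c) = w (tG c) := by rw [cf_1_2_G]
        have b16 := pii_lb (w := w) (p := (tX b c)) (q := (tG b)) ((C.d.neGX b c pX_1_2).symm)
        omega
      · -- not
        have c17 := C.O2 b c C.hbc (tH b) (tX b c) (lX b c) (tG c) (Or.inr ⟨pH_1, rfl⟩) (Or.inl ⟨pX_1_2, rfl, rfl⟩) (Or.inl rfl)
        have b18 := pii_lb (w := w) (p := (tH b)) (q := (tX b c)) ((C.d.neHX b c pH_1 pX_1_2))
        have b19 := pii_lb (w := w) (p := (lX b c)) (q := (tG c)) (cf_1_2_G)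
        have c20 := C.O3 b a c C.hab.symm C.hac C.hbc (tG b) (lX a b) (tX a b) (lX c a) (tX c a) (tG c) (Or.inl rfl) (Or.inr ⟨pX_0_1, rfl, rfl⟩) (Or.inr ⟨pX_2_0, rfl, rfl⟩) (Or.inl rfl)
        have b21 := pii_lb (w := w) (p := (tG b)) (q := (lX a b)) (Ne.symm cf_0_1_G)
        have b22 := pii_lb (w := w) (p := (tX c a)) (q := (tG c)) ((C.d.neGX c a pX_2_0).symm)
        omega

theorem abs3_p47 (C : Ctx3 w T x tX lX g h tG tH a b c) (pX_0_1 : 0 < x a b) (zX_0_2 : x a c = 0) (pH_0 : 0 < h a) (zX_1_0 : x b a = 0) (pX_1_2 : 0 < x b c) (pH_1 : 0 < h b) (zX_2_0 : x c a = 0) (pX_2_1 : 0 < x c b) (pH_2 : 0 < h c) : False := by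
  have sa := C.d.sum a b c C.hab C.hac C.hbc
  have sb := C.d.sum b a c C.hab.symm C.hbc C.hac
  have sc := C.d.sum c a b C.hac.symm C.hbc.symm C.hab
  have g1 := C.d.hg a
  have g2 := C.d.hg b
  have g3 := C.d.hg c
  have m1 := C.hmax1
  have m2 := C.hmax2
  have wG_0 := C.d.wG a
  have wX_0_1 := C.d.wX a b pX_0_1
  have wH_0 := C.d.wH a pH_0
  have wG_1 := C.d.wG b
  have wX_1_2 := C.d.wX b c pX_1_2
  have wH_1 := C.d.wH b pH_1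
  have wG_2 := C.d.wG c
  have wX_2_1 := C.d.wX c b pX_2_1
  have wH_2 := C.d.wH c pH_2
  have c1 := C.O3 a b c C.hab C.hbc C.hac (tG a) (tX a b) (lX a b) (lX c b) (tX c b) (tG c) (Or.inl rfl) (Or.inl ⟨pX_0_1, rfl, rfl⟩) (Or.inr ⟨pX_2_1, rfl, rfl⟩) (Or.inl rfl)
  have b2 := pii_lb (w := w) (p := (tG a)) (q := (tX a b)) ((C.d.neGX a b pX_0_1))
  have b3 := pii_lb (w := w) (p := (tX c b)) (q := (tG c)) ((C.d.neGX c b pX_2_1).symm)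
  omega

theorem abs3_p48 (C : Ctx3 w T x tX lX g h tG tH a b c) (zX_0_1 : x a b = 0) (pX_0_2 : 0 < x a c) (pH_0 : 0 < h a) (pX_1_0 : 0 < x b a) (pX_1_2 : 0 < x b c) (zH_1 : h b = 0) (pX_2_0 : 0 < x c a) (pX_2_1 : 0 < x c b) (zH_2 : h c = 0) : False := by
  have sa := C.d.sum a b c C.hab C.hac C.hbc
  have sb := C.d.sum b a c C.hab.symm C.hbc C.hac
  have sc := C.d.sum c a b C.hac.symm C.hbc.symm C.hab
  have g1 := C.d.hg a
  have g2 := C.d.hg b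
  have g3 := C.d.hg c
  have m1 := C.hmax1
  have m2 := C.hmax2
  have wG_0 := C.d.wG a
  have wX_0_2 := C.d.wX a c pX_0_2
  have wH_0 := C.d.wH a pH_0
  have wG_1 := C.d.wG b
  have wX_1_0 := C.d.wX b a pX_1_0
  have wX_1_2 := C.d.wX b c pX_1_2
  have wG_2 := C.d.wG c
  have wX_2_0 := C.d.wX c a pX_2_0
  have wX_2_1 := C.d.wX c b pX_2_1
  by_cases cf_1_0_H : (lX b a) = (tH a)
  · -- lands
    have c1 := C.O3 a b c C.hab C.hbc C.hac (tG a) (lX b a) (tX b a) (tX b c) (lX b c) (tG c) (Or.inl rfl) (Or.inr ⟨pX_1_0, rfl, rfl⟩) (Or.inl ⟨pX_1_2, rfl, rfl⟩) (Or.inl rfl)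
    have b2 := pii_lb (w := w) (p := (tG a)) (q := (lX b a)) (Ne.symm (by rw [cf_1_0_H]; exact (C.d.neGH a pH_0).symm))
    have e3 : w (lX b a) = w (tH a) := by rw [cf_1_0_H]
    have b4 := pii_lb (w := w) (p := (tX b a)) (q := (tX b c)) ((C.d.neXX b a c C.hac pX_1_0 pX_1_2))
    omega
  · -- not
    have c5 := C.O3 a c b C.hac C.hbc.symm C.hab (tG a) (tX a c) (lX a c) (lX b c) (tX b c) (tG b) (Or.inl rfl) (Or.inl ⟨pX_0_2, rfl, rfl⟩) (Or.inr ⟨pX_1_2, rfl, rfl⟩) (Or.inl rfl)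
    have b6 := pii_lb (w := w) (p := (tG a)) (q := (tX a c)) ((C.d.neGX a c pX_0_2))
    have b7 := pii_lb (w := w) (p := (tX b c)) (q := (tG b)) ((C.d.neGX b c pX_1_2).symm)
    have c8 := C.O3 a b c C.hab C.hbc C.hac (tH a) (lX b a) (tX b a) (tX b c) (lX b c) (tG c) (Or.inr ⟨pH_0, rfl⟩) (Or.inr ⟨pX_1_0, rfl, rfl⟩) (Or.inl ⟨pX_1_2, rfl, rfl⟩) (Or.inl rfl)
    have b9 := pii_lb (w := w) (p := (tH a)) (q := (lX b a)) (Ne.symm cf_1_0_H)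
    have b10 := pii_lb (w := w) (p := (tX b a)) (q := (tX b c)) ((C.d.neXX b a c C.hac pX_1_0 pX_1_2))
    omega

theorem abs3_p49 (C : Ctx3 w T x tX lX g h tG tH a b c) (zX_0_1 : x a b = 0) (pX_0_2 : 0 < x a c) (pH_0 : 0 < h a) (pX_1_0 : 0 < x b a) (pX_1_2 : 0 < x b c) (zH_1 : h b = 0) (pX_2_0 : 0 < x c a) (pX_2_1 : 0 < x c b) (pH_2 : 0 < h c) : False := by
  have sa := C.d.sum a b c C.hab C.hac C.hbc
  have sb := C.d.sum b a c C.hab.symm C.hbc C.hac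
  have sc := C.d.sum c a b C.hac.symm C.hbc.symm C.hab
  have g1 := C.d.hg a
  have g2 := C.d.hg b
  have g3 := C.d.hg c
  have m1 := C.hmax1
  have m2 := C.hmax2
  have wG_0 := C.d.wG a
  have wX_0_2 := C.d.wX a c pX_0_2
  have wH_0 := C.d.wH a pH_0
  have wG_1 := C.d.wG b
  have wX_1_0 := C.d.wX b a pX_1_0
  have wX_1_2 := C.d.wX b c pX_1_2
  have wG_2 := C.d.wG c
  have wX_2_0 := C.d.wX c a pX_2_0
  have wX_2_1 := C.d.wX c b pX_2_1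
  have wH_2 := C.d.wH c pH_2
  by_cases cf_2_1_0 : (lX c b) = (tX b a)
  · -- lands
    have c1 := C.O3 a c b C.hac C.hbc.symm C.hab (tH a) (tX a c) (lX a c) (lX b c) (tX b c) (tG b) (Or.inr ⟨pH_0, rfl⟩) (Or.inl ⟨pX_0_2, rfl, rfl⟩) (Or.inr ⟨pX_1_2, rfl, rfl⟩) (Or.inl rfl)
    have b2 := pii_lb (w := w) (p := (tH a)) (q := (tX a c)) ((C.d.neHX a c pH_0 pX_0_2))
    have b3 := pii_lb (w := w) (p := (tX b c)) (q := (tG b)) ((C.d.neGX b c pX_1_2).symm)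
    have c4 := C.O3 a c b C.hac C.hbc.symm C.hab (tG a) (tX a c) (lX a c) (tX c b) (lX c b) (tG b) (Or.inl rfl) (Or.inl ⟨pX_0_2, rfl, rfl⟩) (Or.inl ⟨pX_2_1, rfl, rfl⟩) (Or.inl rfl)
    have b5 := pii_lb (w := w) (p := (tG a)) (q := (tX a c)) ((C.d.neGX a c pX_0_2))
    have b6 := pii_lb (w := w) (p := (lX c b)) (q := (tG b)) (by rw [cf_2_1_0]; exact (C.d.neGX b a pX_1_0).symm)
    have e7 : w (lX c b) = w (tX b a) := by rw [cf_2_1_0]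
    omega
  · -- not
    have c8 := C.O3 a b c C.hab C.hbc C.hac (tG a) (lX b a) (tX b a) (lX c b) (tX c b) (tH c) (Or.inl rfl) (Or.inr ⟨pX_1_0, rfl, rfl⟩) (Or.inr ⟨pX_2_1, rfl, rfl⟩) (Or.inr ⟨pH_2, rfl⟩)
    have b9 := pii_lb (w := w) (p := (tX b a)) (q := (lX c b)) (Ne.symm cf_2_1_0)
    have b10 := pii_lb (w := w) (p := (tX c b)) (q := (tH c)) ((C.d.neHX c b pH_2 pX_2_1).symm)
    have c11 := C.O3 a c b C.hac C.hbc.symm C.hab (tG a) (tX a c) (lX a c) (lX b c) (tX b c) (tG b) (Or.inl rfl) (Or.inl ⟨pX_0_2, rfl, rfl⟩) (Or.inr ⟨pX_1_2, rfl, rfl⟩) (Or.inl rfl)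
    have b12 := pii_lb (w := w) (p := (tG a)) (q := (tX a c)) ((C.d.neGX a c pX_0_2))
    have b13 := pii_lb (w := w) (p := (tX b c)) (q := (tG b)) ((C.d.neGX b c pX_1_2).symm)
    have c14 := C.O3 b a c C.hab.symm C.hac C.hbc (tG b) (tX b a) (lX b a) (lX c a) (tX c a) (tG c) (Or.inl rfl) (Or.inl ⟨pX_1_0, rfl, rfl⟩) (Or.inr ⟨pX_2_0, rfl, rfl⟩) (Or.inl rfl)
    have b15 := pii_lb (w := w) (p := (tG b)) (q := (tX b a)) ((C.d.neGX b a pX_1_0))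
    have b16 := pii_lb (w := w) (p := (tX c a)) (q := (tG c)) ((C.d.neGX c a pX_2_0).symm)
    omega

theorem abs3_p50 (C : Ctx3 w T x tX lX g h tG tH a b c) (zX_0_1 : x a b = 0) (pX_0_2 : 0 < x a c) (pH_0 : 0 < h a) (pX_1_0 : 0 < x b a) (pX_1_2 : 0 < x b c) (zH_1 : h b = 0) (pX_2_0 : 0 < x c a) (zX_2_1 : x c b = 0) (pH_2 : 0 < h c) : False := by
  have sa := C.d.sum a b c C.hab C.hac C.hbc
  have sb := C.d.sum b a c C.hab.symm C.hbc C.hac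
  have sc := C.d.sum c a b C.hac.symm C.hbc.symm C.hab
  have g1 := C.d.hg a
  have g2 := C.d.hg b
  have g3 := C.d.hg c
  have m1 := C.hmax1
  have m2 := C.hmax2
  have wG_0 := C.d.wG a
  have wX_0_2 := C.d.wX a c pX_0_2
  have wH_0 := C.d.wH a pH_0
  have wG_1 := C.d.wG b
  have wX_1_0 := C.d.wX b a pX_1_0
  have wX_1_2 := C.d.wX b c pX_1_2
  have wG_2 := C.d.wG c
  have wX_2_0 := C.d.wX c a pX_2_0
  have wH_2 := C.d.wH c pH_2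
  have c1 := C.O3 b a c C.hab.symm C.hac C.hbc (tG b) (tX b a) (lX b a) (lX c a) (tX c a) (tG c) (Or.inl rfl) (Or.inl ⟨pX_1_0, rfl, rfl⟩) (Or.inr ⟨pX_2_0, rfl, rfl⟩) (Or.inl rfl)
  have b2 := pii_lb (w := w) (p := (tG b)) (q := (tX b a)) ((C.d.neGX b a pX_1_0))
  have b3 := pii_lb (w := w) (p := (tX c a)) (q := (tG c)) ((C.d.neGX c a pX_2_0).symm)
  have c4 := C.O3 a c b C.hac C.hbc.symm C.hab (tG a) (tX a c) (lX a c) (lX b c) (tX b c) (tG b) (Or.inl rfl) (Or.inl ⟨pX_0_2, rfl, rfl⟩) (Or.inr ⟨pX_1_2, rfl, rfl⟩) (Or.inl rfl)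
  have b5 := pii_lb (w := w) (p := (tG a)) (q := (tX a c)) ((C.d.neGX a c pX_0_2))
  have b6 := pii_lb (w := w) (p := (tX b c)) (q := (tG b)) ((C.d.neGX b c pX_1_2).symm)
  omega

theorem abs3_p51 (C : Ctx3 w T x tX lX g h tG tH a b c) (zX_0_1 : x a b = 0) (pX_0_2 : 0 < x a c) (pH_0 : 0 < h a) (pX_1_0 : 0 < x b a) (pX_1_2 : 0 < x b c) (zH_1 : h b = 0) (zX_2_0 : x c a = 0) (pX_2_1 : 0 < x c b) (pH_2 : 0 < h c) : False := by
  have sa := C.d.sum a b c C.hab C.hac C.hbc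
  have sb := C.d.sum b a c C.hab.symm C.hbc C.hac
  have sc := C.d.sum c a b C.hac.symm C.hbc.symm C.hab
  have g1 := C.d.hg a
  have g2 := C.d.hg b
  have g3 := C.d.hg c
  have m1 := C.hmax1
  have m2 := C.hmax2
  have wG_0 := C.d.wG a
  have wX_0_2 := C.d.wX a c pX_0_2
  have wH_0 := C.d.wH a pH_0
  have wG_1 := C.d.wG b
  have wX_1_0 := C.d.wX b a pX_1_0
  have wX_1_2 := C.d.wX b c pX_1_2
  have wG_2 := C.d.wG c
  have wX_2_1 := C.d.wX c b pX_2_1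
  have wH_2 := C.d.wH c pH_2
  by_cases cf_2_1_0 : (lX c b) = (tX b a)
  · -- lands
    have c1 := C.O3 a c b C.hac C.hbc.symm C.hab (tH a) (tX a c) (lX a c) (lX b c) (tX b c) (tG b) (Or.inr ⟨pH_0, rfl⟩) (Or.inl ⟨pX_0_2, rfl, rfl⟩) (Or.inr ⟨pX_1_2, rfl, rfl⟩) (Or.inl rfl)
    have b2 := pii_lb (w := w) (p := (tH a)) (q := (tX a c)) ((C.d.neHX a c pH_0 pX_0_2))
    have b3 := pii_lb (w := w) (p := (tX b c)) (q := (tG b)) ((C.d.neGX b c pX_1_2).symm)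
    have c4 := C.O3 a c b C.hac C.hbc.symm C.hab (tG a) (tX a c) (lX a c) (tX c b) (lX c b) (tG b) (Or.inl rfl) (Or.inl ⟨pX_0_2, rfl, rfl⟩) (Or.inl ⟨pX_2_1, rfl, rfl⟩) (Or.inl rfl)
    have b5 := pii_lb (w := w) (p := (tG a)) (q := (tX a c)) ((C.d.neGX a c pX_0_2))
    have b6 := pii_lb (w := w) (p := (lX c b)) (q := (tG b)) (by rw [cf_2_1_0]; exact (C.d.neGX b a pX_1_0).symm)
    have e7 : w (lX c b) = w (tX b a) := by rw [cf_2_1_0]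
    omega
  · -- not
    have c8 := C.O3 a c b C.hac C.hbc.symm C.hab (tG a) (tX a c) (lX a c) (lX b c) (tX b c) (tG b) (Or.inl rfl) (Or.inl ⟨pX_0_2, rfl, rfl⟩) (Or.inr ⟨pX_1_2, rfl, rfl⟩) (Or.inl rfl)
    have b9 := pii_lb (w := w) (p := (tG a)) (q := (tX a c)) ((C.d.neGX a c pX_0_2))
    have b10 := pii_lb (w := w) (p := (tX b c)) (q := (tG b)) ((C.d.neGX b c pX_1_2).symm)
    have c11 := C.O3 a b c C.hab C.hbc C.hac (tG a) (lX b a) (tX b a) (lX c b) (tX c b) (tH c) (Or.inl rfl) (Or.inr ⟨pX_1_0, rfl, rfl⟩) (Or.inr ⟨pX_2_1, rfl, rfl⟩) (Or.inr ⟨pH_2, rfl⟩)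
    have b12 := pii_lb (w := w) (p := (tX b a)) (q := (lX c b)) (Ne.symm cf_2_1_0)
    have b13 := pii_lb (w := w) (p := (tX c b)) (q := (tH c)) ((C.d.neHX c b pH_2 pX_2_1).symm)
    omega

theorem abs3_p52 (C : Ctx3 w T x tX lX g h tG tH a b c) (zX_0_1 : x a b = 0) (pX_0_2 : 0 < x a c) (pH_0 : 0 < h a) (pX_1_0 : 0 < x b a) (pX_1_2 : 0 < x b c) (pH_1 : 0 < h b) (pX_2_0 : 0 < x c a) (pX_2_1 : 0 < x c b) (zH_2 : h c = 0) : False := by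
  have sa := C.d.sum a b c C.hab C.hac C.hbc
  have sb := C.d.sum b a c C.hab.symm C.hbc C.hac
  have sc := C.d.sum c a b C.hac.symm C.hbc.symm C.hab
  have g1 := C.d.hg a
  have g2 := C.d.hg b
  have g3 := C.d.hg c
  have m1 := C.hmax1
  have m2 := C.hmax2
  have wG_0 := C.d.wG a
  have wX_0_2 := C.d.wX a c pX_0_2
  have wH_0 := C.d.wH a pH_0
  have wG_1 := C.d.wG b
  have wX_1_0 := C.d.wX b a pX_1_0
  have wX_1_2 := C.d.wX b c pX_1_2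
  have wH_1 := C.d.wH b pH_1
  have wG_2 := C.d.wG c
  have wX_2_0 := C.d.wX c a pX_2_0
  have wX_2_1 := C.d.wX c b pX_2_1
  by_cases cf_1_0_H : (lX b a) = (tH a)
  · -- lands
    have c1 := C.O2 a b C.hab (tG a) (lX b a) (tX b a) (tG b) (Or.inl rfl) (Or.inr ⟨pX_1_0, rfl, rfl⟩) (Or.inl rfl)
    have b2 := pii_lb (w := w) (p := (tG a)) (q := (lX b a)) (Ne.symm (by rw [cf_1_0_H]; exact (C.d.neGH a pH_0).symm))
    have e3 : w (lX b a) = w (tH a) := by rw [cf_1_0_H]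
    have b4 := pii_lb (w := w) (p := (tX b a)) (q := (tG b)) ((C.d.neGX b a pX_1_0).symm)
    have c5 := C.O3 a c b C.hac C.hbc.symm C.hab (tH a) (tX a c) (lX a c) (lX b c) (tX b c) (tH b) (Or.inr ⟨pH_0, rfl⟩) (Or.inl ⟨pX_0_2, rfl, rfl⟩) (Or.inr ⟨pX_1_2, rfl, rfl⟩) (Or.inr ⟨pH_1, rfl⟩)
    have b6 := pii_lb (w := w) (p := (tH a)) (q := (tX a c)) ((C.d.neHX a c pH_0 pX_0_2))
    have b7 := pii_lb (w := w) (p := (tX b c)) (q := (tH b)) ((C.d.neHX b c pH_1 pX_1_2).symm)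
    omega
  · -- not
    have c8 := C.O2 a b C.hab (tH a) (lX b a) (tX b a) (tG b) (Or.inr ⟨pH_0, rfl⟩) (Or.inr ⟨pX_1_0, rfl, rfl⟩) (Or.inl rfl)
    have b9 := pii_lb (w := w) (p := (tH a)) (q := (lX b a)) (Ne.symm cf_1_0_H)
    have b10 := pii_lb (w := w) (p := (tX b a)) (q := (tG b)) ((C.d.neGX b a pX_1_0).symm)
    have c11 := C.O3 a c b C.hac C.hbc.symm C.hab (tG a) (tX a c) (lX a c) (lX b c) (tX b c) (tH b) (Or.inl rfl) (Or.inl ⟨pX_0_2, rfl, rfl⟩) (Or.inr ⟨pX_1_2, rfl, rfl⟩) (Or.inr ⟨pH_1, rfl⟩)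
    have b12 := pii_lb (w := w) (p := (tG a)) (q := (tX a c)) ((C.d.neGX a c pX_0_2))
    have b13 := pii_lb (w := w) (p := (tX b c)) (q := (tH b)) ((C.d.neHX b c pH_1 pX_1_2).symm)
    omega

theorem abs3_p53 (C : Ctx3 w T x tX lX g h tG tH a b c) (zX_0_1 : x a b = 0) (pX_0_2 : 0 < x a c) (pH_0 : 0 < h a) (pX_1_0 : 0 < x b a) (pX_1_2 : 0 < x b c) (pH_1 : 0 < h b) (pX_2_0 : 0 < x c a) (pX_2_1 : 0 < x c b) (pH_2 : 0 < h c) : False := by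
  have sa := C.d.sum a b c C.hab C.hac C.hbc
  have sb := C.d.sum b a c C.hab.symm C.hbc C.hac
  have sc := C.d.sum c a b C.hac.symm C.hbc.symm C.hab
  have g1 := C.d.hg a
  have g2 := C.d.hg b
  have g3 := C.d.hg c
  have m1 := C.hmax1
  have m2 := C.hmax2
  have wG_0 := C.d.wG a
  have wX_0_2 := C.d.wX a c pX_0_2
  have wH_0 := C.d.wH a pH_0
  have wG_1 := C.d.wG b
  have wX_1_0 := C.d.wX b a pX_1_0
  have wX_1_2 := C.d.wX b c pX_1_2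
  have wH_1 := C.d.wH b pH_1
  have wG_2 := C.d.wG c
  have wX_2_0 := C.d.wX c a pX_2_0
  have wX_2_1 := C.d.wX c b pX_2_1
  have wH_2 := C.d.wH c pH_2
  by_cases cf_2_1_0 : (lX c b) = (tX b a)
  · -- lands
    have c1 := C.O2 b c C.hbc (tG b) (lX c b) (tX c b) (tG c) (Or.inl rfl) (Or.inr ⟨pX_2_1, rfl, rfl⟩) (Or.inl rfl)
    have b2 := pii_lb (w := w) (p := (tG b)) (q := (lX c b)) (Ne.symm (by rw [cf_2_1_0]; exact (C.d.neGX b a pX_1_0).symm))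
    have e3 : w (lX c b) = w (tX b a) := by rw [cf_2_1_0]
    have b4 := pii_lb (w := w) (p := (tX c b)) (q := (tG c)) ((C.d.neGX c b pX_2_1).symm)
    have c5 := C.O3 b a c C.hab.symm C.hac C.hbc (tH b) (tX b a) (lX b a) (lX c a) (tX c a) (tH c) (Or.inr ⟨pH_1, rfl⟩) (Or.inl ⟨pX_1_0, rfl, rfl⟩) (Or.inr ⟨pX_2_0, rfl, rfl⟩) (Or.inr ⟨pH_2, rfl⟩)
    have b6 := pii_lb (w := w) (p := (tH b)) (q := (tX b a)) ((C.d.neHX b a pH_1 pX_1_0))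
    have b7 := pii_lb (w := w) (p := (tX c a)) (q := (tH c)) ((C.d.neHX c a pH_2 pX_2_0).symm)
    have c8 := C.O3 a c b C.hac C.hbc.symm C.hab (tG a) (tX a c) (lX a c) (lX b c) (tX b c) (tG b) (Or.inl rfl) (Or.inl ⟨pX_0_2, rfl, rfl⟩) (Or.inr ⟨pX_1_2, rfl, rfl⟩) (Or.inl rfl)
    have b9 := pii_lb (w := w) (p := (tG a)) (q := (tX a c)) ((C.d.neGX a c pX_0_2))
    have b10 := pii_lb (w := w) (p := (tX b c)) (q := (tG b)) ((C.d.neGX b c pX_1_2).symm)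
    omega
  · -- not
    by_cases cf_1_0_H : (lX b a) = (tH a)
    · -- lands
      have c11 := C.O2 a b C.hab (tG a) (lX b a) (tX b a) (tH b) (Or.inl rfl) (Or.inr ⟨pX_1_0, rfl, rfl⟩) (Or.inr ⟨pH_1, rfl⟩)
      have b12 := pii_lb (w := w) (p := (tG a)) (q := (lX b a)) (Ne.symm (by rw [cf_1_0_H]; exact (C.d.neGH a pH_0).symm))
      have e13 : w (lX b a) = w (tH a) := by rw [cf_1_0_H]
      have b14 := pii_lb (w := w) (p := (tX b a)) (q := (tH b)) ((C.d.neHX b a pH_1 pX_1_0).symm)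
      have c15 := C.O3 a c b C.hac C.hbc.symm C.hab (tG a) (tX a c) (lX a c) (lX b c) (tX b c) (tG b) (Or.inl rfl) (Or.inl ⟨pX_0_2, rfl, rfl⟩) (Or.inr ⟨pX_1_2, rfl, rfl⟩) (Or.inl rfl)
      have b16 := pii_lb (w := w) (p := (tG a)) (q := (tX a c)) ((C.d.neGX a c pX_0_2))
      have b17 := pii_lb (w := w) (p := (tX b c)) (q := (tG b)) ((C.d.neGX b c pX_1_2).symm)
      omega
    · -- not
      have c18 := C.O3 a b c C.hab C.hbc C.hac (tH a) (lX b a) (tX b a) (lX c b) (tX c b) (tH c) (Or.inr ⟨pH_0, rfl⟩) (Or.inr ⟨pX_1_0, rfl, rfl⟩) (Or.inr ⟨pX_2_1, rfl, rfl⟩) (Or.inr ⟨pH_2, rfl⟩)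
      have b19 := pii_lb (w := w) (p := (tH a)) (q := (lX b a)) (Ne.symm cf_1_0_H)
      have b20 := pii_lb (w := w) (p := (tX b a)) (q := (lX c b)) (Ne.symm cf_2_1_0)
      have b21 := pii_lb (w := w) (p := (tX c b)) (q := (tH c)) ((C.d.neHX c b pH_2 pX_2_1).symm)
      have c22 := C.O3 b a c C.hab.symm C.hac C.hbc (tH b) (tX b a) (lX b a) (lX c a) (tX c a) (tG c) (Or.inr ⟨pH_1, rfl⟩) (Or.inl ⟨pX_1_0, rfl, rfl⟩) (Or.inr ⟨pX_2_0, rfl, rfl⟩) (Or.inl rfl)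
      have b23 := pii_lb (w := w) (p := (tH b)) (q := (tX b a)) ((C.d.neHX b a pH_1 pX_1_0))
      have b24 := pii_lb (w := w) (p := (tX c a)) (q := (tG c)) ((C.d.neGX c a pX_2_0).symm)
      have c25 := C.O3 a c b C.hac C.hbc.symm C.hab (tG a) (tX a c) (lX a c) (lX b c) (tX b c) (tG b) (Or.inl rfl) (Or.inl ⟨pX_0_2, rfl, rfl⟩) (Or.inr ⟨pX_1_2, rfl, rfl⟩) (Or.inl rfl)
      have b26 := pii_lb (w := w) (p := (tG a)) (q := (tX a c)) ((C.d.neGX a c pX_0_2))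
      have b27 := pii_lb (w := w) (p := (tX b c)) (q := (tG b)) ((C.d.neGX b c pX_1_2).symm)
      omega

theorem abs3_p54 (C : Ctx3 w T x tX lX g h tG tH a b c) (zX_0_1 : x a b = 0) (pX_0_2 : 0 < x a c) (pH_0 : 0 < h a) (pX_1_0 : 0 < x b a) (pX_1_2 : 0 < x b c) (pH_1 : 0 < h b) (pX_2_0 : 0 < x c a) (zX_2_1 : x c b = 0) (pH_2 : 0 < h c) : False := by
  have sa := C.d.sum a b c C.hab C.hac C.hbc
  have sb := C.d.sum b a c C.hab.symm C.hbc C.hac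
  have sc := C.d.sum c a b C.hac.symm C.hbc.symm C.hab
  have g1 := C.d.hg a
  have g2 := C.d.hg b
  have g3 := C.d.hg c
  have m1 := C.hmax1
  have m2 := C.hmax2
  have wG_0 := C.d.wG a
  have wX_0_2 := C.d.wX a c pX_0_2
  have wH_0 := C.d.wH a pH_0
  have wG_1 := C.d.wG b
  have wX_1_0 := C.d.wX b a pX_1_0
  have wX_1_2 := C.d.wX b c pX_1_2
  have wH_1 := C.d.wH b pH_1
  have wG_2 := C.d.wG c
  have wX_2_0 := C.d.wX c a pX_2_0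
  have wH_2 := C.d.wH c pH_2
  have c1 := C.O3 a c b C.hac C.hbc.symm C.hab (tG a) (tX a c) (lX a c) (lX b c) (tX b c) (tH b) (Or.inl rfl) (Or.inl ⟨pX_0_2, rfl, rfl⟩) (Or.inr ⟨pX_1_2, rfl, rfl⟩) (Or.inr ⟨pH_1, rfl⟩)
  have b2 := pii_lb (w := w) (p := (tG a)) (q := (tX a c)) ((C.d.neGX a c pX_0_2))
  have b3 := pii_lb (w := w) (p := (tX b c)) (q := (tH b)) ((C.d.neHX b c pH_1 pX_1_2).symm)
  have c4 := C.O3 b a c C.hab.symm C.hac C.hbc (tG b) (tX b a) (lX b a) (lX c a) (tX c a) (tG c) (Or.inl rfl) (Or.inl ⟨pX_1_0, rfl, rfl⟩) (Or.inr ⟨pX_2_0, rfl, rfl⟩) (Or.inl rfl)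
  have b5 := pii_lb (w := w) (p := (tG b)) (q := (tX b a)) ((C.d.neGX b a pX_1_0))
  have b6 := pii_lb (w := w) (p := (tX c a)) (q := (tG c)) ((C.d.neGX c a pX_2_0).symm)
  omega

theorem abs3_p55 (C : Ctx3 w T x tX lX g h tG tH a b c) (zX_0_1 : x a b = 0) (pX_0_2 : 0 < x a c) (pH_0 : 0 < h a) (pX_1_0 : 0 < x b a) (pX_1_2 : 0 < x b c) (pH_1 : 0 < h b) (zX_2_0 : x c a = 0) (pX_2_1 : 0 < x c b) (pH_2 : 0 < h c) : False := by
  have sa := C.d.sum a b c C.hab C.hac C.hbc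
  have sb := C.d.sum b a c C.hab.symm C.hbc C.hac
  have sc := C.d.sum c a b C.hac.symm C.hbc.symm C.hab
  have g1 := C.d.hg a
  have g2 := C.d.hg b
  have g3 := C.d.hg c
  have m1 := C.hmax1
  have m2 := C.hmax2
  have wG_0 := C.d.wG a
  have wX_0_2 := C.d.wX a c pX_0_2
  have wH_0 := C.d.wH a pH_0
  have wG_1 := C.d.wG b
  have wX_1_0 := C.d.wX b a pX_1_0
  have wX_1_2 := C.d.wX b c pX_1_2
  have wH_1 := C.d.wH b pH_1
  have wG_2 := C.d.wG c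
  have wX_2_1 := C.d.wX c b pX_2_1
  have wH_2 := C.d.wH c pH_2
  by_cases cf_2_1_0 : (lX c b) = (tX b a)
  · -- lands
    have c1 := C.O3 a c b C.hac C.hbc.symm C.hab (tH a) (tX a c) (lX a c) (lX b c) (tX b c) (tH b) (Or.inr ⟨pH_0, rfl⟩) (Or.inl ⟨pX_0_2, rfl, rfl⟩) (Or.inr ⟨pX_1_2, rfl, rfl⟩) (Or.inr ⟨pH_1, rfl⟩)
    have b2 := pii_lb (w := w) (p := (tH a)) (q := (tX a c)) ((C.d.neHX a c pH_0 pX_0_2))
    have b3 := pii_lb (w := w) (p := (tX b c)) (q := (tH b)) ((C.d.neHX b c pH_1 pX_1_2).symm)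
    have c4 := C.O3 a c b C.hac C.hbc.symm C.hab (tG a) (tX a c) (lX a c) (tX c b) (lX c b) (tG b) (Or.inl rfl) (Or.inl ⟨pX_0_2, rfl, rfl⟩) (Or.inl ⟨pX_2_1, rfl, rfl⟩) (Or.inl rfl)
    have b5 := pii_lb (w := w) (p := (tG a)) (q := (tX a c)) ((C.d.neGX a c pX_0_2))
    have b6 := pii_lb (w := w) (p := (lX c b)) (q := (tG b)) (by rw [cf_2_1_0]; exact (C.d.neGX b a pX_1_0).symm)
    have e7 : w (lX c b) = w (tX b a) := by rw [cf_2_1_0]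
    omega
  · -- not
    by_cases cf_1_0_H : (lX b a) = (tH a)
    · -- lands
      have c8 := C.O3 a b c C.hab C.hbc C.hac (tG a) (lX b a) (tX b a) (lX c b) (tX c b) (tG c) (Or.inl rfl) (Or.inr ⟨pX_1_0, rfl, rfl⟩) (Or.inr ⟨pX_2_1, rfl, rfl⟩) (Or.inl rfl)
      have b9 := pii_lb (w := w) (p := (tG a)) (q := (lX b a)) (Ne.symm (by rw [cf_1_0_H]; exact (C.d.neGH a pH_0).symm))
      have e10 : w (lX b a) = w (tH a) := by rw [cf_1_0_H]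
      have b11 := pii_lb (w := w) (p := (tX b a)) (q := (lX c b)) (Ne.symm cf_2_1_0)
      have b12 := pii_lb (w := w) (p := (tX c b)) (q := (tG c)) ((C.d.neGX c b pX_2_1).symm)
      omega
    · -- not
      have c13 := C.O2 a b C.hab (tH a) (lX b a) (tX b a) (tG b) (Or.inr ⟨pH_0, rfl⟩) (Or.inr ⟨pX_1_0, rfl, rfl⟩) (Or.inl rfl)
      have b14 := pii_lb (w := w) (p := (tH a)) (q := (lX b a)) (Ne.symm cf_1_0_H)
      have b15 := pii_lb (w := w) (p := (tX b a)) (q := (tG b)) ((C.d.neGX b a pX_1_0).symm)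
      have c16 := C.O3 a c b C.hac C.hbc.symm C.hab (tG a) (tX a c) (lX a c) (lX b c) (tX b c) (tH b) (Or.inl rfl) (Or.inl ⟨pX_0_2, rfl, rfl⟩) (Or.inr ⟨pX_1_2, rfl, rfl⟩) (Or.inr ⟨pH_1, rfl⟩)
      have b17 := pii_lb (w := w) (p := (tG a)) (q := (tX a c)) ((C.d.neGX a c pX_0_2))
      have b18 := pii_lb (w := w) (p := (tX b c)) (q := (tH b)) ((C.d.neHX b c pH_1 pX_1_2).symm)
      omega

theorem abs3_p56 (C : Ctx3 w T x tX lX g h tG tH a b c) (zX_0_1 : x a b = 0) (pX_0_2 : 0 < x a c) (pH_0 : 0 < h a) (pX_1_0 : 0 < x b a) (zX_1_2 : x b c = 0) (pH_1 : 0 < h b) (pX_2_0 : 0 < x c a) (pX_2_1 : 0 < x c b) (zH_2 : h c = 0) : False := by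
  have sa := C.d.sum a b c C.hab C.hac C.hbc
  have sb := C.d.sum b a c C.hab.symm C.hbc C.hac
  have sc := C.d.sum c a b C.hac.symm C.hbc.symm C.hab
  have g1 := C.d.hg a
  have g2 := C.d.hg b
  have g3 := C.d.hg c
  have m1 := C.hmax1
  have m2 := C.hmax2
  have wG_0 := C.d.wG a
  have wX_0_2 := C.d.wX a c pX_0_2
  have wH_0 := C.d.wH a pH_0
  have wG_1 := C.d.wG b
  have wX_1_0 := C.d.wX b a pX_1_0
  have wH_1 := C.d.wH b pH_1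
  have wG_2 := C.d.wG c
  have wX_2_0 := C.d.wX c a pX_2_0
  have wX_2_1 := C.d.wX c b pX_2_1
  by_cases cf_0_2_1 : (lX a c) = (tX c b)
  · -- lands
    have c1 := C.O3 b a c C.hab.symm C.hac C.hbc (tG b) (tX b a) (lX b a) (lX c a) (tX c a) (tG c) (Or.inl rfl) (Or.inl ⟨pX_1_0, rfl, rfl⟩) (Or.inr ⟨pX_2_0, rfl, rfl⟩) (Or.inl rfl)
    have b2 := pii_lb (w := w) (p := (tG b)) (q := (tX b a)) ((C.d.neGX b a pX_1_0))
    have b3 := pii_lb (w := w) (p := (tX c a)) (q := (tG c)) ((C.d.neGX c a pX_2_0).symm)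
    have c4 := C.O3 b a c C.hab.symm C.hac C.hbc (tG b) (tX b a) (lX b a) (tX a c) (lX a c) (tG c) (Or.inl rfl) (Or.inl ⟨pX_1_0, rfl, rfl⟩) (Or.inl ⟨pX_0_2, rfl, rfl⟩) (Or.inl rfl)
    have b5 := pii_lb (w := w) (p := (tG b)) (q := (tX b a)) ((C.d.neGX b a pX_1_0))
    have b6 := pii_lb (w := w) (p := (lX a c)) (q := (tG c)) (by rw [cf_0_2_1]; exact (C.d.neGX c b pX_2_1).symm)
    have e7 : w (lX a c) = w (tX c b) := by rw [cf_0_2_1]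
    omega
  · -- not
    have c8 := C.O3 b a c C.hab.symm C.hac C.hbc (tG b) (tX b a) (lX b a) (lX c a) (tX c a) (tG c) (Or.inl rfl) (Or.inl ⟨pX_1_0, rfl, rfl⟩) (Or.inr ⟨pX_2_0, rfl, rfl⟩) (Or.inl rfl)
    have b9 := pii_lb (w := w) (p := (tG b)) (q := (tX b a)) ((C.d.neGX b a pX_1_0))
    have b10 := pii_lb (w := w) (p := (tX c a)) (q := (tG c)) ((C.d.neGX c a pX_2_0).symm)
    have c11 := C.O3 a c b C.hac C.hbc.symm C.hab (tG a) (tX a c) (lX a c) (tX c b) (lX c b) (tG b) (Or.inl rfl) (Or.inl ⟨pX_0_2, rfl, rfl⟩) (Or.inl ⟨pX_2_1, rfl, rfl⟩) (Or.inl rfl)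
    have b12 := pii_lb (w := w) (p := (tG a)) (q := (tX a c)) ((C.d.neGX a c pX_0_2))
    have b13 := pii_lb (w := w) (p := (lX a c)) (q := (tX c b)) (cf_0_2_1)
    omega

theorem abs3_p57 (C : Ctx3 w T x tX lX g h tG tH a b c) (zX_0_1 : x a b = 0) (pX_0_2 : 0 < x a c) (pH_0 : 0 < h a) (pX_1_0 : 0 < x b a) (zX_1_2 : x b c = 0) (pH_1 : 0 < h b) (pX_2_0 : 0 < x c a) (pX_2_1 : 0 < x c b) (pH_2 : 0 < h c) : False := by
  have sa := C.d.sum a b c C.hab C.hac C.hbc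
  have sb := C.d.sum b a c C.hab.symm C.hbc C.hac
  have sc := C.d.sum c a b C.hac.symm C.hbc.symm C.hab
  have g1 := C.d.hg a
  have g2 := C.d.hg b
  have g3 := C.d.hg c
  have m1 := C.hmax1
  have m2 := C.hmax2
  have wG_0 := C.d.wG a
  have wX_0_2 := C.d.wX a c pX_0_2
  have wH_0 := C.d.wH a pH_0
  have wG_1 := C.d.wG b
  have wX_1_0 := C.d.wX b a pX_1_0
  have wH_1 := C.d.wH b pH_1
  have wG_2 := C.d.wG c
  have wX_2_0 := C.d.wX c a pX_2_0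
  have wX_2_1 := C.d.wX c b pX_2_1
  have wH_2 := C.d.wH c pH_2
  by_cases cf_0_2_1 : (lX a c) = (tX c b)
  · -- lands
    have c1 := C.O2 a c C.hac (tG a) (tX a c) (lX a c) (tG c) (Or.inl rfl) (Or.inl ⟨pX_0_2, rfl, rfl⟩) (Or.inl rfl)
    have b2 := pii_lb (w := w) (p := (tG a)) (q := (tX a c)) ((C.d.neGX a c pX_0_2))
    have b3 := pii_lb (w := w) (p := (lX a c)) (q := (tG c)) (by rw [cf_0_2_1]; exact (C.d.neGX c b pX_2_1).symm)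
    have e4 : w (lX a c) = w (tX c b) := by rw [cf_0_2_1]
    have c5 := C.O3 b a c C.hab.symm C.hac C.hbc (tG b) (tX b a) (lX b a) (lX c a) (tX c a) (tH c) (Or.inl rfl) (Or.inl ⟨pX_1_0, rfl, rfl⟩) (Or.inr ⟨pX_2_0, rfl, rfl⟩) (Or.inr ⟨pH_2, rfl⟩)
    have b6 := pii_lb (w := w) (p := (tG b)) (q := (tX b a)) ((C.d.neGX b a pX_1_0))
    have b7 := pii_lb (w := w) (p := (tX c a)) (q := (tH c)) ((C.d.neHX c a pH_2 pX_2_0).symm)
    omega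
  · -- not
    by_cases cf_2_1_G : (lX c b) = (tG b)
    · -- lands
      have c8 := C.O3 b a c C.hab.symm C.hac C.hbc (tH b) (tX b a) (lX b a) (lX c a) (tX c a) (tG c) (Or.inr ⟨pH_1, rfl⟩) (Or.inl ⟨pX_1_0, rfl, rfl⟩) (Or.inr ⟨pX_2_0, rfl, rfl⟩) (Or.inl rfl)
      have b9 := pii_lb (w := w) (p := (tH b)) (q := (tX b a)) ((C.d.neHX b a pH_1 pX_1_0))
      have b10 := pii_lb (w := w) (p := (tX c a)) (q := (tG c)) ((C.d.neGX c a pX_2_0).symm)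
      have c11 := C.O3 a c b C.hac C.hbc.symm C.hab (tG a) (lX c a) (tX c a) (tX c b) (lX c b) (tH b) (Or.inl rfl) (Or.inr ⟨pX_2_0, rfl, rfl⟩) (Or.inl ⟨pX_2_1, rfl, rfl⟩) (Or.inr ⟨pH_1, rfl⟩)
      have b12 := pii_lb (w := w) (p := (tX c a)) (q := (tX c b)) ((C.d.neXX c a b C.hab pX_2_0 pX_2_1))
      have b13 := pii_lb (w := w) (p := (lX c b)) (q := (tH b)) (by rw [cf_2_1_G]; exact (C.d.neGH b pH_1))
      have e14 : w (lX c b) = w (tG b) := by rw [cf_2_1_G]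
      have c15 := C.O3 b a c C.hab.symm C.hac C.hbc (tG b) (tX b a) (lX b a) (lX c a) (tX c a) (tH c) (Or.inl rfl) (Or.inl ⟨pX_1_0, rfl, rfl⟩) (Or.inr ⟨pX_2_0, rfl, rfl⟩) (Or.inr ⟨pH_2, rfl⟩)
      have b16 := pii_lb (w := w) (p := (tG b)) (q := (tX b a)) ((C.d.neGX b a pX_1_0))
      have b17 := pii_lb (w := w) (p := (tX c a)) (q := (tH c)) ((C.d.neHX c a pH_2 pX_2_0).symm)
      omega
    · -- not
      have c18 := C.O2 b c C.hbc (tG b) (lX c b) (tX c b) (tH c) (Or.inl rfl) (Or.inr ⟨pX_2_1, rfl, rfl⟩) (Or.inr ⟨pH_2, rfl⟩)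
      have b19 := pii_lb (w := w) (p := (tG b)) (q := (lX c b)) (Ne.symm cf_2_1_G)
      have b20 := pii_lb (w := w) (p := (tX c b)) (q := (tH c)) ((C.d.neHX c b pH_2 pX_2_1).symm)
      have c21 := C.O3 b a c C.hab.symm C.hac C.hbc (tH b) (tX b a) (lX b a) (lX c a) (tX c a) (tG c) (Or.inr ⟨pH_1, rfl⟩) (Or.inl ⟨pX_1_0, rfl, rfl⟩) (Or.inr ⟨pX_2_0, rfl, rfl⟩) (Or.inl rfl)
      have b22 := pii_lb (w := w) (p := (tH b)) (q := (tX b a)) ((C.d.neHX b a pH_1 pX_1_0))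
      have b23 := pii_lb (w := w) (p := (tX c a)) (q := (tG c)) ((C.d.neGX c a pX_2_0).symm)
      omega

theorem abs3_p58 (C : Ctx3 w T x tX lX g h tG tH a b c) (zX_0_1 : x a b = 0) (pX_0_2 : 0 < x a c) (pH_0 : 0 < h a) (pX_1_0 : 0 < x b a) (zX_1_2 : x b c = 0) (pH_1 : 0 < h b) (pX_2_0 : 0 < x c a) (zX_2_1 : x c b = 0) (pH_2 : 0 < h c) : False := by
  have sa := C.d.sum a b c C.hab C.hac C.hbc
  have sb := C.d.sum b a c C.hab.symm C.hbc C.hac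
  have sc := C.d.sum c a b C.hac.symm C.hbc.symm C.hab
  have g1 := C.d.hg a
  have g2 := C.d.hg b
  have g3 := C.d.hg c
  have m1 := C.hmax1
  have m2 := C.hmax2
  have wG_0 := C.d.wG a
  have wX_0_2 := C.d.wX a c pX_0_2
  have wH_0 := C.d.wH a pH_0
  have wG_1 := C.d.wG b
  have wX_1_0 := C.d.wX b a pX_1_0
  have wH_1 := C.d.wH b pH_1
  have wG_2 := C.d.wG c
  have wX_2_0 := C.d.wX c a pX_2_0
  have wH_2 := C.d.wH c pH_2
  have c1 := C.O3 b a c C.hab.symm C.hac C.hbc (tG b) (tX b a) (lX b a) (lX c a) (tX c a) (tG c) (Or.inl rfl) (Or.inl ⟨pX_1_0, rfl, rfl⟩) (Or.inr ⟨pX_2_0, rfl, rfl⟩) (Or.inl rfl)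
  have b2 := pii_lb (w := w) (p := (tG b)) (q := (tX b a)) ((C.d.neGX b a pX_1_0))
  have b3 := pii_lb (w := w) (p := (tX c a)) (q := (tG c)) ((C.d.neGX c a pX_2_0).symm)
  omega

theorem abs3_p59 (C : Ctx3 w T x tX lX g h tG tH a b c) (zX_0_1 : x a b = 0) (pX_0_2 : 0 < x a c) (pH_0 : 0 < h a) (pX_1_0 : 0 < x b a) (zX_1_2 : x b c = 0) (pH_1 : 0 < h b) (zX_2_0 : x c a = 0) (pX_2_1 : 0 < x c b) (pH_2 : 0 < h c) : False := by
  have sa := C.d.sum a b c C.hab C.hac C.hbc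
  have sb := C.d.sum b a c C.hab.symm C.hbc C.hac
  have sc := C.d.sum c a b C.hac.symm C.hbc.symm C.hab
  have g1 := C.d.hg a
  have g2 := C.d.hg b
  have g3 := C.d.hg c
  have m1 := C.hmax1
  have m2 := C.hmax2
  have wG_0 := C.d.wG a
  have wX_0_2 := C.d.wX a c pX_0_2
  have wH_0 := C.d.wH a pH_0
  have wG_1 := C.d.wG b
  have wX_1_0 := C.d.wX b a pX_1_0
  have wH_1 := C.d.wH b pH_1
  have wG_2 := C.d.wG c
  have wX_2_1 := C.d.wX c b pX_2_1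
  have wH_2 := C.d.wH c pH_2
  by_cases cf_0_2_G : (lX a c) = (tG c)
  · -- lands
    have c1 := C.O3 a c b C.hac C.hbc.symm C.hab (tG a) (tX a c) (lX a c) (tX c b) (lX c b) (tG b) (Or.inl rfl) (Or.inl ⟨pX_0_2, rfl, rfl⟩) (Or.inl ⟨pX_2_1, rfl, rfl⟩) (Or.inl rfl)
    have b2 := pii_lb (w := w) (p := (tG a)) (q := (tX a c)) ((C.d.neGX a c pX_0_2))
    have b3 := pii_lb (w := w) (p := (lX a c)) (q := (tX c b)) (by rw [cf_0_2_G]; exact (C.d.neGX c b pX_2_1))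
    have e4 : w (lX a c) = w (tG c) := by rw [cf_0_2_G]
    omega
  · -- not
    by_cases cf_1_0_H : (lX b a) = (tH a)
    · -- lands
      have c5 := C.O2 a b C.hab (tG a) (lX b a) (tX b a) (tG b) (Or.inl rfl) (Or.inr ⟨pX_1_0, rfl, rfl⟩) (Or.inl rfl)
      have b6 := pii_lb (w := w) (p := (tG a)) (q := (lX b a)) (Ne.symm (by rw [cf_1_0_H]; exact (C.d.neGH a pH_0).symm))
      have e7 : w (lX b a) = w (tH a) := by rw [cf_1_0_H]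
      have b8 := pii_lb (w := w) (p := (tX b a)) (q := (tG b)) ((C.d.neGX b a pX_1_0).symm)
      omega
    · -- not
      have c9 := C.O3 a b c C.hab C.hbc C.hac (tH a) (lX b a) (tX b a) (lX c b) (tX c b) (tG c) (Or.inr ⟨pH_0, rfl⟩) (Or.inr ⟨pX_1_0, rfl, rfl⟩) (Or.inr ⟨pX_2_1, rfl, rfl⟩) (Or.inl rfl)
      have b10 := pii_lb (w := w) (p := (tH a)) (q := (lX b a)) (Ne.symm cf_1_0_H)
      have b11 := pii_lb (w := w) (p := (tX c b)) (q := (tG c)) ((C.d.neGX c b pX_2_1).symm)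
      have c12 := C.O2 a c C.hac (tG a) (tX a c) (lX a c) (tG c) (Or.inl rfl) (Or.inl ⟨pX_0_2, rfl, rfl⟩) (Or.inl rfl)
      have b13 := pii_lb (w := w) (p := (tG a)) (q := (tX a c)) ((C.d.neGX a c pX_0_2))
      have b14 := pii_lb (w := w) (p := (lX a c)) (q := (tG c)) (cf_0_2_G)
      omega

theorem abs3_p60 (C : Ctx3 w T x tX lX g h tG tH a b c) (zX_0_1 : x a b = 0) (pX_0_2 : 0 < x a c) (pH_0 : 0 < h a) (zX_1_0 : x b a = 0) (pX_1_2 : 0 < x b c) (pH_1 : 0 < h b) (pX_2_0 : 0 < x c a) (pX_2_1 : 0 < x c b) (zH_2 : h c = 0) : False := by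
  have sa := C.d.sum a b c C.hab C.hac C.hbc
  have sb := C.d.sum b a c C.hab.symm C.hbc C.hac
  have sc := C.d.sum c a b C.hac.symm C.hbc.symm C.hab
  have g1 := C.d.hg a
  have g2 := C.d.hg b
  have g3 := C.d.hg c
  have m1 := C.hmax1
  have m2 := C.hmax2
  have wG_0 := C.d.wG a
  have wX_0_2 := C.d.wX a c pX_0_2
  have wH_0 := C.d.wH a pH_0
  have wG_1 := C.d.wG b
  have wX_1_2 := C.d.wX b c pX_1_2
  have wH_1 := C.d.wH b pH_1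
  have wG_2 := C.d.wG c
  have wX_2_0 := C.d.wX c a pX_2_0
  have wX_2_1 := C.d.wX c b pX_2_1
  have c1 := C.O3 a c b C.hac C.hbc.symm C.hab (tG a) (tX a c) (lX a c) (lX b c) (tX b c) (tH b) (Or.inl rfl) (Or.inl ⟨pX_0_2, rfl, rfl⟩) (Or.inr ⟨pX_1_2, rfl, rfl⟩) (Or.inr ⟨pH_1, rfl⟩)
  have b2 := pii_lb (w := w) (p := (tG a)) (q := (tX a c)) ((C.d.neGX a c pX_0_2))
  have b3 := pii_lb (w := w) (p := (tX b c)) (q := (tH b)) ((C.d.neHX b c pH_1 pX_1_2).symm)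
  omega

theorem abs3_p61 (C : Ctx3 w T x tX lX g h tG tH a b c) (zX_0_1 : x a b = 0) (pX_0_2 : 0 < x a c) (pH_0 : 0 < h a) (zX_1_0 : x b a = 0) (pX_1_2 : 0 < x b c) (pH_1 : 0 < h b) (pX_2_0 : 0 < x c a) (pX_2_1 : 0 < x c b) (pH_2 : 0 < h c) : False := by
  have sa := C.d.sum a b c C.hab C.hac C.hbc
  have sb := C.d.sum b a c C.hab.symm C.hbc C.hac
  have sc := C.d.sum c a b C.hac.symm C.hbc.symm C.hab
  have g1 := C.d.hg a
  have g2 := C.d.hg b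
  have g3 := C.d.hg c
  have m1 := C.hmax1
  have m2 := C.hmax2
  have wG_0 := C.d.wG a
  have wX_0_2 := C.d.wX a c pX_0_2
  have wH_0 := C.d.wH a pH_0
  have wG_1 := C.d.wG b
  have wX_1_2 := C.d.wX b c pX_1_2
  have wH_1 := C.d.wH b pH_1
  have wG_2 := C.d.wG c
  have wX_2_0 := C.d.wX c a pX_2_0
  have wX_2_1 := C.d.wX c b pX_2_1
  have wH_2 := C.d.wH c pH_2
  have c1 := C.O3 a c b C.hac C.hbc.symm C.hab (tG a) (tX a c) (lX a c) (lX b c) (tX b c) (tG b) (Or.inl rfl) (Or.inl ⟨pX_0_2, rfl, rfl⟩) (Or.inr ⟨pX_1_2, rfl, rfl⟩) (Or.inl rfl)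
  have b2 := pii_lb (w := w) (p := (tG a)) (q := (tX a c)) ((C.d.neGX a c pX_0_2))
  have b3 := pii_lb (w := w) (p := (tX b c)) (q := (tG b)) ((C.d.neGX b c pX_1_2).symm)
  omega

theorem abs3_p62 (C : Ctx3 w T x tX lX g h tG tH a b c) (zX_0_1 : x a b = 0) (pX_0_2 : 0 < x a c) (pH_0 : 0 < h a) (zX_1_0 : x b a = 0) (pX_1_2 : 0 < x b c) (pH_1 : 0 < h b) (pX_2_0 : 0 < x c a) (zX_2_1 : x c b = 0) (pH_2 : 0 < h c) : False := by
  have sa := C.d.sum a b c C.hab C.hac C.hbc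
  have sb := C.d.sum b a c C.hab.symm C.hbc C.hac
  have sc := C.d.sum c a b C.hac.symm C.hbc.symm C.hab
  have g1 := C.d.hg a
  have g2 := C.d.hg b
  have g3 := C.d.hg c
  have m1 := C.hmax1
  have m2 := C.hmax2
  have wG_0 := C.d.wG a
  have wX_0_2 := C.d.wX a c pX_0_2
  have wH_0 := C.d.wH a pH_0
  have wG_1 := C.d.wG b
  have wX_1_2 := C.d.wX b c pX_1_2
  have wH_1 := C.d.wH b pH_1
  have wG_2 := C.d.wG c
  have wX_2_0 := C.d.wX c a pX_2_0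
  have wH_2 := C.d.wH c pH_2
  have c1 := C.O3 a c b C.hac C.hbc.symm C.hab (tG a) (tX a c) (lX a c) (lX b c) (tX b c) (tH b) (Or.inl rfl) (Or.inl ⟨pX_0_2, rfl, rfl⟩) (Or.inr ⟨pX_1_2, rfl, rfl⟩) (Or.inr ⟨pH_1, rfl⟩)
  have b2 := pii_lb (w := w) (p := (tG a)) (q := (tX a c)) ((C.d.neGX a c pX_0_2))
  have b3 := pii_lb (w := w) (p := (tX b c)) (q := (tH b)) ((C.d.neHX b c pH_1 pX_1_2).symm)
  omega

theorem abs3_p63 (C : Ctx3 w T x tX lX g h tG tH a b c) (zX_0_1 : x a b = 0) (pX_0_2 : 0 < x a c) (pH_0 : 0 < h a) (zX_1_0 : x b a = 0) (pX_1_2 : 0 < x b c) (pH_1 : 0 < h b) (zX_2_0 : x c a = 0) (pX_2_1 : 0 < x c b) (pH_2 : 0 < h c) : False := by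
  have sa := C.d.sum a b c C.hab C.hac C.hbc
  have sb := C.d.sum b a c C.hab.symm C.hbc C.hac
  have sc := C.d.sum c a b C.hac.symm C.hbc.symm C.hab
  have g1 := C.d.hg a
  have g2 := C.d.hg b
  have g3 := C.d.hg c
  have m1 := C.hmax1
  have m2 := C.hmax2
  have wG_0 := C.d.wG a
  have wX_0_2 := C.d.wX a c pX_0_2
  have wH_0 := C.d.wH a pH_0
  have wG_1 := C.d.wG b
  have wX_1_2 := C.d.wX b c pX_1_2
  have wH_1 := C.d.wH b pH_1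
  have wG_2 := C.d.wG c
  have wX_2_1 := C.d.wX c b pX_2_1
  have wH_2 := C.d.wH c pH_2
  have c1 := C.O3 a c b C.hac C.hbc.symm C.hab (tG a) (tX a c) (lX a c) (lX b c) (tX b c) (tH b) (Or.inl rfl) (Or.inl ⟨pX_0_2, rfl, rfl⟩) (Or.inr ⟨pX_1_2, rfl, rfl⟩) (Or.inr ⟨pH_1, rfl⟩)
  have b2 := pii_lb (w := w) (p := (tG a)) (q := (tX a c)) ((C.d.neGX a c pX_0_2))
  have b3 := pii_lb (w := w) (p := (tX b c)) (q := (tH b)) ((C.d.neHX b c pH_1 pX_1_2).symm)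
  omega

theorem abs3_main (C : Ctx3 w T x tX lX g h tG tH a b c) : False := by
  have patA : (0 < x a b ∧ 0 < x a c ∧ h a = 0) ∨ (0 < x a b ∧ 0 < x a c ∧ 0 < h a) ∨ (0 < x a b ∧ x a c = 0 ∧ 0 < h a) ∨ (x a b = 0 ∧ 0 < x a c ∧ 0 < h a) := by
    have := C.d.pat a b c C.hab C.hac C.hbc
    omega
  have patB : (0 < x b a ∧ 0 < x b c ∧ h b = 0) ∨ (0 < x b a ∧ 0 < x b c ∧ 0 < h b) ∨ (0 < x b a ∧ x b c = 0 ∧ 0 < h b) ∨ (x b a = 0 ∧ 0 < x b c ∧ 0 < h b) := by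
    have := C.d.pat b a c C.hab.symm C.hbc C.hac
    omega
  have patC : (0 < x c a ∧ 0 < x c b ∧ h c = 0) ∨ (0 < x c a ∧ 0 < x c b ∧ 0 < h c) ∨ (0 < x c a ∧ x c b = 0 ∧ 0 < h c) ∨ (x c a = 0 ∧ 0 < x c b ∧ 0 < h c) := by
    have := C.d.pat c a b C.hac.symm C.hbc.symm C.hab
    omega
  rcases patA with ⟨a1, a2, a3⟩ | ⟨a1, a2, a3⟩ | ⟨a1, a2, a3⟩ | ⟨a1, a2, a3⟩ <;>
  rcases patB with ⟨b1, b2, b3⟩ | ⟨b1, b2, b3⟩ | ⟨b1, b2, b3⟩ | ⟨b1, b2, b3⟩ <;>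
  rcases patC with ⟨c1, c2, c3⟩ | ⟨c1, c2, c3⟩ | ⟨c1, c2, c3⟩ | ⟨c1, c2, c3⟩
  · exact abs3_p0 C a1 a2 a3 b1 b2 b3 c1 c2 c3
  · exact abs3_p1 C a1 a2 a3 b1 b2 b3 c1 c2 c3
  · exact abs3_p2 C a1 a2 a3 b1 b2 b3 c1 c2 c3
  · exact abs3_p3 C a1 a2 a3 b1 b2 b3 c1 c2 c3
  · exact abs3_p4 C a1 a2 a3 b1 b2 b3 c1 c2 c3
  · exact abs3_p5 C a1 a2 a3 b1 b2 b3 c1 c2 c3
  · exact abs3_p6 C a1 a2 a3 b1 b2 b3 c1 c2 c3
  · exact abs3_p7 C a1 a2 a3 b1 b2 b3 c1 c2 c3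
  · exact abs3_p8 C a1 a2 a3 b1 b2 b3 c1 c2 c3
  · exact abs3_p9 C a1 a2 a3 b1 b2 b3 c1 c2 c3
  · exact abs3_p10 C a1 a2 a3 b1 b2 b3 c1 c2 c3
  · exact abs3_p11 C a1 a2 a3 b1 b2 b3 c1 c2 c3
  · exact abs3_p12 C a1 a2 a3 b1 b2 b3 c1 c2 c3
  · exact abs3_p13 C a1 a2 a3 b1 b2 b3 c1 c2 c3
  · exact abs3_p14 C a1 a2 a3 b1 b2 b3 c1 c2 c3
  · exact abs3_p15 C a1 a2 a3 b1 b2 b3 c1 c2 c3
  · exact abs3_p16 C a1 a2 a3 b1 b2 b3 c1 c2 c3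
  · exact abs3_p17 C a1 a2 a3 b1 b2 b3 c1 c2 c3
  · exact abs3_p18 C a1 a2 a3 b1 b2 b3 c1 c2 c3
  · exact abs3_p19 C a1 a2 a3 b1 b2 b3 c1 c2 c3
  · exact abs3_p20 C a1 a2 a3 b1 b2 b3 c1 c2 c3
  · exact abs3_p21 C a1 a2 a3 b1 b2 b3 c1 c2 c3
  · exact abs3_p22 C a1 a2 a3 b1 b2 b3 c1 c2 c3
  · exact abs3_p23 C a1 a2 a3 b1 b2 b3 c1 c2 c3
  · exact abs3_p24 C a1 a2 a3 b1 b2 b3 c1 c2 c3
  · exact abs3_p25 C a1 a2 a3 b1 b2 b3 c1 c2 c3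
  · exact abs3_p26 C a1 a2 a3 b1 b2 b3 c1 c2 c3
  · exact abs3_p27 C a1 a2 a3 b1 b2 b3 c1 c2 c3
  · exact abs3_p28 C a1 a2 a3 b1 b2 b3 c1 c2 c3
  · exact abs3_p29 C a1 a2 a3 b1 b2 b3 c1 c2 c3
  · exact abs3_p30 C a1 a2 a3 b1 b2 b3 c1 c2 c3
  · exact abs3_p31 C a1 a2 a3 b1 b2 b3 c1 c2 c3
  · exact abs3_p32 C a1 a2 a3 b1 b2 b3 c1 c2 c3
  · exact abs3_p33 C a1 a2 a3 b1 b2 b3 c1 c2 c3
  · exact abs3_p34 C a1 a2 a3 b1 b2 b3 c1 c2 c3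
  · exact abs3_p35 C a1 a2 a3 b1 b2 b3 c1 c2 c3
  · exact abs3_p36 C a1 a2 a3 b1 b2 b3 c1 c2 c3
  · exact abs3_p37 C a1 a2 a3 b1 b2 b3 c1 c2 c3
  · exact abs3_p38 C a1 a2 a3 b1 b2 b3 c1 c2 c3
  · exact abs3_p39 C a1 a2 a3 b1 b2 b3 c1 c2 c3
  · exact abs3_p40 C a1 a2 a3 b1 b2 b3 c1 c2 c3
  · exact abs3_p41 C a1 a2 a3 b1 b2 b3 c1 c2 c3
  · exact abs3_p42 C a1 a2 a3 b1 b2 b3 c1 c2 c3
  · exact abs3_p43 C a1 a2 a3 b1 b2 b3 c1 c2 c3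
  · exact abs3_p44 C a1 a2 a3 b1 b2 b3 c1 c2 c3
  · exact abs3_p45 C a1 a2 a3 b1 b2 b3 c1 c2 c3
  · exact abs3_p46 C a1 a2 a3 b1 b2 b3 c1 c2 c3
  · exact abs3_p47 C a1 a2 a3 b1 b2 b3 c1 c2 c3
  · exact abs3_p48 C a1 a2 a3 b1 b2 b3 c1 c2 c3
  · exact abs3_p49 C a1 a2 a3 b1 b2 b3 c1 c2 c3
  · exact abs3_p50 C a1 a2 a3 b1 b2 b3 c1 c2 c3
  · exact abs3_p51 C a1 a2 a3 b1 b2 b3 c1 c2 c3
  · exact abs3_p52 C a1 a2 a3 b1 b2 b3 c1 c2 c3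
  · exact abs3_p53 C a1 a2 a3 b1 b2 b3 c1 c2 c3
  · exact abs3_p54 C a1 a2 a3 b1 b2 b3 c1 c2 c3
  · exact abs3_p55 C a1 a2 a3 b1 b2 b3 c1 c2 c3
  · exact abs3_p56 C a1 a2 a3 b1 b2 b3 c1 c2 c3
  · exact abs3_p57 C a1 a2 a3 b1 b2 b3 c1 c2 c3
  · exact abs3_p58 C a1 a2 a3 b1 b2 b3 c1 c2 c3
  · exact abs3_p59 C a1 a2 a3 b1 b2 b3 c1 c2 c3
  · exact abs3_p60 C a1 a2 a3 b1 b2 b3 c1 c2 c3
  · exact abs3_p61 C a1 a2 a3 b1 b2 b3 c1 c2 c3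
  · exact abs3_p62 C a1 a2 a3 b1 b2 b3 c1 c2 c3
  · exact abs3_p63 C a1 a2 a3 b1 b2 b3 c1 c2 c3

end Vale.Agent.Lib.P048.E
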