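import Vale.Agent.Lib.P048.E7
import Vale.Agent.Lib.P048.E9

/-!
The zone has at most three hubs: a heavy ring exists.
-/

namespace Vale.Agent.Lib.P048.E

open Finset

set_option linter.unusedSectionVars false
set_option linter.unusedVariables false

variable {V : Type*} [Fintype V] [DecidableEq V] {G : SimpleGraph V}
variable {I : Finset V} {A X : V → Finset V} {w : V → ℕ} {T : ℕ} {μ : V → Option V}

/-- The total weight of the arms of `x` with target `t`. -/
def sl (X : V → Finset V) (F : V → V → V) (w : V → ℕ) (x t : V) : ℕ :=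
  ∑ e ∈ (X x).filter (fun e => F x e = t), w e

theorem zone_contra {a k : ℕ} (h : Core G a k) (hs : Sys G I A X w (k - 1)) (hI : I.card = a)
    (hm : Mat G I X μ) (hlost : ∀ x ∈ I, ∀ e ∈ X x, ∀ e' ∈ X x, μ e = none → μ e' = none → e = e')
    {Z : Finset V} {c : V} (hz : Zone I X μ Z c) (hZ3 : Z.card ≤ 3) : False := by
  classical
  obtain ⟨r₀, hr₀⟩ := hz.rest
  have hr₀Z : r₀ ∉ Z := fun hh => (Finset.mem_sdiff.mp (Finset.mem_erase.mp hr₀).2).2 hh
  have hr₀c : r₀ ≠ c := (Finset.mem_erase.mp hr₀).1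
  have hcZ := hz.hcZ
  have hk := h.hk
  have hch : ∀ x, ∃ f land : V → V, x ∈ Z → ∀ e ∈ X x, f e ∈ insert c (insert r₀ (Z.erase x)) ∧
      G.Adj e (land e) ∧ (f e ∈ Z → land e ∈ St A (f e)) ∧
      (f e ∉ Z → land e ∈ (I \ Z).biUnion (St A)) ∧ ∀ e' ∈ X x, f e = f e' → e = e' := by
    intro x
    by_cases hx : x ∈ Z
    · obtain ⟨f, land, h1⟩ := zone_hall h hs hI hm hlost hz hx hr₀
      exact ⟨f, land, fun _ => h1⟩
    · exact ⟨id, id, fun hh => absurd hh hx⟩
  choose F L hFL using hch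
  have hZI : ∀ x ∈ Z, x ∈ I := fun x hx => hz.sub hx
  have hterm : ∀ x, x ∈ Z → ∀ t, 0 < sl X F w x t → ∃ e ∈ X x, F x e = t ∧ w e = sl X F w x t := by
    intro x hx t ht
    have hne : ((X x).filter (fun e => F x e = t)).Nonempty := by
      by_contra hcon
      rw [Finset.not_nonempty_iff_eq_empty] at hcon
      simp only [sl, hcon, Finset.sum_empty] at ht
      omega
    obtain ⟨e, he⟩ := hne
    obtain ⟨he1, he2⟩ := Finset.mem_filter.mp he
    refine ⟨e, he1, he2, ?_⟩
    have : (X x).filter (fun e => F x e = t) = {e} := by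
      ext e'
      simp only [Finset.mem_filter, Finset.mem_singleton]
      constructor
      · rintro ⟨h1, h2⟩
        exact (hFL x hx e he1).2.2.2.2 e' h1 (he2.trans h2.symm) |>.symm
      · rintro rfl
        exact ⟨he1, he2⟩
    simp only [sl, this, Finset.sum_singleton]
  have hte : ∀ x t, ∃ e, x ∈ Z → 0 < sl X F w x t → e ∈ X x ∧ F x e = t ∧ w e = sl X F w x t := by
    intro x t
    by_cases hx : x ∈ Z
    · by_cases ht : 0 < sl X F w x t
      · obtain ⟨e, he1, he2, he3⟩ := hterm x hx t ht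
        exact ⟨e, fun _ _ => ⟨he1, he2, he3⟩⟩
      · exact ⟨x, fun _ hh => absurd hh ht⟩
    · exact ⟨x, fun hh => absurd hh hx⟩
  choose te hte using hte
  -- the sum over targets
  have hsum : ∀ x ∈ Z, ∀ Tg : Finset V, (∀ e ∈ X x, F x e ∈ Tg) → ∑ t ∈ Tg, sl X F w x t = k - 1 := by
    intro x hx Tg hTg
    rw [← hs.wsum x (hZI x hx)]
    exact Finset.sum_fiberwise_of_maps_to hTg _
  have hcount : ∀ x ∈ Z, ∀ Tg : Finset V, (∀ e ∈ X x, F x e ∈ Tg) →
      (X x).card ≤ (Tg.filter (fun t => 0 < sl X F w x t)).card := by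
    intro x hx Tg hTg
    have h1 : (X x).card = ((X x).image (F x)).card := by
      rw [Finset.card_image_of_injOn]
      intro e he e' he' heq
      exact (hFL x hx e he).2.2.2.2 e' he' heq
    rw [h1]
    apply Finset.card_le_card
    intro t ht
    obtain ⟨e, he, rfl⟩ := Finset.mem_image.mp ht
    refine Finset.mem_filter.mpr ⟨hTg e he, ?_⟩
    have h2 := hs.wpos x (hZI x hx) e he
    have h3 : w e ≤ sl X F w x (F x e) :=
      Finset.single_le_sum (f := w) (fun _ _ => Nat.zero_le _) (Finset.mem_filter.mpr ⟨he, rfl⟩)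
    omega
  -- the outer part
  let S := (I \ Z).biUnion (St A)
  have hout := outer_range h hs hI hm hlost hz
  have hdisjS : ∀ x ∈ Z, Disjoint (St A x) S := by
    intro x hx
    rw [Finset.disjoint_left]
    intro v hv hv'
    obtain ⟨b, hb, hvb⟩ := Finset.mem_biUnion.mp hv'
    have hb' := Finset.mem_sdiff.mp hb
    have := hs.star_unique (hZI x hx) hb'.1 hv hvb
    subst this
    exact hb'.2 hx
  have hcardW : Z.card + (I \ Z).card = a := by
    have := Finset.card_sdiff_add_card_eq_card hz.sub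
    omega
  -- outgoing arms to the outside
  let gg : V → ℕ := fun x => max (sl X F w x c) (sl X F w x r₀)
  let hh : V → ℕ := fun x => min (sl X F w x c) (sl X F w x r₀)
  let tG : V → V := fun x => if sl X F w x r₀ ≤ sl X F w x c then te x c else te x r₀
  let tH : V → V := fun x => if sl X F w x r₀ ≤ sl X F w x c then te x r₀ else te x c
  have hgg : ∀ x, x ∈ Z → 0 < gg x → tG x ∈ X x ∧ w (tG x) = gg x ∧ F x (tG x) ∉ Z := by
    intro x hx hpos
    by_cases hle : sl X F w x r₀ ≤ sl X F w x c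
    · have h0 : tG x = te x c := by simp only [tG, if_pos hle]
      have h1 : gg x = sl X F w x c := by simp only [gg]; omega
      rw [h0, h1]
      rw [h1] at hpos
      obtain ⟨a1, a2, a3⟩ := hte x c hx hpos
      exact ⟨a1, a3, by rw [a2]; exact hcZ⟩
    · have h0 : tG x = te x r₀ := by simp only [tG, if_neg hle]
      have h1 : gg x = sl X F w x r₀ := by simp only [gg]; omega
      rw [h0, h1]
      rw [h1] at hpos
      obtain ⟨a1, a2, a3⟩ := hte x r₀ hx hpos
      exact ⟨a1, a3, by rw [a2]; exact hr₀Z⟩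
  have hhh : ∀ x, x ∈ Z → 0 < hh x → tH x ∈ X x ∧ w (tH x) = hh x ∧ F x (tH x) ∉ Z ∧ tG x ≠ tH x := by
    intro x hx hpos
    have hc1 : 0 < sl X F w x c := by simp only [hh] at hpos; omega
    have hc2 : 0 < sl X F w x r₀ := by simp only [hh] at hpos; omega
    obtain ⟨a1, a2, a3⟩ := hte x c hx hc1
    obtain ⟨b1, b2, b3⟩ := hte x r₀ hx hc2
    have hne : te x c ≠ te x r₀ := by
      intro heq
      rw [heq, b2] at a2
      exact hr₀c a2
    by_cases hle : sl X F w x r₀ ≤ sl X F w x c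
    · have h0 : tH x = te x r₀ := by simp only [tH, if_pos hle]
      have h0' : tG x = te x c := by simp only [tG, if_pos hle]
      have h1 : hh x = sl X F w x r₀ := by simp only [hh]; omega
      rw [h0, h0', h1]
      exact ⟨b1, b3, by rw [b2]; exact hr₀Z, hne⟩
    · have h0 : tH x = te x c := by simp only [tH, if_neg hle]
      have h0' : tG x = te x r₀ := by simp only [tG, if_neg hle]
      have h1 : hh x = sl X F w x c := by simp only [hh]; omega
      rw [h0, h0', h1]
      exact ⟨a1, a3, by rw [a2]; exact hcZ, hne.symm⟩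
  have hgh : ∀ x, gg x + hh x = sl X F w x c + sl X F w x r₀ := by
    intro x
    simp only [gg, hh]
    omega
  -- the landing of an arm with a target in the zone
  have hland : ∀ x ∈ Z, ∀ j ∈ Z, 0 < sl X F w x j →
      te x j ∈ St A x ∧ L x (te x j) ∈ St A j ∧ G.Adj (te x j) (L x (te x j)) ∧
        w (te x j) = sl X F w x j := by
    intro x hx j hj hpos
    obtain ⟨a1, a2, a3⟩ := hte x j hx hpos
    obtain ⟨b1, b2, b3, b4, b5⟩ := hFL x hx _ a1
    refine ⟨hs.X_star (hZI x hx) a1, ?_, b2, a3⟩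
    have := b3 (by rw [a2]; exact hj)
    rwa [a2] at this
  have hland2 : ∀ x ∈ Z, ∀ t ∈ X x, F x t ∉ Z → t ∈ St A x ∧ L x t ∈ S ∧ G.Adj t (L x t) := by
    intro x hx t ht hF
    obtain ⟨b1, b2, b3, b4, b5⟩ := hFL x hx _ ht
    exact ⟨hs.X_star (hZI x hx) ht, b4 hF, b2⟩
  have hdeg := gam_deg h hs hI hm hlost
  -- at least two hubs
  have hZ2 : 2 ≤ Z.card := by
    obtain ⟨x, hx⟩ := hz.ne
    obtain ⟨u, hu, u', hu', hne, h1, h2⟩ := hdeg x (hZI x hx)
    have hother : ∃ t ∈ Z, t ≠ x := by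
      have hstay : ∀ t, t ∈ I → Gam X μ x t → t ∉ Z → t = c := by
        intro t ht hg htZ
        by_contra htc
        exact hz.sep x hx t ht htZ htc hg
      by_cases huZ : u ∈ Z
      · refine ⟨u, huZ, ?_⟩
        rintro rfl
        exact gam_irr hs hm _ h1
      · have huc := hstay u hu h1 huZ
        have hu'Z : u' ∈ Z := by
          by_contra hcon
          exact hne (huc.trans (hstay u' hu' h2 hcon).symm)
        refine ⟨u', hu'Z, ?_⟩
        rintro rfl
        exact gam_irr hs hm _ h2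
    obtain ⟨t, ht, htx⟩ := hother
    exact Finset.one_lt_card.mpr ⟨t, ht, x, hx, htx⟩
  have h23 : Z.card = 2 ∨ Z.card = 3 := by omega
  rcases h23 with hZc | hZc
  · -- two hubs
    obtain ⟨u, v, huv, hZeq⟩ := Finset.card_eq_two.mp hZc
    have huZ : u ∈ Z := by rw [hZeq]; simp
    have hvZ : v ∈ Z := by rw [hZeq]; simp
    have hfacts : ∀ x o, x ∈ Z → o ∈ Z → x ≠ o →
        sl X F w x o + (sl X F w x c + sl X F w x r₀) = k - 1 ∧ 0 < sl X F w x o ∧
          0 < sl X F w x c ∧ 0 < sl X F w x r₀ := by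
      intro x o hx ho hxo
      have herase : Z.erase x = {o} := by
        have h1 : ({o} : Finset V) ⊆ Z.erase x := by
          intro t ht
          rw [Finset.mem_singleton] at ht
          rw [ht]
          exact Finset.mem_erase.mpr ⟨hxo.symm, ho⟩
        symm
        apply Finset.eq_of_subset_of_card_le h1
        rw [Finset.card_erase_of_mem hx, hZc, Finset.card_singleton]
      have hoc : o ≠ c := fun hh => hcZ (hh ▸ ho)
      have hor : o ≠ r₀ := fun hh => hr₀Z (hh ▸ ho)
      have hTg : ∀ e ∈ X x, F x e ∈ ({o, c, r₀} : Finset V) := by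
        intro e he
        have := (hFL x hx e he).1
        rw [herase] at this
        simp only [Finset.mem_insert, Finset.mem_singleton] at this ⊢
        tauto
      have h1 := hsum x hx _ hTg
      rw [Finset.sum_insert (by simp [hoc, hor]), Finset.sum_insert (by simp [hr₀c.symm]),
        Finset.sum_singleton] at h1
      have h2 := hcount x hx _ hTg
      have h3 := h.three_arms hs hI (hZI x hx)
      have hc3 : ({o, c, r₀} : Finset V).card = 3 :=
        Finset.card_eq_three.mpr ⟨o, c, r₀, hoc, hor, hr₀c.symm, rfl⟩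
      have hpos : ∀ t ∈ ({o, c, r₀} : Finset V), 0 < sl X F w x t := by
        intro t ht
        by_contra hcon
        have h4 : ({o, c, r₀} : Finset V).filter (fun t => 0 < sl X F w x t) ⊆
            ({o, c, r₀} : Finset V).erase t := by
          intro t' ht'
          obtain ⟨a1, a2⟩ := Finset.mem_filter.mp ht'
          refine Finset.mem_erase.mpr ⟨?_, a1⟩
          rintro rfl
          exact hcon a2
        have h5 := Finset.card_le_card h4
        rw [Finset.card_erase_of_mem ht, hc3] at h5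
        omega
      exact ⟨h1, hpos o (by simp), hpos c (by simp), hpos r₀ (by simp)⟩
    have hpair : ∀ x o, x ∈ Z → o ∈ Z → x ≠ o → gg x + sl X F w x o + gg o < k - 1 := by
      intro x o hx ho hxo
      obtain ⟨a1, a2, a3, a4⟩ := hfacts x o hx ho hxo
      obtain ⟨b1, b2, b3, b4⟩ := hfacts o x ho hx hxo.symm
      have hgx : 0 < gg x := by simp only [gg]; omega
      have hgo : 0 < gg o := by simp only [gg]; omega
      have hho : 0 < hh o := by simp only [hh]; omega
      obtain ⟨c1, c2, c3⟩ := hgg x hx hgx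
      obtain ⟨d1, d2, d3⟩ := hgg o ho hgo
      obtain ⟨e1, e2, e3, e4⟩ := hhh o ho hho
      obtain ⟨f1, f2, f3, f4⟩ := hland x hx o ho a2
      obtain ⟨g1, g2, g3⟩ := hland2 x hx _ c1 c3
      obtain ⟨hte1, hte2, _⟩ := hte x o hx a2
      have hne1 : tG x ≠ te x o := by
        intro heq
        rw [heq, hte2] at c3
        exact c3 ho
      have hb1 : gg x + sl X F w x o ≤ pii w (tG x) (te x o) := by
        have := pii_lb (w := w) hne1
        omega
      by_cases hp : L x (te x o) = tG o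
      · obtain ⟨g4, g5, g6⟩ := hland2 o ho _ e1 e3
        have := ring2 (n := 2 * (I \ Z).card) h hs hout (hZI x hx) (hZI o ho) hxo (hdisjS x hx)
          (hdisjS o ho) g1 f1 f2 (hs.X_star (hZI o ho) e1) f3 g2 g5 g3 g6 (by omega)
        have h7 := pii_lb (w := w) (p := L x (te x o)) (q := tH o) (by rw [hp]; exact e4)
        rw [hp] at h7 this
        omega
      · obtain ⟨g4, g5, g6⟩ := hland2 o ho _ d1 d3
        have := ring2 (n := 2 * (I \ Z).card) h hs hout (hZI x hx) (hZI o ho) hxo (hdisjS x hx)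
          (hdisjS o ho) g1 f1 f2 (hs.X_star (hZI o ho) d1) f3 g2 g5 g3 g6 (by omega)
        have h7 := pii_lb (w := w) hp
        omega
    have h1 := hpair u v huZ hvZ huv
    have h2 := hpair v u hvZ huZ huv.symm
    obtain ⟨a1, _⟩ := hfacts u v huZ hvZ huv
    obtain ⟨b1, _⟩ := hfacts v u hvZ huZ huv.symm
    have h3 := hgh u
    have h4 := hgh v
    have h5 : hh u ≤ gg u := by simp only [gg, hh]; omega
    have h6 : hh v ≤ gg v := by simp only [gg, hh]; omega
    omega
  · -- three hubs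
    obtain ⟨z₀, z₁, z₂, h01, h02, h12, hZeq⟩ := Finset.card_eq_three.mp hZc
    have hz₀ : z₀ ∈ Z := by rw [hZeq]; simp
    have hz₁ : z₁ ∈ Z := by rw [hZeq]; simp
    have hz₂ : z₂ ∈ Z := by rw [hZeq]; simp
    have hfacts : ∀ i j l, i ∈ Z → j ∈ Z → l ∈ Z → i ≠ j → i ≠ l → j ≠ l →
        sl X F w i j + (sl X F w i l + (sl X F w i c + sl X F w i r₀)) = k - 1 ∧
        3 ≤ min 1 (sl X F w i j) + (min 1 (sl X F w i l) +
          (min 1 (sl X F w i c) + min 1 (sl X F w i r₀))) := by
      intro i j l hi hj hl hij hil hjl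
      have hZe : Z = {i, j, l} := by
        symm
        apply Finset.eq_of_subset_of_card_le
        · intro t ht
          simp only [Finset.mem_insert, Finset.mem_singleton] at ht
          rcases ht with rfl | rfl | rfl <;> assumption
        · rw [hZc, Finset.card_eq_three.mpr ⟨i, j, l, hij, hil, hjl, rfl⟩]
      have hjc : j ≠ c := fun hh => hcZ (hh ▸ hj)
      have hjr : j ≠ r₀ := fun hh => hr₀Z (hh ▸ hj)
      have hlc : l ≠ c := fun hh => hcZ (hh ▸ hl)
      have hlr : l ≠ r₀ := fun hh => hr₀Z (hh ▸ hl)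
      have hTg : ∀ e ∈ X i, F i e ∈ ({j, l, c, r₀} : Finset V) := by
        intro e he
        have h1 := (hFL i hi e he).1
        simp only [Finset.mem_insert, Finset.mem_erase, Finset.mem_singleton] at h1 ⊢
        rcases h1 with h1 | h1 | ⟨h1, h2⟩
        · tauto
        · tauto
        · rw [hZe] at h2
          simp only [Finset.mem_insert, Finset.mem_singleton] at h2
          tauto
      have h1 := hsum i hi _ hTg
      rw [Finset.sum_insert (by simp [hjl, hjc, hjr]), Finset.sum_insert (by simp [hlc, hlr]),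
        Finset.sum_insert (by simp [hr₀c.symm]), Finset.sum_singleton] at h1
      refine ⟨h1, ?_⟩
      have h2 := hcount i hi _ hTg
      have h3 := h.three_arms hs hI (hZI i hi)
      rw [Finset.card_filter, Finset.sum_insert (by simp [hjl, hjc, hjr]),
        Finset.sum_insert (by simp [hlc, hlr]), Finset.sum_insert (by simp [hr₀c.symm]),
        Finset.sum_singleton] at h2
      have hite : ∀ n : ℕ, (if 0 < n then 1 else 0) = min 1 n := by
        intro n
        split_ifs <;> omega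
      simp only [hite] at h2
      omega
    have hgpos : ∀ i ∈ Z, 0 < gg i := by
      have key : ∀ i j l, i ∈ Z → j ∈ Z → l ∈ Z → i ≠ j → i ≠ l → j ≠ l → 0 < gg i := by
        intro i j l hi hj hl hij hil hjl
        have := (hfacts i j l hi hj hl hij hil hjl).2
        simp only [gg]
        omega
      intro i hi
      rw [hZeq] at hi
      simp only [Finset.mem_insert, Finset.mem_singleton] at hi
      rcases hi with rfl | rfl | rfl
      · exact key _ _ _ hz₀ hz₁ hz₂ h01 h02 h12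
      · exact key _ _ _ hz₁ hz₀ hz₂ h01.symm h12 h02
      · exact key _ _ _ hz₂ hz₀ hz₁ h02.symm h12.symm h01
    let xx : ↥Z → ↥Z → ℕ := fun i j => sl X F w i.1 j.1
    let tXX : ↥Z → ↥Z → V := fun i j => te i.1 j.1
    let lXX : ↥Z → ↥Z → V := fun i j => L i.1 (te i.1 j.1)
    let gg' : ↥Z → ℕ := fun i => gg i.1
    let hh' : ↥Z → ℕ := fun i => hh i.1
    let tG' : ↥Z → V := fun i => tG i.1
    let tH' : ↥Z → V := fun i => tH i.1
    have hvne : ∀ i j : ↥Z, i ≠ j → i.1 ≠ j.1 := fun i j hne hh => hne (Subtype.ext hh)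
    have hd : D3 w (k - 1) xx tXX lXX gg' hh' tG' tH' := by
      refine ⟨?_, ?_, ?_, ?_, ?_, ?_, ?_, ?_, ?_, ?_⟩
      · intro i j l hij hil hjl
        have h1 := (hfacts i.1 j.1 l.1 i.2 j.2 l.2 (hvne _ _ hij) (hvne _ _ hil) (hvne _ _ hjl)).1
        have h2 := hgh i.1
        show k - 1 = sl X F w i.1 j.1 + sl X F w i.1 l.1 + gg i.1 + hh i.1
        omega
      · intro i j l hij hil hjl
        have h1 := (hfacts i.1 j.1 l.1 i.2 j.2 l.2 (hvne _ _ hij) (hvne _ _ hil) (hvne _ _ hjl)).2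
        show (0 < sl X F w i.1 j.1 ∧ 0 < sl X F w i.1 l.1) ∨
          (0 < hh i.1 ∧ (0 < sl X F w i.1 j.1 ∨ 0 < sl X F w i.1 l.1))
        simp only [hh]
        omega
      · intro i
        show hh i.1 ≤ gg i.1
        simp only [gg, hh]
        omega
      · intro i j hpos
        exact (hte i.1 j.1 i.2 hpos).2.2
      · intro i
        exact (hgg i.1 i.2 (hgpos i.1 i.2)).2.1
      · intro i hpos
        exact (hhh i.1 i.2 hpos).2.1
      · intro i j l hjl hp1 hp2 heq
        have h1 := (hte i.1 j.1 i.2 hp1).2.1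
        have h2 := (hte i.1 l.1 i.2 hp2).2.1
        have h3 : te i.1 j.1 = te i.1 l.1 := heq
        rw [h3, h2] at h1
        exact hvne _ _ hjl h1.symm
      · intro i j hp heq
        have h1 := (hte i.1 j.1 i.2 hp).2.1
        have h2 := (hgg i.1 i.2 (hgpos i.1 i.2)).2.2
        have h3 : tG i.1 = te i.1 j.1 := heq
        rw [h3, h1] at h2
        exact h2 j.2
      · intro i j hph hp heq
        have h1 := (hte i.1 j.1 i.2 hp).2.1
        have h2 := (hhh i.1 i.2 hph).2.2.1
        have h3 : tH i.1 = te i.1 j.1 := heq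
        rw [h3, h1] at h2
        exact h2 j.2
      · intro i hph
        exact (hhh i.1 i.2 hph).2.2.2
    -- the ports
    have hBTf : ∀ i t, BT hh' tG' tH' i t → t ∈ St A i.1 ∧ L i.1 t ∈ S ∧ G.Adj t (L i.1 t) := by
      intro i t hb
      rcases hb with rfl | ⟨hph, rfl⟩
      · obtain ⟨a1, _, a3⟩ := hgg i.1 i.2 (hgpos i.1 i.2)
        exact hland2 i.1 i.2 _ a1 a3
      · obtain ⟨a1, _, a3, _⟩ := hhh i.1 i.2 hph
        exact hland2 i.1 i.2 _ a1 a3
    have hLkf : ∀ i j q p, Lk xx tXX lXX i j q p → q ∈ St A i.1 ∧ p ∈ St A j.1 ∧ G.Adj q p := by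
      intro i j q p hL
      rcases hL with ⟨hp, rfl, rfl⟩ | ⟨hp, rfl, rfl⟩
      · obtain ⟨a1, a2, a3, _⟩ := hland i.1 i.2 j.1 j.2 hp
        exact ⟨a1, a2, a3⟩
      · obtain ⟨a1, a2, a3, _⟩ := hland j.1 j.2 i.1 i.2 hp
        exact ⟨a2, a1, a3.symm⟩
    have hO3 : ∀ i j l, i ≠ j → j ≠ l → i ≠ l → ∀ t q p q' p' t', BT hh' tG' tH' i t →
        Lk xx tXX lXX i j q p → Lk xx tXX lXX j l q' p' → BT hh' tG' tH' l t' →
        pii w t q + pii w p q' + pii w p' t' < k - 1 := by
      intro i j l hij hjl hil t q p q' p' t' hb1 hl1 hl2 hb2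
      obtain ⟨a1, a2, a3⟩ := hBTf i t hb1
      obtain ⟨b1, b2, b3⟩ := hBTf l t' hb2
      obtain ⟨c1, c2, c3⟩ := hLkf i j q p hl1
      obtain ⟨d1, d2, d3⟩ := hLkf j l q' p' hl2
      exact ring3 (n := 2 * (I \ Z).card) h hs hout (hZI _ i.2) (hZI _ j.2) (hZI _ l.2) (hvne _ _ hij)
        (hvne _ _ hjl) (hvne _ _ hil) (hdisjS _ i.2) (hdisjS _ j.2) (hdisjS _ l.2) a1 c1 c2 d1 d2 b1
        c3 d3 a2 b2 a3 b3 (by omega)
    have hO2 : ∀ i j, i ≠ j → ∀ t q p t', BT hh' tG' tH' i t → Lk xx tXX lXX i j q p →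
        BT hh' tG' tH' j t' → pii w t q + pii w p t' < k - 1 := by
      intro i j hij t q p t' hb1 hl1 hb2
      obtain ⟨a1, a2, a3⟩ := hBTf i t hb1
      obtain ⟨b1, b2, b3⟩ := hBTf j t' hb2
      obtain ⟨c1, c2, c3⟩ := hLkf i j q p hl1
      exact ring2 (n := 2 * (I \ Z).card) h hs hout (hZI _ i.2) (hZI _ j.2) (hvne _ _ hij)
        (hdisjS _ i.2) (hdisjS _ j.2) a1 c1 c2 b1 c3 a2 b2 a3 b3 (by omega)
    -- the hub with the largest outer arm
    obtain ⟨m, _, hmax⟩ := Finset.exists_max_image (Finset.univ : Finset ↥Z) gg'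
      ⟨⟨z₀, hz₀⟩, Finset.mem_univ _⟩
    have hothers : ∃ b c' : ↥Z, m ≠ b ∧ m ≠ c' ∧ b ≠ c' := by
      have hm : m.1 ∈ ({z₀, z₁, z₂} : Finset V) := hZeq ▸ m.2
      simp only [Finset.mem_insert, Finset.mem_singleton] at hm
      have e0 : (⟨z₀, hz₀⟩ : ↥Z) ≠ ⟨z₁, hz₁⟩ := fun hh => h01 (congrArg Subtype.val hh)
      have e1 : (⟨z₀, hz₀⟩ : ↥Z) ≠ ⟨z₂, hz₂⟩ := fun hh => h02 (congrArg Subtype.val hh)
      have e2 : (⟨z₁, hz₁⟩ : ↥Z) ≠ ⟨z₂, hz₂⟩ := fun hh => h12 (congrArg Subtype.val hh)
      rcases hm with hm | hm | hm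
      · refine ⟨⟨z₁, hz₁⟩, ⟨z₂, hz₂⟩, ?_, ?_, e2⟩
        · intro hh
          exact h01 (hm.symm.trans (congrArg Subtype.val hh))
        · intro hh
          exact h02 (hm.symm.trans (congrArg Subtype.val hh))
      · refine ⟨⟨z₀, hz₀⟩, ⟨z₂, hz₂⟩, ?_, ?_, e1⟩
        · intro hh
          exact h01.symm (hm.symm.trans (congrArg Subtype.val hh))
        · intro hh
          exact h12 (hm.symm.trans (congrArg Subtype.val hh))
      · refine ⟨⟨z₀, hz₀⟩, ⟨z₁, hz₁⟩, ?_, ?_, e0⟩
        · intro hh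
          exact h02.symm (hm.symm.trans (congrArg Subtype.val hh))
        · intro hh
          exact h12.symm (hm.symm.trans (congrArg Subtype.val hh))
    obtain ⟨b, c', hb1, hb2, hb3⟩ := hothers
    exact abs3_main (a := m) (b := b) (c := c') ⟨hd, hO3, hO2, hb1, hb2, hb3,
      hmax b (Finset.mem_univ _), hmax c' (Finset.mem_univ _)⟩

end Vale.Agent.Lib.P048.E
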