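import Vale.Agent.Lib.P048.Chain

namespace Vale.Agent.Lib.P048

open Finset

variable {V : Type*} {G : SimpleGraph V}

section steps

variable {a m L : ℕ} {v : ℕ → V} {A B : ℕ → Prop}

/-- Appending an edge `w w'` in the neighbourhood of the end of the path. -/
theorem tstep (h : Inv0 G a m L v A B) {w w' : V}
    (hw : ∀ i, i < L → v i ≠ w) (hw' : ∀ i, i < L → v i ≠ w') (hww : G.Adj w w')
    (he : G.Adj (v (L - 1)) w) (he' : G.Adj (v (L - 1)) w') :
    ∃ v', Inv0 G a m (L + 2) v' (fun k => A k ∨ k = L) B ∧ ∀ i, i < L → v' i = v i := by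
  have hL := h.hL
  have hne : w ≠ w' := hww.ne
  refine ⟨fun i => if i < L then v i else if i = L then w else w', ?_, fun i hi => by simp [hi]⟩
  have hv : ∀ i, i < L → (if i < L then v i else if i = L then w else w') = v i := by
    intro i hi; simp [hi]
  have hvL : (if L < L then v L else if L = L then w else w') = w := by simp
  have hvL1 : (if L + 1 < L then v (L + 1) else if L + 1 = L then w else w') = w' := by simp
  refine ⟨by omega, ?_, ?_, ?_, ?_, ?_, ?_, h.gapB, ?_⟩
  · intro i j hi hj hij
    by_cases hi1 : i < L <;> by_cases hj1 : j < L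
    · rw [hv i hi1, hv j hj1] at hij
      exact h.inj i j hi1 hj1 hij
    · rw [hv i hi1] at hij
      exfalso
      by_cases hj2 : j = L
      · subst hj2; rw [hvL] at hij; exact hw i hi1 hij
      · have : j = L + 1 := by omega
        subst this; rw [hvL1] at hij; exact hw' i hi1 hij
    · rw [hv j hj1] at hij
      exfalso
      by_cases hi2 : i = L
      · subst hi2; rw [hvL] at hij; exact hw j hj1 hij.symm
      · have : i = L + 1 := by omega
        subst this; rw [hvL1] at hij; exact hw' j hj1 hij.symm
    · by_cases hi2 : i = L <;> by_cases hj2 : j = L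
      · omega
      · have : j = L + 1 := by omega
        subst hi2; subst this; rw [hvL, hvL1] at hij; exact absurd hij hne
      · have : i = L + 1 := by omega
        subst hj2; subst this; rw [hvL, hvL1] at hij; exact absurd hij.symm hne
      · omega
  · intro i hi
    by_cases hi1 : i + 1 < L
    · rw [hv i (by omega), hv (i + 1) hi1]; exact h.adj i hi1
    · by_cases hi2 : i + 1 = L
      · rw [hv i (by omega), hi2, hvL]
        have : i = L - 1 := by omega
        rw [this]; exact he
      · have : i = L := by omega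
        subst this; rw [hvL, hvL1]; exact hww
  · intro k hk
    rcases hk with hk | hk
    · obtain ⟨h1, h2, h3⟩ := h.skipA k hk
      refine ⟨h1, by omega, ?_⟩
      rw [hv (k - 1) (by omega), hv (k + 1) h2]
      exact h3
    · subst hk
      refine ⟨hL, by omega, ?_⟩
      rw [hv (k - 1) (by omega), hvL1]
      exact he'
  · intro k hk
    rintro (h1 | h1)
    · rcases hk with hk | hk
      · exact h.ncA k hk h1
      · have := (h.skipA _ h1).2.1; omega
    · rcases hk with hk | hk
      · have := (h.skipA _ hk).2.1; omega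
      · omega
  · intro k hk hB
    rcases hk with hk | hk
    · exact h.AB k hk hB
    · have := (h.bare k hB).1; omega
  · intro i hi hB
    by_cases hi1 : i + 1 < L
    · rcases h.gapNB i hi1 hB with h1 | h1
      · exact Or.inl (Or.inl h1)
      · exact Or.inr (Or.inl h1)
    · by_cases hi2 : i + 1 = L
      · exact Or.inr (Or.inr hi2)
      · have : i = L := by omega
        exact Or.inl (Or.inr this)
  · intro j hj
    obtain ⟨h1, h2⟩ := h.bare j hj
    refine ⟨by omega, ?_⟩
    intro x hx1 hx2
    obtain ⟨q, hq1, hq2, hq3, hq4⟩ := h2 x hx1 hx2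
    refine ⟨q, hq1, hq2, hq3, ?_⟩
    rw [hv q (by omega), hv j (by omega)]
    exact hq4

/-- Appending a single vertex after a position with the window property. -/
theorem zstep (h : Inv0 G a m L v A B) (hpre : 2 ≤ L → A (L - 2)) {z : V}
    (hz : ∀ i, i < L → v i ≠ z) (he : G.Adj (v (L - 1)) z)
    (hbare : ∀ x, x < L - 1 → L - 1 ≤ x + (m - 2) →
      ∃ q, x ≤ q ∧ q < L - 1 ∧ q < x + a ∧ G.Adj (v q) (v (L - 1))) :
    ∃ v', Inv0 G a m (L + 1) v' A (fun k => B k ∨ k = L - 1) ∧ (∀ i, i < L → v' i = v i) ∧
      v' L = z := by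
  have hL := h.hL
  refine ⟨fun i => if i < L then v i else z, ?_, fun i hi => by simp [hi], by simp⟩
  have hv : ∀ i, i < L → (if i < L then v i else z) = v i := by
    intro i hi; simp [hi]
  have hvL : (if L < L then v L else z) = z := by simp
  refine ⟨by omega, ?_, ?_, ?_, h.ncA, ?_, ?_, ?_, ?_⟩
  · intro i j hi hj hij
    by_cases hi1 : i < L <;> by_cases hj1 : j < L
    · rw [hv i hi1, hv j hj1] at hij
      exact h.inj i j hi1 hj1 hij
    · have : j = L := by omega
      subst this; rw [hv i hi1, hvL] at hij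
      exact absurd hij (hz i hi1)
    · have : i = L := by omega
      subst this; rw [hv j hj1, hvL] at hij
      exact absurd hij.symm (hz j hj1)
    · omega
  · intro i hi
    by_cases hi1 : i + 1 < L
    · rw [hv i (by omega), hv (i + 1) hi1]; exact h.adj i hi1
    · have h1 : i + 1 = L := by omega
      rw [hv i (by omega), h1, hvL]
      have : i = L - 1 := by omega
      rw [this]; exact he
  · intro k hk
    obtain ⟨h1, h2, h3⟩ := h.skipA k hk
    refine ⟨h1, by omega, ?_⟩
    rw [hv (k - 1) (by omega), hv (k + 1) h2]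
    exact h3
  · intro k hk
    rintro (hB | hB)
    · exact h.AB k hk hB
    · have := (h.skipA k hk).2.1; omega
  · intro i hi hB
    have hB1 : ¬ B i := fun hh => hB (Or.inl hh)
    have hB2 : i ≠ L - 1 := fun hh => hB (Or.inr hh)
    exact h.gapNB i (by omega) hB1
  · intro i hi
    rintro (h1 | h1)
    · rcases hi with hi | hi
      · exact h.gapB i hi h1
      · subst hi
        have := (h.bare _ h1).1; omega
    · rcases hi with hi | hi
      · have h2 := (h.bare i hi).1
        have h3 : i = L - 2 := by omega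
        have h4 := hpre (by omega)
        rw [← h3] at h4
        exact h.AB i h4 hi
      · omega
  · intro j hj
    rcases hj with hj | hj
    · obtain ⟨h1, h2⟩ := h.bare j hj
      refine ⟨by omega, ?_⟩
      intro x hx1 hx2
      obtain ⟨q, hq1, hq2, hq3, hq4⟩ := h2 x hx1 hx2
      refine ⟨q, hq1, hq2, hq3, ?_⟩
      rw [hv q (by omega), hv j (by omega)]
      exact hq4
    · subst hj
      refine ⟨by omega, ?_⟩
      intro x hx1 hx2
      obtain ⟨q, hq1, hq2, hq3, hq4⟩ := hbare x hx1 hx2
      refine ⟨q, hq1, hq2, hq3, ?_⟩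
      rw [hv q (by omega), hv (L - 1) (by omega)]
      exact hq4

/-- The window property of the end of the path, by counting its neighbours. -/
theorem bare_of_count [DecidableEq V] (h : Inv0 G a m L v A B) (hL2 : 2 ≤ L) (Se : Finset V)
    (hSe1 : m - 1 ≤ Se.card) (hSe2 : ∀ y ∈ Se, G.Adj (v (L - 1)) y)
    (hO : (Se \ (range L).image v).card ≤ a)
    (hfar : ∀ i, i < L → G.Adj (v i) (v (L - 1)) → L - 1 < i + (m - 1)) :
    ∀ x, x < L - 1 → L - 1 ≤ x + (m - 2) →
      ∃ q, x ≤ q ∧ q < L - 1 ∧ q < x + a ∧ G.Adj (v q) (v (L - 1)) := by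
  intro x hx1 hx2
  by_cases hxa : L - 1 ≤ x + a
  · refine ⟨L - 2, by omega, by omega, by omega, ?_⟩
    have := h.adj (L - 2) (by omega)
    rwa [show L - 2 + 1 = L - 1 by omega] at this
  · by_contra hne
    push Not at hne
    let J := Finset.Ico (L - 1 - (m - 2)) x ∪ Finset.Ico (x + a) (L - 1)
    have hJ : J.card ≤ (x - (L - 1 - (m - 2))) + (L - 1 - (x + a)) := by
      refine (Finset.card_union_le _ _).trans ?_
      rw [Nat.card_Ico, Nat.card_Ico]
    have hsub : Se ⊆ (Se \ (range L).image v) ∪ J.image v := by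
      intro y hy
      by_cases hyU : y ∈ (range L).image v
      · rw [Finset.mem_image] at hyU
        obtain ⟨i, hi, rfl⟩ := hyU
        rw [Finset.mem_range] at hi
        have hadj := (hSe2 _ hy).symm
        refine Finset.mem_union_right _ (Finset.mem_image_of_mem v ?_)
        have hi1 : i ≠ L - 1 := by
          intro hh
          rw [hh] at hadj
          exact G.loopless.irrefl _ hadj
        have hi2 := hfar i hi hadj
        have hi3 : ¬ (x ≤ i ∧ i < x + a) := by
          rintro ⟨h1, h2⟩
          exact hne i h1 (by omega) h2 hadj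
        simp only [J, Finset.mem_union, Finset.mem_Ico]
        omega
      · exact Finset.mem_union_left _ (Finset.mem_sdiff.mpr ⟨hy, hyU⟩)
    have hc := Finset.card_le_card hsub
    have hc2 := Finset.card_union_le (Se \ (range L).image v) (J.image v)
    have hc3 : (J.image v).card ≤ J.card := Finset.card_image_le
    omega

/-- The last stage: no edges outside the path, and all neighbours of the end are close. -/
theorem stage_one [DecidableEq V] (hα : IndBd G a) (h : Inv0 G a m L v A B) (hL2 : 2 ≤ L)
    (Se : Finset V) (hSe1 : m - 1 ≤ Se.card) (hSe2 : ∀ y ∈ Se, G.Adj (v (L - 1)) y)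
    (hS : ∀ z ∈ Se \ (range L).image v, ∃ S : Finset V, S ⊆ (range L).image v ∧ a ≤ S.card ∧
      ∀ y ∈ S, G.Adj z y)
    (hfar : ∀ i, i < L → G.Adj (v i) (v (L - 1)) → L - 1 < i + (m - 1))
    (hfar2 : ∀ z ∈ Se \ (range L).image v, ∀ i, i < L → G.Adj z (v i) → L < i + (m - 1)) :
    ∃ g, CycF G m g := by
  classical
  let O := Se \ (range L).image v
  have hOdef : O = Se \ (range L).image v := rfl
  have hOU : ∀ z ∈ O, ∀ i, i < L → v i ≠ z := by
    intro z hz i hi hh
    rw [hOdef, Finset.mem_sdiff] at hz
    exact hz.2 (Finset.mem_image.mpr ⟨i, Finset.mem_range.mpr hi, hh⟩)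
  have hOadj : ∀ z ∈ O, G.Adj (v (L - 1)) z := by
    intro z hz
    rw [hOdef, Finset.mem_sdiff] at hz
    exact hSe2 z hz.1
  let P := (Finset.range L).filter
    (fun i => G.Adj (v i) (v (L - 1)) ∨ ∃ z ∈ O, G.Adj z (v i))
  have hPne : P.Nonempty := by
    refine ⟨L - 2, ?_⟩
    simp only [P, Finset.mem_filter, Finset.mem_range]
    refine ⟨by omega, Or.inl ?_⟩
    have := h.adj (L - 2) (by omega)
    rwa [show L - 2 + 1 = L - 1 by omega] at this
  let p := P.min' hPne
  have hpP : p ∈ P := Finset.min'_mem _ _
  simp only [P, Finset.mem_filter, Finset.mem_range] at hpP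
  obtain ⟨hpL, hpadj⟩ := hpP
  have hpmin : ∀ i, i < L → (G.Adj (v i) (v (L - 1)) ∨ ∃ z ∈ O, G.Adj z (v i)) → p ≤ i := by
    intro i hi hi2
    apply Finset.min'_le
    simp only [P, Finset.mem_filter, Finset.mem_range]
    exact ⟨hi, hi2⟩
  let R := (Finset.Ico p L).image v
  have hRmem : ∀ i, p ≤ i → i < L → v i ∈ R := fun i h1 h2 =>
    Finset.mem_image_of_mem v (Finset.mem_Ico.mpr ⟨h1, h2⟩)
  let X := R ∪ O
  have hX : m ≤ X.card := by
    have hp2 : p ≤ L - 1 := by omega
    have hsub : insert (v (L - 1)) Se ⊆ X := by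
      intro y hy
      rw [Finset.mem_insert] at hy
      rcases hy with rfl | hy
      · exact Finset.mem_union_left _ (hRmem _ hp2 (by omega))
      · by_cases hyU : y ∈ (range L).image v
        · rw [Finset.mem_image] at hyU
          obtain ⟨i, hi, rfl⟩ := hyU
          rw [Finset.mem_range] at hi
          exact Finset.mem_union_left _
            (hRmem i (hpmin i hi (Or.inl (hSe2 _ hy).symm)) hi)
        · exact Finset.mem_union_right _ (Finset.mem_sdiff.mpr ⟨hy, hyU⟩)
    have hc := Finset.card_le_card hsub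
    have hn : v (L - 1) ∉ Se := fun hh => G.loopless.irrefl _ (hSe2 _ hh)
    rw [Finset.card_insert_of_notMem hn] at hc
    omega
  have hcore : ∀ z, z ∈ X → z ∉ R → ∃ S : Finset V, S ⊆ R ∧ a ≤ S.card ∧ ∀ y ∈ S, G.Adj z y := by
    intro z hz hzR
    rw [Finset.mem_union] at hz
    have hzO : z ∈ O := by
      rcases hz with hz | hz
      · exact absurd hz hzR
      · exact hz
    obtain ⟨S, hS1, hS2, hS3⟩ := hS z hzO
    refine ⟨S, ?_, hS2, hS3⟩
    intro y hy
    have hyU := hS1 hy
    rw [Finset.mem_image] at hyU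
    obtain ⟨i, hi, rfl⟩ := hyU
    rw [Finset.mem_range] at hi
    exact hRmem i (hpmin i hi (Or.inr ⟨z, hzO, hS3 _ hy⟩)) hi
  rcases hpadj with hp1 | ⟨z₀, hz₀, hp1⟩
  · -- a cycle through the path alone
    have hpf := hfar p hpL hp1
    have hcyc : CycF G (L - p) (fun i => v (p + i)) := by
      refine ⟨⟨?_, ?_⟩, ?_⟩
      · intro x y hx hy hxy
        have := h.inj _ _ (by omega) (by omega) hxy
        omega
      · intro i hi
        exact h.adj (p + i) (by omega)
      · have h1 : p + (L - p - 1) = L - 1 := by omega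
        show G.Adj (v (p + (L - p - 1))) (v (p + 0))
        rw [h1]
        exact hp1.symm
    refine grow_cycle hα R X hcore hX (m - (L - p)) (L - p) _ (by omega) (by omega) hcyc ?_ ?_
    · intro y hy
      rw [Finset.mem_image] at hy
      obtain ⟨k, hk, rfl⟩ := hy
      rw [Finset.mem_Ico] at hk
      exact ⟨k - p, by omega, by show v (p + (k - p)) = v k; rw [show p + (k - p) = k by omega]⟩
    · intro i hi
      exact Finset.mem_union_left _ (hRmem _ (by omega) (by omega))
  · -- a cycle through the path and one extra vertex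
    have hpf := hfar2 z₀ hz₀ p hpL hp1
    have hne := hOU z₀ hz₀
    let g : ℕ → V := fun i => if i < L - p then v (p + i) else z₀
    have hg1 : ∀ i, i < L - p → g i = v (p + i) := fun i hi => by simp [g, hi]
    have hg2 : g (L - p) = z₀ := by simp [g]
    have hcyc : CycF G (L - p + 1) g := by
      refine ⟨⟨?_, ?_⟩, ?_⟩
      · intro x y hx hy hxy
        by_cases hx1 : x < L - p <;> by_cases hy1 : y < L - p
        · rw [hg1 x hx1, hg1 y hy1] at hxy
          have := h.inj _ _ (by omega) (by omega) hxy
          omega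
        · have : y = L - p := by omega
          subst this
          rw [hg1 x hx1, hg2] at hxy
          exact absurd hxy (hne _ (by omega))
        · have : x = L - p := by omega
          subst this
          rw [hg1 y hy1, hg2] at hxy
          exact absurd hxy.symm (hne _ (by omega))
        · omega
      · intro i hi
        by_cases hi1 : i + 1 < L - p
        · rw [hg1 i (by omega), hg1 (i + 1) hi1]
          exact h.adj (p + i) (by omega)
        · have h1 : i + 1 = L - p := by omega
          rw [hg1 i (by omega), h1, hg2]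
          have h2 : p + i = L - 1 := by omega
          rw [h2]
          exact hOadj z₀ hz₀
      · have h1 : L - p + 1 - 1 = L - p := by omega
        rw [h1, hg2, hg1 0 (by omega)]
        exact hp1
    refine grow_cycle hα R X hcore hX (m - (L - p + 1)) (L - p + 1) g (by omega) (by omega)
      hcyc ?_ ?_
    · intro y hy
      rw [Finset.mem_image] at hy
      obtain ⟨k, hk, rfl⟩ := hy
      rw [Finset.mem_Ico] at hk
      refine ⟨k - p, by omega, ?_⟩
      rw [hg1 _ (by omega), show p + (k - p) = k by omega]
    · intro i hi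
      by_cases hi1 : i < L - p
      · rw [hg1 i hi1]
        exact Finset.mem_union_left _ (hRmem _ (by omega) (by omega))
      · have : i = L - p := by omega
        subst this
        rw [hg2]
        exact Finset.mem_union_right _ hz₀

/-- One round of the construction: either a cycle, or a longer chain. -/
theorem process_step (hα : IndBd G a) (ha : 1 ≤ a) (hm : 4 * a + 1 ≤ m)
    (hδ : ∀ x, ∃ S : Finset V, m - 1 ≤ S.card ∧ ∀ y ∈ S, G.Adj x y)
    (h : Inv0 G a m L v A B) (hpre : 2 ≤ L → A (L - 2)) :
    (∃ g, CycF G m g) ∨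
      ∃ L' v' A' B', L < L' ∧ Inv0 G a m L' v' A' B' ∧ (2 ≤ L' → A' (L' - 2)) := by
  classical
  have hL := h.hL
  obtain ⟨Se, hSe1, hSe2⟩ := hδ (v (L - 1))
  by_cases hfar : ∃ i, i < L ∧ G.Adj (v i) (v (L - 1)) ∧ i + (m - 1) ≤ L - 1
  · obtain ⟨i, hi, hia, hi2⟩ := hfar
    exact Or.inl (closure_case h hα ha hm (by omega) hi2 hia.symm)
  have hfar' : ∀ i, i < L → G.Adj (v i) (v (L - 1)) → L - 1 < i + (m - 1) := by
    intro i hi hia
    by_contra hh
    exact hfar ⟨i, hi, hia, by omega⟩
  have hnotU : ∀ {y : V}, y ∉ (range L).image v → ∀ i, i < L → v i ≠ y := by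
    intro y hy i hi hh
    exact hy (Finset.mem_image.mpr ⟨i, Finset.mem_range.mpr hi, hh⟩)
  by_cases hO : a < (Se \ (range L).image v).card
  · obtain ⟨w, hw, w', hw', hww⟩ := hα _ hO
    rw [Finset.mem_sdiff] at hw hw'
    obtain ⟨v', hv', _⟩ := tstep h (hnotU hw.2) (hnotU hw'.2) hww (hSe2 _ hw.1) (hSe2 _ hw'.1)
    refine Or.inr ⟨L + 2, v', _, B, by omega, hv', ?_⟩
    intro _
    exact Or.inr (by omega)
  have hO' : (Se \ (range L).image v).card ≤ a := by omega
  have hL2 : 2 ≤ L := by
    by_contra hh
    have hL1 : L = 1 := by omega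
    subst hL1
    have hsub : Se ⊆ Se \ (range 1).image v := by
      intro y hy
      refine Finset.mem_sdiff.mpr ⟨hy, ?_⟩
      intro hyU
      rw [Finset.mem_image] at hyU
      obtain ⟨i, hi, rfl⟩ := hyU
      rw [Finset.mem_range] at hi
      have hi0 : i = 0 := by omega
      subst hi0
      exact G.loopless.irrefl _ (hSe2 _ hy)
    have := Finset.card_le_card hsub
    omega
  have hbare := bare_of_count h hL2 Se hSe1 hSe2 hO' hfar'
  -- vertices outside the path
  have hzU : ∀ z ∈ Se \ (range L).image v, ∀ i, i < L → v i ≠ z := by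
    intro z hz
    exact hnotU (Finset.mem_sdiff.mp hz).2
  have hzadj : ∀ z ∈ Se \ (range L).image v, G.Adj (v (L - 1)) z := by
    intro z hz
    exact hSe2 z (Finset.mem_sdiff.mp hz).1
  by_cases hz : ∃ z ∈ Se \ (range L).image v, ∃ Sz : Finset V, (∀ y ∈ Sz, G.Adj z y) ∧
      a < (Sz \ (range L).image v).card
  · obtain ⟨z, hz1, Sz, hSz, hSz2⟩ := hz
    obtain ⟨w, hw, w', hw', hww⟩ := hα _ hSz2
    rw [Finset.mem_sdiff] at hw hw'
    obtain ⟨v₁, hv₁, hv₁1, hv₁2⟩ := zstep h hpre (hzU z hz1) (hzadj z hz1) hbare
    have hwne : ∀ {y : V}, y ∉ (range L).image v → y ≠ z → ∀ i, i < L + 1 → v₁ i ≠ y := by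
      intro y hy hyz i hi
      by_cases hi1 : i < L
      · rw [hv₁1 i hi1]; exact hnotU hy i hi1
      · have : i = L := by omega
        subst this; rw [hv₁2]; exact hyz.symm
    have hzw : ∀ y, y ∈ Sz → y ≠ z := fun y hy hh => by
      have := hSz y hy
      rw [hh] at this
      exact G.loopless.irrefl _ this
    have hend : v₁ (L + 1 - 1) = z := by
      rw [show L + 1 - 1 = L by omega]; exact hv₁2
    obtain ⟨v₂, hv₂, _⟩ := tstep hv₁ (hwne hw.2 (hzw w hw.1)) (hwne hw'.2 (hzw w' hw'.1)) hww
      (by rw [hend]; exact hSz w hw.1) (by rw [hend]; exact hSz w' hw'.1)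
    refine Or.inr ⟨L + 1 + 2, v₂, _, _, by omega, hv₂, ?_⟩
    intro _
    exact Or.inr (by omega)
  have hz' : ∀ z ∈ Se \ (range L).image v, ∃ S : Finset V, S ⊆ (range L).image v ∧ a ≤ S.card ∧
      ∀ y ∈ S, G.Adj z y := by
    intro z hz1
    obtain ⟨Sz, hSz1, hSz2⟩ := hδ z
    have hsmall : (Sz \ (range L).image v).card ≤ a := by
      by_contra hh
      exact hz ⟨z, hz1, Sz, hSz2, by omega⟩
    refine ⟨Sz ∩ (range L).image v, Finset.inter_subset_right, ?_, fun y hy => hSz2 y
      (Finset.mem_inter.mp hy).1⟩
    have hc := Finset.card_sdiff_add_card_inter Sz ((range L).image v)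
    omega
  by_cases hfar2 : ∃ z ∈ Se \ (range L).image v, ∃ i, i < L ∧ G.Adj z (v i) ∧ i + (m - 1) ≤ L
  · obtain ⟨z, hz1, i, hi, hia, hi2⟩ := hfar2
    obtain ⟨v₁, hv₁, hv₁1, hv₁2⟩ := zstep h hpre (hzU z hz1) (hzadj z hz1) hbare
    refine Or.inl (closure_case hv₁ hα ha hm (E := L) (s₀ := i) rfl hi2 ?_)
    rw [hv₁2, hv₁1 i hi]
    exact hia
  have hfar2' : ∀ z ∈ Se \ (range L).image v, ∀ i, i < L → G.Adj z (v i) → L < i + (m - 1) := by
    intro z hz1 i hi hia
    by_contra hh
    exact hfar2 ⟨z, hz1, i, hi, hia, by omega⟩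
  exact Or.inl (stage_one hα h hL2 Se hSe1 hSe2 hz' hfar' hfar2')

end steps

/-- The theorem for graphs of large minimum degree. -/
theorem min_deg_cycle [Fintype V] {a m : ℕ} (hα : IndBd G a) (ha : 1 ≤ a) (hm : 4 * a + 1 ≤ m)
    (hδ : ∀ x, ∃ S : Finset V, m - 1 ≤ S.card ∧ ∀ y ∈ S, G.Adj x y) (x₀ : V) :
    ∃ g, CycF G m g := by
  classical
  have key : ∀ (d L : ℕ) (v : ℕ → V) (A B : ℕ → Prop), Fintype.card V < L + d →
      Inv0 G a m L v A B → (2 ≤ L → A (L - 2)) → ∃ g, CycF G m g := by
    intro d
    induction d with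
    | zero =>
      intro L v A B hc h _
      exfalso
      have h1 : ((Finset.range L).image v).card = L := by
        rw [Finset.card_image_of_injOn, Finset.card_range]
        intro x hx y hy hxy
        simp only [Finset.coe_range, Set.mem_Iio] at hx hy
        exact h.inj x y hx hy hxy
      have h2 := Finset.card_le_univ ((Finset.range L).image v)
      omega
    | succ d ih =>
      intro L v A B hc h hp
      rcases process_step hα ha hm hδ h hp with h1 | ⟨L', v', A', B', hL', h', hp'⟩
      · exact h1
      · exact ih L' v' A' B' (by omega) h' hp'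
  refine key (Fintype.card V) 1 (fun _ => x₀) (fun _ => False) (fun _ => False) (by omega) ?_
    (by omega)
  refine ⟨le_refl _, ?_, ?_, ?_, ?_, ?_, ?_, ?_, ?_⟩
  · intro i j hi hj _; omega
  · intro i hi; omega
  · intro k hk; exact hk.elim
  · intro k hk; exact hk.elim
  · intro k hk; exact hk.elim
  · intro i hi; omega
  · intro i hi; exact hi.elim
  · intro i hi; exact hi.elim

/-- Restricting to an induced subgraph. -/
theorem order_cycle.{u} : ∀ (a : ℕ) (V : Type u) [Fintype V] (G : SimpleGraph V) (m : ℕ),
    IndBd G a → 4 * a + 1 ≤ m → (m - 1) * a + 1 ≤ Fintype.card V → ∃ g, CycF G m g := by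
  intro a
  induction a with
  | zero =>
    intro V _ G m hα _ hc
    exfalso
    have hcard : 0 < Fintype.card V := by omega
    obtain ⟨x⟩ := Fintype.card_pos_iff.mp hcard
    obtain ⟨y, hy, z, hz, hyz⟩ := hα {x} (by simp)
    rw [Finset.mem_singleton] at hy hz
    rw [hy, hz] at hyz
    exact G.loopless.irrefl _ hyz
  | succ a ih =>
    intro V _ G m hα hm hc
    classical
    by_cases hδ : ∀ x, ∃ S : Finset V, m - 1 ≤ S.card ∧ ∀ y ∈ S, G.Adj x y
    · have hcard : 0 < Fintype.card V := by omega
      obtain ⟨x⟩ := Fintype.card_pos_iff.mp hcard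
      exact min_deg_cycle hα (by omega) hm hδ x
    · push Not at hδ
      obtain ⟨x, hx⟩ := hδ
      let N := Finset.univ.filter (fun y => G.Adj x y)
      have hN : N.card < m - 1 := by
        by_contra hh
        obtain ⟨y, hy, hy2⟩ := hx N (by omega)
        exact hy2 (by simpa [N] using hy)
      let W := {y : V // y ≠ x ∧ ¬ G.Adj x y}
      let G' : SimpleGraph W := G.comap Subtype.val
      have hcW : (m - 1) * a + 1 ≤ Fintype.card W := by
        have h1 : Fintype.card W = (Finset.univ.filter (fun y => y ≠ x ∧ ¬ G.Adj x y)).card :=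
          Fintype.card_subtype _
        have h2 : (Finset.univ : Finset V) ⊆
            (Finset.univ.filter (fun y => y ≠ x ∧ ¬ G.Adj x y)) ∪ insert x N := by
          intro y _
          by_cases hy1 : y = x
          · simp [hy1]
          · by_cases hy2 : G.Adj x y
            · simp [N, hy2]
            · simp [hy1, hy2]
        have h3 := Finset.card_le_card h2
        have h4 := Finset.card_union_le (Finset.univ.filter (fun y => y ≠ x ∧ ¬ G.Adj x y))
          (insert x N)
        have h5 : (insert x N).card ≤ N.card + 1 := Finset.card_insert_le _ _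
        rw [Finset.card_univ] at h3
        have h6 : (m - 1) * (a + 1) = (m - 1) * a + (m - 1) := by ring
        omega
      have hαW : IndBd G' a := by
        intro s hs
        let s' : Finset V := insert x (s.map (Function.Embedding.subtype _))
        have hxs : x ∉ s.map (Function.Embedding.subtype _) := by
          intro hh
          rw [Finset.mem_map] at hh
          obtain ⟨y, _, hy⟩ := hh
          exact y.2.1 hy
        have hcard : a + 1 < s'.card := by
          rw [Finset.card_insert_of_notMem hxs, Finset.card_map]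
          omega
        obtain ⟨y, hy, z, hz, hyz⟩ := hα s' hcard
        rw [Finset.mem_insert] at hy hz
        rcases hy with rfl | hy
        · rcases hz with rfl | hz
          · exact absurd hyz (G.loopless.irrefl _)
          · rw [Finset.mem_map] at hz
            obtain ⟨z', _, rfl⟩ := hz
            exact absurd hyz z'.2.2
        · rcases hz with rfl | hz
          · rw [Finset.mem_map] at hy
            obtain ⟨y', _, rfl⟩ := hy
            exact absurd hyz.symm y'.2.2
          · rw [Finset.mem_map] at hy hz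
            obtain ⟨y', hy', rfl⟩ := hy
            obtain ⟨z', hz', rfl⟩ := hz
            exact ⟨y', hy', z', hz', hyz⟩
      obtain ⟨g, hg⟩ := ih W G' m hαW (by omega) hcW
      refine ⟨fun i => (g i).1, ⟨?_, ?_⟩, ?_⟩
      · intro i j hi hj hij
        exact hg.inj i j hi hj (Subtype.ext hij)
      · intro i hi
        exact hg.adj i hi
      · exact hg.close

/-- The final form: a graph on `(m-1)(n-1)+1` vertices without an independent set of size `n`
has a cycle of length exactly `m`, as soon as `m ≥ 4n-3`. -/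
theorem cycle_or_indep {V : Type*} [Fintype V] (G : SimpleGraph V) (m n : ℕ) (hn : 2 ≤ n)
    (hm : 4 * n - 3 ≤ m) (hV : (m - 1) * (n - 1) + 1 ≤ Fintype.card V) :
    (∃ (v : V) (c : G.Walk v v), c.IsCycle ∧ c.length = m) ∨
      ∃ s : Finset V, G.IsIndepSet (s : Set V) ∧ s.card = n := by
  classical
  by_cases hs : ∃ s : Finset V, G.IsIndepSet (s : Set V) ∧ s.card = n
  · exact Or.inr hs
  · left
    have hα : IndBd G (n - 1) := by
      intro s hsc
      obtain ⟨t, hts, htc⟩ := Finset.exists_subset_card_eq (show n ≤ s.card by omega)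
      by_contra hne
      push Not at hne
      apply hs
      refine ⟨t, ?_, htc⟩
      intro x hx y hy _
      exact hne x (hts hx) y (hts hy)
    obtain ⟨g, hg⟩ := order_cycle (n - 1) V G m hα (by omega) hV
    exact exists_isCycle_of_cycF hg (by omega)

end Vale.Agent.Lib.P048
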