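import Vale.Agent.Lib.P048.Cyc

namespace Vale.Agent.Lib.P048

open Finset

variable {V : Type*} {G : SimpleGraph V}

/-- Closing a path to a cycle. -/
theorem cycF_of_pathF {t : ℕ} {f : ℕ → V} (h : PathF G t f) (hc : G.Adj (f (t - 1)) (f 0)) :
    CycF G t f := ⟨h, hc⟩

/-- A long path has a shortcut between two vertices at even positions. -/
theorem exists_chord {a q : ℕ} {h : ℕ → V} (hα : IndBd G a) (hp : PathF G q h)
    (hq : 2 * a + 1 ≤ q) :
    ∃ i j, i < j ∧ j ≤ a ∧ G.Adj (h (2 * i)) (h (2 * j)) := by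
  classical
  let φ : ℕ → V := fun i => h (2 * i)
  have hinj : Set.InjOn φ (Finset.range (a + 1) : Set ℕ) := by
    intro x hx y hy hxy
    simp only [Finset.coe_range, Set.mem_Iio] at hx hy
    have := hp.inj (2 * x) (2 * y) (by omega) (by omega) hxy
    omega
  have hcard : a < ((Finset.range (a + 1)).image φ).card := by
    rw [Finset.card_image_of_injOn hinj, Finset.card_range]
    omega
  obtain ⟨x, hx, y, hy, hxy⟩ := hα _ hcard
  rw [Finset.mem_image] at hx hy
  obtain ⟨i, hi, rfl⟩ := hx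
  obtain ⟨j, hj, rfl⟩ := hy
  rw [Finset.mem_range] at hi hj
  rcases lt_trichotomy i j with h1 | h1 | h1
  · exact ⟨i, j, h1, by omega, hxy⟩
  · subst h1; exact absurd hxy (G.loopless.irrefl _)
  · exact ⟨j, i, h1, by omega, hxy.symm⟩

/-- Shortening a path by a chord, keeping its two ends. -/
theorem exists_shortcut {a q : ℕ} {h : ℕ → V} (hα : IndBd G a) (hp : PathF G q h)
    (hq : 2 * a + 1 ≤ q) :
    ∃ r h', 1 ≤ r ∧ r + 1 ≤ 2 * a ∧ r < q ∧ PathF G (q - r) h' ∧ h' 0 = h 0 ∧
      h' (q - r - 1) = h (q - 1) ∧ ∀ i, i < q - r → ∃ j, j < q ∧ h' i = h j := by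
  obtain ⟨i, j, hij, hja, hadj⟩ := exists_chord hα hp hq
  let r := 2 * j - 2 * i - 1
  let h' : ℕ → V := fun k => if k ≤ 2 * i then h k else h (k + r)
  have hr : r = 2 * j - 2 * i - 1 := rfl
  have h1 : ∀ k, k ≤ 2 * i → h' k = h k := fun k hk => by simp [h', hk]
  have h2 : ∀ k, 2 * i < k → h' k = h (k + r) := fun k hk => by
    have : ¬ k ≤ 2 * i := by omega
    simp [h', this]
  refine ⟨r, h', by omega, by omega, by omega, ⟨?_, ?_⟩, ?_, ?_, ?_⟩
  · intro x y hx hy hxy
    by_cases hx1 : x ≤ 2 * i <;> by_cases hy1 : y ≤ 2 * i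
    · rw [h1 x hx1, h1 y hy1] at hxy
      exact hp.inj _ _ (by omega) (by omega) hxy
    · rw [h1 x hx1, h2 y (by omega)] at hxy
      have := hp.inj _ _ (by omega) (by omega) hxy
      omega
    · rw [h2 x (by omega), h1 y hy1] at hxy
      have := hp.inj _ _ (by omega) (by omega) hxy
      omega
    · rw [h2 x (by omega), h2 y (by omega)] at hxy
      have := hp.inj _ _ (by omega) (by omega) hxy
      omega
  · intro k hk
    by_cases hk1 : k + 1 ≤ 2 * i
    · rw [h1 k (by omega), h1 (k + 1) hk1]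
      exact hp.adj k (by omega)
    · by_cases hk2 : k = 2 * i
      · subst hk2
        rw [h1 _ (le_refl _), h2 _ (by omega)]
        have : 2 * i + 1 + r = 2 * j := by omega
        rw [this]
        exact hadj
      · rw [h2 k (by omega), h2 (k + 1) (by omega)]
        have := hp.adj (k + r) (by omega)
        rwa [show k + r + 1 = k + 1 + r by omega] at this
  · exact h1 0 (by omega)
  · rw [h2 _ (by omega)]
    congr 1
    omega
  · intro k hk
    by_cases hk1 : k ≤ 2 * i
    · exact ⟨k, by omega, h1 k hk1⟩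
    · exact ⟨k + r, by omega, h2 k (by omega)⟩

/-- The reduction: a flexible piece `K` together with a path `h` outside `K` gives all
cycle lengths between `t₀ + 2 a` and `t₁ + q`. -/
theorem reduce_cycle {a t₀ t₁ : ℕ} {k₁ k₂ : V} {K : V → Prop} (hα : IndBd G a)
    (ht0 : 1 ≤ t₀) (ht : t₀ + (2 * a - 2) ≤ t₁) (ha : 1 ≤ a)
    (hK : ∀ t, t₀ ≤ t → t ≤ t₁ → ∃ f, PathF G t f ∧ f 0 = k₁ ∧ f (t - 1) = k₂ ∧
      ∀ i, i < t → K (f i)) :
    ∀ (q : ℕ) (h : ℕ → V), 1 ≤ q → PathF G q h → (∀ i, i < q → ¬ K (h i)) →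
      G.Adj k₂ (h 0) → G.Adj (h (q - 1)) k₁ →
      ∀ ℓ, t₀ + 2 * a ≤ ℓ → ℓ ≤ t₁ + q → ∃ g, CycF G ℓ g := by
  intro q
  induction q using Nat.strong_induction_on with
  | _ q ih =>
    intro h hq hp hnK h0 h1 ℓ hℓ1 hℓ2
    by_cases hcase : t₀ + q ≤ ℓ
    · -- no shortening needed
      obtain ⟨f, hf, hf0, hf1, hfK⟩ := hK (ℓ - q) (by omega) (by omega)
      have hcat := PathF.concat hf hp
        (fun i j hi hj hij => hnK j hj (hij ▸ hfK i hi)) (by omega)
        (fun _ => by rw [hf1]; exact h0)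
      have hsum : ℓ - q + q = ℓ := by omega
      rw [hsum] at hcat
      refine ⟨_, cycF_of_pathF hcat ?_⟩
      have h2 : ¬ ℓ - 1 < ℓ - q := by omega
      have h3 : 0 < ℓ - q := by omega
      simp only [h2, if_false, h3, if_true]
      have h4 : ℓ - 1 - (ℓ - q) = q - 1 := by omega
      rw [h4, hf0]
      exact h1
    · -- shorten the path first
      obtain ⟨r, h', hr1, hr2, hr3, hp', h'0, h'1, h'in⟩ := exists_shortcut hα hp (by omega)
      refine ih (q - r) (by omega) h' (by omega) hp' ?_ ?_ ?_ ℓ hℓ1 (by omega)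
      · intro i hi
        obtain ⟨j, hj, hij⟩ := h'in i hi
        rw [hij]
        exact hnK j hj
      · rw [h'0]; exact h0
      · rw [h'1]; exact h1

/-- Growing a cycle inside a set `X`. -/
theorem grow_cycle {a m : ℕ} (hα : IndBd G a) [DecidableEq V] (R X : Finset V)
    (hcore : ∀ z, z ∈ X → z ∉ R → ∃ S : Finset V, S ⊆ R ∧ a ≤ S.card ∧ ∀ y ∈ S, G.Adj z y)
    (hX : m ≤ X.card) :
    ∀ (d n : ℕ) (g : ℕ → V), n + d = m → 1 ≤ n → CycF G n g →
      (∀ y ∈ R, ∃ i, i < n ∧ g i = y) → (∀ i, i < n → g i ∈ X) →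
      ∃ g', CycF G m g' := by
  classical
  intro d
  induction d with
  | zero =>
    intro n g hn _ hc _ _
    have : n = m := by omega
    subst this
    exact ⟨g, hc⟩
  | succ d ih =>
    intro n g hn hn1 hc hR hXg
    -- find a new vertex
    have himg : ((Finset.range n).image g).card = n := by
      rw [Finset.card_image_of_injOn, Finset.card_range]
      intro x hx y hy hxy
      simp only [Finset.coe_range, Set.mem_Iio] at hx hy
      exact hc.inj x y hx hy hxy
    have hlt : ((Finset.range n).image g).card < X.card := by omega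
    obtain ⟨z, hzX, hzimg⟩ := Finset.exists_mem_notMem_of_card_lt_card hlt
    have hzg : ∀ i, i < n → g i ≠ z := by
      intro i hi hiz
      apply hzimg
      rw [Finset.mem_image]
      exact ⟨i, Finset.mem_range.mpr hi, hiz⟩
    have hzR : z ∉ R := by
      intro hz
      obtain ⟨i, hi, hiz⟩ := hR z hz
      exact hzg i hi hiz
    obtain ⟨S, hSR, hScard, hSadj⟩ := hcore z hzX hzR
    -- indices of the neighbours
    have hSidx : ∀ y ∈ S, ∃ i, i < n ∧ g i = y := fun y hy => hR y (hSR hy)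
    choose! idx hidx1 hidx2 using hSidx
    have hinj : Set.InjOn idx (S : Set V) := by
      intro x hx y hy hxy
      have h1 := hidx2 x hx
      have h2 := hidx2 y hy
      rw [← h1, ← h2, hxy]
    obtain ⟨g', hc', h1, h2, h3⟩ := cyc_extend hα hc hn1 hzg (S.image idx)
      (by
        intro i hi
        rw [Finset.mem_image] at hi
        obtain ⟨y, hy, rfl⟩ := hi
        exact hidx1 y hy)
      (by
        intro i hi
        rw [Finset.mem_image] at hi
        obtain ⟨y, hy, rfl⟩ := hi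
        rw [hidx2 y hy]
        exact hSadj y hy)
      (by rw [Finset.card_image_of_injOn hinj]; exact hScard)
    refine ih (n + 1) g' (by omega) (by omega) hc' ?_ ?_
    · intro y hy
      obtain ⟨j, hj, hjy⟩ := hR y hy
      obtain ⟨i, hi, hij⟩ := h2 j hj
      exact ⟨i, hi, by rw [hij, hjy]⟩
    · intro i hi
      rcases h1 i hi with h | ⟨j, hj, hjy⟩
      · rw [h]; exact hzX
      · rw [hjy]; exact hXg j hj

end Vale.Agent.Lib.P048
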